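import Vale.Agent.Lib.P100.Basic

/-!
Pointwise algebra of the certificate: finite sums over `Fin n`, the expansion of the two
squares and the scalar identity behind the Bochner certificate.
-/

namespace Vale.Agent.Lib.P100

variable {n : ℕ}

/-- Dot product. -/
noncomputable def dot (X Y : Fin n → ℝ) : ℝ := ∑ i, X i * Y i

/-- Trace. -/
noncomputable def trc (M : Fin n → Fin n → ℝ) : ℝ := ∑ i, M i i

/-- Squared Frobenius norm. -/
noncomputable def frob (M : Fin n → Fin n → ℝ) : ℝ := ∑ i, ∑ j, M i j ^ 2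

/-- Bilinear form `Xᵀ M Y`. -/
noncomputable def bil (M : Fin n → Fin n → ℝ) (X Y : Fin n → ℝ) : ℝ :=
  ∑ i, ∑ j, X i * M i j * Y j

/-- An entry of `M + c1 X⊗X + c2 X⊙Y + c3 I`. -/
noncomputable def entS (M : Fin n → Fin n → ℝ) (X Y : Fin n → ℝ) (c1 c2 c3 : ℝ) (i j : Fin n) : ℝ :=
  M i j + c1 * (X i * X j) + c2 * ((X i * Y j + X j * Y i) / 2) + (if i = j then c3 else 0)

/-- The squared norm of `M + c1 X⊗X + c2 X⊙Y + c3 I`. -/
noncomputable def sqS (M : Fin n → Fin n → ℝ) (X Y : Fin n → ℝ) (c1 c2 c3 : ℝ) : ℝ :=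
  ∑ i, ∑ j, entS M X Y c1 c2 c3 i j ^ 2

lemma sqS_nonneg (M : Fin n → Fin n → ℝ) (X Y : Fin n → ℝ) (c1 c2 c3 : ℝ) :
    0 ≤ sqS M X Y c1 c2 c3 :=
  Finset.sum_nonneg fun _ _ => Finset.sum_nonneg fun _ _ => sq_nonneg _

lemma sum_sum_split (f g : Fin n → ℝ) : ∑ i, ∑ j, f i * g j = (∑ i, f i) * ∑ j, g j := by
  rw [Finset.sum_mul_sum]

lemma dot_comm (X Y : Fin n → ℝ) : dot X Y = dot Y X := by
  simp only [dot]
  exact Finset.sum_congr rfl fun i _ => mul_comm _ _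

lemma bil_comm {M : Fin n → Fin n → ℝ} (hM : ∀ i j, M i j = M j i) (X Y : Fin n → ℝ) :
    bil M X Y = bil M Y X := by
  simp only [bil]
  rw [Finset.sum_comm]
  refine Finset.sum_congr rfl fun i _ => Finset.sum_congr rfl fun j _ => ?_
  rw [hM j i]
  ring

lemma sum_ite_diag (f : Fin n → ℝ) : ∑ i, ∑ j, (if i = j then f i else 0) = ∑ i, f i := by
  refine Finset.sum_congr rfl fun i _ => ?_
  simp

lemma sqS_expand {M : Fin n → Fin n → ℝ} (hM : ∀ i j, M i j = M j i) (X Y : Fin n → ℝ)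
    (c1 c2 c3 : ℝ) :
    sqS M X Y c1 c2 c3 =
      frob M + 2 * c1 * bil M X X + 2 * c2 * bil M X Y + 2 * c3 * trc M
        + c1 ^ 2 * dot X X ^ 2 + c2 ^ 2 * (dot X X * dot Y Y + dot X Y ^ 2) / 2 + n * c3 ^ 2
        + 2 * c1 * c2 * (dot X X * dot X Y) + 2 * c1 * c3 * dot X X + 2 * c2 * c3 * dot X Y := by
  classical
  have hterm : ∀ i j, entS M X Y c1 c2 c3 i j ^ 2 =
      M i j ^ 2 + 2 * c1 * (X i * M i j * X j)
      + c2 * (X i * M i j * Y j) + c2 * (Y i * M i j * X j)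
      + 2 * c3 * (if i = j then M i i else 0)
      + c1 ^ 2 * ((X i * X i) * (X j * X j))
      + c2 ^ 2 / 4 * ((X i * X i) * (Y j * Y j))
      + c2 ^ 2 / 4 * ((Y i * Y i) * (X j * X j))
      + c2 ^ 2 / 2 * ((X i * Y i) * (X j * Y j))
      + (if i = j then c3 ^ 2 else 0)
      + c1 * c2 * ((X i * X i) * (X j * Y j))
      + c1 * c2 * ((X i * Y i) * (X j * X j))
      + 2 * c1 * c3 * (if i = j then X i * X i else 0)
      + 2 * c2 * c3 * (if i = j then X i * Y i else 0) := by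
    intro i j
    by_cases h : i = j
    · subst h
      simp only [entS, if_true]
      ring
    · simp only [entS, if_neg h]
      ring
  have e1 : ∑ i, ∑ j : Fin n, (if i = j then c3 ^ 2 else 0) = n * c3 ^ 2 := by
    rw [sum_ite_diag (fun _ => c3 ^ 2)]
    simp
  have e2 := sum_ite_diag (fun i => M i i)
  have e3 := sum_ite_diag (fun i => X i * X i)
  have e4 := sum_ite_diag (fun i => X i * Y i)
  have hb : bil M Y X = bil M X Y := bil_comm hM Y X
  simp only [sqS, hterm, Finset.sum_add_distrib, ← Finset.mul_sum, ← Finset.sum_mul]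
  rw [e1, e2, e3, e4]
  simp only [dot, trc, frob, bil] at hb ⊢
  rw [hb]
  ring

/-- The scalar form of the certificate integrand, in terms of the invariants. -/
noncomputable def Qdiv (a b p q τ A5 A6 A9 A10 c11 c14 : ℝ)
    (fM fN mxx mxy nxy nyy tM tN x y z W1 W2 : ℝ) : ℝ :=
  a * mxx + b * mxy - tM * (a * x + b * y) + fM - tM ^ 2
    + τ * (a * nxy + b * nyy - tN * (a * y + b * z) + fN - tN ^ 2)
    - A5 * ((a * x + b * y) * x + 2 * mxx + x * tM)
    - A6 * ((a * y + b * z) * x + 2 * mxy + x * tN)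
    - τ * A9 * ((a * x + b * y) * z + 2 * nxy + z * tM)
    - τ * A10 * ((a * y + b * z) * z + 2 * nyy + z * tN)
    - c11 * ((a * x + b * y) * W1 + (p * y - x) * W1 + W1 * tM)
    - c14 * ((a * y + b * z) * W2 + (q * y - z) * W2 + W2 * tN)

/-- The remainder of the certificate (everything but the two squares). -/
noncomputable def restF (N a b p q τ A5 A6 A9 A10 s1 s2 W1 W2 x y z : ℝ) : ℝ :=
  let K := 1 - 1 / N
  let d := 1 + 2 / N
  let r1 := (a - 2) / 2 - A5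
  let r2 := b / 2 - A6
  let r3 := a / 2 - A9
  let r4 := (b - 2) / 2 - A10
  s1 * W1 ^ 2 + s2 * W2 ^ 2
    + W1 * (d * A5 * x + (2 / N * A6 - K * p) * y + τ * A9 * z - s1 * ((a - 2) * x + (b + p) * y))
    + W2 * (A6 * x + τ * (2 / N * A9 - K * q) * y + τ * d * A10 * z - s2 * ((a + q) * y + (b - 2) * z))
    + (A5 * (3 - a) - K * r1 ^ 2) * x ^ 2
    + (-A5 * b + A6 * (2 - a) - 2 * K * r1 * r2) * (x * y)
    + (A6 * (1 - b) - r2 ^ 2 / 2 + τ * (A9 * (1 - a) - r3 ^ 2 / 2)) * (x * z)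
    + (-(r2 ^ 2 + τ * r3 ^ 2) * (1 / 2 - 1 / N)) * y ^ 2
    + τ * (A9 * (2 - b) - A10 * a - 2 * K * r3 * r4) * (y * z)
    + τ * (A10 * (3 - b) - K * r4 ^ 2) * z ^ 2

/-- The scalar identity: the certificate integrand is two squares plus the remainder. -/
lemma Qdiv_eq (N : ℝ) (hN : N ≠ 0) (a b p q τ A5 A6 A9 A10 s1 s2 : ℝ)
    (fM fN mxx mxy nxy nyy x y z W1 W2 : ℝ) :
    let K := 1 - 1 / N
    let r1 := (a - 2) / 2 - A5
    let r2 := b / 2 - A6
    let r3 := a / 2 - A9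
    let r4 := (b - 2) / 2 - A10
    let tM := -x - W1
    let tN := -z - W2
    let c1 := 1 + r1
    let c3 := (W1 - r1 * x - r2 * y) / N
    let c1' := 1 + r4
    let c3' := (W2 - r3 * y - r4 * z) / N
    Qdiv a b p q τ A5 A6 A9 A10 (K + s1) (τ * K + s2) fM fN mxx mxy nxy nyy tM tN x y z W1 W2 =
      (fM + 2 * c1 * mxx + 2 * r2 * mxy + 2 * c3 * tM
        + c1 ^ 2 * x ^ 2 + r2 ^ 2 * (x * z + y ^ 2) / 2 + N * c3 ^ 2
        + 2 * c1 * r2 * (x * y) + 2 * c1 * c3 * x + 2 * r2 * c3 * y)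
      + τ * (fN + 2 * c1' * nyy + 2 * r3 * nxy + 2 * c3' * tN
        + c1' ^ 2 * z ^ 2 + r3 ^ 2 * (z * x + y ^ 2) / 2 + N * c3' ^ 2
        + 2 * c1' * r3 * (z * y) + 2 * c1' * c3' * z + 2 * r3 * c3' * y)
      + restF N a b p q τ A5 A6 A9 A10 s1 s2 W1 W2 x y z := by
  intro K r1 r2 r3 r4 tM tN c1 c3 c1' c3'
  simp only [Qdiv, restF, K, r1, r2, r3, r4, tM, tN, c1, c3, c1', c3']
  field_simp
  ring

end Vale.Agent.Lib.P100
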