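import Mathlib

/-!
Basic calculus for the Lane-Emden Liouville certificate: partial derivatives, Laplacian and
divergence on `Fin n → ℝ`.
-/

open scoped ContDiff

namespace Vale.Agent.Lib.P100

variable {n : ℕ}

/-- The `i`-th partial derivative of `f` at `x`. -/
noncomputable def pd (i : Fin n) (f : (Fin n → ℝ) → ℝ) (x : Fin n → ℝ) : ℝ :=
  fderiv ℝ f x (Pi.single i 1)

/-- The Laplacian of `f` at `x`. -/
noncomputable def lap (f : (Fin n → ℝ) → ℝ) (x : Fin n → ℝ) : ℝ :=
  ∑ i, pd i (pd i f) x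

/-- The divergence of the vector field `F` at `x`. -/
noncomputable def dv (F : Fin n → (Fin n → ℝ) → ℝ) (x : Fin n → ℝ) : ℝ :=
  ∑ i, pd i (F i) x

lemma contDiff_pd_two {f : (Fin n → ℝ) → ℝ} (hf : ContDiff ℝ 3 f) (i : Fin n) :
    ContDiff ℝ 2 (pd i f) := by
  have h : ContDiff ℝ 2 (fderiv ℝ f) := hf.fderiv_right (by norm_num)
  exact h.clm_apply contDiff_const

lemma contDiff_pd_one {f : (Fin n → ℝ) → ℝ} (hf : ContDiff ℝ 2 f) (i : Fin n) :
    ContDiff ℝ 1 (pd i f) := by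
  have h : ContDiff ℝ 1 (fderiv ℝ f) := hf.fderiv_right (by norm_num)
  exact h.clm_apply contDiff_const

lemma continuous_pd {f : (Fin n → ℝ) → ℝ} (hf : ContDiff ℝ 1 f) (i : Fin n) :
    Continuous (pd i f) := by
  have h : Continuous (fderiv ℝ f) := hf.continuous_fderiv (by norm_num)
  exact h.clm_apply continuous_const

lemma pd_add {f g : (Fin n → ℝ) → ℝ} {x : Fin n → ℝ} (hf : DifferentiableAt ℝ f x)
    (hg : DifferentiableAt ℝ g x) (i : Fin n) :
    pd i (fun y => f y + g y) x = pd i f x + pd i g x := by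
  simp only [pd]
  have := (hf.hasFDerivAt.add hg.hasFDerivAt).fderiv
  rw [show (fun y => f y + g y) = f + g from rfl, this]
  rfl

lemma pd_sub {f g : (Fin n → ℝ) → ℝ} {x : Fin n → ℝ} (hf : DifferentiableAt ℝ f x)
    (hg : DifferentiableAt ℝ g x) (i : Fin n) :
    pd i (fun y => f y - g y) x = pd i f x - pd i g x := by
  simp only [pd]
  have := (hf.hasFDerivAt.sub hg.hasFDerivAt).fderiv
  rw [show (fun y => f y - g y) = f - g from rfl, this]
  rfl

lemma pd_mul {f g : (Fin n → ℝ) → ℝ} {x : Fin n → ℝ} (hf : DifferentiableAt ℝ f x)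
    (hg : DifferentiableAt ℝ g x) (i : Fin n) :
    pd i (fun y => f y * g y) x = pd i f x * g x + f x * pd i g x := by
  simp only [pd]
  have := (hf.hasFDerivAt.mul hg.hasFDerivAt).fderiv
  rw [show (fun y => f y * g y) = f * g from rfl, this]
  simp [mul_comm, add_comm]

lemma pd_const (c : ℝ) (x : Fin n → ℝ) (i : Fin n) : pd i (fun _ => c) x = 0 := by
  simp [pd]

lemma pd_const_mul (c : ℝ) {f : (Fin n → ℝ) → ℝ} {x : Fin n → ℝ} (hf : DifferentiableAt ℝ f x)
    (i : Fin n) : pd i (fun y => c * f y) x = c * pd i f x := by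
  rw [pd_mul (differentiableAt_const c) hf, pd_const]
  ring

lemma pd_sum {ι : Type*} (s : Finset ι) {f : ι → (Fin n → ℝ) → ℝ} {x : Fin n → ℝ}
    (hf : ∀ k ∈ s, DifferentiableAt ℝ (f k) x) (i : Fin n) :
    pd i (fun y => ∑ k ∈ s, f k y) x = ∑ k ∈ s, pd i (f k) x := by
  simp only [pd]
  have h := HasFDerivAt.fun_sum (fun k hk => (hf k hk).hasFDerivAt)
  rw [h.fderiv]
  simp

lemma pd_comp {g : ℝ → ℝ} {f : (Fin n → ℝ) → ℝ} {x : Fin n → ℝ}
    (hg : DifferentiableAt ℝ g (f x)) (hf : DifferentiableAt ℝ f x) (i : Fin n) :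
    pd i (fun y => g (f y)) x = deriv g (f x) * pd i f x := by
  simp only [pd]
  have := (hg.hasDerivAt.comp_hasFDerivAt x hf.hasFDerivAt).fderiv
  rw [show (fun y => g (f y)) = g ∘ f from rfl, this]
  simp

lemma pd_exp {f : (Fin n → ℝ) → ℝ} {x : Fin n → ℝ} (hf : DifferentiableAt ℝ f x) (i : Fin n) :
    pd i (fun y => Real.exp (f y)) x = Real.exp (f x) * pd i f x := by
  rw [pd_comp Real.differentiableAt_exp hf, Real.deriv_exp]

lemma pd_comm {f : (Fin n → ℝ) → ℝ} (hf : ContDiff ℝ 2 f) (x : Fin n → ℝ) (i j : Fin n) :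
    pd i (pd j f) x = pd j (pd i f) x := by
  have hfa : ContDiffAt ℝ 2 f x := hf.contDiffAt
  have hsymm : IsSymmSndFDerivAt ℝ f x :=
    hfa.isSymmSndFDerivAt (by simp [minSmoothness_of_isRCLikeNormedField])
  have hd : Differentiable ℝ (fderiv ℝ f) := by
    have : ContDiff ℝ 1 (fderiv ℝ f) := hf.fderiv_right (by norm_num)
    exact this.differentiable (by simp)
  have key : ∀ a b : Fin n, pd a (pd b f) x = fderiv ℝ (fderiv ℝ f) x (Pi.single a 1) (Pi.single b 1) := by
    intro a b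
    have h1 : pd b f = fun y => fderiv ℝ f y (Pi.single b 1) := rfl
    simp only [pd] at h1 ⊢
    rw [h1]
    have h2 := ((hd x).hasFDerivAt.clm_apply (hasFDerivAt_const ((Pi.single b 1 : Fin n → ℝ)) x)).fderiv
    rw [h2]
    simp
  rw [key, key]
  exact hsymm _ _

end Vale.Agent.Lib.P100
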