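import Vale.Agent.Lib.P100.Sep

/-!
Nonexistence from block conditions; the proposition `NoSol`.
-/

namespace Vale.Agent.Lib.P100

/-- The Lane-Emden system `-Δu = v^p`, `-Δv = u^q` has no positive `C³` solution on `ℝⁿ`. -/
def NoSol (n : ℕ) (p q : ℝ) : Prop :=
  ∀ u v : (Fin n → ℝ) → ℝ, ContDiff ℝ 3 u → ContDiff ℝ 3 v →
    (∀ x, 0 < u x) → (∀ x, 0 < v x) →
    (∀ x, - lap u x = v x ^ p) → (∀ x, - lap v x = u x ^ q) → False

lemma NoSol.swap {n : ℕ} {p q : ℝ} (h : NoSol n p q) : NoSol n q p :=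
  fun u v hu hv upos vpos e1 e2 => h v u hv hu vpos upos e2 e1

lemma noSol_of_cert {n : ℕ} {p q lam mu τ A5 A6 A9 A10 s1 s2 e : ℝ}
    (h : Cert n p q lam mu τ A5 A6 A9 A10 s1 s2 e) : NoSol n p q :=
  fun _ _ hu hv upos vpos e1 e2 => criterion h hu hv upos vpos e1 e2

/-- Nonexistence from separated conditions, in terms of the weight exponents `a`, `b`. -/
theorem noSol_of_sep_ab {n : ℕ} (hn : 0 < n) {p q a b τ A5 A6 A9 A10 e : ℝ} (hpq : 1 < p * q)
    (hla : 0 ≤ a + b * q) (hmu : 0 ≤ a * p + b)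
    (hwt : ((n : ℝ) - 4) * (p * q - 1) < 2 * (a * (p + 1) + b * (q + 1)))
    (hτ : 0 < τ) (he : 0 < e)
    (H1 : ∀ x y z : ℝ, 0 ≤ x → 0 ≤ z → y ^ 2 ≤ x * z → 0 ≤ ell1 n p τ A5 A6 A9 x y z)
    (H2 : ∀ x y z : ℝ, 0 ≤ x → 0 ≤ z → y ^ 2 ≤ x * z → 0 ≤ ell2 n q τ A6 A9 A10 x y z)
    (H3 : ∀ x y z : ℝ, 0 ≤ x → 0 ≤ z → y ^ 2 ≤ x * z →
      e * (x ^ 2 + z ^ 2) ≤ R4F n a b τ A5 A6 A9 A10 x y z) :
    NoSol n p q := by
  have hd : 0 < p * q - 1 := by linarith
  have hne : p * q - 1 ≠ 0 := hd.ne'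
  set lam := (a + b * q) / (p * q - 1) with hlam
  set mu := (a * p + b) / (p * q - 1) with hmu'
  have e1 : lam * (p * q - 1) = a + b * q := by
    rw [hlam, div_mul_cancel₀ _ hne]
  have e2 : mu * (p * q - 1) = a * p + b := by
    rw [hmu', div_mul_cancel₀ _ hne]
  have h1 : q * mu - lam = a := by
    apply mul_right_cancel₀ hne
    linear_combination q * e2 - e1
  have h2 : p * lam - mu = b := by
    apply mul_right_cancel₀ hne
    linear_combination p * e1 - e2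
  have h3 : lam + mu = (a * (p + 1) + b * (q + 1)) / (p * q - 1) := by
    rw [eq_div_iff hne]
    linear_combination e1 + e2
  have hw : (n : ℝ) < 4 + 2 * (lam + mu) := by
    rw [h3]
    have : ((n : ℝ) - 4) < 2 * ((a * (p + 1) + b * (q + 1)) / (p * q - 1)) := by
      rw [← mul_div_assoc, lt_div_iff₀ hd]
      exact hwt
    linarith
  obtain ⟨s1, s2, e', hc⟩ := cert_of_sep (n := n) (p := p) (q := q) (lam := lam) (mu := mu)
    (τ := τ) (A5 := A5) (A6 := A6) (A9 := A9) (A10 := A10) (e := e) hn (div_nonneg hla hd.le)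
    (div_nonneg hmu hd.le) hw hτ he H1 H2 (by rw [h1, h2]; exact H3)
  exact noSol_of_cert hc

/-- The quadratic block `A`. -/
noncomputable def blA (N a A5 : ℝ) : ℝ := A5 * (3 - a) - (1 - 1 / N) * ((a - 2) / 2 - A5) ^ 2

/-- The quadratic block `B`. -/
noncomputable def blB (N a b A5 A6 : ℝ) : ℝ :=
  -A5 * b + A6 * (2 - a) - 2 * (1 - 1 / N) * ((a - 2) / 2 - A5) * (b / 2 - A6)

/-- The quadratic block `G`. -/
noncomputable def blG (N b A6 : ℝ) : ℝ := A6 * (1 - b) - (1 - 1 / N) * (b / 2 - A6) ^ 2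

lemma R4F_blocks (N a b τ A5 A6 A9 A10 x y z : ℝ) :
    R4F N a b τ A5 A6 A9 A10 x y z =
      x * (blA N a A5 * x + blB N a b A5 A6 * y + blG N b A6 * z)
        + τ * (z * (blG N a A9 * x + blB N b a A10 A9 * y + blA N b A10 * z))
        + ((b / 2 - A6) ^ 2 + τ * (a / 2 - A9) ^ 2) * (1 / 2 - 1 / N) * (x * z - y ^ 2) := by
  simp only [R4F, blA, blB, blG]
  ring

/-- A positive definite block gives a coercive linear form on the cone. -/
lemma form_lb {a1 b1 g1 : ℝ} (ha : 0 < a1) (hD : 0 < 4 * a1 * g1 - b1 ^ 2) :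
    ∃ e, 0 < e ∧ ∀ x y z : ℝ, 0 ≤ x → 0 ≤ z → y ^ 2 ≤ x * z →
      e * (x + z) ≤ a1 * x + b1 * y + g1 * z := by
  have hg : 0 < g1 := by
    by_contra h
    have h1 : a1 * g1 ≤ 0 := mul_nonpos_of_nonneg_of_nonpos ha.le (not_lt.1 h)
    nlinarith [sq_nonneg b1]
  have hsum : 0 < a1 + g1 := by linarith
  set D := 4 * a1 * g1 - b1 ^ 2 with hDd
  set e := D / (4 * (a1 + g1)) with he
  have he0 : 0 < e := div_pos hD (by positivity)
  have heq : e * (4 * (a1 + g1)) = D := by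
    rw [he]
    field_simp
  have hbD : D ≤ 4 * a1 * g1 := by
    rw [hDd]
    nlinarith [sq_nonneg b1]
  have h1 : e ≤ a1 := by
    have : e * (a1 + g1) ≤ a1 * g1 := by nlinarith
    by_contra h
    push Not at h
    nlinarith
  have h2 : e ≤ g1 := by
    have : e * (a1 + g1) ≤ a1 * g1 := by nlinarith
    by_contra h
    push Not at h
    nlinarith
  refine ⟨e, he0, fun x y z hx hz hy => ?_⟩
  have h3 : 0 ≤ (a1 - e) * x + b1 * y + (g1 - e) * z := by
    refine lin_cone (by linarith) (by linarith) ?_ hx hz hy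
    nlinarith [sq_nonneg e]
  nlinarith

/-- Nonexistence from two positive definite blocks and two square conditions. -/
theorem noSol_of_blocks {n : ℕ} (hn : 2 ≤ n) {p q a b τ A5 A6 A9 A10 : ℝ} (hpq : 1 < p * q)
    (hla : 0 ≤ a + b * q) (hmu : 0 ≤ a * p + b)
    (hwt : ((n : ℝ) - 4) * (p * q - 1) < 2 * (a * (p + 1) + b * (q + 1)))
    (hτ : 0 < τ) (hA5 : 0 ≤ A5) (hA6 : 0 ≤ A6) (hA9 : 0 ≤ A9) (hA10 : 0 ≤ A10)
    (hW1 : (2 / (n : ℝ) * A6 - (1 - 1 / (n : ℝ)) * p) ^ 2 ≤ 4 * ((1 + 2 / (n : ℝ)) * A5) * (τ * A9))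
    (hW2 : (τ * (2 / (n : ℝ) * A9 - (1 - 1 / (n : ℝ)) * q)) ^ 2 ≤ 4 * A6 * (τ * (1 + 2 / (n : ℝ)) * A10))
    (hB1a : 0 < blA n a A5)
    (hB1D : 0 < 4 * blA n a A5 * blG n b A6 - blB n a b A5 A6 ^ 2)
    (hB2a : 0 < blA n b A10)
    (hB2D : 0 < 4 * blA n b A10 * blG n a A9 - blB n b a A10 A9 ^ 2) :
    NoSol n p q := by
  have hn0 : 0 < n := by omega
  have hN : (2 : ℝ) ≤ n := by exact_mod_cast hn
  obtain ⟨e1, he1, h1⟩ := form_lb hB1a hB1D
  obtain ⟨e2, he2, h2⟩ := form_lb hB2a hB2D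
  have hτe : 0 < τ * e2 := by positivity
  refine noSol_of_sep_ab (A5 := A5) (A6 := A6) (A9 := A9) (A10 := A10) (e := min e1 (τ * e2)) hn0 hpq hla hmu hwt hτ (lt_min he1 hτe)
    (fun x y z hx hz hy => ?_) (fun x y z hx hz hy => ?_) (fun x y z hx hz hy => ?_)
  · have hu : 0 ≤ (1 + 2 / (n : ℝ)) * A5 := by positivity
    have := lin_cone hu (mul_nonneg hτ.le hA9) hW1 hx hz hy
    simp only [ell1]
    linarith
  · have hw : 0 ≤ τ * (1 + 2 / (n : ℝ)) * A10 := by positivity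
    have := lin_cone hA6 hw hW2 hx hz hy
    simp only [ell2]
    linarith
  · rw [R4F_blocks]
    have h3 := h1 x y z hx hz hy
    have h4 := h2 z y x hz hx (by linarith [mul_comm x z])
    -- second block in the order `z`, `y`, `x`
    have h5 : e2 * (z + x) ≤ blG n a A9 * x + blB n b a A10 A9 * y + blA n b A10 * z := by
      linarith
    have hc : 0 ≤ ((b / 2 - A6) ^ 2 + τ * (a / 2 - A9) ^ 2) * (1 / 2 - 1 / (n : ℝ)) *
        (x * z - y ^ 2) := by
      have h6 : 1 / (n : ℝ) ≤ 1 / 2 := one_div_le_one_div_of_le (by norm_num) hN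
      have h7 : 0 ≤ 1 / 2 - 1 / (n : ℝ) := by linarith
      have h8 : 0 ≤ x * z - y ^ 2 := by linarith
      positivity
    have h9 : x * (e1 * (x + z)) ≤ x * (blA n a A5 * x + blB n a b A5 A6 * y + blG n b A6 * z) :=
      mul_le_mul_of_nonneg_left h3 hx
    have h10 : τ * (z * (e2 * (z + x))) ≤
        τ * (z * (blG n a A9 * x + blB n b a A10 A9 * y + blA n b A10 * z)) :=
      mul_le_mul_of_nonneg_left (mul_le_mul_of_nonneg_left h5 hz) hτ.le
    have h11 : min e1 (τ * e2) * x ^ 2 ≤ e1 * x ^ 2 :=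
      mul_le_mul_of_nonneg_right (min_le_left _ _) (sq_nonneg x)
    have h12 : min e1 (τ * e2) * z ^ 2 ≤ τ * e2 * z ^ 2 :=
      mul_le_mul_of_nonneg_right (min_le_right _ _) (sq_nonneg z)
    have h13 : 0 ≤ e1 * (x * z) := by positivity
    have h14 : 0 ≤ τ * e2 * (x * z) := by positivity
    have h15 : x * (e1 * (x + z)) = e1 * x ^ 2 + e1 * (x * z) := by ring
    have h16 : τ * (z * (e2 * (z + x))) = τ * e2 * z ^ 2 + τ * e2 * (x * z) := by ring
    have h17 : min e1 (τ * e2) * (x ^ 2 + z ^ 2) =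
        min e1 (τ * e2) * x ^ 2 + min e1 (τ * e2) * z ^ 2 := by ring
    linarith

end Vale.Agent.Lib.P100
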