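import Vale.Agent.Lib.P100.Field

/-!
Size bound for the vector field in terms of the positive part of the certificate, and the
elementary real power inequality.
-/

namespace Vale.Agent.Lib.P100

variable {n : ℕ}

/-- The positive quantity controlled by the certificate. -/
noncomputable def Qt (r1 r2 r3 r4 : ℝ) (M N : Fin n → Fin n → ℝ) (X Y : Fin n → ℝ) (W1 W2 : ℝ) : ℝ :=
  sqS M X Y (1 + r1) r2 ((W1 - r1 * dot X X - r2 * dot X Y) / n)
    + sqS N Y X (1 + r4) r3 ((W2 - r3 * dot X Y - r4 * dot Y Y) / n)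
    + W1 ^ 2 + W2 ^ 2 + dot X X ^ 2 + dot Y Y ^ 2

private lemma abs_le_sq_of_sq_le {a T : ℝ} (h : a ^ 2 ≤ T ^ 4) : |a| ≤ T ^ 2 := by
  apply abs_le_of_sq_le_sq _ (by positivity)
  calc a ^ 2 ≤ T ^ 4 := h
    _ = (T ^ 2) ^ 2 := by ring

private lemma entry_bound {M : Fin n → Fin n → ℝ} {X Y : Fin n → ℝ} {c1 c2 c3 K T : ℝ}
    (hT : 0 ≤ T) (hS : sqS M X Y c1 c2 c3 ≤ T ^ 4) (hX : ∀ i, |X i| ≤ T) (hY : ∀ i, |Y i| ≤ T)
    (hc3 : |c3| ≤ K * T ^ 2) (i j : Fin n) :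
    |M i j| ≤ (1 + |c1| + |c2| + K) * T ^ 2 := by
  have h1 : entS M X Y c1 c2 c3 i j ^ 2 ≤ sqS M X Y c1 c2 c3 := by
    unfold sqS
    calc entS M X Y c1 c2 c3 i j ^ 2 ≤ ∑ j', entS M X Y c1 c2 c3 i j' ^ 2 :=
          Finset.single_le_sum (f := fun j' => entS M X Y c1 c2 c3 i j' ^ 2)
            (fun _ _ => sq_nonneg _) (Finset.mem_univ j)
      _ ≤ ∑ i', ∑ j', entS M X Y c1 c2 c3 i' j' ^ 2 :=
          Finset.single_le_sum (f := fun i' => ∑ j', entS M X Y c1 c2 c3 i' j' ^ 2)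
            (fun _ _ => Finset.sum_nonneg fun _ _ => sq_nonneg _) (Finset.mem_univ i)
  have h2 : |entS M X Y c1 c2 c3 i j| ≤ T ^ 2 := abs_le_sq_of_sq_le (h1.trans hS)
  have hXX : |X i * X j| ≤ T ^ 2 := by
    rw [abs_mul, sq]
    exact mul_le_mul (hX i) (hX j) (abs_nonneg _) hT
  have hXY : |X i * Y j| ≤ T ^ 2 := by
    rw [abs_mul, sq]
    exact mul_le_mul (hX i) (hY j) (abs_nonneg _) hT
  have hXY' : |X j * Y i| ≤ T ^ 2 := by
    rw [abs_mul, sq]
    exact mul_le_mul (hX j) (hY i) (abs_nonneg _) hT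
  have h3 : |(X i * Y j + X j * Y i) / 2| ≤ T ^ 2 := by
    rw [abs_le] at hXY hXY' ⊢
    constructor <;> linarith [hXY.1, hXY.2, hXY'.1, hXY'.2]
  have h4 : |(if i = j then c3 else 0)| ≤ K * T ^ 2 := by
    by_cases hij : i = j
    · simpa [hij] using hc3
    · simp only [hij, if_false, abs_zero]
      exact (abs_nonneg c3).trans hc3
  have h5 : M i j = entS M X Y c1 c2 c3 i j - c1 * (X i * X j) -
      c2 * ((X i * Y j + X j * Y i) / 2) - (if i = j then c3 else 0) := by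
    simp only [entS]
    ring
  have h6 : |c1 * (X i * X j)| ≤ |c1| * T ^ 2 := by
    rw [abs_mul]
    exact mul_le_mul_of_nonneg_left hXX (abs_nonneg _)
  have h7 : |c2 * ((X i * Y j + X j * Y i) / 2)| ≤ |c2| * T ^ 2 := by
    rw [abs_mul]
    exact mul_le_mul_of_nonneg_left h3 (abs_nonneg _)
  rw [h5]
  rw [abs_le] at h2 h4 h6 h7 ⊢
  constructor <;> linarith [h2.1, h2.2, h4.1, h4.2, h6.1, h6.2, h7.1, h7.2]

private lemma sum_entry_bound {M : Fin n → Fin n → ℝ} {X : Fin n → ℝ} {K T : ℝ} (hT : 0 ≤ T)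
    (hM : ∀ i j, |M i j| ≤ K * T ^ 2) (hX : ∀ i, |X i| ≤ T) (i : Fin n) :
    |∑ j, M i j * X j| ≤ (n * K) * T ^ 3 := by
  calc |∑ j, M i j * X j| ≤ ∑ j, |M i j * X j| := Finset.abs_sum_le_sum_abs _ _
    _ ≤ ∑ _j : Fin n, K * T ^ 3 := by
        apply Finset.sum_le_sum
        intro j _
        rw [abs_mul]
        have hK : 0 ≤ K * T ^ 2 := (abs_nonneg _).trans (hM i j)
        calc |M i j| * |X j| ≤ (K * T ^ 2) * T := mul_le_mul (hM i j) (hX j) (abs_nonneg _) hK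
          _ = K * T ^ 3 := by ring
    _ = (n * K) * T ^ 3 := by
        rw [Finset.sum_const, Finset.card_univ, Fintype.card_fin, nsmul_eq_mul]
        ring

private lemma dot_self_nonneg' (X : Fin n → ℝ) : 0 ≤ dot X X :=
  Finset.sum_nonneg fun i _ => mul_self_nonneg _

private lemma abs_le_of_dot {X : Fin n → ℝ} {T : ℝ} (hT : 0 ≤ T) (h : dot X X ≤ T ^ 2) (i : Fin n) :
    |X i| ≤ T := by
  apply abs_le_of_sq_le_sq _ hT
  have : X i * X i ≤ dot X X :=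
    Finset.single_le_sum (f := fun j => X j * X j) (fun j _ => mul_self_nonneg _) (Finset.mem_univ i)
  nlinarith

private lemma abs_dot_le {X Y : Fin n → ℝ} {T : ℝ} (hX : dot X X ≤ T ^ 2) (hY : dot Y Y ≤ T ^ 2) :
    |dot X Y| ≤ T ^ 2 := by
  have h1 : 0 ≤ ∑ i, (X i - Y i) ^ 2 := Finset.sum_nonneg fun _ _ => sq_nonneg _
  have h2 : 0 ≤ ∑ i, (X i + Y i) ^ 2 := Finset.sum_nonneg fun _ _ => sq_nonneg _
  have e1 : ∑ i, (X i - Y i) ^ 2 = dot X X - 2 * dot X Y + dot Y Y := by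
    simp only [dot, Finset.mul_sum, ← Finset.sum_sub_distrib, ← Finset.sum_add_distrib]
    exact Finset.sum_congr rfl fun i _ => by ring
  have e2 : ∑ i, (X i + Y i) ^ 2 = dot X X + 2 * dot X Y + dot Y Y := by
    simp only [dot, Finset.mul_sum, ← Finset.sum_add_distrib]
    exact Finset.sum_congr rfl fun i _ => by ring
  rw [e1] at h1
  rw [e2] at h2
  rw [abs_le]
  constructor <;> linarith

private lemma eight_bound {z1 z2 z3 z4 z5 z6 z7 z8 u1 u2 u3 u4 u5 u6 u7 u8 : ℝ} (h1 : |z1| ≤ u1)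
    (h2 : |z2| ≤ u2) (h3 : |z3| ≤ u3) (h4 : |z4| ≤ u4) (h5 : |z5| ≤ u5) (h6 : |z6| ≤ u6)
    (h7 : |z7| ≤ u7) (h8 : |z8| ≤ u8) :
    |z1 + z2 - z3 - z4 - z5 - z6 - z7 - z8| ≤ u1 + u2 + u3 + u4 + u5 + u6 + u7 + u8 := by
  rw [abs_le] at h1 h2 h3 h4 h5 h6 h7 h8 ⊢
  constructor <;> linarith [h1.1, h1.2, h2.1, h2.2, h3.1, h3.2, h4.1, h4.2, h5.1, h5.2, h6.1, h6.2,
    h7.1, h7.2, h8.1, h8.2]

/-- The field is bounded by `T³` when the certificate quantity is at most `T⁴`. -/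
theorem Zalg_bound (hn : 0 < n) (r1 r2 r3 r4 τ A5 A6 A9 A10 c11 c14 : ℝ) :
    ∃ C : ℝ, 0 ≤ C ∧ ∀ (M N : Fin n → Fin n → ℝ) (X Y : Fin n → ℝ) (W1 W2 T : ℝ),
      0 ≤ W1 → 0 ≤ W2 → 0 ≤ T →
      trc M = - dot X X - W1 → trc N = - dot Y Y - W2 →
      Qt r1 r2 r3 r4 M N X Y W1 W2 ≤ T ^ 4 →
      ∀ i, |Zalg τ A5 A6 A9 A10 c11 c14 M N X Y W1 W2 i| ≤ C * T ^ 3 := by
  set K1 : ℝ := 1 + |1 + r1| + |r2| + (1 + |r1| + |r2|) with hK1
  set K2 : ℝ := 1 + |1 + r4| + |r3| + (1 + |r3| + |r4|) with hK2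
  have hK1n : 0 ≤ K1 := by positivity
  have hK2n : 0 ≤ K2 := by positivity
  refine ⟨(n * K1 + 2) + |τ| * (n * K2 + 2) + |A5| + |A6| + |τ * A9| + |τ * A10| + |c11| + |c14|,
    by positivity, ?_⟩
  intro M N X Y W1 W2 T hW1 hW2 hT htM htN hQ i
  have hn1 : (1 : ℝ) ≤ n := by exact_mod_cast hn
  have hS1 := sqS_nonneg M X Y (1 + r1) r2 ((W1 - r1 * dot X X - r2 * dot X Y) / n)
  have hS2 := sqS_nonneg N Y X (1 + r4) r3 ((W2 - r3 * dot X Y - r4 * dot Y Y) / n)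
  have hQ' := hQ
  unfold Qt at hQ'
  have a1 := sq_nonneg W1
  have a2 := sq_nonneg W2
  have a3 := sq_nonneg (dot X X)
  have a4 := sq_nonneg (dot Y Y)
  have hW1' : W1 ≤ T ^ 2 := by
    have := abs_le_sq_of_sq_le (a := W1) (T := T) (by linarith)
    exact (le_abs_self _).trans this
  have hW2' : W2 ≤ T ^ 2 := by
    have := abs_le_sq_of_sq_le (a := W2) (T := T) (by linarith)
    exact (le_abs_self _).trans this
  have hXX : dot X X ≤ T ^ 2 := by
    have := abs_le_sq_of_sq_le (a := dot X X) (T := T) (by linarith)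
    exact (le_abs_self _).trans this
  have hYY : dot Y Y ≤ T ^ 2 := by
    have := abs_le_sq_of_sq_le (a := dot Y Y) (T := T) (by linarith)
    exact (le_abs_self _).trans this
  have hX := abs_le_of_dot hT hXX
  have hY := abs_le_of_dot hT hYY
  have hXY := abs_dot_le hXX hYY
  have hXX0 := dot_self_nonneg' X
  have hYY0 := dot_self_nonneg' Y
  have hT2 : 0 ≤ T ^ 2 := by positivity
  have hT3 : 0 ≤ T ^ 3 := by positivity
  -- the constants in the squares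
  have hc3 : ∀ {w a b r s : ℝ}, 0 ≤ w → w ≤ T ^ 2 → |a| ≤ T ^ 2 → |b| ≤ T ^ 2 →
      |(w - r * a - s * b) / n| ≤ (1 + |r| + |s|) * T ^ 2 := by
    intro w a b r s hw0 hw ha hb
    rw [abs_div, abs_of_pos (by linarith : (0 : ℝ) < n)]
    have hnum : |w - r * a - s * b| ≤ (1 + |r| + |s|) * T ^ 2 := by
      have h1 : |r * a| ≤ |r| * T ^ 2 := by
        rw [abs_mul]
        exact mul_le_mul_of_nonneg_left ha (abs_nonneg _)
      have h2 : |s * b| ≤ |s| * T ^ 2 := by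
        rw [abs_mul]
        exact mul_le_mul_of_nonneg_left hb (abs_nonneg _)
      have hw' : |w| ≤ T ^ 2 := by rw [abs_of_nonneg hw0]; exact hw
      rw [abs_le] at h1 h2 hw' ⊢
      constructor <;> linarith [h1.1, h1.2, h2.1, h2.2, hw'.1, hw'.2]
    calc |w - r * a - s * b| / n ≤ |w - r * a - s * b| / 1 :=
          div_le_div_of_nonneg_left (abs_nonneg _) one_pos hn1
      _ ≤ (1 + |r| + |s|) * T ^ 2 := by simpa using hnum
  have hM : ∀ i j, |M i j| ≤ K1 * T ^ 2 := by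
    intro i j
    exact entry_bound hT (by linarith) hX hY
      (hc3 hW1 hW1' (by rw [abs_of_nonneg hXX0]; exact hXX) hXY) i j
  have hN : ∀ i j, |N i j| ≤ K2 * T ^ 2 := by
    intro i j
    have hc : |(W2 - r3 * dot X Y - r4 * dot Y Y) / (n : ℝ)| ≤ (1 + |r3| + |r4|) * T ^ 2 :=
      hc3 hW2 hW2' hXY (by rw [abs_of_nonneg hYY0]; exact hYY)
    exact entry_bound hT (by linarith) hY hX hc i j
  have hsM := sum_entry_bound hT hM hX i
  have hsN := sum_entry_bound hT hN hY i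
  have htM' : |trc M * X i| ≤ 2 * T ^ 3 := by
    rw [htM, abs_mul]
    have h1 : |- dot X X - W1| ≤ 2 * T ^ 2 := by
      rw [abs_le]
      constructor <;> linarith
    calc |- dot X X - W1| * |X i| ≤ (2 * T ^ 2) * T := mul_le_mul h1 (hX i) (abs_nonneg _) (by positivity)
      _ = 2 * T ^ 3 := by ring
  have htN' : |trc N * Y i| ≤ 2 * T ^ 3 := by
    rw [htN, abs_mul]
    have h1 : |- dot Y Y - W2| ≤ 2 * T ^ 2 := by
      rw [abs_le]
      constructor <;> linarith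
    calc |- dot Y Y - W2| * |Y i| ≤ (2 * T ^ 2) * T := mul_le_mul h1 (hY i) (abs_nonneg _) (by positivity)
      _ = 2 * T ^ 3 := by ring
  have hcub : ∀ {c a b : ℝ}, |a| ≤ T ^ 2 → |b| ≤ T → |c * (a * b)| ≤ |c| * T ^ 3 := by
    intro c a b ha hb
    rw [abs_mul, abs_mul]
    apply mul_le_mul_of_nonneg_left _ (abs_nonneg _)
    calc |a| * |b| ≤ T ^ 2 * T := mul_le_mul ha hb (abs_nonneg _) hT2
      _ = T ^ 3 := by ring
  have hXXa : |dot X X| ≤ T ^ 2 := by rw [abs_of_nonneg hXX0]; exact hXX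
  have hYYa : |dot Y Y| ≤ T ^ 2 := by rw [abs_of_nonneg hYY0]; exact hYY
  have hW1a : |W1| ≤ T ^ 2 := by rw [abs_of_nonneg hW1]; exact hW1'
  have hW2a : |W2| ≤ T ^ 2 := by rw [abs_of_nonneg hW2]; exact hW2'
  have b1 := hcub (c := A5) hXXa (hX i)
  have b2 := hcub (c := A6) hXXa (hY i)
  have b3 := hcub (c := τ * A9) hYYa (hX i)
  have b4 := hcub (c := τ * A10) hYYa (hY i)
  have b5 := hcub (c := c11) hW1a (hX i)
  have b6 := hcub (c := c14) hW2a (hY i)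
  have b7 : |τ * (∑ j, N i j * Y j - trc N * Y i)| ≤ |τ| * ((n * K2 + 2) * T ^ 3) := by
    rw [abs_mul]
    apply mul_le_mul_of_nonneg_left _ (abs_nonneg _)
    rw [abs_le] at hsN htN' ⊢
    constructor <;> linarith [hsN.1, hsN.2, htN'.1, htN'.2]
  have b8 : |∑ j, M i j * X j - trc M * X i| ≤ (n * K1 + 2) * T ^ 3 := by
    rw [abs_le] at hsM htM' ⊢
    constructor <;> linarith [hsM.1, hsM.2, htM'.1, htM'.2]
  unfold Zalg
  refine (eight_bound b8 b7 b1 b2 b3 b4 b5 b6).trans (le_of_eq ?_)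
  ring

/-- The real power inequality: if `0 < w ≤ T^(2σ)`, then `w T³ ≤ (w T⁴)^(1-δ)`
with `δ = 1/(2σ+4)`. -/
theorem rpow_key {w T σ : ℝ} (hw : 0 < w) (hT : 0 < T) (hσ : 0 ≤ σ) (h : w ≤ T ^ (2 * σ)) :
    w * T ^ 3 ≤ (w * T ^ 4) ^ (1 - 1 / (2 * σ + 4)) := by
  have hpos : 0 < 2 * σ + 4 := by linarith
  set δ : ℝ := 1 / (2 * σ + 4) with hδ
  have hδ0 : 0 < δ := by positivity
  have hδe : 1 - 4 * δ = δ * (2 * σ) := by
    rw [hδ]
    field_simp
    ring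
  have hlog : Real.log w ≤ 2 * σ * Real.log T := by
    have := Real.log_le_log hw h
    rwa [Real.log_rpow hT] at this
  have hT3 : 0 < T ^ 3 := by positivity
  have hT4 : 0 < T ^ 4 := by positivity
  have hR : 0 < (w * T ^ 4) ^ (1 - δ) := Real.rpow_pos_of_pos (by positivity) _
  rw [← Real.log_le_log_iff (by positivity) hR, Real.log_rpow (by positivity),
    Real.log_mul hw.ne' hT3.ne', Real.log_mul hw.ne' hT4.ne', Real.log_pow, Real.log_pow]
  push_cast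
  set A := Real.log w
  set L := Real.log T
  have key : 0 ≤ δ * (2 * σ * L - A) := mul_nonneg hδ0.le (by linarith)
  have : (1 - δ) * (A + 4 * L) - (A + 3 * L) = δ * (2 * σ * L - A) := by
    have e : δ * (2 * σ * L - A) = (δ * (2 * σ)) * L - δ * A := by ring
    rw [e, ← hδe]
    ring
  linarith

end Vale.Agent.Lib.P100
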