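import Vale.Agent.Lib.P100.Rect

/-!
Covering lemmas for staircases of rectangles. In these lemmas `α + β ≥ A0` reads
`A0 (p q - 1) ≤ 2 (p + q + 2)`, where `α = 2(p+1)/(pq-1)` and `β = 2(q+1)/(pq-1)`.
-/

namespace Vale.Agent.Lib.P100

/-- The complement of the region `α + β ≥ A0` is monotone. -/
lemma corner_mono {A0 p0 q0 p q : ℝ} (hA0 : 0 < A0) (hp0 : 0 < p0) (hq0 : 0 < q0)
    (h0 : 2 * (p0 + q0 + 2) < A0 * (p0 * q0 - 1)) (hp : p0 ≤ p) (hq : q0 ≤ q) :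
    2 * (p + q + 2) < A0 * (p * q - 1) := by
  have h1 : 0 < q0 * (A0 * p0 - 2) := by nlinarith
  have h2 : 0 < p0 * (A0 * q0 - 2) := by nlinarith
  have h3 : 0 < A0 * p0 - 2 := (mul_pos_iff_of_pos_left hq0).1 h1
  have h4 : 0 < A0 * q0 - 2 := (mul_pos_iff_of_pos_left hp0).1 h2
  have h5 : 0 ≤ (p - p0) * (A0 * q0 - 2) := mul_nonneg (by linarith) h4.le
  have h6 : 0 ≤ (A0 * p - 2) * (q - q0) := by
    have : A0 * p0 ≤ A0 * p := by gcongr
    exact mul_nonneg (by linarith) (by linarith)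
  nlinarith

lemma q_le_of_corner {A0 p0 q0 p q : ℝ} (hA0 : 0 < A0) (hp0 : 0 < p0) (hq0 : 0 < q0)
    (h0 : 2 * (p0 + q0 + 2) < A0 * (p0 * q0 - 1)) (hp : p0 ≤ p)
    (hsub : A0 * (p * q - 1) ≤ 2 * (p + q + 2)) : q ≤ q0 := by
  by_contra h
  push Not at h
  have := corner_mono hA0 hp0 hq0 h0 hp h.le
  linarith

/-- Lower bound for `p` from `β ≤ B` and `α + β ≥ A0`. -/
lemma p_lower {A0 B p q : ℝ} (hB : 0 < B) (hq : 0 < q) (hpq : 1 < p * q)
    (hsub : A0 * (p * q - 1) ≤ 2 * (p + q + 2)) (hβ : 2 * (q + 1) ≤ B * (p * q - 1))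
    (hA0 : 0 < A0) : (A0 + 2) / B - 1 ≤ p := by
  have hD : 0 < p * q - 1 := by linarith
  have h1 : (A0 + 2) * (p * q - 1) ≤ (p + 1) * (2 * (q + 1)) := by nlinarith
  have h2 : (A0 + 2) * (2 * (q + 1)) ≤ (A0 + 2) * (B * (p * q - 1)) := by gcongr
  have h3 : (A0 + 2) * (2 * (q + 1)) ≤ B * ((p + 1) * (2 * (q + 1))) := by
    have := mul_le_mul_of_nonneg_left h1 hB.le
    nlinarith
  have hq1 : 0 < 2 * (q + 1) := by linarith
  have h4 : A0 + 2 ≤ B * (p + 1) := by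
    by_contra h
    push Not at h
    have := mul_lt_mul_of_pos_right h hq1
    nlinarith
  have h5 : (A0 + 2) / B ≤ p + 1 := by
    rw [div_le_iff₀ hB]
    linarith
  linarith

end Vale.Agent.Lib.P100
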