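import Vale.Agent.Lib.P100.Basic

/-!
The abstract Liouville lemma: a `C¹` vector field whose divergence `D` is nonnegative and which
satisfies `|F| ≤ C D^(1-δ)` with `n δ < 1` is divergence free.
-/

open MeasureTheory

namespace Vale.Agent.Lib.P100

variable {n : ℕ}

/-- The integral of a partial derivative of a compactly supported `C¹` function vanishes. -/
lemma integral_pd_eq_zero {F : (Fin n → ℝ) → ℝ} (hF : ContDiff ℝ 1 F) (hc : HasCompactSupport F)
    (i : Fin n) : ∫ x, pd i F x = 0 := by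
  have hF1 : Continuous F := hF.continuous
  have hdF : Continuous (pd i F) := continuous_pd hF i
  have hcd : HasCompactSupport (pd i F) := by
    have h := hc.fderiv (𝕜 := ℝ)
    exact h.comp_left (g := fun L : (Fin n → ℝ) →L[ℝ] ℝ => L (Pi.single i 1)) (by simp)
  have h := integral_mul_fderiv_eq_neg_fderiv_mul_of_integrable (μ := (volume : Measure (Fin n → ℝ)))
    (f := fun _ : Fin n → ℝ => (1 : ℝ)) (g := F) (v := Pi.single i 1)
    (by simp) (by simp only [one_mul]; exact hdF.integrable_of_hasCompactSupport hcd)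
    (by simpa using hF1.integrable_of_hasCompactSupport hc)
    (fun _ _ => differentiableAt_const _)
    (fun x _ => (hF.differentiable (by simp)) x)
  simpa [pd] using h

/-- Compact support of a partial derivative. -/
private lemma hasCompactSupport_pd {F : (Fin n → ℝ) → ℝ} (hc : HasCompactSupport F) (i : Fin n) :
    HasCompactSupport (pd i F) := by
  have h := hc.fderiv (𝕜 := ℝ)
  exact h.comp_left (g := fun L : (Fin n → ℝ) →L[ℝ] ℝ => L (Pi.single i 1)) (by simp)

/-- Uniform bound on the partial derivatives of a compactly supported `C¹` function. -/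
private lemma exists_pd_bound {f : (Fin n → ℝ) → ℝ} (hf : ContDiff ℝ 1 f)
    (hc : HasCompactSupport f) : ∃ L : ℝ, 0 ≤ L ∧ ∀ (i : Fin n) (x : Fin n → ℝ), |pd i f x| ≤ L := by
  have hcont : ∀ i : Fin n, ∃ C : ℝ, ∀ x, ‖pd i f x‖ ≤ C := fun i =>
    (continuous_pd hf i).bounded_above_of_compact_support (hasCompactSupport_pd hc i)
  choose C hC using hcont
  refine ⟨∑ i, |C i|, Finset.sum_nonneg (fun _ _ => abs_nonneg _), fun i x => ?_⟩
  calc |pd i f x| = ‖pd i f x‖ := (Real.norm_eq_abs _).symm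
    _ ≤ C i := hC i x
    _ ≤ |C i| := le_abs_self _
    _ ≤ ∑ j, |C j| := Finset.single_le_sum (f := fun j => |C j|)
        (fun _ _ => abs_nonneg _) (Finset.mem_univ i)

/-- The Young-type pointwise bound used below. -/
private lemma young_bound {m t δ : ℝ} (hm : 0 ≤ m) (ht : 0 ≤ t) (hδ0 : 0 < δ) (hδ1 : δ < 1) :
    m * t ^ (1 - δ) ≤ (1 - δ) * t + δ * m ^ (1 / δ) := by
  have h := Real.geom_mean_le_arith_mean2_weighted (w₁ := 1 - δ) (w₂ := δ) (p₁ := t)
    (p₂ := m ^ (1 / δ)) (by linarith) hδ0.le ht (Real.rpow_nonneg hm _) (by ring)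
  have h2 : (m ^ (1 / δ)) ^ δ = m := by
    rw [← Real.rpow_mul hm, one_div, inv_mul_cancel₀ hδ0.ne', Real.rpow_one]
  rw [h2] at h
  linarith [h, mul_comm m (t ^ (1 - δ))]

/-- The main estimate for a nonnegative-power cut-off. -/
private lemma main_estimate (F : Fin n → (Fin n → ℝ) → ℝ) (hF : ∀ i, ContDiff ℝ 1 (F i))
    {C δ : ℝ} (hC : 0 ≤ C) (hδ0 : 0 < δ) (hδ1 : δ < 1)
    (hpos : ∀ x, 0 ≤ dv F x)
    (hbd : ∀ i x, |F i x| ≤ C * (dv F x) ^ (1 - δ))
    {ψ : (Fin n → ℝ) → ℝ} (hψ : ContDiff ℝ 1 ψ) (hψc : HasCompactSupport ψ)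
    (hψ0 : ∀ x, 0 ≤ ψ x) (hψ1 : ∀ x, ψ x ≤ 1)
    {L : ℝ} (hL0 : 0 ≤ L) (hL : ∀ (i : Fin n) x, |pd i ψ x| ≤ L)
    {k : ℕ} (hk : 1 ≤ (k : ℝ) * δ)
    {B : Set (Fin n → ℝ)} (hB : MeasurableSet B) (hBf : volume B < ⊤)
    (hsupp : ∀ x, ψ x ≠ 0 → x ∈ B) :
    ∫ x, ψ x ^ k * dv F x ≤
      ((n : ℝ) * k * L * C) ^ (1 / δ) * (volume B).toReal := by
  classical
  have hk1 : (1 : ℝ) < k := by
    by_contra hcon
    have hcon' : (k : ℝ) ≤ 1 := not_lt.1 hcon
    have hk0 : (0 : ℝ) ≤ k := Nat.cast_nonneg k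
    nlinarith
  have hk2 : 2 ≤ k := by
    have : 1 < k := by exact_mod_cast hk1
    omega
  set m : ℝ := (n : ℝ) * k * L * C with hm_def
  have hm0 : 0 ≤ m := by positivity
  set φ : (Fin n → ℝ) → ℝ := fun x => ψ x ^ k with hφ_def
  have hφ : ContDiff ℝ 1 φ := hψ.pow k
  have hdiffψ : ∀ x, DifferentiableAt ℝ ψ x := fun x => (hψ.differentiable (by simp)) x
  have hdiffφ : ∀ x, DifferentiableAt ℝ φ x := fun x => (hφ.differentiable (by simp)) x
  have hdiffF : ∀ i x, DifferentiableAt ℝ (F i) x := fun i x => ((hF i).differentiable (by simp)) x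
  -- derivative of the power
  have hpdφ : ∀ (i : Fin n) x, pd i φ x = (k : ℝ) * ψ x ^ (k - 1) * pd i ψ x := by
    intro i x
    have h1 : HasFDerivAt ψ (fderiv ℝ ψ x) x := (hdiffψ x).hasFDerivAt
    have h2 := h1.pow k
    have h3 : fderiv ℝ φ x = _ := h2.fderiv
    simp only [pd]
    rw [h3]
    simp [smul_eq_mul]
  have hφc : HasCompactSupport φ := by
    have hk0 : k ≠ 0 := by omega
    refine HasCompactSupport.intro (K := tsupport ψ) hψc.isCompact ?_
    intro x hx
    have : ψ x = 0 := image_eq_zero_of_notMem_tsupport hx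
    simp [hφ_def, this, hk0]
  have hcontD : Continuous (dv F) := by
    unfold dv
    exact continuous_finsetSum _ (fun i _ => continuous_pd (hF i) i)
  have hcφ : Continuous φ := hφ.continuous
  -- integrability of φ D
  have hintφD : Integrable (fun x => φ x * dv F x) :=
    (hcφ.mul hcontD).integrable_of_hasCompactSupport hφc.mul_right
  -- the field T
  set T : (Fin n → ℝ) → ℝ := fun x => ∑ i, pd i (fun y => φ y * F i y) x with hT_def
  have hGC : ∀ i, ContDiff ℝ 1 (fun y => φ y * F i y) := fun i => hφ.mul (hF i)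
  have hGc : ∀ i, HasCompactSupport (fun y => φ y * F i y) := fun i => hφc.mul_right
  have hintT : ∀ i, Integrable (pd i (fun y => φ y * F i y)) := fun i =>
    (continuous_pd (hGC i) i).integrable_of_hasCompactSupport (hasCompactSupport_pd (hGc i) i)
  have hintT' : Integrable T := by
    have : T = fun x => ∑ i, pd i (fun y => φ y * F i y) x := rfl
    rw [this]
    exact integrable_finsetSum _ (fun i _ => hintT i)
  have hT0 : ∫ x, T x = 0 := by
    simp only [hT_def]
    rw [integral_finsetSum _ (fun i _ => hintT i)]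
    exact Finset.sum_eq_zero (fun i _ => integral_pd_eq_zero (hGC i) (hGc i) i)
  -- T splits
  have hTsplit : ∀ x, T x = (∑ i, pd i φ x * F i x) + φ x * dv F x := by
    intro x
    simp only [hT_def, dv, Finset.mul_sum]
    rw [← Finset.sum_add_distrib]
    refine Finset.sum_congr rfl (fun i _ => ?_)
    exact pd_mul (hdiffφ x) (hdiffF i x) i
  -- pointwise bound
  have hpt : ∀ x, φ x * dv F x ≤ T x + ((1 - δ) * (φ x * dv F x)
      + B.indicator (fun _ => δ * m ^ (1 / δ)) x) := by
    intro x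
    have hmpow : 0 ≤ δ * m ^ (1 / δ) := mul_nonneg hδ0.le (Real.rpow_nonneg hm0 _)
    have hφ0 : 0 ≤ φ x := pow_nonneg (hψ0 x) k
    have hD0 := hpos x
    by_cases hx : ψ x = 0
    · have hk3 : k - 1 ≠ 0 := by omega
      have hk4 : k ≠ 0 := by omega
      have h1 : ∀ i, pd i φ x = 0 := fun i => by rw [hpdφ, hx]; simp [hk3]
      have h2 : φ x = 0 := by simp [hφ_def, hx, hk4]
      have h3 := hTsplit x
      simp only [h1, h2, zero_mul, Finset.sum_const_zero, add_zero] at h3
      rw [h2, h3]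
      have h4 : 0 ≤ B.indicator (fun _ => δ * m ^ (1 / δ)) x :=
        Set.indicator_nonneg (fun _ _ => hmpow) x
      simpa using h4
    · have hxB : x ∈ B := hsupp x hx
      rw [Set.indicator_of_mem hxB]
      have hψpos : 0 < ψ x := lt_of_le_of_ne (hψ0 x) (Ne.symm hx)
      have hnat : ((k - 1 : ℕ) : ℝ) = (k : ℝ) - 1 := by
        rw [Nat.cast_sub (by omega)]; simp
      -- ψ^(k-1) D^(1-δ) ≤ (φ D)^(1-δ)
      have hkey : ψ x ^ (k - 1) * dv F x ^ (1 - δ) ≤ (φ x * dv F x) ^ (1 - δ) := by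
        rw [Real.mul_rpow hφ0 hD0]
        refine mul_le_mul_of_nonneg_right ?_ (Real.rpow_nonneg hD0 _)
        have h1 : φ x ^ (1 - δ) = ψ x ^ ((k : ℝ) * (1 - δ)) := by
          simp only [hφ_def]
          rw [← Real.rpow_natCast, ← Real.rpow_mul (hψ0 x)]
        have h2 : ψ x ^ (k - 1) = ψ x ^ ((k : ℝ) - 1) := by
          rw [← hnat, Real.rpow_natCast]
        rw [h1, h2]
        apply Real.rpow_le_rpow_of_exponent_ge hψpos (hψ1 x)
        nlinarith
      -- bound for each term
      have hterm : ∀ i, |pd i φ x * F i x| ≤ (k : ℝ) * L * C * (ψ x ^ (k - 1) * dv F x ^ (1 - δ)) := by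
        intro i
        rw [hpdφ, abs_mul, abs_mul, abs_mul, abs_of_nonneg (pow_nonneg (hψ0 x) _), abs_of_nonneg
          (Nat.cast_nonneg k)]
        have h1 := hL i x
        have h2 := hbd i x
        have hp : 0 ≤ ψ x ^ (k - 1) := pow_nonneg (hψ0 x) _
        have hq : 0 ≤ dv F x ^ (1 - δ) := Real.rpow_nonneg hD0 _
        calc (k : ℝ) * ψ x ^ (k - 1) * |pd i ψ x| * |F i x|
            ≤ (k : ℝ) * ψ x ^ (k - 1) * L * (C * dv F x ^ (1 - δ)) := by
              apply mul_le_mul _ h2 (abs_nonneg _) (by positivity)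
              exact mul_le_mul_of_nonneg_left h1 (by positivity)
          _ = _ := by ring
      have hsum : |∑ i, pd i φ x * F i x| ≤ m * (ψ x ^ (k - 1) * dv F x ^ (1 - δ)) := by
        calc |∑ i, pd i φ x * F i x| ≤ ∑ i, |pd i φ x * F i x| := Finset.abs_sum_le_sum_abs _ _
          _ ≤ ∑ _i : Fin n, (k : ℝ) * L * C * (ψ x ^ (k - 1) * dv F x ^ (1 - δ)) :=
              Finset.sum_le_sum (fun i _ => hterm i)
          _ = m * (ψ x ^ (k - 1) * dv F x ^ (1 - δ)) := by
              simp [hm_def]; ring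
      have hyoung := young_bound (t := φ x * dv F x) hm0 (mul_nonneg hφ0 hD0) hδ0 hδ1
      have hfin : m * (ψ x ^ (k - 1) * dv F x ^ (1 - δ)) ≤ m * (φ x * dv F x) ^ (1 - δ) :=
        mul_le_mul_of_nonneg_left hkey hm0
      have h3 := hTsplit x
      have h4 := neg_abs_le (∑ i, pd i φ x * F i x)
      linarith
  -- integrate
  have hint1 : Integrable (fun x => B.indicator (fun _ => δ * m ^ (1 / δ)) x) :=
    (integrableOn_const (hBf.ne) : IntegrableOn (fun _ : Fin n → ℝ => δ * m ^ (1 / δ)) B volume).integrable_indicator hB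
  have hint3 : Integrable (fun x => (1 - δ) * (φ x * dv F x)) := hintφD.const_mul _
  have hint4 : Integrable (fun x => (1 - δ) * (φ x * dv F x)
      + B.indicator (fun _ => δ * m ^ (1 / δ)) x) := hint3.add hint1
  have hint2 : Integrable (fun x => T x + ((1 - δ) * (φ x * dv F x)
      + B.indicator (fun _ => δ * m ^ (1 / δ)) x)) := hintT'.add hint4
  have hmono := integral_mono hintφD hint2 hpt
  rw [integral_add hintT' hint4, integral_add hint3 hint1, integral_const_mul, hT0,
    integral_indicator hB, setIntegral_const] at hmono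
  simp only [smul_eq_mul, Measure.real] at hmono
  have hgoal : δ * ∫ x, φ x * dv F x ≤ δ * (m ^ (1 / δ) * (volume B).toReal) := by nlinarith
  exact le_of_mul_le_mul_left hgoal hδ0

/-- The abstract Liouville lemma. -/
theorem div_liouville (F : Fin n → (Fin n → ℝ) → ℝ) (hF : ∀ i, ContDiff ℝ 1 (F i))
    {C δ : ℝ} (hC : 0 ≤ C) (hδ0 : 0 < δ) (hδ1 : δ < 1) (hn : (n : ℝ) * δ < 1)
    (hpos : ∀ x, 0 ≤ dv F x)
    (hbd : ∀ i x, |F i x| ≤ C * (dv F x) ^ (1 - δ)) :
    ∀ x, dv F x = 0 := by
  classical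
  intro x₀
  by_contra hne
  have hx₀ : 0 < dv F x₀ := lt_of_le_of_ne (hpos x₀) (Ne.symm hne)
  have hcontD : Continuous (dv F) := by
    unfold dv
    exact continuous_finsetSum _ (fun i _ => continuous_pd (hF i) i)
  -- a ball where `D` is large
  obtain ⟨r, hr0, hr⟩ : ∃ r > 0, ∀ x ∈ Metric.ball x₀ r, dv F x₀ / 2 < dv F x := by
    have hopen : IsOpen {x | dv F x₀ / 2 < dv F x} := isOpen_lt continuous_const hcontD
    have hmem : x₀ ∈ {x | dv F x₀ / 2 < dv F x} := by
      show dv F x₀ / 2 < dv F x₀; linarith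
    obtain ⟨r, hr0, hr⟩ := Metric.isOpen_iff.1 hopen x₀ hmem
    exact ⟨r, hr0, fun x hx => hr hx⟩
  set c : ℝ := dv F x₀ / 2 * (volume (Metric.ball x₀ r)).toReal with hc_def
  have hvolpos : 0 < (volume (Metric.ball x₀ r)).toReal :=
    ENNReal.toReal_pos (Metric.measure_ball_pos _ _ hr0).ne' measure_ball_lt_top.ne
  have hcpos : 0 < c := by positivity
  -- the bump
  let η : ContDiffBump (0 : Fin n → ℝ) := ⟨1, 2, by norm_num, by norm_num⟩
  have hη : ContDiff ℝ 1 (η : (Fin n → ℝ) → ℝ) := η.contDiff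
  have hηc : HasCompactSupport (η : (Fin n → ℝ) → ℝ) := η.hasCompactSupport
  obtain ⟨L, hL0, hL⟩ := exists_pd_bound hη hηc
  -- the power
  obtain ⟨k, hk⟩ := exists_nat_ge (1 / δ)
  have hkδ : 1 ≤ (k : ℝ) * δ := by
    rw [div_le_iff₀ hδ0] at hk
    exact hk
  set A : ℝ := (n : ℝ) * k * L * C with hA_def
  have hA0 : 0 ≤ A := by positivity
  -- estimate for every R
  have hest : ∀ R : ℝ, 0 < R → ‖x₀‖ + r ≤ R → c ≤ (A / R) ^ (1 / δ) * (4 * R) ^ n := by
    intro R hR hRbig
    set ψ : (Fin n → ℝ) → ℝ := fun x => η (R⁻¹ • x) with hψ_def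
    have hscale : ContDiff ℝ 1 (fun x : Fin n → ℝ => R⁻¹ • x) := contDiff_id.const_smul R⁻¹
    have hψ : ContDiff ℝ 1 ψ := hη.comp hscale
    have hψsupp : ∀ x, ψ x ≠ 0 → x ∈ Metric.ball (0 : Fin n → ℝ) (2 * R) := by
      intro x hx
      have h1 : R⁻¹ • x ∈ Function.support (η : (Fin n → ℝ) → ℝ) := hx
      rw [η.support_eq] at h1
      have h2 : ‖R⁻¹ • x‖ < 2 := by simpa using h1
      rw [norm_smul, Real.norm_eq_abs, abs_of_pos (inv_pos.2 hR), inv_mul_lt_iff₀ hR] at h2
      simpa [mul_comm] using h2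
    have hψc : HasCompactSupport ψ := by
      refine HasCompactSupport.intro (K := Metric.closedBall (0 : Fin n → ℝ) (2 * R))
        (isCompact_closedBall _ _) ?_
      intro x hx
      by_contra h
      exact hx (Metric.ball_subset_closedBall (hψsupp x h))
    have hψ0 : ∀ x, 0 ≤ ψ x := fun x => η.nonneg
    have hψ1 : ∀ x, ψ x ≤ 1 := fun x => η.le_one
    have hpdψ : ∀ (i : Fin n) x, |pd i ψ x| ≤ L / R := by
      intro i x
      have hd : DifferentiableAt ℝ (η : (Fin n → ℝ) → ℝ) (R⁻¹ • x) :=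
        (hη.differentiable (by simp)) _
      have h1 : HasFDerivAt (fun y : Fin n → ℝ => R⁻¹ • y)
          (R⁻¹ • ContinuousLinearMap.id ℝ (Fin n → ℝ)) x :=
        (ContinuousLinearMap.id ℝ (Fin n → ℝ)).hasFDerivAt.const_smul R⁻¹
      have h2 := hd.hasFDerivAt.comp x h1
      have h3 : pd i ψ x = R⁻¹ * pd i (η : (Fin n → ℝ) → ℝ) (R⁻¹ • x) := by
        simp only [pd]
        have h4 : fderiv ℝ ψ x = _ := h2.fderiv
        rw [h4]
        simp
      rw [h3, abs_mul, abs_of_pos (inv_pos.2 hR), div_eq_inv_mul]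
      exact mul_le_mul_of_nonneg_left (hL i _) (inv_pos.2 hR).le
    have hmain := main_estimate F hF hC hδ0 hδ1 hpos hbd hψ hψc hψ0 hψ1
      (L := L / R) (by positivity) hpdψ hkδ (B := Metric.ball (0 : Fin n → ℝ) (2 * R))
      measurableSet_ball measure_ball_lt_top hψsupp
    have hvol : (volume (Metric.ball (0 : Fin n → ℝ) (2 * R))).toReal = (4 * R) ^ n := by
      rw [Real.volume_pi_ball _ (by positivity)]
      rw [ENNReal.toReal_ofReal (by positivity)]
      simp
      ring
    have hAR : (n : ℝ) * k * (L / R) * C = A / R := by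
      rw [hA_def]; ring
    rw [hvol, hAR] at hmain
    -- lower bound
    have hone : ∀ x ∈ Metric.ball x₀ r, ψ x = 1 := by
      intro x hx
      apply η.one_of_mem_closedBall
      have h1 : ‖x‖ ≤ R := by
        have h2 : dist x x₀ < r := hx
        rw [dist_eq_norm] at h2
        have h3 : ‖x‖ ≤ ‖x - x₀‖ + ‖x₀‖ := by
          simpa using norm_add_le (x - x₀) x₀
        linarith
      simp only [Metric.mem_closedBall, dist_zero_right, norm_smul, Real.norm_eq_abs,
        abs_of_pos (inv_pos.2 hR)]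
      change R⁻¹ * ‖x‖ ≤ 1
      rw [inv_mul_le_iff₀ hR]
      linarith
    have hlow : ∀ x, (Metric.ball x₀ r).indicator (fun _ => dv F x₀ / 2) x ≤ ψ x ^ k * dv F x := by
      intro x
      by_cases hx : x ∈ Metric.ball x₀ r
      · rw [Set.indicator_of_mem hx, hone x hx, one_pow, one_mul]
        exact (hr x hx).le
      · rw [Set.indicator_of_notMem hx]
        exact mul_nonneg (pow_nonneg (hψ0 x) k) (hpos x)
    have hint1 : Integrable (fun x => (Metric.ball x₀ r).indicator (fun _ => dv F x₀ / 2) x) :=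
      (integrableOn_const (measure_ball_lt_top.ne) :
        IntegrableOn (fun _ : Fin n → ℝ => dv F x₀ / 2) (Metric.ball x₀ r) volume).integrable_indicator
          measurableSet_ball
    have hint2 : Integrable (fun x => ψ x ^ k * dv F x) := by
      have hk0 : k ≠ 0 := by
        rintro rfl
        simp at hkδ
        linarith
      have hφc : HasCompactSupport (fun x => ψ x ^ k) := by
        refine HasCompactSupport.intro (K := tsupport ψ) hψc.isCompact ?_
        intro x hx
        have : ψ x = 0 := image_eq_zero_of_notMem_tsupport hx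
        simp [this, hk0]
      exact ((hψ.continuous.pow k).mul hcontD).integrable_of_hasCompactSupport hφc.mul_right
    have hmono := integral_mono hint1 hint2 hlow
    rw [integral_indicator measurableSet_ball, setIntegral_const] at hmono
    simp only [smul_eq_mul, Measure.real] at hmono
    have : c ≤ ∫ x, ψ x ^ k * dv F x := by
      rw [hc_def, mul_comm]
      exact hmono
    exact this.trans hmain
  -- the limit
  have he : 0 < 1 / δ - n := by
    have : (n : ℝ) < 1 / δ := by
      rw [lt_div_iff₀ hδ0]; exact hn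
    linarith
  have hlim : Filter.Tendsto (fun R : ℝ => A ^ (1 / δ) * 4 ^ n * R ^ (-(1 / δ - n)))
      Filter.atTop (nhds (A ^ (1 / δ) * 4 ^ n * 0)) :=
    (tendsto_rpow_neg_atTop he).const_mul _
  rw [mul_zero] at hlim
  have hev := (hlim.eventually (gt_mem_nhds hcpos)).and
    ((Filter.eventually_ge_atTop (‖x₀‖ + r)).and (Filter.eventually_gt_atTop (0 : ℝ)))
  obtain ⟨R, hR1, hR2, hR3⟩ := hev.exists
  have h := hest R hR3 hR2
  have heq : (A / R) ^ (1 / δ) * (4 * R) ^ n = A ^ (1 / δ) * 4 ^ n * R ^ (-(1 / δ - n)) := by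
    rw [Real.div_rpow hA0 hR3.le, mul_pow]
    have h1 : R ^ (-(1 / δ - n)) = R ^ (n : ℝ) / R ^ (1 / δ) := by
      rw [show -(1 / δ - (n : ℝ)) = (n : ℝ) - 1 / δ by ring, Real.rpow_sub hR3]
    rw [h1, Real.rpow_natCast]
    ring
  rw [heq] at h
  linarith

end Vale.Agent.Lib.P100
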