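import Vale.Agent.Lib.P100.Bound
import Vale.Agent.Lib.P100.Liouville

/-!
The Liouville criterion: a numerical certificate excludes positive solutions of the
Lane-Emden system.
-/

namespace Vale.Agent.Lib.P100

variable {n : ℕ}

/-- The numerical certificate. The weight is `u^a v^b` with `a = q μ - λ`, `b = p λ - μ`. -/
structure Cert (n : ℕ) (p q lam mu τ A5 A6 A9 A10 s1 s2 e : ℝ) : Prop where
  n_pos : 0 < n
  lam_nonneg : 0 ≤ lam
  mu_nonneg : 0 ≤ mu
  weight : (n : ℝ) < 4 + 2 * (lam + mu)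
  τ_pos : 0 < τ
  e_pos : 0 < e
  rest : ∀ W1 W2 x y z : ℝ, 0 ≤ W1 → 0 ≤ W2 → 0 ≤ x → 0 ≤ z → y ^ 2 ≤ x * z →
    e * (W1 ^ 2 + W2 ^ 2 + x ^ 2 + z ^ 2) ≤
      restF n (q * mu - lam) (p * lam - mu) p q τ A5 A6 A9 A10 s1 s2 W1 W2 x y z

/-- The divergence of the certificate field as two squares plus the remainder. -/
private lemma dv_eq_squares {p q a b τ A5 A6 A9 A10 s1 s2 : ℝ} (hn : 0 < n)
    {U V : (Fin n → ℝ) → ℝ} (hU : ContDiff ℝ 3 U) (hV : ContDiff ℝ 3 V)
    (eqU : ∀ x, lap U x + dot (grd U x) (grd U x) = - Real.exp (p * V x - U x))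
    (eqV : ∀ x, lap V x + dot (grd V x) (grd V x) = - Real.exp (q * U x - V x))
    (x : Fin n → ℝ) :
    dv (fieldF a b p q τ A5 A6 A9 A10 (1 - 1 / (n : ℝ) + s1) (τ * (1 - 1 / (n : ℝ)) + s2) U V) x =
      Real.exp (a * U x + b * V x) *
        (sqS (hsn U x) (grd U x) (grd V x) (1 + ((a - 2) / 2 - A5)) (b / 2 - A6)
            ((Real.exp (p * V x - U x) - ((a - 2) / 2 - A5) * dot (grd U x) (grd U x)
              - (b / 2 - A6) * dot (grd U x) (grd V x)) / n)
          + τ * sqS (hsn V x) (grd V x) (grd U x) (1 + ((b - 2) / 2 - A10)) (a / 2 - A9)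
            ((Real.exp (q * U x - V x) - (a / 2 - A9) * dot (grd U x) (grd V x)
              - ((b - 2) / 2 - A10) * dot (grd V x) (grd V x)) / n)
          + restF n a b p q τ A5 A6 A9 A10 s1 s2 (Real.exp (p * V x - U x))
              (Real.exp (q * U x - V x)) (dot (grd U x) (grd U x)) (dot (grd U x) (grd V x))
              (dot (grd V x) (grd V x))) := by
  have hn' : (n : ℝ) ≠ 0 := by positivity
  have hM : ∀ i j, hsn U x i j = hsn U x j i := fun i j => pd_comm (hU.of_le (by norm_num)) x i j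
  have hN : ∀ i j, hsn V x i j = hsn V x j i := fun i j => pd_comm (hV.of_le (by norm_num)) x i j
  have ht1 : trc (hsn U x) = - dot (grd U x) (grd U x) - Real.exp (p * V x - U x) := by
    have h1 := eqU x
    have e1 : lap U x = trc (hsn U x) := rfl
    linarith
  have ht2 : trc (hsn V x) = - dot (grd V x) (grd V x) - Real.exp (q * U x - V x) := by
    have h1 := eqV x
    have e1 : lap V x = trc (hsn V x) := rfl
    linarith
  rw [dv_fieldF a b p q τ A5 A6 A9 A10 _ _ hU hV x, sqS_expand hM, sqS_expand hN,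
    bil_comm hN (grd V x) (grd U x), dot_comm (grd V x) (grd U x), ht1, ht2]
  have key := Qdiv_eq (n : ℝ) hn' a b p q τ A5 A6 A9 A10 s1 s2
    (frob (hsn U x)) (frob (hsn V x))
    (bil (hsn U x) (grd U x) (grd U x)) (bil (hsn U x) (grd U x) (grd V x))
    (bil (hsn V x) (grd U x) (grd V x)) (bil (hsn V x) (grd V x) (grd V x))
    (dot (grd U x) (grd U x)) (dot (grd U x) (grd V x)) (dot (grd V x) (grd V x))
    (Real.exp (p * V x - U x)) (Real.exp (q * U x - V x))
  dsimp only at key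
  rw [key]

private lemma dot_self_nonneg' (X : Fin n → ℝ) : 0 ≤ dot X X :=
  Finset.sum_nonneg fun i _ => mul_self_nonneg _

private lemma dot_cauchy (X Y : Fin n → ℝ) : dot X Y ^ 2 ≤ dot X X * dot Y Y := by
  have h := Finset.sum_mul_sq_le_sq_mul_sq (Finset.univ : Finset (Fin n)) X Y
  have e1 : dot X X = ∑ i, X i ^ 2 := Finset.sum_congr rfl fun i _ => by ring
  have e2 : dot Y Y = ∑ i, Y i ^ 2 := Finset.sum_congr rfl fun i _ => by ring
  rw [e1, e2]
  exact h

/-- The criterion for the logarithmic system. -/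
theorem criterion_log {p q lam mu τ A5 A6 A9 A10 s1 s2 e : ℝ}
    (h : Cert n p q lam mu τ A5 A6 A9 A10 s1 s2 e) {U V : (Fin n → ℝ) → ℝ}
    (hU : ContDiff ℝ 3 U) (hV : ContDiff ℝ 3 V)
    (eqU : ∀ x, lap U x + dot (grd U x) (grd U x) = - Real.exp (p * V x - U x))
    (eqV : ∀ x, lap V x + dot (grd V x) (grd V x) = - Real.exp (q * U x - V x)) :
    False := by
  have hn : 0 < n := h.n_pos
  have hnR : (0 : ℝ) < n := by exact_mod_cast hn
  have hτ := h.τ_pos
  have he := h.e_pos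
  set a := q * mu - lam with ha
  set b := p * lam - mu with hb
  set K := 1 - 1 / (n : ℝ) with hK
  set r1 := (a - 2) / 2 - A5 with hr1
  set r2 := b / 2 - A6 with hr2
  set r3 := a / 2 - A9 with hr3
  set r4 := (b - 2) / 2 - A10 with hr4
  obtain ⟨C, hC0, hC⟩ := Zalg_bound hn r1 r2 r3 r4 τ A5 A6 A9 A10 (K + s1) (τ * K + s2)
  set F := fieldF a b p q τ A5 A6 A9 A10 (K + s1) (τ * K + s2) U V with hF
  set e0 := min 1 (min τ e) with he0
  have he0pos : 0 < e0 := lt_min one_pos (lt_min hτ he)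
  have he01 : e0 ≤ 1 := min_le_left _ _
  have he0τ : e0 ≤ τ := (min_le_right _ _).trans (min_le_left _ _)
  have he0e : e0 ≤ e := (min_le_right _ _).trans (min_le_right _ _)
  -- pointwise abbreviations
  let W1 : (Fin n → ℝ) → ℝ := fun x => Real.exp (p * V x - U x)
  let W2 : (Fin n → ℝ) → ℝ := fun x => Real.exp (q * U x - V x)
  let w : (Fin n → ℝ) → ℝ := fun x => Real.exp (a * U x + b * V x)
  let Q : (Fin n → ℝ) → ℝ := fun x =>
    Qt r1 r2 r3 r4 (hsn U x) (hsn V x) (grd U x) (grd V x) (W1 x) (W2 x)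
  have hW1 : ∀ x, 0 < W1 x := fun x => Real.exp_pos _
  have hW2 : ∀ x, 0 < W2 x := fun x => Real.exp_pos _
  have hw : ∀ x, 0 < w x := fun x => Real.exp_pos _
  -- the lower bound of the divergence
  have hlow : ∀ x, w x * (e0 * Q x) ≤ dv F x := by
    intro x
    have heq := dv_eq_squares (a := a) (b := b) (τ := τ) (A5 := A5) (A6 := A6) (A9 := A9)
      (A10 := A10) (s1 := s1) (s2 := s2) hn hU hV eqU eqV x
    rw [hF, heq]
    refine mul_le_mul_of_nonneg_left ?_ (hw x).le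
    have hrest := h.rest (W1 x) (W2 x) (dot (grd U x) (grd U x)) (dot (grd U x) (grd V x))
      (dot (grd V x) (grd V x)) (hW1 x).le (hW2 x).le (dot_self_nonneg' _) (dot_self_nonneg' _)
      (dot_cauchy _ _)
    have hS1 := sqS_nonneg (hsn U x) (grd U x) (grd V x) (1 + r1) r2
      ((W1 x - r1 * dot (grd U x) (grd U x) - r2 * dot (grd U x) (grd V x)) / n)
    have hS2 := sqS_nonneg (hsn V x) (grd V x) (grd U x) (1 + r4) r3
      ((W2 x - r3 * dot (grd U x) (grd V x) - r4 * dot (grd V x) (grd V x)) / n)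
    have hnn : 0 ≤ W1 x ^ 2 + W2 x ^ 2 + dot (grd U x) (grd U x) ^ 2 +
        dot (grd V x) (grd V x) ^ 2 := by positivity
    simp only [Q, Qt]
    change e0 * (_ + _ + W1 x ^ 2 + W2 x ^ 2 + _ + _) ≤ _
    have h1 := mul_le_mul_of_nonneg_right he01 hS1
    have h2 := mul_le_mul_of_nonneg_right he0τ hS2
    have h3 := mul_le_mul_of_nonneg_right he0e hnn
    change _ ≤ sqS (hsn U x) (grd U x) (grd V x) (1 + r1) r2
        ((W1 x - r1 * dot (grd U x) (grd U x) - r2 * dot (grd U x) (grd V x)) / n)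
      + τ * sqS (hsn V x) (grd V x) (grd U x) (1 + r4) r3
        ((W2 x - r3 * dot (grd U x) (grd V x) - r4 * dot (grd V x) (grd V x)) / n)
      + restF n a b p q τ A5 A6 A9 A10 s1 s2 (W1 x) (W2 x) (dot (grd U x) (grd U x))
          (dot (grd U x) (grd V x)) (dot (grd V x) (grd V x))
    nlinarith
  have hQ1 : ∀ x, W1 x ^ 2 ≤ Q x := by
    intro x
    have hS1 := sqS_nonneg (hsn U x) (grd U x) (grd V x) (1 + r1) r2
      ((W1 x - r1 * dot (grd U x) (grd U x) - r2 * dot (grd U x) (grd V x)) / n)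
    have hS2 := sqS_nonneg (hsn V x) (grd V x) (grd U x) (1 + r4) r3
      ((W2 x - r3 * dot (grd U x) (grd V x) - r4 * dot (grd V x) (grd V x)) / n)
    simp only [Q, Qt]
    nlinarith [sq_nonneg (W2 x), sq_nonneg (dot (grd U x) (grd U x)),
      sq_nonneg (dot (grd V x) (grd V x))]
  have hQ2 : ∀ x, W2 x ^ 2 ≤ Q x := by
    intro x
    have hS1 := sqS_nonneg (hsn U x) (grd U x) (grd V x) (1 + r1) r2
      ((W1 x - r1 * dot (grd U x) (grd U x) - r2 * dot (grd U x) (grd V x)) / n)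
    have hS2 := sqS_nonneg (hsn V x) (grd V x) (grd U x) (1 + r4) r3
      ((W2 x - r3 * dot (grd U x) (grd V x) - r4 * dot (grd V x) (grd V x)) / n)
    simp only [Q, Qt]
    nlinarith [sq_nonneg (W1 x), sq_nonneg (dot (grd U x) (grd U x)),
      sq_nonneg (dot (grd V x) (grd V x))]
  have hQpos : ∀ x, 0 < Q x := fun x => lt_of_lt_of_le (pow_pos (hW1 x) 2) (hQ1 x)
  have hDpos : ∀ x, 0 < dv F x := fun x =>
    lt_of_lt_of_le (mul_pos (hw x) (mul_pos he0pos (hQpos x))) (hlow x)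
  -- the fourth root
  let T : (Fin n → ℝ) → ℝ := fun x => Q x ^ ((1 : ℝ) / 4)
  have hTpos : ∀ x, 0 < T x := fun x => Real.rpow_pos_of_pos (hQpos x) _
  have hT4 : ∀ x, T x ^ 4 = Q x := by
    intro x
    simp only [T]
    rw [← Real.rpow_natCast, ← Real.rpow_mul (hQpos x).le]
    norm_num
  have hWT1 : ∀ x, W1 x ≤ T x ^ 2 := by
    intro x
    refine abs_le_of_sq_le_sq' ?_ (by positivity) |>.2
    have : (T x ^ 2) ^ 2 = Q x := by rw [← hT4 x]; ring
    rw [this]
    exact hQ1 x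
  have hWT2 : ∀ x, W2 x ≤ T x ^ 2 := by
    intro x
    refine abs_le_of_sq_le_sq' ?_ (by positivity) |>.2
    have : (T x ^ 2) ^ 2 = Q x := by rw [← hT4 x]; ring
    rw [this]
    exact hQ2 x
  -- the weight
  have hlam := h.lam_nonneg
  have hmu := h.mu_nonneg
  set σ := lam + mu with hσ
  have hσ0 : 0 ≤ σ := add_nonneg hlam hmu
  have hwT : ∀ x, w x ≤ T x ^ (2 * σ) := by
    intro x
    have e1 : w x = W1 x ^ lam * W2 x ^ mu := by
      simp only [w, W1, W2]
      rw [← Real.exp_mul, ← Real.exp_mul, ← Real.exp_add]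
      congr 1
      rw [ha, hb]
      ring
    have e2 : T x ^ (2 * σ) = (T x ^ 2) ^ lam * (T x ^ 2) ^ mu := by
      rw [← Real.rpow_add (pow_pos (hTpos x) 2), ← Real.rpow_natCast (T x) 2,
        ← Real.rpow_mul (hTpos x).le, hσ]
      norm_num
    rw [e1, e2]
    exact mul_le_mul (Real.rpow_le_rpow (hW1 x).le (hWT1 x) hlam)
      (Real.rpow_le_rpow (hW2 x).le (hWT2 x) hmu) (Real.rpow_nonneg (hW2 x).le _)
      (Real.rpow_nonneg (pow_pos (hTpos x) 2).le _)
  -- the exponent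
  set δ := 1 / (2 * σ + 4) with hδ
  have hden : 0 < 2 * σ + 4 := by linarith
  have hδ0 : 0 < δ := by positivity
  have hδ1 : δ < 1 := by
    rw [hδ, div_lt_one hden]
    linarith
  have hnδ : (n : ℝ) * δ < 1 := by
    have hw' := h.weight
    rw [hδ, mul_one_div, div_lt_one hden]
    linarith
  have hexp : 0 ≤ 1 - δ := by linarith
  -- the size bound
  have hbd : ∀ i x, |F i x| ≤ (C * (e0⁻¹) ^ (1 - δ)) * (dv F x) ^ (1 - δ) := by
    intro i x
    have hZ := hC (hsn U x) (hsn V x) (grd U x) (grd V x) (W1 x) (W2 x) (T x) (hW1 x).le (hW2 x).le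
      (hTpos x).le
      (by
        have h1 := eqU x
        have e1 : lap U x = trc (hsn U x) := rfl
        simp only [W1]
        linarith)
      (by
        have h1 := eqV x
        have e1 : lap V x = trc (hsn V x) := rfl
        simp only [W2]
        linarith)
      (le_of_eq (hT4 x).symm) i
    have hkey := rpow_key (hw x) (hTpos x) hσ0 (hwT x)
    have hF' : F i x = w x * Zalg τ A5 A6 A9 A10 (K + s1) (τ * K + s2) (hsn U x) (hsn V x)
        (grd U x) (grd V x) (W1 x) (W2 x) i := rfl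
    rw [hF', abs_mul, abs_of_pos (hw x)]
    have h1 : w x * T x ^ 4 ≤ e0⁻¹ * dv F x := by
      rw [hT4 x, le_inv_mul_iff₀ he0pos]
      have := hlow x
      nlinarith
    have h2 : (w x * T x ^ 4) ^ (1 - δ) ≤ (e0⁻¹) ^ (1 - δ) * (dv F x) ^ (1 - δ) := by
      rw [← Real.mul_rpow (inv_pos.2 he0pos).le (hDpos x).le]
      exact Real.rpow_le_rpow (mul_pos (hw x) (pow_pos (hTpos x) 4)).le h1 hexp
    calc w x * |Zalg τ A5 A6 A9 A10 (K + s1) (τ * K + s2) (hsn U x) (hsn V x)
          (grd U x) (grd V x) (W1 x) (W2 x) i|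
        ≤ w x * (C * T x ^ 3) := mul_le_mul_of_nonneg_left hZ (hw x).le
      _ = C * (w x * T x ^ 3) := by ring
      _ ≤ C * (w x * T x ^ 4) ^ (1 - δ) := mul_le_mul_of_nonneg_left hkey hC0
      _ ≤ C * ((e0⁻¹) ^ (1 - δ) * (dv F x) ^ (1 - δ)) := mul_le_mul_of_nonneg_left h2 hC0
      _ = _ := by ring
  have hzero := div_liouville F (fun i => contDiff_fieldF _ _ _ _ _ _ _ _ _ _ _ hU hV i)
    (mul_nonneg hC0 (Real.rpow_nonneg (inv_pos.2 he0pos).le _)) hδ0 hδ1 hnδ
    (fun x => (hDpos x).le) hbd 0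
  exact (hDpos 0).ne' hzero

/-- The criterion for the Lane-Emden system. -/
theorem criterion {p q lam mu τ A5 A6 A9 A10 s1 s2 e : ℝ}
    (h : Cert n p q lam mu τ A5 A6 A9 A10 s1 s2 e) {u v : (Fin n → ℝ) → ℝ}
    (hu : ContDiff ℝ 3 u) (hv : ContDiff ℝ 3 v) (upos : ∀ x, 0 < u x) (vpos : ∀ x, 0 < v x)
    (eq1 : ∀ x, - lap u x = v x ^ p) (eq2 : ∀ x, - lap v x = u x ^ q) :
    False := by
  refine criterion_log h (contDiff_log hu upos) (contDiff_log hv vpos) ?_ ?_
  · intro x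
    rw [log_eq hu upos x]
    have h1 : lap u x = - v x ^ p := by linarith [eq1 x]
    rw [h1, neg_div]
    congr 1
    rw [Real.rpow_def_of_pos (vpos x), Real.exp_sub, Real.exp_log (upos x), mul_comm p]
  · intro x
    rw [log_eq hv vpos x]
    have h1 : lap v x = - u x ^ q := by linarith [eq2 x]
    rw [h1, neg_div]
    congr 1
    rw [Real.rpow_def_of_pos (upos x), Real.exp_sub, Real.exp_log (vpos x), mul_comm q]

end Vale.Agent.Lib.P100
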