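import Vale.Agent.Lib.P100.Reduction

/-!
The vector field of the certificate and its divergence.
-/

namespace Vale.Agent.Lib.P100

variable {n : ℕ}

/-- The algebraic shape of the field: the value of `Z` given the jet at the point. -/
noncomputable def Zalg (τ A5 A6 A9 A10 c11 c14 : ℝ) (M N : Fin n → Fin n → ℝ) (X Y : Fin n → ℝ)
    (W1 W2 : ℝ) (i : Fin n) : ℝ :=
  (∑ j, M i j * X j - trc M * X i)
    + τ * (∑ j, N i j * Y j - trc N * Y i)
    - A5 * (dot X X * X i) - A6 * (dot X X * Y i)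
    - τ * A9 * (dot Y Y * X i) - τ * A10 * (dot Y Y * Y i)
    - c11 * (W1 * X i) - c14 * (W2 * Y i)

/-- The certificate vector field. -/
noncomputable def fieldF (a b p q τ A5 A6 A9 A10 c11 c14 : ℝ) (U V : (Fin n → ℝ) → ℝ)
    (i : Fin n) (x : Fin n → ℝ) : ℝ :=
  Real.exp (a * U x + b * V x) *
    Zalg τ A5 A6 A9 A10 c11 c14 (hsn U x) (hsn V x) (grd U x) (grd V x)
      (Real.exp (p * V x - U x)) (Real.exp (q * U x - V x)) i

/-! ### Smoothness of the jets -/

private lemma cd_grd {U : (Fin n → ℝ) → ℝ} (hU : ContDiff ℝ 3 U) (j : Fin n) :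
    ContDiff ℝ 1 (fun y => grd U y j) :=
  (contDiff_pd_two hU j).of_le (by norm_num)

private lemma cd_hsn {U : (Fin n → ℝ) → ℝ} (hU : ContDiff ℝ 3 U) (i j : Fin n) :
    ContDiff ℝ 1 (fun y => hsn U y i j) :=
  contDiff_pd_one (contDiff_pd_two hU j) i

private lemma cd_trc {U : (Fin n → ℝ) → ℝ} (hU : ContDiff ℝ 3 U) :
    ContDiff ℝ 1 (fun y => trc (hsn U y)) :=
  ContDiff.sum fun k _ => cd_hsn hU k k

private lemma cd_dot {U V : (Fin n → ℝ) → ℝ} (hU : ContDiff ℝ 3 U) (hV : ContDiff ℝ 3 V) :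
    ContDiff ℝ 1 (fun y => dot (grd U y) (grd V y)) :=
  ContDiff.sum fun k _ => (cd_grd hU k).mul (cd_grd hV k)

private lemma cd_c1 {U : (Fin n → ℝ) → ℝ} (hU : ContDiff ℝ 3 U) : ContDiff ℝ 1 U :=
  hU.of_le (by norm_num)

private lemma cd_w (α β : ℝ) {U V : (Fin n → ℝ) → ℝ} (hU : ContDiff ℝ 3 U) (hV : ContDiff ℝ 3 V) :
    ContDiff ℝ 1 (fun y => Real.exp (α * U y + β * V y)) :=
  Real.contDiff_exp.comp ((contDiff_const.mul (cd_c1 hU)).add (contDiff_const.mul (cd_c1 hV)))

private lemma cd_w1 (p : ℝ) {U V : (Fin n → ℝ) → ℝ} (hU : ContDiff ℝ 3 U) (hV : ContDiff ℝ 3 V) :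
    ContDiff ℝ 1 (fun y => Real.exp (p * V y - U y)) :=
  Real.contDiff_exp.comp ((contDiff_const.mul (cd_c1 hV)).sub (cd_c1 hU))

private lemma cd_piece1 {U : (Fin n → ℝ) → ℝ} (hU : ContDiff ℝ 3 U) (i : Fin n) :
    ContDiff ℝ 1 (fun y => ∑ j, hsn U y i j * grd U y j - trc (hsn U y) * grd U y i) :=
  (ContDiff.sum fun j _ => (cd_hsn hU i j).mul (cd_grd hU j)).sub ((cd_trc hU).mul (cd_grd hU i))

private lemma cd_Zalg (p q τ A5 A6 A9 A10 c11 c14 : ℝ) {U V : (Fin n → ℝ) → ℝ}
    (hU : ContDiff ℝ 3 U) (hV : ContDiff ℝ 3 V) (i : Fin n) :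
    ContDiff ℝ 1 (fun y => Zalg τ A5 A6 A9 A10 c11 c14 (hsn U y) (hsn V y) (grd U y) (grd V y)
      (Real.exp (p * V y - U y)) (Real.exp (q * U y - V y)) i) := by
  unfold Zalg
  exact ((((((((cd_piece1 hU i).add (contDiff_const.mul (cd_piece1 hV i))).sub
    (contDiff_const.mul ((cd_dot hU hU).mul (cd_grd hU i)))).sub
    (contDiff_const.mul ((cd_dot hU hU).mul (cd_grd hV i)))).sub
    (contDiff_const.mul ((cd_dot hV hV).mul (cd_grd hU i)))).sub
    (contDiff_const.mul ((cd_dot hV hV).mul (cd_grd hV i)))).sub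
    (contDiff_const.mul ((cd_w1 p hU hV).mul (cd_grd hU i)))).sub
    (contDiff_const.mul ((cd_w1 q hV hU).mul (cd_grd hV i))))

theorem contDiff_fieldF (a b p q τ A5 A6 A9 A10 c11 c14 : ℝ) {U V : (Fin n → ℝ) → ℝ}
    (hU : ContDiff ℝ 3 U) (hV : ContDiff ℝ 3 V) (i : Fin n) :
    ContDiff ℝ 1 (fieldF a b p q τ A5 A6 A9 A10 c11 c14 U V i) :=
  (cd_w a b hU hV).mul (cd_Zalg p q τ A5 A6 A9 A10 c11 c14 hU hV i)

/-! ### Differentiability shorthand -/

private lemma dA {f : (Fin n → ℝ) → ℝ} (hf : ContDiff ℝ 1 f) (x : Fin n → ℝ) :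
    DifferentiableAt ℝ f x :=
  (hf.differentiable (by norm_num)) x

/-! ### Derivatives of the pieces -/

/-- Gradient of `⟪∇A, ∇B⟫`. -/
private lemma pd_dot {A B : (Fin n → ℝ) → ℝ} (hA : ContDiff ℝ 3 A) (hB : ContDiff ℝ 3 B)
    (x : Fin n → ℝ) (i : Fin n) :
    pd i (fun y => dot (grd A y) (grd B y)) x =
      ∑ j, (hsn A x i j * grd B x j + grd A x j * hsn B x i j) := by
  have : (fun y => dot (grd A y) (grd B y)) = fun y => ∑ j, grd A y j * grd B y j := rfl
  rw [this, pd_sum _ (fun j _ => dA ((cd_grd hA j).mul (cd_grd hB j)) x)]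
  refine Finset.sum_congr rfl fun j _ => ?_
  have h := pd_mul (dA (cd_grd hA j) x) (dA (cd_grd hB j) x) i
  exact h

private lemma pd_trc {A : (Fin n → ℝ) → ℝ} (hA : ContDiff ℝ 3 A) (x : Fin n → ℝ) (i : Fin n) :
    pd i (fun y => trc (hsn A y)) x = ∑ k, pd i (pd k (pd k A)) x := by
  have : (fun y => trc (hsn A y)) = fun y => ∑ k, pd k (pd k A) y := rfl
  rw [this]
  exact pd_sum _ (f := fun k => pd k (pd k A)) (fun k _ => dA (cd_hsn hA k k) x) i

/-- Symmetry of the third derivative. -/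
private lemma pd3_comm {A : (Fin n → ℝ) → ℝ} (hA : ContDiff ℝ 3 A) (x : Fin n → ℝ) (i j : Fin n) :
    pd i (pd i (pd j A)) x = pd j (pd i (pd i A)) x := by
  have h1 : pd i (pd j A) = pd j (pd i A) := by
    funext y
    exact pd_comm (hA.of_le (by norm_num)) y i j
  rw [h1]
  exact pd_comm (contDiff_pd_two hA i) x i j

/-- The divergence of `M X - (tr M) X`: the third derivatives cancel. -/
private lemma sum_pd_piece1 {A : (Fin n → ℝ) → ℝ} (hA : ContDiff ℝ 3 A) (x : Fin n → ℝ) :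
    ∑ i, pd i (fun y => ∑ j, hsn A y i j * grd A y j - trc (hsn A y) * grd A y i) x =
      frob (hsn A x) - trc (hsn A x) ^ 2 := by
  have hpt : ∀ i, pd i (fun y => ∑ j, hsn A y i j * grd A y j - trc (hsn A y) * grd A y i) x =
      (∑ j, (pd i (pd i (pd j A)) x * grd A x j + hsn A x i j ^ 2))
        - ((∑ k, pd i (pd k (pd k A)) x) * grd A x i + trc (hsn A x) * hsn A x i i) := by
    intro i
    rw [pd_sub (dA (ContDiff.sum fun j _ => (cd_hsn hA i j).mul (cd_grd hA j)) x)
      (dA ((cd_trc hA).mul (cd_grd hA i)) x)]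
    congr 1
    · rw [pd_sum _ (fun j _ => dA ((cd_hsn hA i j).mul (cd_grd hA j)) x)]
      refine Finset.sum_congr rfl fun j _ => ?_
      have h := pd_mul (dA (cd_hsn hA i j) x) (dA (cd_grd hA j) x) i
      have e : pd i (fun y => hsn A y i j) x = pd i (pd i (pd j A)) x := rfl
      have e' : pd i (fun y => grd A y j) x = hsn A x i j := rfl
      rw [e, e'] at h
      have e'' : hsn A x i j * hsn A x i j = hsn A x i j ^ 2 := by ring
      rw [← e'']
      exact h
    · have h := pd_mul (dA (cd_trc hA) x) (dA (cd_grd hA i) x) i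
      rw [pd_trc hA] at h
      exact h
  simp only [hpt]
  rw [Finset.sum_sub_distrib]
  simp only [Finset.sum_add_distrib]
  have e1 : ∑ i, ∑ j, pd i (pd i (pd j A)) x * grd A x j =
      ∑ i, (∑ k, pd i (pd k (pd k A)) x) * grd A x i := by
    rw [Finset.sum_comm]
    refine Finset.sum_congr rfl fun j _ => ?_
    rw [Finset.sum_mul]
    refine Finset.sum_congr rfl fun i _ => ?_
    rw [pd3_comm hA]
  have e2 : ∑ i, trc (hsn A x) * hsn A x i i = trc (hsn A x) ^ 2 := by
    rw [← Finset.mul_sum, sq]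
    rfl
  rw [e1, e2]
  have : ∑ i, ∑ j, hsn A x i j ^ 2 = frob (hsn A x) := rfl
  rw [this]
  ring

/-- The divergence of `⟪∇A, ∇A⟫ ∇B`. -/
private lemma sum_pd_piece2 {A B : (Fin n → ℝ) → ℝ} (hA : ContDiff ℝ 3 A) (hB : ContDiff ℝ 3 B)
    (x : Fin n → ℝ) :
    ∑ i, pd i (fun y => dot (grd A y) (grd A y) * grd B y i) x =
      2 * bil (hsn A x) (grd B x) (grd A x) + dot (grd A x) (grd A x) * trc (hsn B x) := by
  have hpt : ∀ i, pd i (fun y => dot (grd A y) (grd A y) * grd B y i) x =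
      (∑ j, (hsn A x i j * grd A x j + grd A x j * hsn A x i j)) * grd B x i
        + dot (grd A x) (grd A x) * hsn B x i i := by
    intro i
    have h := pd_mul (dA (cd_dot hA hA) x) (dA (cd_grd hB i) x) i
    rw [pd_dot hA hA] at h
    exact h
  simp only [hpt]
  rw [Finset.sum_add_distrib, ← Finset.mul_sum]
  congr 1
  unfold bil
  rw [Finset.mul_sum]
  refine Finset.sum_congr rfl fun i _ => ?_
  rw [Finset.sum_mul, Finset.mul_sum]
  refine Finset.sum_congr rfl fun j _ => ?_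
  ring

/-- The divergence of `exp S ∇C`, with `∂ᵢ S = Gᵢ`. -/
private lemma sum_pd_piece3 {S C : (Fin n → ℝ) → ℝ} (hS : ContDiff ℝ 1 S) (hC : ContDiff ℝ 3 C)
    (x : Fin n → ℝ) :
    ∑ i, pd i (fun y => Real.exp (S y) * grd C y i) x =
      Real.exp (S x) * ((∑ i, pd i S x * grd C x i) + trc (hsn C x)) := by
  have hexp : ContDiff ℝ 1 (fun y => Real.exp (S y)) := Real.contDiff_exp.comp hS
  have hpt : ∀ i, pd i (fun y => Real.exp (S y) * grd C y i) x =
      Real.exp (S x) * (pd i S x * grd C x i + hsn C x i i) := by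
    intro i
    have h := pd_mul (dA hexp x) (dA (cd_grd hC i) x) i
    rw [pd_exp (dA hS x)] at h
    have e : pd i (fun y => grd C y i) x = hsn C x i i := rfl
    rw [e] at h
    rw [h]
    ring
  simp only [hpt]
  rw [← Finset.mul_sum, Finset.sum_add_distrib]
  rfl

private lemma pd_w1 (p : ℝ) {U V : (Fin n → ℝ) → ℝ} (hU : ContDiff ℝ 3 U) (hV : ContDiff ℝ 3 V)
    (x : Fin n → ℝ) (i : Fin n) :
    pd i (fun y => p * V y - U y) x = p * grd V x i - grd U x i := by
  rw [pd_sub (dA (contDiff_const.mul (cd_c1 hV)) x) (dA (cd_c1 hU) x),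
    pd_const_mul p (dA (cd_c1 hV) x)]
  rfl

private lemma sum_pd_W1 (p : ℝ) {U V C : (Fin n → ℝ) → ℝ} (hU : ContDiff ℝ 3 U)
    (hV : ContDiff ℝ 3 V) (hC : ContDiff ℝ 3 C) (x : Fin n → ℝ) :
    ∑ i, pd i (fun y => Real.exp (p * V y - U y) * grd C y i) x =
      Real.exp (p * V x - U x) * (p * dot (grd V x) (grd C x) - dot (grd U x) (grd C x)
        + trc (hsn C x)) := by
  rw [sum_pd_piece3 ((contDiff_const.mul (cd_c1 hV)).sub (cd_c1 hU)) hC]
  congr 2
  simp only [pd_w1 p hU hV, dot]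
  rw [Finset.mul_sum, ← Finset.sum_sub_distrib]
  exact Finset.sum_congr rfl fun i _ => by ring

/-! ### Algebra -/

private lemma sum_E_T1 (M : Fin n → Fin n → ℝ) (E X : Fin n → ℝ) :
    ∑ i, E i * (∑ j, M i j * X j - trc M * X i) = bil M E X - trc M * dot E X := by
  have : ∑ i, E i * (∑ j, M i j * X j - trc M * X i) =
      ∑ i, ∑ j, E i * M i j * X j - trc M * ∑ i, E i * X i := by
    rw [Finset.mul_sum, ← Finset.sum_sub_distrib]
    refine Finset.sum_congr rfl fun i _ => ?_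
    rw [mul_sub, Finset.mul_sum]
    congr 1
    · exact Finset.sum_congr rfl fun j _ => by ring
    · ring
  rw [this]
  rfl

/-- Linear expansion of `bil` and `dot` in the first slot. -/
private lemma bil_add_left (M : Fin n → Fin n → ℝ) (a b : ℝ) (X Y Z : Fin n → ℝ) :
    bil M (fun i => a * X i + b * Y i) Z = a * bil M X Z + b * bil M Y Z := by
  simp only [bil, Finset.mul_sum, ← Finset.sum_add_distrib]
  exact Finset.sum_congr rfl fun i _ => Finset.sum_congr rfl fun j _ => by ring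

private lemma dot_add_left (a b : ℝ) (X Y Z : Fin n → ℝ) :
    dot (fun i => a * X i + b * Y i) Z = a * dot X Z + b * dot Y Z := by
  simp only [dot, Finset.mul_sum, ← Finset.sum_add_distrib]
  exact Finset.sum_congr rfl fun i _ => by ring

/-- The product `E · Z`, with `E = a X + b Y`. -/
private lemma sum_E_Zalg {M N : Fin n → Fin n → ℝ} (hM : ∀ i j, M i j = M j i)
    (τ A5 A6 A9 A10 c11 c14 a b : ℝ) (X Y : Fin n → ℝ) (W1 W2 : ℝ) :
    ∑ i, (a * X i + b * Y i) * Zalg τ A5 A6 A9 A10 c11 c14 M N X Y W1 W2 i =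
      (a * bil M X X + b * bil M X Y - trc M * (a * dot X X + b * dot X Y))
      + τ * (a * bil N X Y + b * bil N Y Y - trc N * (a * dot X Y + b * dot Y Y))
      - A5 * ((a * dot X X + b * dot X Y) * dot X X)
      - A6 * ((a * dot X Y + b * dot Y Y) * dot X X)
      - τ * A9 * ((a * dot X X + b * dot X Y) * dot Y Y)
      - τ * A10 * ((a * dot X Y + b * dot Y Y) * dot Y Y)
      - c11 * ((a * dot X X + b * dot X Y) * W1)
      - c14 * ((a * dot X Y + b * dot Y Y) * W2) := by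
  set E : Fin n → ℝ := fun i => a * X i + b * Y i with hE
  have e1 := sum_E_T1 M E X
  have e2 := sum_E_T1 N E Y
  rw [hE, bil_add_left, dot_add_left] at e1 e2
  have hbY : bil M Y X = bil M X Y := bil_comm hM Y X
  have hdYX : dot Y X = dot X Y := dot_comm Y X
  have e1' : ∑ i, (a * X i + b * Y i) * (∑ j, M i j * X j - trc M * X i) = _ := e1
  have e2' : ∑ i, (a * X i + b * Y i) * (∑ j, N i j * Y j - trc N * Y i) = _ := e2
  -- the term-wise expansion
  have hterm : ∀ i, (a * X i + b * Y i) * Zalg τ A5 A6 A9 A10 c11 c14 M N X Y W1 W2 i =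
      (a * X i + b * Y i) * (∑ j, M i j * X j - trc M * X i)
      + τ * ((a * X i + b * Y i) * (∑ j, N i j * Y j - trc N * Y i))
      - A5 * dot X X * (a * (X i * X i) + b * (X i * Y i))
      - A6 * dot X X * (a * (X i * Y i) + b * (Y i * Y i))
      - τ * A9 * dot Y Y * (a * (X i * X i) + b * (X i * Y i))
      - τ * A10 * dot Y Y * (a * (X i * Y i) + b * (Y i * Y i))
      - c11 * W1 * (a * (X i * X i) + b * (X i * Y i))
      - c14 * W2 * (a * (X i * Y i) + b * (Y i * Y i)) := by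
    intro i
    unfold Zalg
    ring
  simp only [hterm]
  have s1 : ∑ i, X i * X i = dot X X := rfl
  have s2 : ∑ i, X i * Y i = dot X Y := rfl
  have s3 : ∑ i, Y i * Y i = dot Y Y := rfl
  simp only [Finset.sum_sub_distrib, Finset.sum_add_distrib, ← Finset.mul_sum]
  rw [s1, s2, s3, e1', e2', hbY, hdYX]
  ring

/-- The divergence of the un-weighted field. -/
private lemma sum_pd_Zalg (p q τ A5 A6 A9 A10 c11 c14 : ℝ) {U V : (Fin n → ℝ) → ℝ}
    (hU : ContDiff ℝ 3 U) (hV : ContDiff ℝ 3 V) (x : Fin n → ℝ) :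
    ∑ i, pd i (fun y => Zalg τ A5 A6 A9 A10 c11 c14 (hsn U y) (hsn V y) (grd U y) (grd V y)
      (Real.exp (p * V y - U y)) (Real.exp (q * U y - V y)) i) x =
    (frob (hsn U x) - trc (hsn U x) ^ 2) + τ * (frob (hsn V x) - trc (hsn V x) ^ 2)
      - A5 * (2 * bil (hsn U x) (grd U x) (grd U x) + dot (grd U x) (grd U x) * trc (hsn U x))
      - A6 * (2 * bil (hsn U x) (grd V x) (grd U x) + dot (grd U x) (grd U x) * trc (hsn V x))
      - τ * A9 * (2 * bil (hsn V x) (grd U x) (grd V x) + dot (grd V x) (grd V x) * trc (hsn U x))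
      - τ * A10 * (2 * bil (hsn V x) (grd V x) (grd V x) + dot (grd V x) (grd V x) * trc (hsn V x))
      - c11 * (Real.exp (p * V x - U x) * (p * dot (grd V x) (grd U x) - dot (grd U x) (grd U x)
          + trc (hsn U x)))
      - c14 * (Real.exp (q * U x - V x) * (q * dot (grd U x) (grd V x) - dot (grd V x) (grd V x)
          + trc (hsn V x))) := by
  have d1 := cd_piece1 hU
  have d2 := cd_piece1 hV
  have d3 : ∀ {A B : (Fin n → ℝ) → ℝ}, ContDiff ℝ 3 A → ContDiff ℝ 3 B → ∀ i,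
      ContDiff ℝ 1 (fun y => dot (grd A y) (grd A y) * grd B y i) :=
    fun hA hB i => (cd_dot hA hA).mul (cd_grd hB i)
  have d4 : ∀ (r : ℝ) {A B C : (Fin n → ℝ) → ℝ}, ContDiff ℝ 3 A → ContDiff ℝ 3 B →
      ContDiff ℝ 3 C → ∀ i,
      ContDiff ℝ 1 (fun y => Real.exp (r * B y - A y) * grd C y i) :=
    fun r _ _ _ hA hB hC i => (cd_w1 r hA hB).mul (cd_grd hC i)
  have hpt : ∀ i, pd i (fun y => Zalg τ A5 A6 A9 A10 c11 c14 (hsn U y) (hsn V y) (grd U y)
      (grd V y) (Real.exp (p * V y - U y)) (Real.exp (q * U y - V y)) i) x =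
      pd i (fun y => ∑ j, hsn U y i j * grd U y j - trc (hsn U y) * grd U y i) x
      + τ * pd i (fun y => ∑ j, hsn V y i j * grd V y j - trc (hsn V y) * grd V y i) x
      - A5 * pd i (fun y => dot (grd U y) (grd U y) * grd U y i) x
      - A6 * pd i (fun y => dot (grd U y) (grd U y) * grd V y i) x
      - τ * A9 * pd i (fun y => dot (grd V y) (grd V y) * grd U y i) x
      - τ * A10 * pd i (fun y => dot (grd V y) (grd V y) * grd V y i) x
      - c11 * pd i (fun y => Real.exp (p * V y - U y) * grd U y i) x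
      - c14 * pd i (fun y => Real.exp (q * U y - V y) * grd V y i) x := by
    intro i
    unfold Zalg
    rw [pd_sub (dA (((((((d1 i).add (contDiff_const.mul (d2 i))).sub
      (contDiff_const.mul (d3 hU hU i))).sub (contDiff_const.mul (d3 hU hV i))).sub
      (contDiff_const.mul (d3 hV hU i))).sub (contDiff_const.mul (d3 hV hV i))).sub
      (contDiff_const.mul (d4 p hU hV hU i))) x) (dA (contDiff_const.mul (d4 q hV hU hV i)) x),
      pd_sub (dA ((((((d1 i).add (contDiff_const.mul (d2 i))).sub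
      (contDiff_const.mul (d3 hU hU i))).sub (contDiff_const.mul (d3 hU hV i))).sub
      (contDiff_const.mul (d3 hV hU i))).sub (contDiff_const.mul (d3 hV hV i))) x)
      (dA (contDiff_const.mul (d4 p hU hV hU i)) x),
      pd_sub (dA (((((d1 i).add (contDiff_const.mul (d2 i))).sub
      (contDiff_const.mul (d3 hU hU i))).sub (contDiff_const.mul (d3 hU hV i))).sub
      (contDiff_const.mul (d3 hV hU i))) x) (dA (contDiff_const.mul (d3 hV hV i)) x),
      pd_sub (dA ((((d1 i).add (contDiff_const.mul (d2 i))).sub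
      (contDiff_const.mul (d3 hU hU i))).sub (contDiff_const.mul (d3 hU hV i))) x)
      (dA (contDiff_const.mul (d3 hV hU i)) x),
      pd_sub (dA (((d1 i).add (contDiff_const.mul (d2 i))).sub
      (contDiff_const.mul (d3 hU hU i))) x) (dA (contDiff_const.mul (d3 hU hV i)) x),
      pd_sub (dA ((d1 i).add (contDiff_const.mul (d2 i))) x) (dA (contDiff_const.mul (d3 hU hU i)) x),
      pd_add (dA (d1 i) x) (dA (contDiff_const.mul (d2 i)) x),
      pd_const_mul τ (dA (d2 i) x),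
      pd_const_mul A5 (dA (d3 hU hU i) x),
      pd_const_mul A6 (dA (d3 hU hV i) x),
      pd_const_mul (τ * A9) (dA (d3 hV hU i) x),
      pd_const_mul (τ * A10) (dA (d3 hV hV i) x),
      pd_const_mul c11 (dA (d4 p hU hV hU i) x),
      pd_const_mul c14 (dA (d4 q hV hU hV i) x)]
  simp only [hpt]
  simp only [Finset.sum_sub_distrib, Finset.sum_add_distrib, ← Finset.mul_sum]
  rw [sum_pd_piece1 hU, sum_pd_piece1 hV, sum_pd_piece2 hU hU, sum_pd_piece2 hU hV,
    sum_pd_piece2 hV hU, sum_pd_piece2 hV hV, sum_pd_W1 p hU hV hU, sum_pd_W1 q hV hU hV]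

/-- The divergence formula. -/
theorem dv_fieldF (a b p q τ A5 A6 A9 A10 c11 c14 : ℝ) {U V : (Fin n → ℝ) → ℝ}
    (hU : ContDiff ℝ 3 U) (hV : ContDiff ℝ 3 V) (x : Fin n → ℝ) :
    dv (fieldF a b p q τ A5 A6 A9 A10 c11 c14 U V) x =
      Real.exp (a * U x + b * V x) *
        Qdiv a b p q τ A5 A6 A9 A10 c11 c14
          (frob (hsn U x)) (frob (hsn V x))
          (bil (hsn U x) (grd U x) (grd U x)) (bil (hsn U x) (grd U x) (grd V x))
          (bil (hsn V x) (grd U x) (grd V x)) (bil (hsn V x) (grd V x) (grd V x))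
          (trc (hsn U x)) (trc (hsn V x))
          (dot (grd U x) (grd U x)) (dot (grd U x) (grd V x)) (dot (grd V x) (grd V x))
          (Real.exp (p * V x - U x)) (Real.exp (q * U x - V x)) := by
  have hM : ∀ i j, hsn U x i j = hsn U x j i := fun i j => pd_comm (hU.of_le (by norm_num)) x i j
  have hW : ContDiff ℝ 1 (fun y => a * U y + b * V y) :=
    (contDiff_const.mul (cd_c1 hU)).add (contDiff_const.mul (cd_c1 hV))
  have hpt : ∀ i, pd i (fieldF a b p q τ A5 A6 A9 A10 c11 c14 U V i) x =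
      Real.exp (a * U x + b * V x) *
        ((a * grd U x i + b * grd V x i) *
          Zalg τ A5 A6 A9 A10 c11 c14 (hsn U x) (hsn V x) (grd U x) (grd V x)
            (Real.exp (p * V x - U x)) (Real.exp (q * U x - V x)) i
        + pd i (fun y => Zalg τ A5 A6 A9 A10 c11 c14 (hsn U y) (hsn V y) (grd U y) (grd V y)
          (Real.exp (p * V y - U y)) (Real.exp (q * U y - V y)) i) x) := by
    intro i
    have hF : fieldF a b p q τ A5 A6 A9 A10 c11 c14 U V i = fun y =>
        Real.exp (a * U y + b * V y) *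
          Zalg τ A5 A6 A9 A10 c11 c14 (hsn U y) (hsn V y) (grd U y) (grd V y)
            (Real.exp (p * V y - U y)) (Real.exp (q * U y - V y)) i := rfl
    rw [hF, pd_mul (dA (cd_w a b hU hV) x) (dA (cd_Zalg p q τ A5 A6 A9 A10 c11 c14 hU hV i) x),
      pd_exp (dA hW x),
      pd_add (dA (contDiff_const.mul (cd_c1 hU)) x) (dA (contDiff_const.mul (cd_c1 hV)) x),
      pd_const_mul a (dA (cd_c1 hU) x), pd_const_mul b (dA (cd_c1 hV) x)]
    simp only [grd]
    ring
  unfold dv
  simp only [hpt]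
  rw [← Finset.mul_sum, Finset.sum_add_distrib, sum_pd_Zalg p q τ A5 A6 A9 A10 c11 c14 hU hV x,
    sum_E_Zalg hM]
  have hbY : bil (hsn U x) (grd V x) (grd U x) = bil (hsn U x) (grd U x) (grd V x) :=
    bil_comm hM _ _
  have hdYX : dot (grd V x) (grd U x) = dot (grd U x) (grd V x) := dot_comm _ _
  rw [hbY, hdYX]
  simp only [Qdiv]
  ring

end Vale.Agent.Lib.P100
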