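import Vale.Agent.Lib.P100.GFamily

/-!
Positivity certificate for the definiteness condition of the one-parameter family.
-/

namespace Vale.Agent.Lib.P100

/-- Bernstein coefficient number 0. -/
def gB0 (N : ℝ) : ℝ :=
  2 * N ^ 9 - 14 * N ^ 8 + 39 * N ^ 7 - 41 * N ^ 6 - 19 * N ^ 5 + 51 * N ^ 4 - 10 * N ^ 3 + 16 * N ^ 2

lemma gB0_shift (a : ℝ) : gB0 (a + 5) =
    2 * a ^ 9 + 76 * a ^ 8 + 1279 * a ^ 7 + 12524 * a ^ 6 + 78726 * a ^ 5 + 329826 * a ^ 4 + 921885 * a ^ 3 + 1658766 * a ^ 2 + 1743660 * a + 815400 := by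
  unfold gB0
  ring

lemma gB0_pos {N : ℝ} (hN : 5 ≤ N) : 0 < gB0 N := by
  have ha : 0 ≤ N - 5 := by linarith
  have e : N = (N - 5) + 5 := by ring
  rw [e, gB0_shift]
  positivity

/-- Bernstein coefficient number 1. -/
def gB1 (N : ℝ) : ℝ :=
  2 * N ^ 10 - 10 * N ^ 9 + 22 * N ^ 8 + 8 * N ^ 7 - 192 * N ^ 6 + 398 * N ^ 5 - 332 * N ^ 4 + 192 * N ^ 3 - 64 * N ^ 2

lemma gB1_shift (a : ℝ) : gB1 (a + 5) =
    2 * a ^ 10 + 90 * a ^ 9 + 1822 * a ^ 8 + 21888 * a ^ 7 + 172988 * a ^ 6 + 940338 * a ^ 5 + 3560118 * a ^ 4 + 9263052 * a ^ 3 + 15831766 * a ^ 2 + 16022760 * a + 7277400 := by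
  unfold gB1
  ring

lemma gB1_pos {N : ℝ} (hN : 5 ≤ N) : 0 < gB1 N := by
  have ha : 0 ≤ N - 5 := by linarith
  have e : N = (N - 5) + 5 := by ring
  rw [e, gB1_shift]
  positivity

/-- Bernstein coefficient number 2. -/
def gB2 (N : ℝ) : ℝ :=
  2 * N ^ 10 + 11 * N ^ 9 - 75 * N ^ 8 + 85 * N ^ 7 + 79 * N ^ 6 - 300 * N ^ 5 + 490 * N ^ 4 - 372 * N ^ 3 + 80 * N ^ 2

lemma gB2_shift (a : ℝ) : gB2 (a + 5) =
    2 * a ^ 10 + 111 * a ^ 9 + 2670 * a ^ 8 + 36985 * a ^ 7 + 328554 * a ^ 6 + 1962945 * a ^ 5 + 8006990 * a ^ 4 + 22053803 * a ^ 3 + 39293000 * a ^ 2 + 40917900 * a + 18918000 := by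
  unfold gB2
  ring

lemma gB2_pos {N : ℝ} (hN : 5 ≤ N) : 0 < gB2 N := by
  have ha : 0 ≤ N - 5 := by linarith
  have e : N = (N - 5) + 5 := by ring
  rw [e, gB2_shift]
  positivity

/-- Bernstein coefficient number 3. -/
def gB3 (N : ℝ) : ℝ :=
  4 * N ^ 10 - 4 * N ^ 9 - 30 * N ^ 8 + 2 * N ^ 7 + 134 * N ^ 6 - 30 * N ^ 5 - 220 * N ^ 4 + 176 * N ^ 3 - 32 * N ^ 2

lemma gB3_shift (a : ℝ) : gB3 (a + 5) =
    4 * a ^ 10 + 196 * a ^ 9 + 4290 * a ^ 8 + 55202 * a ^ 7 + 462204 * a ^ 6 + 2630040 * a ^ 5 + 10295530 * a ^ 4 + 27367026 * a ^ 3 + 47257108 * a ^ 2 + 47852880 * a + 21571200 := by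
  unfold gB3
  ring

lemma gB3_pos {N : ℝ} (hN : 5 ≤ N) : 0 < gB3 N := by
  have ha : 0 ≤ N - 5 := by linarith
  have e : N = (N - 5) + 5 := by ring
  rw [e, gB3_shift]
  positivity

/-- Bernstein coefficient number 4. -/
def gB4 (N : ℝ) : ℝ :=
  2 * N ^ 10 - 5 * N ^ 9 - 9 * N ^ 8 + 24 * N ^ 7 + 12 * N ^ 6 - 33 * N ^ 5 - 5 * N ^ 4 + 14 * N ^ 3

lemma gB4_shift (a : ℝ) : gB4 (a + 5) =
    2 * a ^ 10 + 95 * a ^ 9 + 2016 * a ^ 8 + 25164 * a ^ 7 + 204552 * a ^ 6 + 1131177 * a ^ 5 + 4308670 * a ^ 4 + 11159164 * a ^ 3 + 18801960 * a ^ 2 + 18604800 * a + 8208000 := by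
  unfold gB4
  ring

lemma gB4_pos {N : ℝ} (hN : 5 ≤ N) : 0 < gB4 N := by
  have ha : 0 ≤ N - 5 := by linarith
  have e : N = (N - 5) + 5 := by ring
  rw [e, gB4_shift]
  positivity

/-- The numerator of the definiteness condition. -/
def gNum (x N : ℝ) : ℝ :=
  ((N - 2) * (N + 1) ^ 2 - 2 * (1 - x) * (N + 1) * (N - 2) - 2 * (N - 1) ^ 2 * (1 - x) ^ 2) *
      ((N + 1) ^ 2 * (N - 2) * (N - 1) -
        (N + 2) * ((N * (1 - x) - 1) ^ 2 * (N - 1) + 2 * x * (N * (1 - x) - 1) * N * (N - 2)))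
    - x ^ 2 * ((N - 2) * (N + 1) ^ 2) * ((N + 1) ^ 2 * (N - 2) * (N - 1))

lemma g_cert (x N : ℝ) :
    (N * (N - 2)) ^ 4 * gNum x N =
      gB0 N * (N * (1 - x) - 1) ^ 4 + gB1 N * (N * x - 1) * (N * (1 - x) - 1) ^ 3
        + gB2 N * (N * x - 1) ^ 2 * (N * (1 - x) - 1) ^ 2
        + gB3 N * (N * x - 1) ^ 3 * (N * (1 - x) - 1) + gB4 N * (N * x - 1) ^ 4 := by
  simp only [gNum, gB0, gB1, gB2, gB3, gB4]
  ring

lemma bern4 {b0 b1 b2 b3 b4 X Y : ℝ} (h0 : 0 < b0) (h1 : 0 < b1) (h2 : 0 < b2) (h3 : 0 < b3)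
    (h4 : 0 < b4) (hX : 0 ≤ X) (hY : 0 ≤ Y) (h : 0 < X + Y) :
    0 < b0 * Y ^ 4 + b1 * X * Y ^ 3 + b2 * X ^ 2 * Y ^ 2 + b3 * X ^ 3 * Y + b4 * X ^ 4 := by
  rcases hX.eq_or_lt with hX0 | hX0
  · have hY0 : 0 < Y := by linarith
    subst hX0
    positivity
  · positivity

lemma gNum_pos {x N : ℝ} (hN : 5 ≤ N) (h1 : 1 / N ≤ x) (h2 : x ≤ 1 - 1 / N) : 0 < gNum x N := by
  have h0 : 0 < N := by linarith
  have hX : 0 ≤ N * x - 1 := by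
    have := mul_le_mul_of_nonneg_left h1 h0.le
    rw [mul_one_div_cancel h0.ne'] at this
    linarith
  have hY : 0 ≤ N * (1 - x) - 1 := by
    have h3 : 1 / N ≤ 1 - x := by linarith
    have := mul_le_mul_of_nonneg_left h3 h0.le
    rw [mul_one_div_cancel h0.ne'] at this
    linarith
  have hc := g_cert x N
  have hpos := bern4 (gB0_pos hN) (gB1_pos hN) (gB2_pos hN) (gB3_pos hN) (gB4_pos hN) hX hY
    (by nlinarith)
  have hd : 0 < (N * (N - 2)) ^ 4 := by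
    have : 0 < N - 2 := by linarith
    positivity
  have : 0 < (N * (N - 2)) ^ 4 * gNum x N := by
    rw [hc]
    linarith
  exact (mul_pos_iff_of_pos_left hd).1 this


end Vale.Agent.Lib.P100
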