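import Vale.Agent.Lib.P100.OneSided

/-!
The two-parameter family with weight exponents `a = b = (n-3)/(n-2)`.
-/

namespace Vale.Agent.Lib.P100

/-- The coefficient `A'`. -/
noncomputable def Ap (N v : ℝ) : ℝ :=
  1 - 2 * v / (N + 1) - 2 * (N - 1) ^ 2 * v ^ 2 / ((N - 2) * (N + 1) ^ 2)

/-- The coefficient `Z / τ`. -/
noncomputable def Zf (N D : ℝ) : ℝ := D ^ 2 * N / (N - 2) + 2 * N * D / (N - 1)

/-- The basic positive constant of the blocks. -/
noncomputable def eps0 (N : ℝ) : ℝ := (N - 1) / (2 * N * (N - 2))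

lemma eps0_pos {N : ℝ} (hN : 3 ≤ N) : 0 < eps0 N := by
  have h1 : 0 < N - 1 := by linarith
  have h2 : 0 < N - 2 := by linarith
  have h3 : 0 < N := by linarith
  unfold eps0
  positivity

lemma blA0 {N : ℝ} (hN : 3 ≤ N) :
    blA N ((N - 3) / (N - 2)) ((N - 1) / (N - 2) / 2) = eps0 N := by
  have h0 : N ≠ 0 := by linarith
  have h2 : N - 2 ≠ 0 := by intro h; linarith
  simp only [blA, eps0]
  field_simp
  ring

lemma blG0 {N : ℝ} (hN : 3 ≤ N) :
    blG N ((N - 3) / (N - 2)) ((N - 1) / (N - 2) / 2) = eps0 N := by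
  have h0 : N ≠ 0 := by linarith
  have h2 : N - 2 ≠ 0 := by intro h; linarith
  simp only [blG, eps0]
  field_simp
  ring

lemma blA1 {N v : ℝ} (hN : 3 ≤ N) :
    blA N ((N - 3) / (N - 2)) ((N - 1) / (N - 2) / 2 - (N - 1) / (N - 2) * v / (N + 1)) =
      eps0 N * Ap N v := by
  have h0 : N ≠ 0 := by linarith
  have h1 : N + 1 ≠ 0 := by linarith
  have h2 : N - 2 ≠ 0 := by intro h; linarith
  simp only [blA, eps0, Ap]
  field_simp
  ring

lemma blB1 {N v : ℝ} (hN : 3 ≤ N) :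
    blB N ((N - 3) / (N - 2)) ((N - 3) / (N - 2))
        ((N - 1) / (N - 2) / 2 - (N - 1) / (N - 2) * v / (N + 1)) ((N - 1) / (N - 2) / 2) =
      -(2 * eps0 N * (1 - v)) := by
  have h0 : N ≠ 0 := by linarith
  have h1 : N + 1 ≠ 0 := by linarith
  have h2 : N - 2 ≠ 0 := by intro h; linarith
  simp only [blB, eps0]
  field_simp
  ring

lemma blE {N D : ℝ} (hN : 3 ≤ N) :
    blG N ((N - 3) / (N - 2)) ((N - 1) / (N - 2) / 2 + D / (N - 2))
      - blB N ((N - 3) / (N - 2)) ((N - 3) / (N - 2)) ((N - 1) / (N - 2) / 2)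
          ((N - 1) / (N - 2) / 2 + D / (N - 2)) ^ 2 /
        (4 * blA N ((N - 3) / (N - 2)) ((N - 1) / (N - 2) / 2)) =
      -(eps0 N * Zf N D) := by
  have h0 : N ≠ 0 := by linarith
  have h1 : N - 1 ≠ 0 := by intro h; linarith
  have h2 : N - 2 ≠ 0 := by intro h; linarith
  rw [blA0 hN]
  have h3 : eps0 N ≠ 0 := (eps0_pos hN).ne'
  have h4 : blG N ((N - 3) / (N - 2)) ((N - 1) / (N - 2) / 2 + D / (N - 2)) =
      eps0 N * (1 - 2 * D / (N - 1) - 2 * D ^ 2 / (N - 2)) := by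
    simp only [blG, eps0]
    field_simp
    ring
  have h5 : blB N ((N - 3) / (N - 2)) ((N - 3) / (N - 2)) ((N - 1) / (N - 2) / 2)
      ((N - 1) / (N - 2) / 2 + D / (N - 2)) = -(2 * eps0 N * (1 + D)) := by
    simp only [blB, eps0]
    field_simp
    ring
  rw [h4, h5]
  simp only [Zf]
  field_simp
  ring

/-- Nonexistence for the family with free parameters `τ`, `D`, `v`. -/
theorem noSol_G {n : ℕ} (hn : 5 ≤ n) {p q τ D v : ℝ} (hp : 0 < p) (hq : 0 < q) (hpq : 1 < p * q)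
    (hsub : ((n : ℝ) - 2) * (p * q - 1) < 2 * (p + q + 2))
    (hτ : 0 < τ) (hD : 0 ≤ D) (hv0 : 0 ≤ v) (hv1 : v ≤ 1) (hAp : 0 < Ap n v)
    (hW2 : τ * (((n : ℝ) - 2) * q - 1 - 2 * D / ((n : ℝ) - 1)) ^ 2 ≤ (n : ℝ) * ((n : ℝ) + 2))
    (hW1 : (((n : ℝ) - 2) * p - 1) ^ 2 ≤
      (n : ℝ) * ((n : ℝ) + 2) * τ * (1 - 2 * v / ((n : ℝ) + 1)) * (1 + 2 * D / ((n : ℝ) - 1)))
    (hPD : (1 - v) ^ 2 < Ap n v * (1 - τ * Zf n D)) : NoSol n p q := by
  have hn2 : 2 ≤ n := by omega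
  have hN5 : (5 : ℝ) ≤ n := by exact_mod_cast hn
  set N : ℝ := (n : ℝ) with hNd
  have hN3 : (3 : ℝ) ≤ N := by linarith
  have h0 : 0 < N := by linarith
  have h1 : 0 < N - 1 := by linarith
  have h2 : 0 < N - 2 := by linarith
  have h1' : 0 < N + 1 := by linarith
  have h3 : 0 < N - 3 := by linarith
  have hκ : 0 ≤ (N - 3) / (N - 2) := by positivity
  have hc : 0 < (N - 1) / (N - 2) := by positivity
  have he : 0 < eps0 N := eps0_pos hN3
  have hvv : 0 ≤ 1 - 2 * v / (N + 1) := by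
    have : 2 * v / (N + 1) ≤ 1 := by
      rw [div_le_one h1']
      linarith
    linarith
  have hA5e : (N - 1) / (N - 2) / 2 - (N - 1) / (N - 2) * v / (N + 1) =
      (N - 1) / (N - 2) / 2 * (1 - 2 * v / (N + 1)) := by
    field_simp
  have hA9e : (N - 1) / (N - 2) / 2 + D / (N - 2) =
      (N - 1) / (N - 2) / 2 * (1 + 2 * D / (N - 1)) := by
    field_simp
  have hww : 0 ≤ 1 + 2 * D / (N - 1) := by positivity
  refine noSol_oneSided (a := (N - 3) / (N - 2)) (b := (N - 3) / (N - 2)) (τ := τ)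
    (A5 := (N - 1) / (N - 2) / 2 - (N - 1) / (N - 2) * v / (N + 1))
    (A6 := (N - 1) / (N - 2) / 2) (A9 := (N - 1) / (N - 2) / 2 + D / (N - 2))
    (A10 := (N - 1) / (N - 2) / 2) hn2 hpq (by positivity) (by positivity) ?_ hτ ?_ (by positivity)
    (by positivity) (by positivity) ?_ ?_ ?_ ?_ ?_
  · -- weight
    have hd : 0 < p * q - 1 := by linarith
    have hs : 0 < p + q + 2 := by linarith
    have e : 2 * ((N - 3) / (N - 2) * (p + 1) + (N - 3) / (N - 2) * (q + 1)) =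
        (N - 3) / (N - 2) * (2 * (p + q + 2)) := by ring
    rw [e]
    have h5 : (N - 3) / (N - 2) * ((N - 2) * (p * q - 1)) = (N - 3) * (p * q - 1) := by
      field_simp
    have h6 : (N - 3) / (N - 2) * ((N - 2) * (p * q - 1)) < (N - 3) / (N - 2) * (2 * (p + q + 2)) :=
      mul_lt_mul_of_pos_left hsub (by positivity)
    rw [h5] at h6
    nlinarith
  · rw [hA5e]
    positivity
  · -- square condition one
    rw [hA5e, hA9e]
    have e1 : 2 / N * ((N - 1) / (N - 2) / 2) - (1 - 1 / N) * p =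
        -((N - 1) / (N - 2) / N * ((N - 2) * p - 1)) := by
      field_simp
      ring
    have e2 : 4 * ((1 + 2 / N) * ((N - 1) / (N - 2) / 2 * (1 - 2 * v / (N + 1)))) *
        (τ * ((N - 1) / (N - 2) / 2 * (1 + 2 * D / (N - 1)))) =
        ((N - 1) / (N - 2) / N) ^ 2 * (N * (N + 2) * τ * (1 - 2 * v / (N + 1)) *
          (1 + 2 * D / (N - 1))) := by
      field_simp
      ring
    rw [e1, e2, neg_sq, mul_pow]
    exact mul_le_mul_of_nonneg_left hW1 (by positivity)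
  · -- square condition two
    rw [hA9e]
    have e1 : τ * (2 / N * ((N - 1) / (N - 2) / 2 * (1 + 2 * D / (N - 1))) - (1 - 1 / N) * q) =
        -(τ * ((N - 1) / (N - 2) / N) * ((N - 2) * q - 1 - 2 * D / (N - 1))) := by
      field_simp
      ring
    have e2 : 4 * ((N - 1) / (N - 2) / 2) * (τ * (1 + 2 / N) * ((N - 1) / (N - 2) / 2)) =
        τ * ((N - 1) / (N - 2) / N) ^ 2 * (N * (N + 2)) := by
      field_simp
      ring
    rw [e1, e2, neg_sq]
    have h5 : (τ * ((N - 1) / (N - 2) / N) * ((N - 2) * q - 1 - 2 * D / (N - 1))) ^ 2 =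
        τ * ((N - 1) / (N - 2) / N) ^ 2 * (τ * ((N - 2) * q - 1 - 2 * D / (N - 1)) ^ 2) := by
      ring
    rw [h5]
    exact mul_le_mul_of_nonneg_left hW2 (by positivity)
  · rw [blA0 hN3]
    exact he
  · rw [blA1 hN3]
    exact mul_pos he hAp
  · rw [blA1 hN3, blB1 hN3, blE hN3, blG0 hN3]
    have e1 : (-(2 * eps0 N * (1 - v))) ^ 2 = 4 * eps0 N ^ 2 * (1 - v) ^ 2 := by ring
    have e2 : 4 * (eps0 N * Ap N v) * (eps0 N + τ * (-(eps0 N * Zf N D))) =
        4 * eps0 N ^ 2 * (Ap N v * (1 - τ * Zf N D)) := by ring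
    rw [e1, e2]
    exact mul_lt_mul_of_pos_left hPD (by positivity)

end Vale.Agent.Lib.P100
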