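import Vale.Agent.Lib.P100.RowsL6_1
import Vale.Agent.Lib.P100.RowsL6_2
import Vale.Agent.Lib.P100.RowsL6_3

/-!
The staircase in dimension 6.
-/

namespace Vale.Agent.Lib.P100

theorem tailL6_100 {p q : ℝ} (hp : 0 < p) (hq : 0 < q) (hpq : 1 < p * q) (hle : p ≤ q)
    (hsub : (101 / 25 : ℝ) * (p * q - 1) ≤ 2 * (p + q + 2))
    (hs : (3953301 / 2000000 : ℝ) ≤ p) : NoSol 6 p q := by
  have h1 : p ≤ (3992489 / 2000000 : ℝ) := by
    by_contra h
    push Not at h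
    have h3 := corner_mono (A0 := (101 / 25 : ℝ)) (p0 := (3992489 / 2000000 : ℝ)) (q0 := (3992489 / 2000000 : ℝ)) (p := p) (q := q) (by norm_num) (by norm_num)
      (by norm_num) (by norm_num) h.le (le_trans h.le hle)
    linarith
  have h4 : q ≤ (20036699 / 10000000 : ℝ) :=
    q_le_of_corner (A0 := (101 / 25 : ℝ)) (p0 := (3953301 / 2000000 : ℝ)) (q0 := (20036699 / 10000000 : ℝ)) (by norm_num) (by norm_num)
      (by norm_num) (by norm_num) hs hsub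
  exact rowL6_100 hp h1 hq h4 hpq

theorem tailL6_99 {p q : ℝ} (hp : 0 < p) (hq : 0 < q) (hpq : 1 < p * q) (hle : p ≤ q)
    (hsub : (101 / 25 : ℝ) * (p * q - 1) ≤ 2 * (p + q + 2))
    (hs : (4893337 / 2500000 : ℝ) ≤ p) : NoSol 6 p q := by
  rcases le_or_gt p (3953301 / 2000000 : ℝ) with h1 | h1
  · exact rowL6_99 hp h1 hq (q_le_of_corner (A0 := (101 / 25 : ℝ)) (p0 := (4893337 / 2500000 : ℝ)) (q0 := (2529497 / 1250000 : ℝ))
      (by norm_num) (by norm_num) (by norm_num) (by norm_num) hs hsub) hpq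
  · exact tailL6_100 hp hq hpq hle hsub h1.le

theorem tailL6_98 {p q : ℝ} (hp : 0 < p) (hq : 0 < q) (hpq : 1 < p * q) (hle : p ≤ q)
    (hsub : (101 / 25 : ℝ) * (p * q - 1) ≤ 2 * (p + q + 2))
    (hs : (3876441 / 2000000 : ℝ) ≤ p) : NoSol 6 p q := by
  rcases le_or_gt p (4893337 / 2500000 : ℝ) with h1 | h1
  · exact rowL6_98 hp h1 hq (q_le_of_corner (A0 := (101 / 25 : ℝ)) (p0 := (3876441 / 2000000 : ℝ)) (q0 := (20438427 / 10000000 : ℝ))
      (by norm_num) (by norm_num) (by norm_num) (by norm_num) hs hsub) hpq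
  · exact tailL6_99 hp hq hpq hle hsub h1.le

theorem tailL6_97 {p q : ℝ} (hp : 0 < p) (hq : 0 < q) (hpq : 1 < p * q) (hle : p ≤ q)
    (hsub : (101 / 25 : ℝ) * (p * q - 1) ≤ 2 * (p + q + 2))
    (hs : (479841 / 250000 : ℝ) ≤ p) : NoSol 6 p q := by
  rcases le_or_gt p (3876441 / 2000000 : ℝ) with h1 | h1
  · exact rowL6_97 hp h1 hq (q_le_of_corner (A0 := (101 / 25 : ℝ)) (p0 := (479841 / 250000 : ℝ)) (q0 := (1290217 / 625000 : ℝ))
      (by norm_num) (by norm_num) (by norm_num) (by norm_num) hs hsub) hpq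
  · exact tailL6_98 hp hq hpq hle hsub h1.le

theorem tailL6_96 {p q : ℝ} (hp : 0 < p) (hq : 0 < q) (hpq : 1 < p * q) (hle : p ≤ q)
    (hsub : (101 / 25 : ℝ) * (p * q - 1) ≤ 2 * (p + q + 2))
    (hs : (19007983 / 10000000 : ℝ) ≤ p) : NoSol 6 p q := by
  rcases le_or_gt p (479841 / 250000 : ℝ) with h1 | h1
  · exact rowL6_96 hp h1 hq (q_le_of_corner (A0 := (101 / 25 : ℝ)) (p0 := (19007983 / 10000000 : ℝ)) (q0 := (20850729 / 10000000 : ℝ))
      (by norm_num) (by norm_num) (by norm_num) (by norm_num) hs hsub) hpq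
  · exact tailL6_97 hp hq hpq hle hsub h1.le

theorem tailL6_95 {p q : ℝ} (hp : 0 < p) (hq : 0 < q) (hpq : 1 < p * q) (hle : p ≤ q)
    (hsub : (101 / 25 : ℝ) * (p * q - 1) ≤ 2 * (p + q + 2))
    (hs : (18824619 / 10000000 : ℝ) ≤ p) : NoSol 6 p q := by
  rcases le_or_gt p (19007983 / 10000000 : ℝ) with h1 | h1
  · exact rowL6_95 hp h1 hq (q_le_of_corner (A0 := (101 / 25 : ℝ)) (p0 := (18824619 / 10000000 : ℝ)) (q0 := (2106087 / 1000000 : ℝ))
      (by norm_num) (by norm_num) (by norm_num) (by norm_num) hs hsub) hpq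
  · exact tailL6_96 hp hq hpq hle hsub h1.le

theorem tailL6_94 {p q : ℝ} (hp : 0 < p) (hq : 0 < q) (hpq : 1 < p * q) (hle : p ≤ q)
    (hsub : (101 / 25 : ℝ) * (p * q - 1) ≤ 2 * (p + q + 2))
    (hs : (9322039 / 5000000 : ℝ) ≤ p) : NoSol 6 p q := by
  rcases le_or_gt p (18824619 / 10000000 : ℝ) with h1 | h1
  · exact rowL6_94 hp h1 hq (q_le_of_corner (A0 := (101 / 25 : ℝ)) (p0 := (9322039 / 5000000 : ℝ)) (q0 := (850931 / 400000 : ℝ))
      (by norm_num) (by norm_num) (by norm_num) (by norm_num) hs hsub) hpq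
  · exact tailL6_95 hp hq hpq hle hsub h1.le

theorem tailL6_93 {p q : ℝ} (hp : 0 < p) (hq : 0 < q) (hpq : 1 < p * q) (hle : p ≤ q)
    (hsub : (101 / 25 : ℝ) * (p * q - 1) ≤ 2 * (p + q + 2))
    (hs : (18466129 / 10000000 : ℝ) ≤ p) : NoSol 6 p q := by
  rcases le_or_gt p (9322039 / 5000000 : ℝ) with h1 | h1
  · exact rowL6_93 hp h1 hq (q_le_of_corner (A0 := (101 / 25 : ℝ)) (p0 := (18466129 / 10000000 : ℝ)) (q0 := (2686023 / 1250000 : ℝ))
      (by norm_num) (by norm_num) (by norm_num) (by norm_num) hs hsub) hpq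
  · exact tailL6_94 hp hq hpq hle hsub h1.le

theorem tailL6_92 {p q : ℝ} (hp : 0 < p) (hq : 0 < q) (hpq : 1 < p * q) (hle : p ≤ q)
    (hsub : (101 / 25 : ℝ) * (p * q - 1) ≤ 2 * (p + q + 2))
    (hs : (18291027 / 10000000 : ℝ) ≤ p) : NoSol 6 p q := by
  rcases le_or_gt p (18466129 / 10000000 : ℝ) with h1 | h1
  · exact rowL6_92 hp h1 hq (q_le_of_corner (A0 := (101 / 25 : ℝ)) (p0 := (18291027 / 10000000 : ℝ)) (q0 := (86821 / 40000 : ℝ))
      (by norm_num) (by norm_num) (by norm_num) (by norm_num) hs hsub) hpq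
  · exact tailL6_93 hp hq hpq hle hsub h1.le

theorem tailL6_91 {p q : ℝ} (hp : 0 < p) (hq : 0 < q) (hpq : 1 < p * q) (hle : p ≤ q)
    (hsub : (101 / 25 : ℝ) * (p * q - 1) ≤ 2 * (p + q + 2))
    (hs : (18118757 / 10000000 : ℝ) ≤ p) : NoSol 6 p q := by
  rcases le_or_gt p (18291027 / 10000000 : ℝ) with h1 | h1
  · exact rowL6_91 hp h1 hq (q_le_of_corner (A0 := (101 / 25 : ℝ)) (p0 := (18118757 / 10000000 : ℝ)) (q0 := (21924439 / 10000000 : ℝ))
      (by norm_num) (by norm_num) (by norm_num) (by norm_num) hs hsub) hpq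
  · exact tailL6_92 hp hq hpq hle hsub h1.le

theorem tailL6_90 {p q : ℝ} (hp : 0 < p) (hq : 0 < q) (hpq : 1 < p * q) (hle : p ≤ q)
    (hsub : (101 / 25 : ℝ) * (p * q - 1) ≤ 2 * (p + q + 2))
    (hs : (17949403 / 10000000 : ℝ) ≤ p) : NoSol 6 p q := by
  rcases le_or_gt p (18118757 / 10000000 : ℝ) with h1 | h1
  · exact rowL6_90 hp h1 hq (q_le_of_corner (A0 := (101 / 25 : ℝ)) (p0 := (17949403 / 10000000 : ℝ)) (q0 := (22145581 / 10000000 : ℝ))
      (by norm_num) (by norm_num) (by norm_num) (by norm_num) hs hsub) hpq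
  · exact tailL6_91 hp hq hpq hle hsub h1.le

theorem tailL6_89 {p q : ℝ} (hp : 0 < p) (hq : 0 < q) (hpq : 1 < p * q) (hle : p ≤ q)
    (hsub : (101 / 25 : ℝ) * (p * q - 1) ≤ 2 * (p + q + 2))
    (hs : (4445689 / 2500000 : ℝ) ≤ p) : NoSol 6 p q := by
  rcases le_or_gt p (17949403 / 10000000 : ℝ) with h1 | h1
  · exact rowL6_89 hp h1 hq (q_le_of_corner (A0 := (101 / 25 : ℝ)) (p0 := (4445689 / 2500000 : ℝ)) (q0 := (11184443 / 5000000 : ℝ))
      (by norm_num) (by norm_num) (by norm_num) (by norm_num) hs hsub) hpq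
  · exact tailL6_90 hp hq hpq hle hsub h1.le

theorem tailL6_88 {p q : ℝ} (hp : 0 < p) (hq : 0 < q) (hpq : 1 < p * q) (hle : p ≤ q)
    (hsub : (101 / 25 : ℝ) * (p * q - 1) ≤ 2 * (p + q + 2))
    (hs : (8809321 / 5000000 : ℝ) ≤ p) : NoSol 6 p q := by
  rcases le_or_gt p (4445689 / 2500000 : ℝ) with h1 | h1
  · exact rowL6_88 hp h1 hq (q_le_of_corner (A0 := (101 / 25 : ℝ)) (p0 := (8809321 / 5000000 : ℝ)) (q0 := (22594539 / 10000000 : ℝ))
      (by norm_num) (by norm_num) (by norm_num) (by norm_num) hs hsub) hpq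
  · exact tailL6_89 hp hq hpq hle hsub h1.le

theorem tailL6_87 {p q : ℝ} (hp : 0 < p) (hq : 0 < q) (hpq : 1 < p * q) (hle : p ≤ q)
    (hsub : (101 / 25 : ℝ) * (p * q - 1) ≤ 2 * (p + q + 2))
    (hs : (8728723 / 5000000 : ℝ) ≤ p) : NoSol 6 p q := by
  rcases le_or_gt p (8809321 / 5000000 : ℝ) with h1 | h1
  · exact rowL6_87 hp h1 hq (q_le_of_corner (A0 := (101 / 25 : ℝ)) (p0 := (8728723 / 5000000 : ℝ)) (q0 := (4564389 / 2000000 : ℝ))
      (by norm_num) (by norm_num) (by norm_num) (by norm_num) hs hsub) hpq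
  · exact tailL6_88 hp hq hpq hle hsub h1.le

theorem tailL6_86 {p q : ℝ} (hp : 0 < p) (hq : 0 < q) (hpq : 1 < p * q) (hle : p ≤ q)
    (hsub : (101 / 25 : ℝ) * (p * q - 1) ≤ 2 * (p + q + 2))
    (hs : (8649481 / 5000000 : ℝ) ≤ p) : NoSol 6 p q := by
  rcases le_or_gt p (8728723 / 5000000 : ℝ) with h1 | h1
  · exact rowL6_86 hp h1 hq (q_le_of_corner (A0 := (101 / 25 : ℝ)) (p0 := (8649481 / 5000000 : ℝ)) (q0 := (1440707 / 625000 : ℝ))
      (by norm_num) (by norm_num) (by norm_num) (by norm_num) hs hsub) hpq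
  · exact tailL6_87 hp hq hpq hle hsub h1.le

theorem tailL6_85 {p q : ℝ} (hp : 0 < p) (hq : 0 < q) (hpq : 1 < p * q) (hle : p ≤ q)
    (hsub : (101 / 25 : ℝ) * (p * q - 1) ≤ 2 * (p + q + 2))
    (hs : (1071411 / 625000 : ℝ) ≤ p) : NoSol 6 p q := by
  rcases le_or_gt p (8649481 / 5000000 : ℝ) with h1 | h1
  · exact rowL6_85 hp h1 hq (q_le_of_corner (A0 := (101 / 25 : ℝ)) (p0 := (1071411 / 625000 : ℝ)) (q0 := (23283489 / 10000000 : ℝ))
      (by norm_num) (by norm_num) (by norm_num) (by norm_num) hs hsub) hpq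
  · exact tailL6_86 hp hq hpq hle hsub h1.le

theorem tailL6_84 {p q : ℝ} (hp : 0 < p) (hq : 0 < q) (hpq : 1 < p * q) (hle : p ≤ q)
    (hsub : (101 / 25 : ℝ) * (p * q - 1) ≤ 2 * (p + q + 2))
    (hs : (16989227 / 10000000 : ℝ) ≤ p) : NoSol 6 p q := by
  rcases le_or_gt p (1071411 / 625000 : ℝ) with h1 | h1
  · exact rowL6_84 hp h1 hq (q_le_of_corner (A0 := (101 / 25 : ℝ)) (p0 := (16989227 / 10000000 : ℝ)) (q0 := (11758507 / 5000000 : ℝ))
      (by norm_num) (by norm_num) (by norm_num) (by norm_num) hs hsub) hpq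
  · exact tailL6_85 hp hq hpq hle hsub h1.le

theorem tailL6_83 {p q : ℝ} (hp : 0 < p) (hq : 0 < q) (hpq : 1 < p * q) (hle : p ≤ q)
    (hsub : (101 / 25 : ℝ) * (p * q - 1) ≤ 2 * (p + q + 2))
    (hs : (526193 / 312500 : ℝ) ≤ p) : NoSol 6 p q := by
  rcases le_or_gt p (16989227 / 10000000 : ℝ) with h1 | h1
  · exact rowL6_83 hp h1 hq (q_le_of_corner (A0 := (101 / 25 : ℝ)) (p0 := (526193 / 312500 : ℝ)) (q0 := (2375293 / 1000000 : ℝ))
      (by norm_num) (by norm_num) (by norm_num) (by norm_num) hs hsub) hpq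
  · exact tailL6_84 hp hq hpq hle hsub h1.le

theorem tailL6_82 {p q : ℝ} (hp : 0 < p) (hq : 0 < q) (hpq : 1 < p * q) (hle : p ≤ q)
    (hsub : (101 / 25 : ℝ) * (p * q - 1) ≤ 2 * (p + q + 2))
    (hs : (521563 / 312500 : ℝ) ≤ p) : NoSol 6 p q := by
  rcases le_or_gt p (526193 / 312500 : ℝ) with h1 | h1
  · exact rowL6_82 hp h1 hq (q_le_of_corner (A0 := (101 / 25 : ℝ)) (p0 := (521563 / 312500 : ℝ)) (q0 := (5997557 / 2500000 : ℝ))
      (by norm_num) (by norm_num) (by norm_num) (by norm_num) hs hsub) hpq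
  · exact tailL6_83 hp hq hpq hle hsub h1.le

theorem tailL6_81 {p q : ℝ} (hp : 0 < p) (hq : 0 < q) (hpq : 1 < p * q) (hle : p ≤ q)
    (hsub : (101 / 25 : ℝ) * (p * q - 1) ≤ 2 * (p + q + 2))
    (hs : (16544079 / 10000000 : ℝ) ≤ p) : NoSol 6 p q := by
  rcases le_or_gt p (521563 / 312500 : ℝ) with h1 | h1
  · exact rowL6_81 hp h1 hq (q_le_of_corner (A0 := (101 / 25 : ℝ)) (p0 := (16544079 / 10000000 : ℝ)) (q0 := (4845979 / 2000000 : ℝ))
      (by norm_num) (by norm_num) (by norm_num) (by norm_num) hs hsub) hpq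
  · exact tailL6_82 hp hq hpq hle hsub h1.le

theorem tailL6_80 {p q : ℝ} (hp : 0 < p) (hq : 0 < q) (hpq : 1 < p * q) (hle : p ≤ q)
    (hsub : (101 / 25 : ℝ) * (p * q - 1) ≤ 2 * (p + q + 2))
    (hs : (131209 / 80000 : ℝ) ≤ p) : NoSol 6 p q := by
  rcases le_or_gt p (16544079 / 10000000 : ℝ) with h1 | h1
  · exact rowL6_80 hp h1 hq (q_le_of_corner (A0 := (101 / 25 : ℝ)) (p0 := (131209 / 80000 : ℝ)) (q0 := (12235293 / 5000000 : ℝ))
      (by norm_num) (by norm_num) (by norm_num) (by norm_num) hs hsub) hpq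
  · exact tailL6_81 hp hq hpq hle hsub h1.le

theorem tailL6_79 {p q : ℝ} (hp : 0 < p) (hq : 0 < q) (hpq : 1 < p * q) (hle : p ≤ q)
    (hsub : (101 / 25 : ℝ) * (p * q - 1) ≤ 2 * (p + q + 2))
    (hs : (254073 / 156250 : ℝ) ≤ p) : NoSol 6 p q := by
  rcases le_or_gt p (131209 / 80000 : ℝ) with h1 | h1
  · exact rowL6_79 hp h1 hq (q_le_of_corner (A0 := (101 / 25 : ℝ)) (p0 := (254073 / 156250 : ℝ)) (q0 := (772281 / 312500 : ℝ))
      (by norm_num) (by norm_num) (by norm_num) (by norm_num) hs hsub) hpq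
  · exact tailL6_80 hp hq hpq hle hsub h1.le

theorem tailL6_78 {p q : ℝ} (hp : 0 < p) (hq : 0 < q) (hpq : 1 < p * q) (hle : p ≤ q)
    (hsub : (101 / 25 : ℝ) * (p * q - 1) ≤ 2 * (p + q + 2))
    (hs : (3224477 / 2000000 : ℝ) ≤ p) : NoSol 6 p q := by
  rcases le_or_gt p (254073 / 156250 : ℝ) with h1 | h1
  · exact rowL6_78 hp h1 hq (q_le_of_corner (A0 := (101 / 25 : ℝ)) (p0 := (3224477 / 2000000 : ℝ)) (q0 := (4991523 / 2000000 : ℝ))
      (by norm_num) (by norm_num) (by norm_num) (by norm_num) hs hsub) hpq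
  · exact tailL6_79 hp hq hpq hle hsub h1.le

theorem tailL6_77 {p q : ℝ} (hp : 0 < p) (hq : 0 < q) (hpq : 1 < p * q) (hle : p ≤ q)
    (hsub : (101 / 25 : ℝ) * (p * q - 1) ≤ 2 * (p + q + 2))
    (hs : (15986513 / 10000000 : ℝ) ≤ p) : NoSol 6 p q := by
  rcases le_or_gt p (3224477 / 2000000 : ℝ) with h1 | h1
  · exact rowL6_77 hp h1 hq (q_le_of_corner (A0 := (101 / 25 : ℝ)) (p0 := (15986513 / 10000000 : ℝ)) (q0 := (787623 / 312500 : ℝ))
      (by norm_num) (by norm_num) (by norm_num) (by norm_num) hs hsub) hpq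
  · exact tailL6_78 hp hq hpq hle hsub h1.le

theorem tailL6_76 {p q : ℝ} (hp : 0 < p) (hq : 0 < q) (hpq : 1 < p * q) (hle : p ≤ q)
    (hsub : (101 / 25 : ℝ) * (p * q - 1) ≤ 2 * (p + q + 2))
    (hs : (7926547 / 5000000 : ℝ) ≤ p) : NoSol 6 p q := by
  rcases le_or_gt p (15986513 / 10000000 : ℝ) with h1 | h1
  · exact rowL6_76 hp h1 hq (q_le_of_corner (A0 := (101 / 25 : ℝ)) (p0 := (7926547 / 5000000 : ℝ)) (q0 := (5090357 / 2000000 : ℝ))
      (by norm_num) (by norm_num) (by norm_num) (by norm_num) hs hsub) hpq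
  · exact tailL6_77 hp hq hpq hle hsub h1.le

theorem tailL6_75 {p q : ℝ} (hp : 0 < p) (hq : 0 < q) (hpq : 1 < p * q) (hle : p ≤ q)
    (hsub : (101 / 25 : ℝ) * (p * q - 1) ≤ 2 * (p + q + 2))
    (hs : (3930529 / 2500000 : ℝ) ≤ p) : NoSol 6 p q := by
  rcases le_or_gt p (7926547 / 5000000 : ℝ) with h1 | h1
  · exact rowL6_75 hp h1 hq (q_le_of_corner (A0 := (101 / 25 : ℝ)) (p0 := (3930529 / 2500000 : ℝ)) (q0 := (25701071 / 10000000 : ℝ))
      (by norm_num) (by norm_num) (by norm_num) (by norm_num) hs hsub) hpq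
  · exact tailL6_76 hp hq hpq hle hsub h1.le

theorem tailL6_74 {p q : ℝ} (hp : 0 < p) (hq : 0 < q) (hpq : 1 < p * q) (hle : p ≤ q)
    (hsub : (101 / 25 : ℝ) * (p * q - 1) ≤ 2 * (p + q + 2))
    (hs : (1559339 / 1000000 : ℝ) ≤ p) : NoSol 6 p q := by
  rcases le_or_gt p (3930529 / 2500000 : ℝ) with h1 | h1
  · exact rowL6_74 hp h1 hq (q_le_of_corner (A0 := (101 / 25 : ℝ)) (p0 := (1559339 / 1000000 : ℝ)) (q0 := (519041 / 200000 : ℝ))
      (by norm_num) (by norm_num) (by norm_num) (by norm_num) hs hsub) hpq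
  · exact tailL6_75 hp hq hpq hle hsub h1.le

theorem tailL6_73 {p q : ℝ} (hp : 0 < p) (hq : 0 < q) (hpq : 1 < p * q) (hle : p ≤ q)
    (hsub : (101 / 25 : ℝ) * (p * q - 1) ≤ 2 * (p + q + 2))
    (hs : (193339 / 125000 : ℝ) ≤ p) : NoSol 6 p q := by
  rcases le_or_gt p (1559339 / 1000000 : ℝ) with h1 | h1
  · exact rowL6_73 hp h1 hq (q_le_of_corner (A0 := (101 / 25 : ℝ)) (p0 := (193339 / 125000 : ℝ)) (q0 := (26204209 / 10000000 : ℝ))
      (by norm_num) (by norm_num) (by norm_num) (by norm_num) hs hsub) hpq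
  · exact tailL6_74 hp hq hpq hle hsub h1.le

theorem tailL6_72 {p q : ℝ} (hp : 0 < p) (hq : 0 < q) (hpq : 1 < p * q) (hle : p ≤ q)
    (hsub : (101 / 25 : ℝ) * (p * q - 1) ≤ 2 * (p + q + 2))
    (hs : (15343153 / 10000000 : ℝ) ≤ p) : NoSol 6 p q := by
  rcases le_or_gt p (193339 / 125000 : ℝ) with h1 | h1
  · exact rowL6_72 hp h1 hq (q_le_of_corner (A0 := (101 / 25 : ℝ)) (p0 := (15343153 / 10000000 : ℝ)) (q0 := (26457731 / 10000000 : ℝ))
      (by norm_num) (by norm_num) (by norm_num) (by norm_num) hs hsub) hpq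
  · exact tailL6_73 hp hq hpq hle hsub h1.le

theorem tailL6_71 {p q : ℝ} (hp : 0 < p) (hq : 0 < q) (hpq : 1 < p * q) (hle : p ≤ q)
    (hsub : (101 / 25 : ℝ) * (p * q - 1) ≤ 2 * (p + q + 2))
    (hs : (1522137 / 1000000 : ℝ) ≤ p) : NoSol 6 p q := by
  rcases le_or_gt p (15343153 / 10000000 : ℝ) with h1 | h1
  · exact rowL6_71 hp h1 hq (q_le_of_corner (A0 := (101 / 25 : ℝ)) (p0 := (1522137 / 1000000 : ℝ)) (q0 := (3339093 / 1250000 : ℝ))
      (by norm_num) (by norm_num) (by norm_num) (by norm_num) hs hsub) hpq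
  · exact tailL6_72 hp hq hpq hle hsub h1.le

theorem tailL6_70 {p q : ℝ} (hp : 0 < p) (hq : 0 < q) (hpq : 1 < p * q) (hle : p ≤ q)
    (hsub : (101 / 25 : ℝ) * (p * q - 1) ≤ 2 * (p + q + 2))
    (hs : (15101939 / 10000000 : ℝ) ≤ p) : NoSol 6 p q := by
  rcases le_or_gt p (1522137 / 1000000 : ℝ) with h1 | h1
  · exact rowL6_70 hp h1 hq (q_le_of_corner (A0 := (101 / 25 : ℝ)) (p0 := (15101939 / 10000000 : ℝ)) (q0 := (3371097 / 1250000 : ℝ))
      (by norm_num) (by norm_num) (by norm_num) (by norm_num) hs hsub) hpq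
  · exact tailL6_71 hp hq hpq hle hsub h1.le

theorem tailL6_69 {p q : ℝ} (hp : 0 < p) (hq : 0 < q) (hpq : 1 < p * q) (hle : p ≤ q)
    (hsub : (101 / 25 : ℝ) * (p * q - 1) ≤ 2 * (p + q + 2))
    (hs : (7492327 / 5000000 : ℝ) ≤ p) : NoSol 6 p q := by
  rcases le_or_gt p (15101939 / 10000000 : ℝ) with h1 | h1
  · exact rowL6_69 hp h1 hq (q_le_of_corner (A0 := (101 / 25 : ℝ)) (p0 := (7492327 / 5000000 : ℝ)) (q0 := (13613069 / 5000000 : ℝ))
      (by norm_num) (by norm_num) (by norm_num) (by norm_num) hs hsub) hpq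
  · exact tailL6_70 hp hq hpq hle hsub h1.le

theorem tailL6_68 {p q : ℝ} (hp : 0 < p) (hq : 0 < q) (hpq : 1 < p * q) (hle : p ≤ q)
    (hsub : (101 / 25 : ℝ) * (p * q - 1) ≤ 2 * (p + q + 2))
    (hs : (1486971 / 1000000 : ℝ) ≤ p) : NoSol 6 p q := by
  rcases le_or_gt p (7492327 / 5000000 : ℝ) with h1 | h1
  · exact rowL6_68 hp h1 hq (q_le_of_corner (A0 := (101 / 25 : ℝ)) (p0 := (1486971 / 1000000 : ℝ)) (q0 := (6871067 / 2500000 : ℝ))
      (by norm_num) (by norm_num) (by norm_num) (by norm_num) hs hsub) hpq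
  · exact tailL6_69 hp hq hpq hle hsub h1.le

theorem tailL6_67 {p q : ℝ} (hp : 0 < p) (hq : 0 < q) (hpq : 1 < p * q) (hle : p ≤ q)
    (hsub : (101 / 25 : ℝ) * (p * q - 1) ≤ 2 * (p + q + 2))
    (hs : (1475697 / 1000000 : ℝ) ≤ p) : NoSol 6 p q := by
  rcases le_or_gt p (1486971 / 1000000 : ℝ) with h1 | h1
  · exact rowL6_67 hp h1 hq (q_le_of_corner (A0 := (101 / 25 : ℝ)) (p0 := (1475697 / 1000000 : ℝ)) (q0 := (866979 / 312500 : ℝ))
      (by norm_num) (by norm_num) (by norm_num) (by norm_num) hs hsub) hpq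
  · exact tailL6_68 hp hq hpq hle hsub h1.le

theorem tailL6_66 {p q : ℝ} (hp : 0 < p) (hq : 0 < q) (hpq : 1 < p * q) (hle : p ≤ q)
    (hsub : (101 / 25 : ℝ) * (p * q - 1) ≤ 2 * (p + q + 2))
    (hs : (14646247 / 10000000 : ℝ) ≤ p) : NoSol 6 p q := by
  rcases le_or_gt p (1475697 / 1000000 : ℝ) with h1 | h1
  · exact rowL6_66 hp h1 hq (q_le_of_corner (A0 := (101 / 25 : ℝ)) (p0 := (14646247 / 10000000 : ℝ)) (q0 := (875113 / 312500 : ℝ))
      (by norm_num) (by norm_num) (by norm_num) (by norm_num) hs hsub) hpq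
  · exact tailL6_67 hp hq hpq hle hsub h1.le

theorem tailL6_65 {p q : ℝ} (hp : 0 < p) (hq : 0 < q) (hpq : 1 < p * q) (hle : p ≤ q)
    (hsub : (101 / 25 : ℝ) * (p * q - 1) ≤ 2 * (p + q + 2))
    (hs : (14537541 / 10000000 : ℝ) ≤ p) : NoSol 6 p q := by
  rcases le_or_gt p (14646247 / 10000000 : ℝ) with h1 | h1
  · exact rowL6_65 hp h1 hq (q_le_of_corner (A0 := (101 / 25 : ℝ)) (p0 := (14537541 / 10000000 : ℝ)) (q0 := (7066253 / 2500000 : ℝ))
      (by norm_num) (by norm_num) (by norm_num) (by norm_num) hs hsub) hpq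
  · exact tailL6_66 hp hq hpq hle hsub h1.le

theorem tailL6_64 {p q : ℝ} (hp : 0 < p) (hq : 0 < q) (hpq : 1 < p * q) (hle : p ≤ q)
    (hsub : (101 / 25 : ℝ) * (p * q - 1) ≤ 2 * (p + q + 2))
    (hs : (7215381 / 5000000 : ℝ) ≤ p) : NoSol 6 p q := by
  rcases le_or_gt p (14537541 / 10000000 : ℝ) with h1 | h1
  · exact rowL6_64 hp h1 hq (q_le_of_corner (A0 := (101 / 25 : ℝ)) (p0 := (7215381 / 5000000 : ℝ)) (q0 := (2852761 / 1000000 : ℝ))
      (by norm_num) (by norm_num) (by norm_num) (by norm_num) hs hsub) hpq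
  · exact tailL6_65 hp hq hpq hle hsub h1.le

theorem tailL6_63 {p q : ℝ} (hp : 0 < p) (hq : 0 < q) (hpq : 1 < p * q) (hle : p ≤ q)
    (hsub : (101 / 25 : ℝ) * (p * q - 1) ≤ 2 * (p + q + 2))
    (hs : (3581409 / 2500000 : ℝ) ≤ p) : NoSol 6 p q := by
  rcases le_or_gt p (7215381 / 5000000 : ℝ) with h1 | h1
  · exact rowL6_63 hp h1 hq (q_le_of_corner (A0 := (101 / 25 : ℝ)) (p0 := (3581409 / 2500000 : ℝ)) (q0 := (14395993 / 5000000 : ℝ))
      (by norm_num) (by norm_num) (by norm_num) (by norm_num) hs hsub) hpq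
  · exact tailL6_64 hp hq hpq hle hsub h1.le

theorem tailL6_62 {p q : ℝ} (hp : 0 < p) (hq : 0 < q) (hpq : 1 < p * q) (hle : p ≤ q)
    (hsub : (101 / 25 : ℝ) * (p * q - 1) ≤ 2 * (p + q + 2))
    (hs : (7111319 / 5000000 : ℝ) ≤ p) : NoSol 6 p q := by
  rcases le_or_gt p (3581409 / 2500000 : ℝ) with h1 | h1
  · exact rowL6_62 hp h1 hq (q_le_of_corner (A0 := (101 / 25 : ℝ)) (p0 := (7111319 / 5000000 : ℝ)) (q0 := (1162273 / 400000 : ℝ))
      (by norm_num) (by norm_num) (by norm_num) (by norm_num) hs hsub) hpq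
  · exact tailL6_63 hp hq hpq hle hsub h1.le

theorem tailL6_61 {p q : ℝ} (hp : 0 < p) (hq : 0 < q) (hpq : 1 < p * q) (hle : p ≤ q)
    (hsub : (101 / 25 : ℝ) * (p * q - 1) ≤ 2 * (p + q + 2))
    (hs : (14121423 / 10000000 : ℝ) ≤ p) : NoSol 6 p q := by
  rcases le_or_gt p (7111319 / 5000000 : ℝ) with h1 | h1
  · exact rowL6_61 hp h1 hq (q_le_of_corner (A0 := (101 / 25 : ℝ)) (p0 := (14121423 / 10000000 : ℝ)) (q0 := (234583 / 80000 : ℝ))
      (by norm_num) (by norm_num) (by norm_num) (by norm_num) hs hsub) hpq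
  · exact tailL6_62 hp hq hpq hle hsub h1.le

theorem tailL6_60 {p q : ℝ} (hp : 0 < p) (hq : 0 < q) (hpq : 1 < p * q) (hle : p ≤ q)
    (hsub : (101 / 25 : ℝ) * (p * q - 1) ≤ 2 * (p + q + 2))
    (hs : (438189 / 312500 : ℝ) ≤ p) : NoSol 6 p q := by
  rcases le_or_gt p (14121423 / 10000000 : ℝ) with h1 | h1
  · exact rowL6_60 hp h1 hq (q_le_of_corner (A0 := (101 / 25 : ℝ)) (p0 := (438189 / 312500 : ℝ)) (q0 := (3698733 / 1250000 : ℝ))
      (by norm_num) (by norm_num) (by norm_num) (by norm_num) hs hsub) hpq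
  · exact tailL6_61 hp hq hpq hle hsub h1.le

theorem tailL6_59 {p q : ℝ} (hp : 0 < p) (hq : 0 < q) (hpq : 1 < p * q) (hle : p ≤ q)
    (hsub : (101 / 25 : ℝ) * (p * q - 1) ≤ 2 * (p + q + 2))
    (hs : (3481121 / 2500000 : ℝ) ≤ p) : NoSol 6 p q := by
  rcases le_or_gt p (438189 / 312500 : ℝ) with h1 | h1
  · exact rowL6_59 hp h1 hq (q_le_of_corner (A0 := (101 / 25 : ℝ)) (p0 := (3481121 / 2500000 : ℝ)) (q0 := (1492887 / 500000 : ℝ))
      (by norm_num) (by norm_num) (by norm_num) (by norm_num) hs hsub) hpq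
  · exact tailL6_60 hp hq hpq hle hsub h1.le

theorem tailL6_58 {p q : ℝ} (hp : 0 < p) (hq : 0 < q) (hpq : 1 < p * q) (hle : p ≤ q)
    (hsub : (101 / 25 : ℝ) * (p * q - 1) ≤ 2 * (p + q + 2))
    (hs : (2765797 / 2000000 : ℝ) ≤ p) : NoSol 6 p q := by
  rcases le_or_gt p (3481121 / 2500000 : ℝ) with h1 | h1
  · exact rowL6_58 hp h1 hq (q_le_of_corner (A0 := (101 / 25 : ℝ)) (p0 := (2765797 / 2000000 : ℝ)) (q0 := (1882853 / 625000 : ℝ))
      (by norm_num) (by norm_num) (by norm_num) (by norm_num) hs hsub) hpq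
  · exact tailL6_59 hp hq hpq hle hsub h1.le

theorem tailL6_57 {p q : ℝ} (hp : 0 < p) (hq : 0 < q) (hpq : 1 < p * q) (hle : p ≤ q)
    (hsub : (101 / 25 : ℝ) * (p * q - 1) ≤ 2 * (p + q + 2))
    (hs : (6867409 / 5000000 : ℝ) ≤ p) : NoSol 6 p q := by
  rcases le_or_gt p (2765797 / 2000000 : ℝ) with h1 | h1
  · exact rowL6_57 hp h1 hq (q_le_of_corner (A0 := (101 / 25 : ℝ)) (p0 := (6867409 / 5000000 : ℝ)) (q0 := (30395523 / 10000000 : ℝ))
      (by norm_num) (by norm_num) (by norm_num) (by norm_num) hs hsub) hpq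
  · exact tailL6_58 hp hq hpq hle hsub h1.le

theorem tailL6_56 {p q : ℝ} (hp : 0 < p) (hq : 0 < q) (hpq : 1 < p * q) (hle : p ≤ q)
    (hsub : (101 / 25 : ℝ) * (p * q - 1) ≤ 2 * (p + q + 2))
    (hs : (6821117 / 5000000 : ℝ) ≤ p) : NoSol 6 p q := by
  rcases le_or_gt p (6867409 / 5000000 : ℝ) with h1 | h1
  · exact rowL6_56 hp h1 hq (q_le_of_corner (A0 := (101 / 25 : ℝ)) (p0 := (6821117 / 5000000 : ℝ)) (q0 := (15333281 / 5000000 : ℝ))
      (by norm_num) (by norm_num) (by norm_num) (by norm_num) hs hsub) hpq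
  · exact tailL6_57 hp hq hpq hle hsub h1.le

theorem tailL6_55 {p q : ℝ} (hp : 0 < p) (hq : 0 < q) (hpq : 1 < p * q) (hle : p ≤ q)
    (hsub : (101 / 25 : ℝ) * (p * q - 1) ≤ 2 * (p + q + 2))
    (hs : (13551493 / 10000000 : ℝ) ≤ p) : NoSol 6 p q := by
  rcases le_or_gt p (6821117 / 5000000 : ℝ) with h1 | h1
  · exact rowL6_55 hp h1 hq (q_le_of_corner (A0 := (101 / 25 : ℝ)) (p0 := (13551493 / 10000000 : ℝ)) (q0 := (7734467 / 2500000 : ℝ))
      (by norm_num) (by norm_num) (by norm_num) (by norm_num) hs hsub) hpq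
  · exact tailL6_56 hp hq hpq hle hsub h1.le

theorem tailL6_54 {p q : ℝ} (hp : 0 < p) (hq : 0 < q) (hpq : 1 < p * q) (hle : p ≤ q)
    (hsub : (101 / 25 : ℝ) * (p * q - 1) ≤ 2 * (p + q + 2))
    (hs : (3365823 / 2500000 : ℝ) ≤ p) : NoSol 6 p q := by
  rcases le_or_gt p (13551493 / 10000000 : ℝ) with h1 | h1
  · exact rowL6_54 hp h1 hq (q_le_of_corner (A0 := (101 / 25 : ℝ)) (p0 := (3365823 / 2500000 : ℝ)) (q0 := (31207123 / 10000000 : ℝ))
      (by norm_num) (by norm_num) (by norm_num) (by norm_num) hs hsub) hpq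
  · exact tailL6_55 hp hq hpq hle hsub h1.le

theorem tailL6_53 {p q : ℝ} (hp : 0 < p) (hq : 0 < q) (hpq : 1 < p * q) (hle : p ≤ q)
    (hsub : (101 / 25 : ℝ) * (p * q - 1) ≤ 2 * (p + q + 2))
    (hs : (6687849 / 5000000 : ℝ) ≤ p) : NoSol 6 p q := by
  rcases le_or_gt p (3365823 / 2500000 : ℝ) with h1 | h1
  · exact rowL6_53 hp h1 hq (q_le_of_corner (A0 := (101 / 25 : ℝ)) (p0 := (6687849 / 5000000 : ℝ)) (q0 := (3935013 / 1250000 : ℝ))
      (by norm_num) (by norm_num) (by norm_num) (by norm_num) hs hsub) hpq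
  · exact tailL6_54 hp hq hpq hle hsub h1.le

theorem tailL6_52 {p q : ℝ} (hp : 0 < p) (hq : 0 < q) (hpq : 1 < p * q) (hle : p ≤ q)
    (hsub : (101 / 25 : ℝ) * (p * q - 1) ≤ 2 * (p + q + 2))
    (hs : (3322427 / 2500000 : ℝ) ≤ p) : NoSol 6 p q := by
  rcases le_or_gt p (6687849 / 5000000 : ℝ) with h1 | h1
  · exact rowL6_52 hp h1 hq (q_le_of_corner (A0 := (101 / 25 : ℝ)) (p0 := (3322427 / 2500000 : ℝ)) (q0 := (6350733 / 2000000 : ℝ))
      (by norm_num) (by norm_num) (by norm_num) (by norm_num) hs hsub) hpq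
  · exact tailL6_53 hp hq hpq hle hsub h1.le

theorem tailL6_51 {p q : ℝ} (hp : 0 < p) (hq : 0 < q) (hpq : 1 < p * q) (hle : p ≤ q)
    (hsub : (101 / 25 : ℝ) * (p * q - 1) ≤ 2 * (p + q + 2))
    (hs : (13204873 / 10000000 : ℝ) ≤ p) : NoSol 6 p q := by
  rcases le_or_gt p (3322427 / 2500000 : ℝ) with h1 | h1
  · exact rowL6_51 hp h1 hq (q_le_of_corner (A0 := (101 / 25 : ℝ)) (p0 := (13204873 / 10000000 : ℝ)) (q0 := (2001821 / 625000 : ℝ))
      (by norm_num) (by norm_num) (by norm_num) (by norm_num) hs hsub) hpq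
  · exact tailL6_52 hp hq hpq hle hsub h1.le

theorem tailL6_50 {p q : ℝ} (hp : 0 < p) (hq : 0 < q) (hpq : 1 < p * q) (hle : p ≤ q)
    (hsub : (101 / 25 : ℝ) * (p * q - 1) ≤ 2 * (p + q + 2))
    (hs : (26243 / 20000 : ℝ) ≤ p) : NoSol 6 p q := by
  rcases le_or_gt p (13204873 / 10000000 : ℝ) with h1 | h1
  · exact rowL6_50 hp h1 hq (q_le_of_corner (A0 := (101 / 25 : ℝ)) (p0 := (26243 / 20000 : ℝ)) (q0 := (16152717 / 5000000 : ℝ))
      (by norm_num) (by norm_num) (by norm_num) (by norm_num) hs hsub) hpq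
  · exact tailL6_51 hp hq hpq hle hsub h1.le

theorem tailL6_49 {p q : ℝ} (hp : 0 < p) (hq : 0 < q) (hpq : 1 < p * q) (hle : p ≤ q)
    (hsub : (101 / 25 : ℝ) * (p * q - 1) ≤ 2 * (p + q + 2))
    (hs : (13039577 / 10000000 : ℝ) ≤ p) : NoSol 6 p q := by
  rcases le_or_gt p (26243 / 20000 : ℝ) with h1 | h1
  · exact rowL6_49 hp h1 hq (q_le_of_corner (A0 := (101 / 25 : ℝ)) (p0 := (13039577 / 10000000 : ℝ)) (q0 := (16291237 / 5000000 : ℝ))
      (by norm_num) (by norm_num) (by norm_num) (by norm_num) hs hsub) hpq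
  · exact tailL6_50 hp hq hpq hle hsub h1.le

theorem tailL6_48 {p q : ℝ} (hp : 0 < p) (hq : 0 < q) (hpq : 1 < p * q) (hle : p ≤ q)
    (hsub : (101 / 25 : ℝ) * (p * q - 1) ≤ 2 * (p + q + 2))
    (hs : (1295927 / 1000000 : ℝ) ≤ p) : NoSol 6 p q := by
  rcases le_or_gt p (13039577 / 10000000 : ℝ) with h1 | h1
  · exact rowL6_48 hp h1 hq (q_le_of_corner (A0 := (101 / 25 : ℝ)) (p0 := (1295927 / 1000000 : ℝ)) (q0 := (657191 / 200000 : ℝ))
      (by norm_num) (by norm_num) (by norm_num) (by norm_num) hs hsub) hpq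
  · exact tailL6_49 hp hq hpq hle hsub h1.le

theorem tailL6_47 {p q : ℝ} (hp : 0 < p) (hq : 0 < q) (hpq : 1 < p * q) (hle : p ≤ q)
    (hsub : (101 / 25 : ℝ) * (p * q - 1) ≤ 2 * (p + q + 2))
    (hs : (6440169 / 5000000 : ℝ) ≤ p) : NoSol 6 p q := by
  rcases le_or_gt p (1295927 / 1000000 : ℝ) with h1 | h1
  · exact rowL6_47 hp h1 hq (q_le_of_corner (A0 := (101 / 25 : ℝ)) (p0 := (6440169 / 5000000 : ℝ)) (q0 := (33137351 / 10000000 : ℝ))
      (by norm_num) (by norm_num) (by norm_num) (by norm_num) hs hsub) hpq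
  · exact tailL6_48 hp hq hpq hle hsub h1.le

theorem tailL6_46 {p q : ℝ} (hp : 0 < p) (hq : 0 < q) (hpq : 1 < p * q) (hle : p ≤ q)
    (hsub : (101 / 25 : ℝ) * (p * q - 1) ≤ 2 * (p + q + 2))
    (hs : (6401229 / 5000000 : ℝ) ≤ p) : NoSol 6 p q := by
  rcases le_or_gt p (6440169 / 5000000 : ℝ) with h1 | h1
  · exact rowL6_46 hp h1 hq (q_le_of_corner (A0 := (101 / 25 : ℝ)) (p0 := (6401229 / 5000000 : ℝ)) (q0 := (33416923 / 10000000 : ℝ))
      (by norm_num) (by norm_num) (by norm_num) (by norm_num) hs hsub) hpq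
  · exact tailL6_47 hp hq hpq hle hsub h1.le

theorem tailL6_45 {p q : ℝ} (hp : 0 < p) (hq : 0 < q) (hpq : 1 < p * q) (hle : p ≤ q)
    (hsub : (101 / 25 : ℝ) * (p * q - 1) ≤ 2 * (p + q + 2))
    (hs : (6362863 / 5000000 : ℝ) ≤ p) : NoSol 6 p q := by
  rcases le_or_gt p (6401229 / 5000000 : ℝ) with h1 | h1
  · exact rowL6_45 hp h1 hq (q_le_of_corner (A0 := (101 / 25 : ℝ)) (p0 := (6362863 / 5000000 : ℝ)) (q0 := (8424463 / 2500000 : ℝ))
      (by norm_num) (by norm_num) (by norm_num) (by norm_num) hs hsub) hpq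
  · exact tailL6_46 hp hq hpq hle hsub h1.le

theorem tailL6_44 {p q : ℝ} (hp : 0 < p) (hq : 0 < q) (hpq : 1 < p * q) (hle : p ≤ q)
    (hsub : (101 / 25 : ℝ) * (p * q - 1) ≤ 2 * (p + q + 2))
    (hs : (1265011 / 1000000 : ℝ) ≤ p) : NoSol 6 p q := by
  rcases le_or_gt p (6362863 / 5000000 : ℝ) with h1 | h1
  · exact rowL6_44 hp h1 hq (q_le_of_corner (A0 := (101 / 25 : ℝ)) (p0 := (1265011 / 1000000 : ℝ)) (q0 := (33980173 / 10000000 : ℝ))
      (by norm_num) (by norm_num) (by norm_num) (by norm_num) hs hsub) hpq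
  · exact tailL6_45 hp hq hpq hle hsub h1.le

theorem tailL6_43 {p q : ℝ} (hp : 0 < p) (hq : 0 < q) (hpq : 1 < p * q) (hle : p ≤ q)
    (hsub : (101 / 25 : ℝ) * (p * q - 1) ≤ 2 * (p + q + 2))
    (hs : (392997 / 312500 : ℝ) ≤ p) : NoSol 6 p q := by
  rcases le_or_gt p (1265011 / 1000000 : ℝ) with h1 | h1
  · exact rowL6_43 hp h1 hq (q_le_of_corner (A0 := (101 / 25 : ℝ)) (p0 := (392997 / 312500 : ℝ)) (q0 := (2141417 / 625000 : ℝ))
      (by norm_num) (by norm_num) (by norm_num) (by norm_num) hs hsub) hpq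
  · exact tailL6_44 hp hq hpq hle hsub h1.le

theorem tailL6_42 {p q : ℝ} (hp : 0 < p) (hq : 0 < q) (hpq : 1 < p * q) (hle : p ≤ q)
    (hsub : (101 / 25 : ℝ) * (p * q - 1) ≤ 2 * (p + q + 2))
    (hs : (1250251 / 1000000 : ℝ) ≤ p) : NoSol 6 p q := by
  rcases le_or_gt p (392997 / 312500 : ℝ) with h1 | h1
  · exact rowL6_42 hp h1 hq (q_le_of_corner (A0 := (101 / 25 : ℝ)) (p0 := (1250251 / 1000000 : ℝ)) (q0 := (17273771 / 5000000 : ℝ))
      (by norm_num) (by norm_num) (by norm_num) (by norm_num) hs hsub) hpq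
  · exact tailL6_43 hp hq hpq hle hsub h1.le

theorem tailL6_41 {p q : ℝ} (hp : 0 < p) (hq : 0 < q) (hpq : 1 < p * q) (hle : p ≤ q)
    (hsub : (101 / 25 : ℝ) * (p * q - 1) ≤ 2 * (p + q + 2))
    (hs : (6215161 / 5000000 : ℝ) ≤ p) : NoSol 6 p q := by
  rcases le_or_gt p (1250251 / 1000000 : ℝ) with h1 | h1
  · exact rowL6_41 hp h1 hq (q_le_of_corner (A0 := (101 / 25 : ℝ)) (p0 := (6215161 / 5000000 : ℝ)) (q0 := (1088537 / 312500 : ℝ))
      (by norm_num) (by norm_num) (by norm_num) (by norm_num) hs hsub) hpq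
  · exact tailL6_42 hp hq hpq hle hsub h1.le

theorem tailL6_40 {p q : ℝ} (hp : 0 < p) (hq : 0 < q) (hpq : 1 < p * q) (hle : p ≤ q)
    (hsub : (101 / 25 : ℝ) * (p * q - 1) ≤ 2 * (p + q + 2))
    (hs : (12359677 / 10000000 : ℝ) ≤ p) : NoSol 6 p q := by
  rcases le_or_gt p (6215161 / 5000000 : ℝ) with h1 | h1
  · exact rowL6_40 hp h1 hq (q_le_of_corner (A0 := (101 / 25 : ℝ)) (p0 := (12359677 / 10000000 : ℝ)) (q0 := (35118109 / 10000000 : ℝ))
      (by norm_num) (by norm_num) (by norm_num) (by norm_num) hs hsub) hpq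
  · exact tailL6_41 hp hq hpq hle hsub h1.le

theorem tailL6_39 {p q : ℝ} (hp : 0 < p) (hq : 0 < q) (hpq : 1 < p * q) (hle : p ≤ q)
    (hsub : (101 / 25 : ℝ) * (p * q - 1) ≤ 2 * (p + q + 2))
    (hs : (6145049 / 5000000 : ℝ) ≤ p) : NoSol 6 p q := by
  rcases le_or_gt p (12359677 / 10000000 : ℝ) with h1 | h1
  · exact rowL6_39 hp h1 hq (q_le_of_corner (A0 := (101 / 25 : ℝ)) (p0 := (6145049 / 5000000 : ℝ)) (q0 := (553189 / 156250 : ℝ))
      (by norm_num) (by norm_num) (by norm_num) (by norm_num) hs hsub) hpq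
  · exact tailL6_40 hp hq hpq hle hsub h1.le

theorem tailL6_38 {p q : ℝ} (hp : 0 < p) (hq : 0 < q) (hpq : 1 < p * q) (hle : p ≤ q)
    (hsub : (101 / 25 : ℝ) * (p * q - 1) ≤ 2 * (p + q + 2))
    (hs : (12221599 / 10000000 : ℝ) ≤ p) : NoSol 6 p q := by
  rcases le_or_gt p (6145049 / 5000000 : ℝ) with h1 | h1
  · exact rowL6_38 hp h1 hq (q_le_of_corner (A0 := (101 / 25 : ℝ)) (p0 := (12221599 / 10000000 : ℝ)) (q0 := (35690991 / 10000000 : ℝ))
      (by norm_num) (by norm_num) (by norm_num) (by norm_num) hs hsub) hpq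
  · exact tailL6_39 hp hq hpq hle hsub h1.le

theorem tailL6_37 {p q : ℝ} (hp : 0 < p) (hq : 0 < q) (hpq : 1 < p * q) (hle : p ≤ q)
    (hsub : (101 / 25 : ℝ) * (p * q - 1) ≤ 2 * (p + q + 2))
    (hs : (2430697 / 2000000 : ℝ) ≤ p) : NoSol 6 p q := by
  rcases le_or_gt p (12221599 / 10000000 : ℝ) with h1 | h1
  · exact rowL6_37 hp h1 hq (q_le_of_corner (A0 := (101 / 25 : ℝ)) (p0 := (2430697 / 2000000 : ℝ)) (q0 := (8995421 / 2500000 : ℝ))
      (by norm_num) (by norm_num) (by norm_num) (by norm_num) hs hsub) hpq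
  · exact tailL6_38 hp hq hpq hle hsub h1.le

theorem tailL6_36 {p q : ℝ} (hp : 0 < p) (hq : 0 < q) (hpq : 1 < p * q) (hle : p ≤ q)
    (hsub : (101 / 25 : ℝ) * (p * q - 1) ≤ 2 * (p + q + 2))
    (hs : (12086347 / 10000000 : ℝ) ≤ p) : NoSol 6 p q := by
  rcases le_or_gt p (2430697 / 2000000 : ℝ) with h1 | h1
  · exact rowL6_36 hp h1 hq (q_le_of_corner (A0 := (101 / 25 : ℝ)) (p0 := (12086347 / 10000000 : ℝ)) (q0 := (18136821 / 5000000 : ℝ))
      (by norm_num) (by norm_num) (by norm_num) (by norm_num) hs hsub) hpq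
  · exact tailL6_37 hp hq hpq hle hsub h1.le

theorem tailL6_35 {p q : ℝ} (hp : 0 < p) (hq : 0 < q) (hpq : 1 < p * q) (hle : p ≤ q)
    (hsub : (101 / 25 : ℝ) * (p * q - 1) ≤ 2 * (p + q + 2))
    (hs : (751269 / 625000 : ℝ) ≤ p) : NoSol 6 p q := by
  rcases le_or_gt p (12086347 / 10000000 : ℝ) with h1 | h1
  · exact rowL6_35 hp h1 hq (q_le_of_corner (A0 := (101 / 25 : ℝ)) (p0 := (751269 / 625000 : ℝ)) (q0 := (36566249 / 10000000 : ℝ))
      (by norm_num) (by norm_num) (by norm_num) (by norm_num) hs hsub) hpq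
  · exact tailL6_36 hp hq hpq hle hsub h1.le

theorem tailL6_34 {p q : ℝ} (hp : 0 < p) (hq : 0 < q) (hpq : 1 < p * q) (hle : p ≤ q)
    (hsub : (101 / 25 : ℝ) * (p * q - 1) ≤ 2 * (p + q + 2))
    (hs : (1494387 / 1250000 : ℝ) ≤ p) : NoSol 6 p q := by
  rcases le_or_gt p (751269 / 625000 : ℝ) with h1 | h1
  · exact rowL6_34 hp h1 hq (q_le_of_corner (A0 := (101 / 25 : ℝ)) (p0 := (1494387 / 1250000 : ℝ)) (q0 := (3686057 / 1000000 : ℝ))
      (by norm_num) (by norm_num) (by norm_num) (by norm_num) hs hsub) hpq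
  · exact tailL6_35 hp hq hpq hle hsub h1.le

theorem tailL6_33 {p q : ℝ} (hp : 0 < p) (hq : 0 < q) (hpq : 1 < p * q) (hle : p ≤ q)
    (hsub : (101 / 25 : ℝ) * (p * q - 1) ≤ 2 * (p + q + 2))
    (hs : (2378137 / 2000000 : ℝ) ≤ p) : NoSol 6 p q := by
  rcases le_or_gt p (1494387 / 1250000 : ℝ) with h1 | h1
  · exact rowL6_33 hp h1 hq (q_le_of_corner (A0 := (101 / 25 : ℝ)) (p0 := (2378137 / 2000000 : ℝ)) (q0 := (37156723 / 10000000 : ℝ))
      (by norm_num) (by norm_num) (by norm_num) (by norm_num) hs hsub) hpq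
  · exact tailL6_34 hp hq hpq hle hsub h1.le

theorem tailL6_32 {p q : ℝ} (hp : 0 < p) (hq : 0 < q) (hpq : 1 < p * q) (hle : p ≤ q)
    (hsub : (101 / 25 : ℝ) * (p * q - 1) ≤ 2 * (p + q + 2))
    (hs : (11827169 / 10000000 : ℝ) ≤ p) : NoSol 6 p q := by
  rcases le_or_gt p (2378137 / 2000000 : ℝ) with h1 | h1
  · exact rowL6_32 hp h1 hq (q_le_of_corner (A0 := (101 / 25 : ℝ)) (p0 := (11827169 / 10000000 : ℝ)) (q0 := (18727097 / 5000000 : ℝ))
      (by norm_num) (by norm_num) (by norm_num) (by norm_num) hs hsub) hpq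
  · exact tailL6_33 hp hq hpq hle hsub h1.le

theorem tailL6_31 {p q : ℝ} (hp : 0 < p) (hq : 0 < q) (hpq : 1 < p * q) (hle : p ≤ q)
    (hsub : (101 / 25 : ℝ) * (p * q - 1) ≤ 2 * (p + q + 2))
    (hs : (2352901 / 2000000 : ℝ) ≤ p) : NoSol 6 p q := by
  rcases le_or_gt p (11827169 / 10000000 : ℝ) with h1 | h1
  · exact rowL6_31 hp h1 hq (q_le_of_corner (A0 := (101 / 25 : ℝ)) (p0 := (2352901 / 2000000 : ℝ)) (q0 := (37753109 / 10000000 : ℝ))
      (by norm_num) (by norm_num) (by norm_num) (by norm_num) hs hsub) hpq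
  · exact tailL6_32 hp hq hpq hle hsub h1.le

theorem tailL6_30 {p q : ℝ} (hp : 0 < p) (hq : 0 < q) (hpq : 1 < p * q) (hle : p ≤ q)
    (hsub : (101 / 25 : ℝ) * (p * q - 1) ≤ 2 * (p + q + 2))
    (hs : (11703379 / 10000000 : ℝ) ≤ p) : NoSol 6 p q := by
  rcases le_or_gt p (2352901 / 2000000 : ℝ) with h1 | h1
  · exact rowL6_30 hp h1 hq (q_le_of_corner (A0 := (101 / 25 : ℝ)) (p0 := (11703379 / 10000000 : ℝ)) (q0 := (38050033 / 10000000 : ℝ))
      (by norm_num) (by norm_num) (by norm_num) (by norm_num) hs hsub) hpq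
  · exact tailL6_31 hp hq hpq hle hsub h1.le

theorem tailL6_29 {p q : ℝ} (hp : 0 < p) (hq : 0 < q) (hpq : 1 < p * q) (hle : p ≤ q)
    (hsub : (101 / 25 : ℝ) * (p * q - 1) ≤ 2 * (p + q + 2))
    (hs : (11643547 / 10000000 : ℝ) ≤ p) : NoSol 6 p q := by
  rcases le_or_gt p (11703379 / 10000000 : ℝ) with h1 | h1
  · exact rowL6_29 hp h1 hq (q_le_of_corner (A0 := (101 / 25 : ℝ)) (p0 := (11643547 / 10000000 : ℝ)) (q0 := (9586481 / 2500000 : ℝ))
      (by norm_num) (by norm_num) (by norm_num) (by norm_num) hs hsub) hpq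
  · exact tailL6_30 hp hq hpq hle hsub h1.le

theorem tailL6_28 {p q : ℝ} (hp : 0 < p) (hq : 0 < q) (hpq : 1 < p * q) (hle : p ≤ q)
    (hsub : (101 / 25 : ℝ) * (p * q - 1) ≤ 2 * (p + q + 2))
    (hs : (2895889 / 2500000 : ℝ) ≤ p) : NoSol 6 p q := by
  rcases le_or_gt p (11643547 / 10000000 : ℝ) with h1 | h1
  · exact rowL6_28 hp h1 hq (q_le_of_corner (A0 := (101 / 25 : ℝ)) (p0 := (2895889 / 2500000 : ℝ)) (q0 := (966199 / 250000 : ℝ))
      (by norm_num) (by norm_num) (by norm_num) (by norm_num) hs hsub) hpq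
  · exact tailL6_29 hp hq hpq hle hsub h1.le

theorem tailL6_27 {p q : ℝ} (hp : 0 < p) (hq : 0 < q) (hpq : 1 < p * q) (hle : p ≤ q)
    (hsub : (101 / 25 : ℝ) * (p * q - 1) ≤ 2 * (p + q + 2))
    (hs : (5762071 / 5000000 : ℝ) ≤ p) : NoSol 6 p q := by
  rcases le_or_gt p (2895889 / 2500000 : ℝ) with h1 | h1
  · exact rowL6_27 hp h1 hq (q_le_of_corner (A0 := (101 / 25 : ℝ)) (p0 := (5762071 / 5000000 : ℝ)) (q0 := (1558101 / 400000 : ℝ))
      (by norm_num) (by norm_num) (by norm_num) (by norm_num) hs hsub) hpq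
  · exact tailL6_28 hp hq hpq hle hsub h1.le

theorem tailL6_26 {p q : ℝ} (hp : 0 < p) (hq : 0 < q) (hpq : 1 < p * q) (hle : p ≤ q)
    (hsub : (101 / 25 : ℝ) * (p * q - 1) ≤ 2 * (p + q + 2))
    (hs : (458613 / 400000 : ℝ) ≤ p) : NoSol 6 p q := by
  rcases le_or_gt p (5762071 / 5000000 : ℝ) with h1 | h1
  · exact rowL6_26 hp h1 hq (q_le_of_corner (A0 := (101 / 25 : ℝ)) (p0 := (458613 / 400000 : ℝ)) (q0 := (39259501 / 10000000 : ℝ))
      (by norm_num) (by norm_num) (by norm_num) (by norm_num) hs hsub) hpq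
  · exact tailL6_27 hp hq hpq hle hsub h1.le

theorem tailL6_25 {p q : ℝ} (hp : 0 < p) (hq : 0 < q) (hpq : 1 < p * q) (hle : p ≤ q)
    (hsub : (101 / 25 : ℝ) * (p * q - 1) ≤ 2 * (p + q + 2))
    (hs : (2851843 / 2500000 : ℝ) ≤ p) : NoSol 6 p q := by
  rcases le_or_gt p (458613 / 400000 : ℝ) with h1 | h1
  · exact rowL6_25 hp h1 hq (q_le_of_corner (A0 := (101 / 25 : ℝ)) (p0 := (2851843 / 2500000 : ℝ)) (q0 := (19783719 / 5000000 : ℝ))
      (by norm_num) (by norm_num) (by norm_num) (by norm_num) hs hsub) hpq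
  · exact tailL6_26 hp hq hpq hle hsub h1.le

theorem tailL6_24 {p q : ℝ} (hp : 0 < p) (hq : 0 < q) (hpq : 1 < p * q) (hle : p ≤ q)
    (hsub : (101 / 25 : ℝ) * (p * q - 1) ≤ 2 * (p + q + 2))
    (hs : (2837479 / 2500000 : ℝ) ≤ p) : NoSol 6 p q := by
  rcases le_or_gt p (2851843 / 2500000 : ℝ) with h1 | h1
  · exact rowL6_24 hp h1 hq (q_le_of_corner (A0 := (101 / 25 : ℝ)) (p0 := (2837479 / 2500000 : ℝ)) (q0 := (39878239 / 10000000 : ℝ))
      (by norm_num) (by norm_num) (by norm_num) (by norm_num) hs hsub) hpq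
  · exact tailL6_25 hp hq hpq hle hsub h1.le

theorem tailL6_23 {p q : ℝ} (hp : 0 < p) (hq : 0 < q) (hpq : 1 < p * q) (hle : p ≤ q)
    (hsub : (101 / 25 : ℝ) * (p * q - 1) ≤ 2 * (p + q + 2))
    (hs : (11293577 / 10000000 : ℝ) ≤ p) : NoSol 6 p q := by
  rcases le_or_gt p (2837479 / 2500000 : ℝ) with h1 | h1
  · exact rowL6_23 hp h1 hq (q_le_of_corner (A0 := (101 / 25 : ℝ)) (p0 := (11293577 / 10000000 : ℝ)) (q0 := (20094233 / 5000000 : ℝ))
      (by norm_num) (by norm_num) (by norm_num) (by norm_num) hs hsub) hpq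
  · exact tailL6_24 hp hq hpq hle hsub h1.le

theorem tailL6_22 {p q : ℝ} (hp : 0 < p) (hq : 0 < q) (hpq : 1 < p * q) (hle : p ≤ q)
    (hsub : (101 / 25 : ℝ) * (p * q - 1) ≤ 2 * (p + q + 2))
    (hs : (70243 / 62500 : ℝ) ≤ p) : NoSol 6 p q := by
  rcases le_or_gt p (11293577 / 10000000 : ℝ) with h1 | h1
  · exact rowL6_22 hp h1 hq (q_le_of_corner (A0 := (101 / 25 : ℝ)) (p0 := (70243 / 62500 : ℝ)) (q0 := (4049497 / 1000000 : ℝ))
      (by norm_num) (by norm_num) (by norm_num) (by norm_num) hs hsub) hpq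
  · exact tailL6_23 hp hq hpq hle hsub h1.le

theorem tailL6_21 {p q : ℝ} (hp : 0 < p) (hq : 0 < q) (hpq : 1 < p * q) (hle : p ≤ q)
    (hsub : (101 / 25 : ℝ) * (p * q - 1) ≤ 2 * (p + q + 2))
    (hs : (1397911 / 1250000 : ℝ) ≤ p) : NoSol 6 p q := by
  rcases le_or_gt p (70243 / 62500 : ℝ) with h1 | h1
  · exact rowL6_21 hp h1 hq (q_le_of_corner (A0 := (101 / 25 : ℝ)) (p0 := (1397911 / 1250000 : ℝ)) (q0 := (40812001 / 10000000 : ℝ))
      (by norm_num) (by norm_num) (by norm_num) (by norm_num) hs hsub) hpq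
  · exact tailL6_22 hp hq hpq hle hsub h1.le

theorem tailL6_20 {p q : ℝ} (hp : 0 < p) (hq : 0 < q) (hpq : 1 < p * q) (hle : p ≤ q)
    (hsub : (101 / 25 : ℝ) * (p * q - 1) ≤ 2 * (p + q + 2))
    (hs : (11128161 / 10000000 : ℝ) ≤ p) : NoSol 6 p q := by
  rcases le_or_gt p (1397911 / 1250000 : ℝ) with h1 | h1
  · exact rowL6_20 hp h1 hq (q_le_of_corner (A0 := (101 / 25 : ℝ)) (p0 := (11128161 / 10000000 : ℝ)) (q0 := (20566007 / 5000000 : ℝ))
      (by norm_num) (by norm_num) (by norm_num) (by norm_num) hs hsub) hpq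
  · exact tailL6_21 hp hq hpq hle hsub h1.le

theorem tailL6_19 {p q : ℝ} (hp : 0 < p) (hq : 0 < q) (hpq : 1 < p * q) (hle : p ≤ q)
    (hsub : (101 / 25 : ℝ) * (p * q - 1) ≤ 2 * (p + q + 2))
    (hs : (2768449 / 2500000 : ℝ) ≤ p) : NoSol 6 p q := by
  rcases le_or_gt p (11128161 / 10000000 : ℝ) with h1 | h1
  · exact rowL6_19 hp h1 hq (q_le_of_corner (A0 := (101 / 25 : ℝ)) (p0 := (2768449 / 2500000 : ℝ)) (q0 := (41453247 / 10000000 : ℝ))
      (by norm_num) (by norm_num) (by norm_num) (by norm_num) hs hsub) hpq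
  · exact tailL6_20 hp hq hpq hle hsub h1.le

theorem tailL6_18 {p q : ℝ} (hp : 0 < p) (hq : 0 < q) (hpq : 1 < p * q) (hle : p ≤ q)
    (hsub : (101 / 25 : ℝ) * (p * q - 1) ≤ 2 * (p + q + 2))
    (hs : (5510079 / 5000000 : ℝ) ≤ p) : NoSol 6 p q := by
  rcases le_or_gt p (2768449 / 2500000 : ℝ) with h1 | h1
  · exact rowL6_18 hp h1 hq (q_le_of_corner (A0 := (101 / 25 : ℝ)) (p0 := (5510079 / 5000000 : ℝ)) (q0 := (1671033 / 400000 : ℝ))
      (by norm_num) (by norm_num) (by norm_num) (by norm_num) hs hsub) hpq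
  · exact tailL6_19 hp hq hpq hle hsub h1.le

theorem tailL6_17 {p q : ℝ} (hp : 0 < p) (hq : 0 < q) (hpq : 1 < p * q) (hle : p ≤ q)
    (hsub : (101 / 25 : ℝ) * (p * q - 1) ≤ 2 * (p + q + 2))
    (hs : (10966943 / 10000000 : ℝ) ≤ p) : NoSol 6 p q := by
  rcases le_or_gt p (5510079 / 5000000 : ℝ) with h1 | h1
  · exact rowL6_17 hp h1 hq (q_le_of_corner (A0 := (101 / 25 : ℝ)) (p0 := (10966943 / 10000000 : ℝ)) (q0 := (21050771 / 5000000 : ℝ))
      (by norm_num) (by norm_num) (by norm_num) (by norm_num) hs hsub) hpq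
  · exact tailL6_18 hp hq hpq hle hsub h1.le

theorem tailL6_16 {p q : ℝ} (hp : 0 < p) (hq : 0 < q) (hpq : 1 < p * q) (hle : p ≤ q)
    (hsub : (101 / 25 : ℝ) * (p * q - 1) ≤ 2 * (p + q + 2))
    (hs : (10914063 / 10000000 : ℝ) ≤ p) : NoSol 6 p q := by
  rcases le_or_gt p (10966943 / 10000000 : ℝ) with h1 | h1
  · exact rowL6_16 hp h1 hq (q_le_of_corner (A0 := (101 / 25 : ℝ)) (p0 := (10914063 / 10000000 : ℝ)) (q0 := (42430967 / 10000000 : ℝ))
      (by norm_num) (by norm_num) (by norm_num) (by norm_num) hs hsub) hpq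
  · exact tailL6_17 hp hq hpq hle hsub h1.le

theorem tailL6_15 {p q : ℝ} (hp : 0 < p) (hq : 0 < q) (hpq : 1 < p * q) (hle : p ≤ q)
    (hsub : (101 / 25 : ℝ) * (p * q - 1) ≤ 2 * (p + q + 2))
    (hs : (10861729 / 10000000 : ℝ) ≤ p) : NoSol 6 p q := by
  rcases le_or_gt p (10914063 / 10000000 : ℝ) with h1 | h1
  · exact rowL6_15 hp h1 hq (q_le_of_corner (A0 := (101 / 25 : ℝ)) (p0 := (10861729 / 10000000 : ℝ)) (q0 := (42762793 / 10000000 : ℝ))
      (by norm_num) (by norm_num) (by norm_num) (by norm_num) hs hsub) hpq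
  · exact tailL6_16 hp hq hpq hle hsub h1.le

theorem tailL6_14 {p q : ℝ} (hp : 0 < p) (hq : 0 < q) (hpq : 1 < p * q) (hle : p ≤ q)
    (hsub : (101 / 25 : ℝ) * (p * q - 1) ≤ 2 * (p + q + 2))
    (hs : (10809821 / 10000000 : ℝ) ≤ p) : NoSol 6 p q := by
  rcases le_or_gt p (10861729 / 10000000 : ℝ) with h1 | h1
  · exact rowL6_14 hp h1 hq (q_le_of_corner (A0 := (101 / 25 : ℝ)) (p0 := (10809821 / 10000000 : ℝ)) (q0 := (21548887 / 5000000 : ℝ))
      (by norm_num) (by norm_num) (by norm_num) (by norm_num) hs hsub) hpq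
  · exact tailL6_15 hp hq hpq hle hsub h1.le

theorem tailL6_13 {p q : ℝ} (hp : 0 < p) (hq : 0 < q) (hpq : 1 < p * q) (hle : p ≤ q)
    (hsub : (101 / 25 : ℝ) * (p * q - 1) ≤ 2 * (p + q + 2))
    (hs : (2151741 / 2000000 : ℝ) ≤ p) : NoSol 6 p q := by
  rcases le_or_gt p (10809821 / 10000000 : ℝ) with h1 | h1
  · exact rowL6_13 hp h1 hq (q_le_of_corner (A0 := (101 / 25 : ℝ)) (p0 := (2151741 / 2000000 : ℝ)) (q0 := (21716747 / 5000000 : ℝ))
      (by norm_num) (by norm_num) (by norm_num) (by norm_num) hs hsub) hpq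
  · exact tailL6_14 hp hq hpq hle hsub h1.le

theorem tailL6_12 {p q : ℝ} (hp : 0 < p) (hq : 0 < q) (hpq : 1 < p * q) (hle : p ≤ q)
    (hsub : (101 / 25 : ℝ) * (p * q - 1) ≤ 2 * (p + q + 2))
    (hs : (5353813 / 5000000 : ℝ) ≤ p) : NoSol 6 p q := by
  rcases le_or_gt p (2151741 / 2000000 : ℝ) with h1 | h1
  · exact rowL6_12 hp h1 hq (q_le_of_corner (A0 := (101 / 25 : ℝ)) (p0 := (5353813 / 5000000 : ℝ)) (q0 := (43774927 / 10000000 : ℝ))
      (by norm_num) (by norm_num) (by norm_num) (by norm_num) hs hsub) hpq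
  · exact tailL6_13 hp hq hpq hle hsub h1.le

theorem tailL6_11 {p q : ℝ} (hp : 0 < p) (hq : 0 < q) (hpq : 1 < p * q) (hle : p ≤ q)
    (hsub : (101 / 25 : ℝ) * (p * q - 1) ≤ 2 * (p + q + 2))
    (hs : (2664263 / 2500000 : ℝ) ≤ p) : NoSol 6 p q := by
  rcases le_or_gt p (5353813 / 5000000 : ℝ) with h1 | h1
  · exact rowL6_11 hp h1 hq (q_le_of_corner (A0 := (101 / 25 : ℝ)) (p0 := (2664263 / 2500000 : ℝ)) (q0 := (22059503 / 5000000 : ℝ))
      (by norm_num) (by norm_num) (by norm_num) (by norm_num) hs hsub) hpq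
  · exact tailL6_12 hp hq hpq hle hsub h1.le

theorem tailL6_10 {p q : ℝ} (hp : 0 < p) (hq : 0 < q) (hpq : 1 < p * q) (hle : p ≤ q)
    (hsub : (101 / 25 : ℝ) * (p * q - 1) ≤ 2 * (p + q + 2))
    (hs : (2651723 / 2500000 : ℝ) ≤ p) : NoSol 6 p q := by
  rcases le_or_gt p (2664263 / 2500000 : ℝ) with h1 | h1
  · exact rowL6_10 hp h1 hq (q_le_of_corner (A0 := (101 / 25 : ℝ)) (p0 := (2651723 / 2500000 : ℝ)) (q0 := (22233173 / 5000000 : ℝ))
      (by norm_num) (by norm_num) (by norm_num) (by norm_num) hs hsub) hpq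
  · exact tailL6_11 hp hq hpq hle hsub h1.le

theorem tailL6_9 {p q : ℝ} (hp : 0 < p) (hq : 0 < q) (hpq : 1 < p * q) (hle : p ≤ q)
    (hsub : (101 / 25 : ℝ) * (p * q - 1) ≤ 2 * (p + q + 2))
    (hs : (2111433 / 2000000 : ℝ) ≤ p) : NoSol 6 p q := by
  rcases le_or_gt p (2651723 / 2500000 : ℝ) with h1 | h1
  · exact rowL6_9 hp h1 hq (q_le_of_corner (A0 := (101 / 25 : ℝ)) (p0 := (2111433 / 2000000 : ℝ)) (q0 := (22408411 / 5000000 : ℝ))
      (by norm_num) (by norm_num) (by norm_num) (by norm_num) hs hsub) hpq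
  · exact tailL6_10 hp hq hpq hle hsub h1.le

theorem tailL6_8 {p q : ℝ} (hp : 0 < p) (hq : 0 < q) (hpq : 1 < p * q) (hle : p ≤ q)
    (hsub : (101 / 25 : ℝ) * (p * q - 1) ≤ 2 * (p + q + 2))
    (hs : (5254021 / 5000000 : ℝ) ≤ p) : NoSol 6 p q := by
  rcases le_or_gt p (2111433 / 2000000 : ℝ) with h1 | h1
  · exact rowL6_8 hp h1 hq (q_le_of_corner (A0 := (101 / 25 : ℝ)) (p0 := (5254021 / 5000000 : ℝ)) (q0 := (112923 / 25000 : ℝ))
      (by norm_num) (by norm_num) (by norm_num) (by norm_num) hs hsub) hpq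
  · exact tailL6_9 hp hq hpq hle hsub h1.le

theorem tailL6_7 {p q : ℝ} (hp : 0 < p) (hq : 0 < q) (hpq : 1 < p * q) (hle : p ≤ q)
    (hsub : (101 / 25 : ℝ) * (p * q - 1) ≤ 2 * (p + q + 2))
    (hs : (2614837 / 2500000 : ℝ) ≤ p) : NoSol 6 p q := by
  rcases le_or_gt p (5254021 / 5000000 : ℝ) with h1 | h1
  · exact rowL6_7 hp h1 hq (q_le_of_corner (A0 := (101 / 25 : ℝ)) (p0 := (2614837 / 2500000 : ℝ)) (q0 := (22762351 / 5000000 : ℝ))
      (by norm_num) (by norm_num) (by norm_num) (by norm_num) hs hsub) hpq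
  · exact tailL6_8 hp hq hpq hle hsub h1.le

theorem tailL6_6 {p q : ℝ} (hp : 0 < p) (hq : 0 < q) (hpq : 1 < p * q) (hle : p ≤ q)
    (hsub : (101 / 25 : ℝ) * (p * q - 1) ≤ 2 * (p + q + 2))
    (hs : (1301561 / 1250000 : ℝ) ≤ p) : NoSol 6 p q := by
  rcases le_or_gt p (2614837 / 2500000 : ℝ) with h1 | h1
  · exact rowL6_6 hp h1 hq (q_le_of_corner (A0 := (101 / 25 : ℝ)) (p0 := (1301561 / 1250000 : ℝ)) (q0 := (57341 / 12500 : ℝ))
      (by norm_num) (by norm_num) (by norm_num) (by norm_num) hs hsub) hpq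
  · exact tailL6_7 hp hq hpq hle hsub h1.le

theorem tailL6_5 {p q : ℝ} (hp : 0 < p) (hq : 0 < q) (hpq : 1 < p * q) (hle : p ≤ q)
    (hsub : (101 / 25 : ℝ) * (p * q - 1) ≤ 2 * (p + q + 2))
    (hs : (5182587 / 5000000 : ℝ) ≤ p) : NoSol 6 p q := by
  rcases le_or_gt p (1301561 / 1250000 : ℝ) with h1 | h1
  · exact rowL6_5 hp h1 hq (q_le_of_corner (A0 := (101 / 25 : ℝ)) (p0 := (5182587 / 5000000 : ℝ)) (q0 := (46230383 / 10000000 : ℝ))
      (by norm_num) (by norm_num) (by norm_num) (by norm_num) hs hsub) hpq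
  · exact tailL6_6 hp hq hpq hle hsub h1.le

theorem tailL6_4 {p q : ℝ} (hp : 0 < p) (hq : 0 < q) (hpq : 1 < p * q) (hle : p ≤ q)
    (hsub : (101 / 25 : ℝ) * (p * q - 1) ≤ 2 * (p + q + 2))
    (hs : (10317413 / 10000000 : ℝ) ≤ p) : NoSol 6 p q := by
  rcases le_or_gt p (5182587 / 5000000 : ℝ) with h1 | h1
  · exact rowL6_4 hp h1 hq (q_le_of_corner (A0 := (101 / 25 : ℝ)) (p0 := (10317413 / 10000000 : ℝ)) (q0 := (46597739 / 10000000 : ℝ))
      (by norm_num) (by norm_num) (by norm_num) (by norm_num) hs hsub) hpq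
  · exact tailL6_5 hp hq hpq hle hsub h1.le

theorem tailL6_3 {p q : ℝ} (hp : 0 < p) (hq : 0 < q) (hpq : 1 < p * q) (hle : p ≤ q)
    (hsub : (101 / 25 : ℝ) * (p * q - 1) ≤ 2 * (p + q + 2))
    (hs : (5134939 / 5000000 : ℝ) ≤ p) : NoSol 6 p q := by
  rcases le_or_gt p (10317413 / 10000000 : ℝ) with h1 | h1
  · exact rowL6_3 hp h1 hq (q_le_of_corner (A0 := (101 / 25 : ℝ)) (p0 := (5134939 / 5000000 : ℝ)) (q0 := (23484953 / 5000000 : ℝ))
      (by norm_num) (by norm_num) (by norm_num) (by norm_num) hs hsub) hpq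
  · exact tailL6_4 hp hq hpq hle hsub h1.le

theorem tailL6_2 {p q : ℝ} (hp : 0 < p) (hq : 0 < q) (hpq : 1 < p * q) (hle : p ≤ q)
    (hsub : (101 / 25 : ℝ) * (p * q - 1) ≤ 2 * (p + q + 2))
    (hs : (10222731 / 10000000 : ℝ) ≤ p) : NoSol 6 p q := by
  rcases le_or_gt p (5134939 / 5000000 : ℝ) with h1 | h1
  · exact rowL6_2 hp h1 hq (q_le_of_corner (A0 := (101 / 25 : ℝ)) (p0 := (10222731 / 10000000 : ℝ)) (q0 := (9469133 / 2000000 : ℝ))
      (by norm_num) (by norm_num) (by norm_num) (by norm_num) hs hsub) hpq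
  · exact tailL6_3 hp hq hpq hle hsub h1.le

theorem tailL6_1 {p q : ℝ} (hp : 0 < p) (hq : 0 < q) (hpq : 1 < p * q) (hle : p ≤ q)
    (hsub : (101 / 25 : ℝ) * (p * q - 1) ≤ 2 * (p + q + 2))
    (hs : (10176613 / 10000000 : ℝ) ≤ p) : NoSol 6 p q := by
  rcases le_or_gt p (10222731 / 10000000 : ℝ) with h1 | h1
  · exact rowL6_1 hp h1 hq (q_le_of_corner (A0 := (101 / 25 : ℝ)) (p0 := (10176613 / 10000000 : ℝ)) (q0 := (23859891 / 5000000 : ℝ))
      (by norm_num) (by norm_num) (by norm_num) (by norm_num) hs hsub) hpq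
  · exact tailL6_2 hp hq hpq hle hsub h1.le

theorem tailL6_0 {p q : ℝ} (hp : 0 < p) (hq : 0 < q) (hpq : 1 < p * q) (hle : p ≤ q)
    (hsub : (101 / 25 : ℝ) * (p * q - 1) ≤ 2 * (p + q + 2))
    (hs : (76 / 75 : ℝ) ≤ p) : NoSol 6 p q := by
  rcases le_or_gt p (10176613 / 10000000 : ℝ) with h1 | h1
  · exact rowL6_0 hp h1 hq (q_le_of_corner (A0 := (101 / 25 : ℝ)) (p0 := (76 / 75 : ℝ)) (q0 := (375601 / 78125 : ℝ))
      (by norm_num) (by norm_num) (by norm_num) (by norm_num) hs hsub) hpq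
  · exact tailL6_1 hp hq hpq hle hsub h1.le

/-- The staircase: `α + β ≥ 4.04`, `max(α, β) ≤ 3`, in dimension 6. -/
theorem tableL6 {p q : ℝ} (hp : 0 < p) (hq : 0 < q) (hpq : 1 < p * q)
    (hsub : (101 / 25 : ℝ) * (p * q - 1) ≤ 2 * (p + q + 2))
    (hα : 2 * (p + 1) ≤ (3 : ℝ) * (p * q - 1)) (hβ : 2 * (q + 1) ≤ (3 : ℝ) * (p * q - 1)) :
    NoSol 6 p q := by
  rcases le_total p q with hle | hle
  · have hs := p_lower (B := 3) (by norm_num) hq hpq hsub hβ (by norm_num)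
    have hs' : (76 / 75 : ℝ) ≤ p := by
      norm_num at hs ⊢
      linarith
    exact tailL6_0 hp hq hpq hle hsub hs'
  · have hpq' : 1 < q * p := by linarith [mul_comm p q]
    have hsub' : (101 / 25 : ℝ) * (q * p - 1) ≤ 2 * (q + p + 2) := by
      rw [mul_comm q p, add_comm q p]
      exact hsub
    have hα' : 2 * (p + 1) ≤ (3 : ℝ) * (q * p - 1) := by
      rw [mul_comm q p]
      exact hα
    have hs := p_lower (B := 3) (by norm_num) hp hpq' hsub' hα' (by norm_num)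
    have hs' : (76 / 75 : ℝ) ≤ q := by
      norm_num at hs ⊢
      linarith
    exact (tailL6_0 hq hp hpq' hle hsub' hs').swap

end Vale.Agent.Lib.P100
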