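import Vale.Agent.Lib.P100.RowsL7_1
import Vale.Agent.Lib.P100.RowsL7_2
import Vale.Agent.Lib.P100.RowsL7_3
import Vale.Agent.Lib.P100.RowsL7_4

/-!
The staircase in dimension 7.
-/

namespace Vale.Agent.Lib.P100

theorem tailL7_145 {p q : ℝ} (hp : 0 < p) (hq : 0 < q) (hpq : 1 < p * q) (hle : p ≤ q)
    (hsub : (101 / 20 : ℝ) * (p * q - 1) ≤ 2 * (p + q + 2))
    (hs : (1788137 / 1000000 : ℝ) ≤ p) : NoSol 7 p q := by
  have h1 : p ≤ (2254929 / 1250000 : ℝ) := by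
    by_contra h
    push Not at h
    have h3 := corner_mono (A0 := (101 / 20 : ℝ)) (p0 := (2254929 / 1250000 : ℝ)) (q0 := (2254929 / 1250000 : ℝ)) (p := p) (q := q) (by norm_num) (by norm_num)
      (by norm_num) (by norm_num) h.le (le_trans h.le hle)
    linarith
  have h4 : q ≤ (2245041 / 1250000 : ℝ) :=
    q_le_of_corner (A0 := (101 / 20 : ℝ)) (p0 := (1788137 / 1000000 : ℝ)) (q0 := (2245041 / 1250000 : ℝ)) (by norm_num) (by norm_num)
      (by norm_num) (by norm_num) hs hsub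
  exact rowL7_145 hp h1 hq h4 hpq

theorem tailL7_144 {p q : ℝ} (hp : 0 < p) (hq : 0 < q) (hpq : 1 < p * q) (hle : p ≤ q)
    (hsub : (101 / 20 : ℝ) * (p * q - 1) ≤ 2 * (p + q + 2))
    (hs : (4431261 / 2500000 : ℝ) ≤ p) : NoSol 7 p q := by
  rcases le_or_gt p (1788137 / 1000000 : ℝ) with h1 | h1
  · exact rowL7_144 hp h1 hq (q_le_of_corner (A0 := (101 / 20 : ℝ)) (p0 := (4431261 / 2500000 : ℝ)) (q0 := (18119327 / 10000000 : ℝ))
      (by norm_num) (by norm_num) (by norm_num) (by norm_num) hs hsub) hpq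
  · exact tailL7_145 hp hq hpq hle hsub h1.le

theorem tailL7_143 {p q : ℝ} (hp : 0 < p) (hq : 0 < q) (hpq : 1 < p * q) (hle : p ≤ q)
    (hsub : (101 / 20 : ℝ) * (p * q - 1) ≤ 2 * (p + q + 2))
    (hs : (17570451 / 10000000 : ℝ) ≤ p) : NoSol 7 p q := by
  rcases le_or_gt p (4431261 / 2500000 : ℝ) with h1 | h1
  · exact rowL7_143 hp h1 hq (q_le_of_corner (A0 := (101 / 20 : ℝ)) (p0 := (17570451 / 10000000 : ℝ)) (q0 := (9140077 / 5000000 : ℝ))
      (by norm_num) (by norm_num) (by norm_num) (by norm_num) hs hsub) hpq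
  · exact tailL7_144 hp hq hpq hle hsub h1.le

theorem tailL7_142 {p q : ℝ} (hp : 0 < p) (hq : 0 < q) (hpq : 1 < p * q) (hle : p ≤ q)
    (hsub : (101 / 20 : ℝ) * (p * q - 1) ≤ 2 * (p + q + 2))
    (hs : (17417653 / 10000000 : ℝ) ≤ p) : NoSol 7 p q := by
  rcases le_or_gt p (17570451 / 10000000 : ℝ) with h1 | h1
  · exact rowL7_142 hp h1 hq (q_le_of_corner (A0 := (101 / 20 : ℝ)) (p0 := (17417653 / 10000000 : ℝ)) (q0 := (3688549 / 2000000 : ℝ))
      (by norm_num) (by norm_num) (by norm_num) (by norm_num) hs hsub) hpq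
  · exact tailL7_143 hp hq hpq hle hsub h1.le

theorem tailL7_141 {p q : ℝ} (hp : 0 < p) (hq : 0 < q) (hpq : 1 < p * q) (hle : p ≤ q)
    (hsub : (101 / 20 : ℝ) * (p * q - 1) ≤ 2 * (p + q + 2))
    (hs : (4316779 / 2500000 : ℝ) ≤ p) : NoSol 7 p q := by
  rcases le_or_gt p (17417653 / 10000000 : ℝ) with h1 | h1
  · exact rowL7_141 hp h1 hq (q_le_of_corner (A0 := (101 / 20 : ℝ)) (p0 := (4316779 / 2500000 : ℝ)) (q0 := (9303291 / 5000000 : ℝ))
      (by norm_num) (by norm_num) (by norm_num) (by norm_num) hs hsub) hpq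
  · exact tailL7_142 hp hq hpq hle hsub h1.le

theorem tailL7_140 {p q : ℝ} (hp : 0 < p) (hq : 0 < q) (hpq : 1 < p * q) (hle : p ≤ q)
    (hsub : (101 / 20 : ℝ) * (p * q - 1) ≤ 2 * (p + q + 2))
    (hs : (427951 / 250000 : ℝ) ≤ p) : NoSol 7 p q := by
  rcases le_or_gt p (4316779 / 2500000 : ℝ) with h1 | h1
  · exact rowL7_140 hp h1 hq (q_le_of_corner (A0 := (101 / 20 : ℝ)) (p0 := (427951 / 250000 : ℝ)) (q0 := (18772523 / 10000000 : ℝ))
      (by norm_num) (by norm_num) (by norm_num) (by norm_num) hs hsub) hpq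
  · exact tailL7_141 hp hq hpq hle hsub h1.le

theorem tailL7_139 {p q : ℝ} (hp : 0 < p) (hq : 0 < q) (hpq : 1 < p * q) (hle : p ≤ q)
    (hsub : (101 / 20 : ℝ) * (p * q - 1) ≤ 2 * (p + q + 2))
    (hs : (16970821 / 10000000 : ℝ) ≤ p) : NoSol 7 p q := by
  rcases le_or_gt p (427951 / 250000 : ℝ) with h1 | h1
  · exact rowL7_139 hp h1 hq (q_le_of_corner (A0 := (101 / 20 : ℝ)) (p0 := (16970821 / 10000000 : ℝ)) (q0 := (18940129 / 10000000 : ℝ))
      (by norm_num) (by norm_num) (by norm_num) (by norm_num) hs hsub) hpq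
  · exact tailL7_140 hp hq hpq hle hsub h1.le

theorem tailL7_138 {p q : ℝ} (hp : 0 < p) (hq : 0 < q) (hpq : 1 < p * q) (hle : p ≤ q)
    (hsub : (101 / 20 : ℝ) * (p * q - 1) ≤ 2 * (p + q + 2))
    (hs : (16825399 / 10000000 : ℝ) ≤ p) : NoSol 7 p q := by
  rcases le_or_gt p (16970821 / 10000000 : ℝ) with h1 | h1
  · exact rowL7_138 hp h1 hq (q_le_of_corner (A0 := (101 / 20 : ℝ)) (p0 := (16825399 / 10000000 : ℝ)) (q0 := (3821891 / 2000000 : ℝ))
      (by norm_num) (by norm_num) (by norm_num) (by norm_num) hs hsub) hpq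
  · exact tailL7_139 hp hq hpq hle hsub h1.le

theorem tailL7_137 {p q : ℝ} (hp : 0 < p) (hq : 0 < q) (hpq : 1 < p * q) (hle : p ≤ q)
    (hsub : (101 / 20 : ℝ) * (p * q - 1) ≤ 2 * (p + q + 2))
    (hs : (8340961 / 5000000 : ℝ) ≤ p) : NoSol 7 p q := by
  rcases le_or_gt p (16825399 / 10000000 : ℝ) with h1 | h1
  · exact rowL7_137 hp h1 hq (q_le_of_corner (A0 := (101 / 20 : ℝ)) (p0 := (8340961 / 5000000 : ℝ)) (q0 := (19280311 / 10000000 : ℝ))
      (by norm_num) (by norm_num) (by norm_num) (by norm_num) hs hsub) hpq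
  · exact tailL7_138 hp hq hpq hle hsub h1.le

theorem tailL7_136 {p q : ℝ} (hp : 0 < p) (hq : 0 < q) (hpq : 1 < p * q) (hle : p ≤ q)
    (hsub : (101 / 20 : ℝ) * (p * q - 1) ≤ 2 * (p + q + 2))
    (hs : (16540047 / 10000000 : ℝ) ≤ p) : NoSol 7 p q := by
  rcases le_or_gt p (8340961 / 5000000 : ℝ) with h1 | h1
  · exact rowL7_136 hp h1 hq (q_le_of_corner (A0 := (101 / 20 : ℝ)) (p0 := (16540047 / 10000000 : ℝ)) (q0 := (19453091 / 10000000 : ℝ))
      (by norm_num) (by norm_num) (by norm_num) (by norm_num) hs hsub) hpq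
  · exact tailL7_137 hp hq hpq hle hsub h1.le

theorem tailL7_135 {p q : ℝ} (hp : 0 < p) (hq : 0 < q) (hpq : 1 < p * q) (hle : p ≤ q)
    (hsub : (101 / 20 : ℝ) * (p * q - 1) ≤ 2 * (p + q + 2))
    (hs : (820001 / 500000 : ℝ) ≤ p) : NoSol 7 p q := by
  rcases le_or_gt p (16540047 / 10000000 : ℝ) with h1 | h1
  · exact rowL7_135 hp h1 hq (q_le_of_corner (A0 := (101 / 20 : ℝ)) (p0 := (820001 / 500000 : ℝ)) (q0 := (3925497 / 2000000 : ℝ))
      (by norm_num) (by norm_num) (by norm_num) (by norm_num) hs hsub) hpq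
  · exact tailL7_136 hp hq hpq hle hsub h1.le

theorem tailL7_134 {p q : ℝ} (hp : 0 < p) (hq : 0 < q) (hpq : 1 < p * q) (hle : p ≤ q)
    (hsub : (101 / 20 : ℝ) * (p * q - 1) ≤ 2 * (p + q + 2))
    (hs : (16261811 / 10000000 : ℝ) ≤ p) : NoSol 7 p q := by
  rcases le_or_gt p (820001 / 500000 : ℝ) with h1 | h1
  · exact rowL7_134 hp h1 hq (q_le_of_corner (A0 := (101 / 20 : ℝ)) (p0 := (16261811 / 10000000 : ℝ)) (q0 := (4950877 / 2500000 : ℝ))
      (by norm_num) (by norm_num) (by norm_num) (by norm_num) hs hsub) hpq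
  · exact tailL7_135 hp hq hpq hle hsub h1.le

theorem tailL7_133 {p q : ℝ} (hp : 0 < p) (hq : 0 < q) (hpq : 1 < p * q) (hle : p ≤ q)
    (hsub : (101 / 20 : ℝ) * (p * q - 1) ≤ 2 * (p + q + 2))
    (hs : (4031369 / 2500000 : ℝ) ≤ p) : NoSol 7 p q := by
  rcases le_or_gt p (16261811 / 10000000 : ℝ) with h1 | h1
  · exact rowL7_133 hp h1 hq (q_le_of_corner (A0 := (101 / 20 : ℝ)) (p0 := (4031369 / 2500000 : ℝ)) (q0 := (19981063 / 10000000 : ℝ))
      (by norm_num) (by norm_num) (by norm_num) (by norm_num) hs hsub) hpq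
  · exact tailL7_134 hp hq hpq hle hsub h1.le

theorem tailL7_132 {p q : ℝ} (hp : 0 < p) (hq : 0 < q) (hpq : 1 < p * q) (hle : p ≤ q)
    (hsub : (101 / 20 : ℝ) * (p * q - 1) ≤ 2 * (p + q + 2))
    (hs : (15990779 / 10000000 : ℝ) ≤ p) : NoSol 7 p q := by
  rcases le_or_gt p (4031369 / 2500000 : ℝ) with h1 | h1
  · exact rowL7_132 hp h1 hq (q_le_of_corner (A0 := (101 / 20 : ℝ)) (p0 := (15990779 / 10000000 : ℝ)) (q0 := (20160437 / 10000000 : ℝ))
      (by norm_num) (by norm_num) (by norm_num) (by norm_num) hs hsub) hpq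
  · exact tailL7_133 hp hq hpq hle hsub h1.le

theorem tailL7_131 {p q : ℝ} (hp : 0 < p) (hq : 0 < q) (hpq : 1 < p * q) (hle : p ≤ q)
    (hsub : (101 / 20 : ℝ) * (p * q - 1) ≤ 2 * (p + q + 2))
    (hs : (15857893 / 10000000 : ℝ) ≤ p) : NoSol 7 p q := by
  rcases le_or_gt p (15990779 / 10000000 : ℝ) with h1 | h1
  · exact rowL7_131 hp h1 hq (q_le_of_corner (A0 := (101 / 20 : ℝ)) (p0 := (15857893 / 10000000 : ℝ)) (q0 := (20341379 / 10000000 : ℝ))
      (by norm_num) (by norm_num) (by norm_num) (by norm_num) hs hsub) hpq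
  · exact tailL7_132 hp hq hpq hle hsub h1.le

theorem tailL7_130 {p q : ℝ} (hp : 0 < p) (hq : 0 < q) (hpq : 1 < p * q) (hle : p ≤ q)
    (hsub : (101 / 20 : ℝ) * (p * q - 1) ≤ 2 * (p + q + 2))
    (hs : (7863353 / 5000000 : ℝ) ≤ p) : NoSol 7 p q := by
  rcases le_or_gt p (15857893 / 10000000 : ℝ) with h1 | h1
  · exact rowL7_130 hp h1 hq (q_le_of_corner (A0 := (101 / 20 : ℝ)) (p0 := (7863353 / 5000000 : ℝ)) (q0 := (20524017 / 10000000 : ℝ))
      (by norm_num) (by norm_num) (by norm_num) (by norm_num) hs hsub) hpq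
  · exact tailL7_131 hp hq hpq hle hsub h1.le

theorem tailL7_129 {p q : ℝ} (hp : 0 < p) (hq : 0 < q) (hpq : 1 < p * q) (hle : p ≤ q)
    (hsub : (101 / 20 : ℝ) * (p * q - 1) ≤ 2 * (p + q + 2))
    (hs : (7798819 / 5000000 : ℝ) ≤ p) : NoSol 7 p q := by
  rcases le_or_gt p (7863353 / 5000000 : ℝ) with h1 | h1
  · exact rowL7_129 hp h1 hq (q_le_of_corner (A0 := (101 / 20 : ℝ)) (p0 := (7798819 / 5000000 : ℝ)) (q0 := (20707723 / 10000000 : ℝ))
      (by norm_num) (by norm_num) (by norm_num) (by norm_num) hs hsub) hpq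
  · exact tailL7_130 hp hq hpq hle hsub h1.le

theorem tailL7_128 {p q : ℝ} (hp : 0 < p) (hq : 0 < q) (hpq : 1 < p * q) (hle : p ≤ q)
    (hsub : (101 / 20 : ℝ) * (p * q - 1) ≤ 2 * (p + q + 2))
    (hs : (7735089 / 5000000 : ℝ) ≤ p) : NoSol 7 p q := by
  rcases le_or_gt p (7798819 / 5000000 : ℝ) with h1 | h1
  · exact rowL7_128 hp h1 hq (q_le_of_corner (A0 := (101 / 20 : ℝ)) (p0 := (7735089 / 5000000 : ℝ)) (q0 := (163228 / 78125 : ℝ))
      (by norm_num) (by norm_num) (by norm_num) (by norm_num) hs hsub) hpq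
  · exact tailL7_129 hp hq hpq hle hsub h1.le

theorem tailL7_127 {p q : ℝ} (hp : 0 < p) (hq : 0 < q) (hpq : 1 < p * q) (hle : p ≤ q)
    (hsub : (101 / 20 : ℝ) * (p * q - 1) ≤ 2 * (p + q + 2))
    (hs : (15344473 / 10000000 : ℝ) ≤ p) : NoSol 7 p q := by
  rcases le_or_gt p (7735089 / 5000000 : ℝ) with h1 | h1
  · exact rowL7_127 hp h1 hq (q_le_of_corner (A0 := (101 / 20 : ℝ)) (p0 := (15344473 / 10000000 : ℝ)) (q0 := (10540079 / 5000000 : ℝ))
      (by norm_num) (by norm_num) (by norm_num) (by norm_num) hs hsub) hpq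
  · exact tailL7_128 hp hq hpq hle hsub h1.le

theorem tailL7_126 {p q : ℝ} (hp : 0 < p) (hq : 0 < q) (hpq : 1 < p * q) (hle : p ≤ q)
    (hsub : (101 / 20 : ℝ) * (p * q - 1) ≤ 2 * (p + q + 2))
    (hs : (608863 / 400000 : ℝ) ≤ p) : NoSol 7 p q := by
  rcases le_or_gt p (15344473 / 10000000 : ℝ) with h1 | h1
  · exact rowL7_126 hp h1 hq (q_le_of_corner (A0 := (101 / 20 : ℝ)) (p0 := (608863 / 400000 : ℝ)) (q0 := (10633497 / 5000000 : ℝ))
      (by norm_num) (by norm_num) (by norm_num) (by norm_num) hs hsub) hpq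
  · exact tailL7_127 hp hq hpq hle hsub h1.le

theorem tailL7_125 {p q : ℝ} (hp : 0 < p) (hq : 0 < q) (hpq : 1 < p * q) (hle : p ≤ q)
    (hsub : (101 / 20 : ℝ) * (p * q - 1) ≤ 2 * (p + q + 2))
    (hs : (15099237 / 10000000 : ℝ) ≤ p) : NoSol 7 p q := by
  rcases le_or_gt p (608863 / 400000 : ℝ) with h1 | h1
  · exact rowL7_125 hp h1 hq (q_le_of_corner (A0 := (101 / 20 : ℝ)) (p0 := (15099237 / 10000000 : ℝ)) (q0 := (1341067 / 625000 : ℝ))
      (by norm_num) (by norm_num) (by norm_num) (by norm_num) hs hsub) hpq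
  · exact tailL7_126 hp hq hpq hle hsub h1.le

theorem tailL7_124 {p q : ℝ} (hp : 0 < p) (hq : 0 < q) (hpq : 1 < p * q) (hle : p ≤ q)
    (hsub : (101 / 20 : ℝ) * (p * q - 1) ≤ 2 * (p + q + 2))
    (hs : (14978629 / 10000000 : ℝ) ≤ p) : NoSol 7 p q := by
  rcases le_or_gt p (15099237 / 10000000 : ℝ) with h1 | h1
  · exact rowL7_124 hp h1 hq (q_le_of_corner (A0 := (101 / 20 : ℝ)) (p0 := (14978629 / 10000000 : ℝ)) (q0 := (4329719 / 2000000 : ℝ))
      (by norm_num) (by norm_num) (by norm_num) (by norm_num) hs hsub) hpq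
  · exact tailL7_125 hp hq hpq hle hsub h1.le

theorem tailL7_123 {p q : ℝ} (hp : 0 < p) (hq : 0 < q) (hpq : 1 < p * q) (hle : p ≤ q)
    (hsub : (101 / 20 : ℝ) * (p * q - 1) ≤ 2 * (p + q + 2))
    (hs : (7429863 / 5000000 : ℝ) ≤ p) : NoSol 7 p q := by
  rcases le_or_gt p (14978629 / 10000000 : ℝ) with h1 | h1
  · exact rowL7_123 hp h1 hq (q_le_of_corner (A0 := (101 / 20 : ℝ)) (p0 := (7429863 / 5000000 : ℝ)) (q0 := (21841559 / 10000000 : ℝ))
      (by norm_num) (by norm_num) (by norm_num) (by norm_num) hs hsub) hpq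
  · exact tailL7_124 hp hq hpq hle hsub h1.le

theorem tailL7_122 {p q : ℝ} (hp : 0 < p) (hq : 0 < q) (hpq : 1 < p * q) (hle : p ≤ q)
    (hsub : (101 / 20 : ℝ) * (p * q - 1) ≤ 2 * (p + q + 2))
    (hs : (14742501 / 10000000 : ℝ) ≤ p) : NoSol 7 p q := by
  rcases le_or_gt p (7429863 / 5000000 : ℝ) with h1 | h1
  · exact rowL7_122 hp h1 hq (q_le_of_corner (A0 := (101 / 20 : ℝ)) (p0 := (14742501 / 10000000 : ℝ)) (q0 := (11017983 / 5000000 : ℝ))
      (by norm_num) (by norm_num) (by norm_num) (by norm_num) hs hsub) hpq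
  · exact tailL7_123 hp hq hpq hle hsub h1.le

theorem tailL7_121 {p q : ℝ} (hp : 0 < p) (hq : 0 < q) (hpq : 1 < p * q) (hle : p ≤ q)
    (hsub : (101 / 20 : ℝ) * (p * q - 1) ≤ 2 * (p + q + 2))
    (hs : (7313551 / 5000000 : ℝ) ≤ p) : NoSol 7 p q := by
  rcases le_or_gt p (14742501 / 10000000 : ℝ) with h1 | h1
  · exact rowL7_121 hp h1 hq (q_le_of_corner (A0 := (101 / 20 : ℝ)) (p0 := (7313551 / 5000000 : ℝ)) (q0 := (22231519 / 10000000 : ℝ))
      (by norm_num) (by norm_num) (by norm_num) (by norm_num) hs hsub) hpq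
  · exact tailL7_122 hp hq hpq hle hsub h1.le

theorem tailL7_120 {p q : ℝ} (hp : 0 < p) (hq : 0 < q) (hpq : 1 < p * q) (hle : p ≤ q)
    (hsub : (101 / 20 : ℝ) * (p * q - 1) ≤ 2 * (p + q + 2))
    (hs : (7256917 / 5000000 : ℝ) ≤ p) : NoSol 7 p q := by
  rcases le_or_gt p (7313551 / 5000000 : ℝ) with h1 | h1
  · exact rowL7_120 hp h1 hq (q_le_of_corner (A0 := (101 / 20 : ℝ)) (p0 := (7256917 / 5000000 : ℝ)) (q0 := (22427619 / 10000000 : ℝ))
      (by norm_num) (by norm_num) (by norm_num) (by norm_num) hs hsub) hpq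
  · exact tailL7_121 hp hq hpq hle hsub h1.le

theorem tailL7_119 {p q : ℝ} (hp : 0 < p) (hq : 0 < q) (hpq : 1 < p * q) (hle : p ≤ q)
    (hsub : (101 / 20 : ℝ) * (p * q - 1) ≤ 2 * (p + q + 2))
    (hs : (7201167 / 5000000 : ℝ) ≤ p) : NoSol 7 p q := by
  rcases le_or_gt p (7256917 / 5000000 : ℝ) with h1 | h1
  · exact rowL7_119 hp h1 hq (q_le_of_corner (A0 := (101 / 20 : ℝ)) (p0 := (7201167 / 5000000 : ℝ)) (q0 := (11312407 / 5000000 : ℝ))
      (by norm_num) (by norm_num) (by norm_num) (by norm_num) hs hsub) hpq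
  · exact tailL7_120 hp hq hpq hle hsub h1.le

theorem tailL7_118 {p q : ℝ} (hp : 0 < p) (hq : 0 < q) (hpq : 1 < p * q) (hle : p ≤ q)
    (hsub : (101 / 20 : ℝ) * (p * q - 1) ≤ 2 * (p + q + 2))
    (hs : (14291901 / 10000000 : ℝ) ≤ p) : NoSol 7 p q := by
  rcases le_or_gt p (7201167 / 5000000 : ℝ) with h1 | h1
  · exact rowL7_118 hp h1 hq (q_le_of_corner (A0 := (101 / 20 : ℝ)) (p0 := (14291901 / 10000000 : ℝ)) (q0 := (22824317 / 10000000 : ℝ))
      (by norm_num) (by norm_num) (by norm_num) (by norm_num) hs hsub) hpq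
  · exact tailL7_119 hp hq hpq hle hsub h1.le

theorem tailL7_117 {p q : ℝ} (hp : 0 < p) (hq : 0 < q) (hpq : 1 < p * q) (hle : p ≤ q)
    (hsub : (101 / 20 : ℝ) * (p * q - 1) ≤ 2 * (p + q + 2))
    (hs : (14182691 / 10000000 : ℝ) ≤ p) : NoSol 7 p q := by
  rcases le_or_gt p (14291901 / 10000000 : ℝ) with h1 | h1
  · exact rowL7_117 hp h1 hq (q_le_of_corner (A0 := (101 / 20 : ℝ)) (p0 := (14182691 / 10000000 : ℝ)) (q0 := (460517 / 200000 : ℝ))
      (by norm_num) (by norm_num) (by norm_num) (by norm_num) hs hsub) hpq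
  · exact tailL7_118 hp hq hpq hle hsub h1.le

theorem tailL7_116 {p q : ℝ} (hp : 0 < p) (hq : 0 < q) (hpq : 1 < p * q) (hle : p ≤ q)
    (hsub : (101 / 20 : ℝ) * (p * q - 1) ≤ 2 * (p + q + 2))
    (hs : (14075451 / 10000000 : ℝ) ≤ p) : NoSol 7 p q := by
  rcases le_or_gt p (14182691 / 10000000 : ℝ) with h1 | h1
  · exact rowL7_116 hp h1 hq (q_le_of_corner (A0 := (101 / 20 : ℝ)) (p0 := (14075451 / 10000000 : ℝ)) (q0 := (11613991 / 5000000 : ℝ))
      (by norm_num) (by norm_num) (by norm_num) (by norm_num) hs hsub) hpq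
  · exact tailL7_117 hp hq hpq hle hsub h1.le

theorem tailL7_115 {p q : ℝ} (hp : 0 < p) (hq : 0 < q) (hpq : 1 < p * q) (hle : p ≤ q)
    (hsub : (101 / 20 : ℝ) * (p * q - 1) ≤ 2 * (p + q + 2))
    (hs : (1396963 / 1000000 : ℝ) ≤ p) : NoSol 7 p q := by
  rcases le_or_gt p (14075451 / 10000000 : ℝ) with h1 | h1
  · exact rowL7_115 hp h1 hq (q_le_of_corner (A0 := (101 / 20 : ℝ)) (p0 := (1396963 / 1000000 : ℝ)) (q0 := (4686337 / 2000000 : ℝ))
      (by norm_num) (by norm_num) (by norm_num) (by norm_num) hs hsub) hpq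
  · exact tailL7_116 hp hq hpq hle hsub h1.le

theorem tailL7_114 {p q : ℝ} (hp : 0 < p) (hq : 0 < q) (hpq : 1 < p * q) (hle : p ≤ q)
    (hsub : (101 / 20 : ℝ) * (p * q - 1) ≤ 2 * (p + q + 2))
    (hs : (13865873 / 10000000 : ℝ) ≤ p) : NoSol 7 p q := by
  rcases le_or_gt p (1396963 / 1000000 : ℝ) with h1 | h1
  · exact rowL7_114 hp h1 hq (q_le_of_corner (A0 := (101 / 20 : ℝ)) (p0 := (13865873 / 10000000 : ℝ)) (q0 := (11817821 / 5000000 : ℝ))
      (by norm_num) (by norm_num) (by norm_num) (by norm_num) hs hsub) hpq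
  · exact tailL7_115 hp hq hpq hle hsub h1.le

theorem tailL7_113 {p q : ℝ} (hp : 0 < p) (hq : 0 < q) (hpq : 1 < p * q) (hle : p ≤ q)
    (hsub : (101 / 20 : ℝ) * (p * q - 1) ≤ 2 * (p + q + 2))
    (hs : (13764059 / 10000000 : ℝ) ≤ p) : NoSol 7 p q := by
  rcases le_or_gt p (13865873 / 10000000 : ℝ) with h1 | h1
  · exact rowL7_113 hp h1 hq (q_le_of_corner (A0 := (101 / 20 : ℝ)) (p0 := (13764059 / 10000000 : ℝ)) (q0 := (953599 / 400000 : ℝ))
      (by norm_num) (by norm_num) (by norm_num) (by norm_num) hs hsub) hpq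
  · exact tailL7_114 hp hq hpq hle hsub h1.le

theorem tailL7_112 {p q : ℝ} (hp : 0 < p) (hq : 0 < q) (hpq : 1 < p * q) (hle : p ≤ q)
    (hsub : (101 / 20 : ℝ) * (p * q - 1) ≤ 2 * (p + q + 2))
    (hs : (109303 / 80000 : ℝ) ≤ p) : NoSol 7 p q := by
  rcases le_or_gt p (13764059 / 10000000 : ℝ) with h1 | h1
  · exact rowL7_112 hp h1 hq (q_le_of_corner (A0 := (101 / 20 : ℝ)) (p0 := (109303 / 80000 : ℝ)) (q0 := (24047293 / 10000000 : ℝ))
      (by norm_num) (by norm_num) (by norm_num) (by norm_num) hs hsub) hpq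
  · exact tailL7_113 hp hq hpq hle hsub h1.le

theorem tailL7_111 {p q : ℝ} (hp : 0 < p) (hq : 0 < q) (hpq : 1 < p * q) (hle : p ≤ q)
    (hsub : (101 / 20 : ℝ) * (p * q - 1) ≤ 2 * (p + q + 2))
    (hs : (6781989 / 5000000 : ℝ) ≤ p) : NoSol 7 p q := by
  rcases le_or_gt p (109303 / 80000 : ℝ) with h1 | h1
  · exact rowL7_111 hp h1 hq (q_le_of_corner (A0 := (101 / 20 : ℝ)) (p0 := (6781989 / 5000000 : ℝ)) (q0 := (12127073 / 5000000 : ℝ))
      (by norm_num) (by norm_num) (by norm_num) (by norm_num) hs hsub) hpq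
  · exact tailL7_112 hp hq hpq hle hsub h1.le

theorem tailL7_110 {p q : ℝ} (hp : 0 < p) (hq : 0 < q) (hpq : 1 < p * q) (hle : p ≤ q)
    (hsub : (101 / 20 : ℝ) * (p * q - 1) ≤ 2 * (p + q + 2))
    (hs : (67327 / 50000 : ℝ) ≤ p) : NoSol 7 p q := by
  rcases le_or_gt p (6781989 / 5000000 : ℝ) with h1 | h1
  · exact rowL7_110 hp h1 hq (q_le_of_corner (A0 := (101 / 20 : ℝ)) (p0 := (67327 / 50000 : ℝ)) (q0 := (3058077 / 1250000 : ℝ))
      (by norm_num) (by norm_num) (by norm_num) (by norm_num) hs hsub) hpq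
  · exact tailL7_111 hp hq hpq hle hsub h1.le

theorem tailL7_109 {p q : ℝ} (hp : 0 < p) (hq : 0 < q) (hpq : 1 < p * q) (hle : p ≤ q)
    (hsub : (101 / 20 : ℝ) * (p * q - 1) ≤ 2 * (p + q + 2))
    (hs : (6684189 / 5000000 : ℝ) ≤ p) : NoSol 7 p q := by
  rcases le_or_gt p (67327 / 50000 : ℝ) with h1 | h1
  · exact rowL7_109 hp h1 hq (q_le_of_corner (A0 := (101 / 20 : ℝ)) (p0 := (6684189 / 5000000 : ℝ)) (q0 := (2467607 / 1000000 : ℝ))
      (by norm_num) (by norm_num) (by norm_num) (by norm_num) hs hsub) hpq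
  · exact tailL7_110 hp hq hpq hle hsub h1.le

theorem tailL7_108 {p q : ℝ} (hp : 0 < p) (hq : 0 < q) (hpq : 1 < p * q) (hle : p ≤ q)
    (hsub : (101 / 20 : ℝ) * (p * q - 1) ≤ 2 * (p + q + 2))
    (hs : (3318291 / 2500000 : ℝ) ≤ p) : NoSol 7 p q := by
  rcases le_or_gt p (6684189 / 5000000 : ℝ) with h1 | h1
  · exact rowL7_108 hp h1 hq (q_le_of_corner (A0 := (101 / 20 : ℝ)) (p0 := (3318291 / 2500000 : ℝ)) (q0 := (6221967 / 2500000 : ℝ))
      (by norm_num) (by norm_num) (by norm_num) (by norm_num) hs hsub) hpq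
  · exact tailL7_109 hp hq hpq hle hsub h1.le

theorem tailL7_107 {p q : ℝ} (hp : 0 < p) (hq : 0 < q) (hpq : 1 < p * q) (hle : p ≤ q)
    (hsub : (101 / 20 : ℝ) * (p * q - 1) ≤ 2 * (p + q + 2))
    (hs : (13178797 / 10000000 : ℝ) ≤ p) : NoSol 7 p q := by
  rcases le_or_gt p (3318291 / 2500000 : ℝ) with h1 | h1
  · exact rowL7_107 hp h1 hq (q_le_of_corner (A0 := (101 / 20 : ℝ)) (p0 := (13178797 / 10000000 : ℝ)) (q0 := (25102099 / 10000000 : ℝ))
      (by norm_num) (by norm_num) (by norm_num) (by norm_num) hs hsub) hpq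
  · exact tailL7_108 hp hq hpq hle hsub h1.le

theorem tailL7_106 {p q : ℝ} (hp : 0 < p) (hq : 0 < q) (hpq : 1 < p * q) (hle : p ≤ q)
    (hsub : (101 / 20 : ℝ) * (p * q - 1) ≤ 2 * (p + q + 2))
    (hs : (1635751 / 1250000 : ℝ) ≤ p) : NoSol 7 p q := by
  rcases le_or_gt p (13178797 / 10000000 : ℝ) with h1 | h1
  · exact rowL7_106 hp h1 hq (q_le_of_corner (A0 := (101 / 20 : ℝ)) (p0 := (1635751 / 1250000 : ℝ)) (q0 := (25317067 / 10000000 : ℝ))
      (by norm_num) (by norm_num) (by norm_num) (by norm_num) hs hsub) hpq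
  · exact tailL7_107 hp hq hpq hle hsub h1.le

theorem tailL7_105 {p q : ℝ} (hp : 0 < p) (hq : 0 < q) (hpq : 1 < p * q) (hle : p ≤ q)
    (hsub : (101 / 20 : ℝ) * (p * q - 1) ≤ 2 * (p + q + 2))
    (hs : (1299501 / 1000000 : ℝ) ≤ p) : NoSol 7 p q := by
  rcases le_or_gt p (1635751 / 1250000 : ℝ) with h1 | h1
  · exact rowL7_105 hp h1 hq (q_le_of_corner (A0 := (101 / 20 : ℝ)) (p0 := (1299501 / 1000000 : ℝ)) (q0 := (12766087 / 5000000 : ℝ))
      (by norm_num) (by norm_num) (by norm_num) (by norm_num) hs hsub) hpq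
  · exact tailL7_106 hp hq hpq hle hsub h1.le

theorem tailL7_104 {p q : ℝ} (hp : 0 < p) (hq : 0 < q) (hpq : 1 < p * q) (hle : p ≤ q)
    (hsub : (101 / 20 : ℝ) * (p * q - 1) ≤ 2 * (p + q + 2))
    (hs : (1290473 / 1000000 : ℝ) ≤ p) : NoSol 7 p q := by
  rcases le_or_gt p (1299501 / 1000000 : ℝ) with h1 | h1
  · exact rowL7_104 hp h1 hq (q_le_of_corner (A0 := (101 / 20 : ℝ)) (p0 := (1290473 / 1000000 : ℝ)) (q0 := (2574991 / 1000000 : ℝ))
      (by norm_num) (by norm_num) (by norm_num) (by norm_num) hs hsub) hpq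
  · exact tailL7_105 hp hq hpq hle hsub h1.le

theorem tailL7_103 {p q : ℝ} (hp : 0 < p) (hq : 0 < q) (hpq : 1 < p * q) (hle : p ≤ q)
    (hsub : (101 / 20 : ℝ) * (p * q - 1) ≤ 2 * (p + q + 2))
    (hs : (12815559 / 10000000 : ℝ) ≤ p) : NoSol 7 p q := by
  rcases le_or_gt p (1290473 / 1000000 : ℝ) with h1 | h1
  · exact rowL7_103 hp h1 hq (q_le_of_corner (A0 := (101 / 20 : ℝ)) (p0 := (12815559 / 10000000 : ℝ)) (q0 := (25969329 / 10000000 : ℝ))
      (by norm_num) (by norm_num) (by norm_num) (by norm_num) hs hsub) hpq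
  · exact tailL7_104 hp hq hpq hle hsub h1.le

theorem tailL7_102 {p q : ℝ} (hp : 0 < p) (hq : 0 < q) (hpq : 1 < p * q) (hle : p ≤ q)
    (hsub : (101 / 20 : ℝ) * (p * q - 1) ≤ 2 * (p + q + 2))
    (hs : (127279 / 100000 : ℝ) ≤ p) : NoSol 7 p q := by
  rcases le_or_gt p (12815559 / 10000000 : ℝ) with h1 | h1
  · exact rowL7_102 hp h1 hq (q_le_of_corner (A0 := (101 / 20 : ℝ)) (p0 := (127279 / 100000 : ℝ)) (q0 := (13094689 / 5000000 : ℝ))
      (by norm_num) (by norm_num) (by norm_num) (by norm_num) hs hsub) hpq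
  · exact tailL7_103 hp hq hpq hle hsub h1.le

theorem tailL7_101 {p q : ℝ} (hp : 0 < p) (hq : 0 < q) (hpq : 1 < p * q) (hle : p ≤ q)
    (hsub : (101 / 20 : ℝ) * (p * q - 1) ≤ 2 * (p + q + 2))
    (hs : (3160371 / 2500000 : ℝ) ≤ p) : NoSol 7 p q := by
  rcases le_or_gt p (127279 / 100000 : ℝ) with h1 | h1
  · exact rowL7_101 hp h1 hq (q_le_of_corner (A0 := (101 / 20 : ℝ)) (p0 := (3160371 / 2500000 : ℝ)) (q0 := (26410657 / 10000000 : ℝ))
      (by norm_num) (by norm_num) (by norm_num) (by norm_num) hs hsub) hpq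
  · exact tailL7_102 hp hq hpq hle hsub h1.le

theorem tailL7_100 {p q : ℝ} (hp : 0 < p) (hq : 0 < q) (hpq : 1 < p * q) (hle : p ≤ q)
    (hsub : (101 / 20 : ℝ) * (p * q - 1) ≤ 2 * (p + q + 2))
    (hs : (12556227 / 10000000 : ℝ) ≤ p) : NoSol 7 p q := by
  rcases le_or_gt p (3160371 / 2500000 : ℝ) with h1 | h1
  · exact rowL7_100 hp h1 hq (q_le_of_corner (A0 := (101 / 20 : ℝ)) (p0 := (12556227 / 10000000 : ℝ)) (q0 := (1664583 / 625000 : ℝ))
      (by norm_num) (by norm_num) (by norm_num) (by norm_num) hs hsub) hpq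
  · exact tailL7_101 hp hq hpq hle hsub h1.le

theorem tailL7_99 {p q : ℝ} (hp : 0 < p) (hq : 0 < q) (hpq : 1 < p * q) (hle : p ≤ q)
    (hsub : (101 / 20 : ℝ) * (p * q - 1) ≤ 2 * (p + q + 2))
    (hs : (12473007 / 10000000 : ℝ) ≤ p) : NoSol 7 p q := by
  rcases le_or_gt p (12556227 / 10000000 : ℝ) with h1 | h1
  · exact rowL7_99 hp h1 hq (q_le_of_corner (A0 := (101 / 20 : ℝ)) (p0 := (12473007 / 10000000 : ℝ)) (q0 := (1342749 / 500000 : ℝ))
      (by norm_num) (by norm_num) (by norm_num) (by norm_num) hs hsub) hpq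
  · exact tailL7_100 hp hq hpq hle hsub h1.le

theorem tailL7_98 {p q : ℝ} (hp : 0 < p) (hq : 0 < q) (hpq : 1 < p * q) (hle : p ≤ q)
    (hsub : (101 / 20 : ℝ) * (p * q - 1) ≤ 2 * (p + q + 2))
    (hs : (193599 / 156250 : ℝ) ≤ p) : NoSol 7 p q := by
  rcases le_or_gt p (12473007 / 10000000 : ℝ) with h1 | h1
  · exact rowL7_98 hp h1 hq (q_le_of_corner (A0 := (101 / 20 : ℝ)) (p0 := (193599 / 156250 : ℝ)) (q0 := (1692469 / 625000 : ℝ))
      (by norm_num) (by norm_num) (by norm_num) (by norm_num) hs hsub) hpq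
  · exact tailL7_99 hp hq hpq hle hsub h1.le

theorem tailL7_97 {p q : ℝ} (hp : 0 < p) (hq : 0 < q) (hpq : 1 < p * q) (hle : p ≤ q)
    (hsub : (101 / 20 : ℝ) * (p * q - 1) ≤ 2 * (p + q + 2))
    (hs : (6154623 / 5000000 : ℝ) ≤ p) : NoSol 7 p q := by
  rcases le_or_gt p (193599 / 156250 : ℝ) with h1 | h1
  · exact rowL7_97 hp h1 hq (q_le_of_corner (A0 := (101 / 20 : ℝ)) (p0 := (6154623 / 5000000 : ℝ)) (q0 := (27304053 / 10000000 : ℝ))
      (by norm_num) (by norm_num) (by norm_num) (by norm_num) hs hsub) hpq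
  · exact tailL7_98 hp hq hpq hle hsub h1.le

theorem tailL7_96 {p q : ℝ} (hp : 0 < p) (hq : 0 < q) (hpq : 1 < p * q) (hle : p ≤ q)
    (hsub : (101 / 20 : ℝ) * (p * q - 1) ≤ 2 * (p + q + 2))
    (hs : (2445771 / 2000000 : ℝ) ≤ p) : NoSol 7 p q := by
  rcases le_or_gt p (6154623 / 5000000 : ℝ) with h1 | h1
  · exact rowL7_96 hp h1 hq (q_le_of_corner (A0 := (101 / 20 : ℝ)) (p0 := (2445771 / 2000000 : ℝ)) (q0 := (13765507 / 5000000 : ℝ))
      (by norm_num) (by norm_num) (by norm_num) (by norm_num) hs hsub) hpq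
  · exact tailL7_97 hp hq hpq hle hsub h1.le

theorem tailL7_95 {p q : ℝ} (hp : 0 < p) (hq : 0 < q) (hpq : 1 < p * q) (hle : p ≤ q)
    (hsub : (101 / 20 : ℝ) * (p * q - 1) ≤ 2 * (p + q + 2))
    (hs : (12149271 / 10000000 : ℝ) ≤ p) : NoSol 7 p q := by
  rcases le_or_gt p (2445771 / 2000000 : ℝ) with h1 | h1
  · exact rowL7_95 hp h1 hq (q_le_of_corner (A0 := (101 / 20 : ℝ)) (p0 := (12149271 / 10000000 : ℝ)) (q0 := (27760087 / 10000000 : ℝ))
      (by norm_num) (by norm_num) (by norm_num) (by norm_num) hs hsub) hpq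
  · exact tailL7_96 hp hq hpq hle hsub h1.le

theorem tailL7_94 {p q : ℝ} (hp : 0 < p) (hq : 0 < q) (hpq : 1 < p * q) (hle : p ≤ q)
    (hsub : (101 / 20 : ℝ) * (p * q - 1) ≤ 2 * (p + q + 2))
    (hs : (6035383 / 5000000 : ℝ) ≤ p) : NoSol 7 p q := by
  rcases le_or_gt p (12149271 / 10000000 : ℝ) with h1 | h1
  · exact rowL7_94 hp h1 hq (q_le_of_corner (A0 := (101 / 20 : ℝ)) (p0 := (6035383 / 5000000 : ℝ)) (q0 := (13995229 / 5000000 : ℝ))
      (by norm_num) (by norm_num) (by norm_num) (by norm_num) hs hsub) hpq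
  · exact tailL7_95 hp hq hpq hle hsub h1.le

theorem tailL7_93 {p q : ℝ} (hp : 0 < p) (hq : 0 < q) (hpq : 1 < p * q) (hle : p ≤ q)
    (hsub : (101 / 20 : ℝ) * (p * q - 1) ≤ 2 * (p + q + 2))
    (hs : (11993251 / 10000000 : ℝ) ≤ p) : NoSol 7 p q := by
  rcases le_or_gt p (6035383 / 5000000 : ℝ) with h1 | h1
  · exact rowL7_93 hp h1 hq (q_le_of_corner (A0 := (101 / 20 : ℝ)) (p0 := (11993251 / 10000000 : ℝ)) (q0 := (14111171 / 5000000 : ℝ))
      (by norm_num) (by norm_num) (by norm_num) (by norm_num) hs hsub) hpq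
  · exact tailL7_94 hp hq hpq hle hsub h1.le

theorem tailL7_92 {p q : ℝ} (hp : 0 < p) (hq : 0 < q) (hpq : 1 < p * q) (hle : p ≤ q)
    (hsub : (101 / 20 : ℝ) * (p * q - 1) ≤ 2 * (p + q + 2))
    (hs : (5958493 / 5000000 : ℝ) ≤ p) : NoSol 7 p q := by
  rcases le_or_gt p (11993251 / 10000000 : ℝ) with h1 | h1
  · exact rowL7_92 hp h1 hq (q_le_of_corner (A0 := (101 / 20 : ℝ)) (p0 := (5958493 / 5000000 : ℝ)) (q0 := (1778431 / 625000 : ℝ))
      (by norm_num) (by norm_num) (by norm_num) (by norm_num) hs hsub) hpq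
  · exact tailL7_93 hp hq hpq hle hsub h1.le

theorem tailL7_91 {p q : ℝ} (hp : 0 < p) (hq : 0 < q) (hpq : 1 < p * q) (hle : p ≤ q)
    (hsub : (101 / 20 : ℝ) * (p * q - 1) ≤ 2 * (p + q + 2))
    (hs : (2960377 / 2500000 : ℝ) ≤ p) : NoSol 7 p q := by
  rcases le_or_gt p (5958493 / 5000000 : ℝ) with h1 | h1
  · exact rowL7_91 hp h1 hq (q_le_of_corner (A0 := (101 / 20 : ℝ)) (p0 := (2960377 / 2500000 : ℝ)) (q0 := (28689481 / 10000000 : ℝ))
      (by norm_num) (by norm_num) (by norm_num) (by norm_num) hs hsub) hpq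
  · exact tailL7_92 hp hq hpq hle hsub h1.le

theorem tailL7_90 {p q : ℝ} (hp : 0 < p) (hq : 0 < q) (hpq : 1 < p * q) (hle : p ≤ q)
    (hsub : (101 / 20 : ℝ) * (p * q - 1) ≤ 2 * (p + q + 2))
    (hs : (11767063 / 10000000 : ℝ) ≤ p) : NoSol 7 p q := by
  rcases le_or_gt p (2960377 / 2500000 : ℝ) with h1 | h1
  · exact rowL7_90 hp h1 hq (q_le_of_corner (A0 := (101 / 20 : ℝ)) (p0 := (11767063 / 10000000 : ℝ)) (q0 := (289253 / 100000 : ℝ))
      (by norm_num) (by norm_num) (by norm_num) (by norm_num) hs hsub) hpq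
  · exact tailL7_91 hp hq hpq hle hsub h1.le

theorem tailL7_89 {p q : ℝ} (hp : 0 < p) (hq : 0 < q) (hpq : 1 < p * q) (hle : p ≤ q)
    (hsub : (101 / 20 : ℝ) * (p * q - 1) ≤ 2 * (p + q + 2))
    (hs : (5846803 / 5000000 : ℝ) ≤ p) : NoSol 7 p q := by
  rcases le_or_gt p (11767063 / 10000000 : ℝ) with h1 | h1
  · exact rowL7_89 hp h1 hq (q_le_of_corner (A0 := (101 / 20 : ℝ)) (p0 := (5846803 / 5000000 : ℝ)) (q0 := (29162439 / 10000000 : ℝ))
      (by norm_num) (by norm_num) (by norm_num) (by norm_num) hs hsub) hpq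
  · exact tailL7_90 hp hq hpq hle hsub h1.le

theorem tailL7_88 {p q : ℝ} (hp : 0 < p) (hq : 0 < q) (hpq : 1 < p * q) (hle : p ≤ q)
    (hsub : (101 / 20 : ℝ) * (p * q - 1) ≤ 2 * (p + q + 2))
    (hs : (1162133 / 1000000 : ℝ) ≤ p) : NoSol 7 p q := by
  rcases le_or_gt p (5846803 / 5000000 : ℝ) with h1 | h1
  · exact rowL7_88 hp h1 hq (q_le_of_corner (A0 := (101 / 20 : ℝ)) (p0 := (1162133 / 1000000 : ℝ)) (q0 := (7350051 / 2500000 : ℝ))
      (by norm_num) (by norm_num) (by norm_num) (by norm_num) hs hsub) hpq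
  · exact tailL7_89 hp hq hpq hle hsub h1.le

theorem tailL7_87 {p q : ℝ} (hp : 0 < p) (hq : 0 < q) (hpq : 1 < p * q) (hle : p ≤ q)
    (hsub : (101 / 20 : ℝ) * (p * q - 1) ≤ 2 * (p + q + 2))
    (hs : (461997 / 400000 : ℝ) ≤ p) : NoSol 7 p q := by
  rcases le_or_gt p (1162133 / 1000000 : ℝ) with h1 | h1
  · exact rowL7_87 hp h1 hq (q_le_of_corner (A0 := (101 / 20 : ℝ)) (p0 := (461997 / 400000 : ℝ)) (q0 := (29639551 / 10000000 : ℝ))
      (by norm_num) (by norm_num) (by norm_num) (by norm_num) hs hsub) hpq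
  · exact tailL7_88 hp hq hpq hle hsub h1.le

theorem tailL7_86 {p q : ℝ} (hp : 0 < p) (hq : 0 < q) (hpq : 1 < p * q) (hle : p ≤ q)
    (hsub : (101 / 20 : ℝ) * (p * q - 1) ≤ 2 * (p + q + 2))
    (hs : (2295843 / 2000000 : ℝ) ≤ p) : NoSol 7 p q := by
  rcases le_or_gt p (461997 / 400000 : ℝ) with h1 | h1
  · exact rowL7_86 hp h1 hq (q_le_of_corner (A0 := (101 / 20 : ℝ)) (p0 := (2295843 / 2000000 : ℝ)) (q0 := (3735131 / 1250000 : ℝ))
      (by norm_num) (by norm_num) (by norm_num) (by norm_num) hs hsub) hpq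
  · exact tailL7_87 hp hq hpq hle hsub h1.le

theorem tailL7_85 {p q : ℝ} (hp : 0 < p) (hq : 0 < q) (hpq : 1 < p * q) (hle : p ≤ q)
    (hsub : (101 / 20 : ℝ) * (p * q - 1) ≤ 2 * (p + q + 2))
    (hs : (11409397 / 10000000 : ℝ) ≤ p) : NoSol 7 p q := by
  rcases le_or_gt p (2295843 / 2000000 : ℝ) with h1 | h1
  · exact rowL7_85 hp h1 hq (q_le_of_corner (A0 := (101 / 20 : ℝ)) (p0 := (11409397 / 10000000 : ℝ)) (q0 := (30123997 / 10000000 : ℝ))
      (by norm_num) (by norm_num) (by norm_num) (by norm_num) hs hsub) hpq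
  · exact tailL7_86 hp hq hpq hle hsub h1.le

theorem tailL7_84 {p q : ℝ} (hp : 0 < p) (hq : 0 < q) (hpq : 1 < p * q) (hle : p ≤ q)
    (hsub : (101 / 20 : ℝ) * (p * q - 1) ≤ 2 * (p + q + 2))
    (hs : (11340469 / 10000000 : ℝ) ≤ p) : NoSol 7 p q := by
  rcases le_or_gt p (11409397 / 10000000 : ℝ) with h1 | h1
  · exact rowL7_84 hp h1 hq (q_le_of_corner (A0 := (101 / 20 : ℝ)) (p0 := (11340469 / 10000000 : ℝ)) (q0 := (15184179 / 5000000 : ℝ))
      (by norm_num) (by norm_num) (by norm_num) (by norm_num) hs hsub) hpq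
  · exact tailL7_85 hp hq hpq hle hsub h1.le

theorem tailL7_83 {p q : ℝ} (hp : 0 < p) (hq : 0 < q) (hpq : 1 < p * q) (hle : p ≤ q)
    (hsub : (101 / 20 : ℝ) * (p * q - 1) ≤ 2 * (p + q + 2))
    (hs : (2254463 / 2000000 : ℝ) ≤ p) : NoSol 7 p q := by
  rcases le_or_gt p (11340469 / 10000000 : ℝ) with h1 | h1
  · exact rowL7_83 hp h1 hq (q_le_of_corner (A0 := (101 / 20 : ℝ)) (p0 := (2254463 / 2000000 : ℝ)) (q0 := (15307253 / 5000000 : ℝ))
      (by norm_num) (by norm_num) (by norm_num) (by norm_num) hs hsub) hpq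
  · exact tailL7_84 hp hq hpq hle hsub h1.le

theorem tailL7_82 {p q : ℝ} (hp : 0 < p) (hq : 0 < q) (hpq : 1 < p * q) (hle : p ≤ q)
    (hsub : (101 / 20 : ℝ) * (p * q - 1) ≤ 2 * (p + q + 2))
    (hs : (5602517 / 5000000 : ℝ) ≤ p) : NoSol 7 p q := by
  rcases le_or_gt p (2254463 / 2000000 : ℝ) with h1 | h1
  · exact rowL7_82 hp h1 hq (q_le_of_corner (A0 := (101 / 20 : ℝ)) (p0 := (5602517 / 5000000 : ℝ)) (q0 := (30862043 / 10000000 : ℝ))
      (by norm_num) (by norm_num) (by norm_num) (by norm_num) hs hsub) hpq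
  · exact tailL7_83 hp hq hpq hle hsub h1.le

theorem tailL7_81 {p q : ℝ} (hp : 0 < p) (hq : 0 < q) (hpq : 1 < p * q) (hle : p ≤ q)
    (hsub : (101 / 20 : ℝ) * (p * q - 1) ≤ 2 * (p + q + 2))
    (hs : (2784659 / 2500000 : ℝ) ≤ p) : NoSol 7 p q := by
  rcases le_or_gt p (5602517 / 5000000 : ℝ) with h1 | h1
  · exact rowL7_81 hp h1 hq (q_le_of_corner (A0 := (101 / 20 : ℝ)) (p0 := (2784659 / 2500000 : ℝ)) (q0 := (194443 / 62500 : ℝ))
      (by norm_num) (by norm_num) (by norm_num) (by norm_num) hs hsub) hpq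
  · exact tailL7_82 hp hq hpq hle hsub h1.le

theorem tailL7_80 {p q : ℝ} (hp : 0 < p) (hq : 0 < q) (hpq : 1 < p * q) (hle : p ≤ q)
    (hsub : (101 / 20 : ℝ) * (p * q - 1) ≤ 2 * (p + q + 2))
    (hs : (1107301 / 1000000 : ℝ) ≤ p) : NoSol 7 p q := by
  rcases le_or_gt p (2784659 / 2500000 : ℝ) with h1 | h1
  · exact rowL7_80 hp h1 hq (q_le_of_corner (A0 := (101 / 20 : ℝ)) (p0 := (1107301 / 1000000 : ℝ)) (q0 := (3136139 / 1000000 : ℝ))
      (by norm_num) (by norm_num) (by norm_num) (by norm_num) hs hsub) hpq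
  · exact tailL7_81 hp hq hpq hle hsub h1.le

theorem tailL7_79 {p q : ℝ} (hp : 0 < p) (hq : 0 < q) (hpq : 1 < p * q) (hle : p ≤ q)
    (hsub : (101 / 20 : ℝ) * (p * q - 1) ≤ 2 * (p + q + 2))
    (hs : (5504177 / 5000000 : ℝ) ≤ p) : NoSol 7 p q := by
  rcases le_or_gt p (1107301 / 1000000 : ℝ) with h1 | h1
  · exact rowL7_79 hp h1 hq (q_le_of_corner (A0 := (101 / 20 : ℝ)) (p0 := (5504177 / 5000000 : ℝ)) (q0 := (31612759 / 10000000 : ℝ))
      (by norm_num) (by norm_num) (by norm_num) (by norm_num) hs hsub) hpq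
  · exact tailL7_80 hp hq hpq hle hsub h1.le

theorem tailL7_78 {p q : ℝ} (hp : 0 < p) (hq : 0 < q) (hpq : 1 < p * q) (hle : p ≤ q)
    (hsub : (101 / 20 : ℝ) * (p * q - 1) ≤ 2 * (p + q + 2))
    (hs : (1368117 / 1250000 : ℝ) ≤ p) : NoSol 7 p q := by
  rcases le_or_gt p (5504177 / 5000000 : ℝ) with h1 | h1
  · exact rowL7_78 hp h1 hq (q_le_of_corner (A0 := (101 / 20 : ℝ)) (p0 := (1368117 / 1250000 : ℝ)) (q0 := (7965959 / 2500000 : ℝ))
      (by norm_num) (by norm_num) (by norm_num) (by norm_num) hs hsub) hpq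
  · exact tailL7_79 hp hq hpq hle hsub h1.le

theorem tailL7_77 {p q : ℝ} (hp : 0 < p) (hq : 0 < q) (hpq : 1 < p * q) (hle : p ≤ q)
    (hsub : (101 / 20 : ℝ) * (p * q - 1) ≤ 2 * (p + q + 2))
    (hs : (5440913 / 5000000 : ℝ) ≤ p) : NoSol 7 p q := by
  rcases le_or_gt p (1368117 / 1250000 : ℝ) with h1 | h1
  · exact rowL7_77 hp h1 hq (q_le_of_corner (A0 := (101 / 20 : ℝ)) (p0 := (5440913 / 5000000 : ℝ)) (q0 := (32118261 / 10000000 : ℝ))
      (by norm_num) (by norm_num) (by norm_num) (by norm_num) hs hsub) hpq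
  · exact tailL7_78 hp hq hpq hle hsub h1.le

theorem tailL7_76 {p q : ℝ} (hp : 0 < p) (hq : 0 < q) (hpq : 1 < p * q) (hle : p ≤ q)
    (hsub : (101 / 20 : ℝ) * (p * q - 1) ≤ 2 * (p + q + 2))
    (hs : (10819411 / 10000000 : ℝ) ≤ p) : NoSol 7 p q := by
  rcases le_or_gt p (5440913 / 5000000 : ℝ) with h1 | h1
  · exact rowL7_76 hp h1 hq (q_le_of_corner (A0 := (101 / 20 : ℝ)) (p0 := (10819411 / 10000000 : ℝ)) (q0 := (32374489 / 10000000 : ℝ))
      (by norm_num) (by norm_num) (by norm_num) (by norm_num) hs hsub) hpq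
  · exact tailL7_77 hp hq hpq hle hsub h1.le

theorem tailL7_75 {p q : ℝ} (hp : 0 < p) (hq : 0 < q) (hpq : 1 < p * q) (hle : p ≤ q)
    (hsub : (101 / 20 : ℝ) * (p * q - 1) ≤ 2 * (p + q + 2))
    (hs : (10757697 / 10000000 : ℝ) ≤ p) : NoSol 7 p q := by
  rcases le_or_gt p (10819411 / 10000000 : ℝ) with h1 | h1
  · exact rowL7_75 hp h1 hq (q_le_of_corner (A0 := (101 / 20 : ℝ)) (p0 := (10757697 / 10000000 : ℝ)) (q0 := (16316233 / 5000000 : ℝ))
      (by norm_num) (by norm_num) (by norm_num) (by norm_num) hs hsub) hpq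
  · exact tailL7_76 hp hq hpq hle hsub h1.le

theorem tailL7_74 {p q : ℝ} (hp : 0 < p) (hq : 0 < q) (hpq : 1 < p * q) (hle : p ≤ q)
    (hsub : (101 / 20 : ℝ) * (p * q - 1) ≤ 2 * (p + q + 2))
    (hs : (5348623 / 5000000 : ℝ) ≤ p) : NoSol 7 p q := by
  rcases le_or_gt p (10757697 / 10000000 : ℝ) with h1 | h1
  · exact rowL7_74 hp h1 hq (q_le_of_corner (A0 := (101 / 20 : ℝ)) (p0 := (5348623 / 5000000 : ℝ)) (q0 := (16444873 / 5000000 : ℝ))
      (by norm_num) (by norm_num) (by norm_num) (by norm_num) hs hsub) hpq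
  · exact tailL7_75 hp hq hpq hle hsub h1.le

theorem tailL7_73 {p q : ℝ} (hp : 0 < p) (hq : 0 < q) (hpq : 1 < p * q) (hle : p ≤ q)
    (hsub : (101 / 20 : ℝ) * (p * q - 1) ≤ 2 * (p + q + 2))
    (hs : (10636699 / 10000000 : ℝ) ≤ p) : NoSol 7 p q := by
  rcases le_or_gt p (5348623 / 5000000 : ℝ) with h1 | h1
  · exact rowL7_73 hp h1 hq (q_le_of_corner (A0 := (101 / 20 : ℝ)) (p0 := (10636699 / 10000000 : ℝ)) (q0 := (4144013 / 1250000 : ℝ))
      (by norm_num) (by norm_num) (by norm_num) (by norm_num) hs hsub) hpq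
  · exact tailL7_74 hp hq hpq hle hsub h1.le

theorem tailL7_72 {p q : ℝ} (hp : 0 < p) (hq : 0 < q) (hpq : 1 < p * q) (hle : p ≤ q)
    (hsub : (101 / 20 : ℝ) * (p * q - 1) ≤ 2 * (p + q + 2))
    (hs : (1057671 / 1000000 : ℝ) ≤ p) : NoSol 7 p q := by
  rcases le_or_gt p (10636699 / 10000000 : ℝ) with h1 | h1
  · exact rowL7_72 hp h1 hq (q_le_of_corner (A0 := (101 / 20 : ℝ)) (p0 := (1057671 / 1000000 : ℝ)) (q0 := (33416781 / 10000000 : ℝ))
      (by norm_num) (by norm_num) (by norm_num) (by norm_num) hs hsub) hpq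
  · exact tailL7_73 hp hq hpq hle hsub h1.le

theorem tailL7_71 {p q : ℝ} (hp : 0 < p) (hq : 0 < q) (hpq : 1 < p * q) (hle : p ≤ q)
    (hsub : (101 / 20 : ℝ) * (p * q - 1) ≤ 2 * (p + q + 2))
    (hs : (10517271 / 10000000 : ℝ) ≤ p) : NoSol 7 p q := by
  rcases le_or_gt p (1057671 / 1000000 : ℝ) with h1 | h1
  · exact rowL7_71 hp h1 hq (q_le_of_corner (A0 := (101 / 20 : ℝ)) (p0 := (10517271 / 10000000 : ℝ)) (q0 := (33683807 / 10000000 : ℝ))
      (by norm_num) (by norm_num) (by norm_num) (by norm_num) hs hsub) hpq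
  · exact tailL7_72 hp hq hpq hle hsub h1.le

theorem tailL7_70 {p q : ℝ} (hp : 0 < p) (hq : 0 < q) (hpq : 1 < p * q) (hle : p ≤ q)
    (hsub : (101 / 20 : ℝ) * (p * q - 1) ≤ 2 * (p + q + 2))
    (hs : (653671 / 625000 : ℝ) ≤ p) : NoSol 7 p q := by
  rcases le_or_gt p (10517271 / 10000000 : ℝ) with h1 | h1
  · exact rowL7_70 hp h1 hq (q_le_of_corner (A0 := (101 / 20 : ℝ)) (p0 := (653671 / 625000 : ℝ)) (q0 := (16975773 / 5000000 : ℝ))
      (by norm_num) (by norm_num) (by norm_num) (by norm_num) hs hsub) hpq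
  · exact tailL7_71 hp hq hpq hle hsub h1.le

theorem tailL7_69 {p q : ℝ} (hp : 0 < p) (hq : 0 < q) (hpq : 1 < p * q) (hle : p ≤ q)
    (hsub : (101 / 20 : ℝ) * (p * q - 1) ≤ 2 * (p + q + 2))
    (hs : (10400747 / 10000000 : ℝ) ≤ p) : NoSol 7 p q := by
  rcases le_or_gt p (653671 / 625000 : ℝ) with h1 | h1
  · exact rowL7_69 hp h1 hq (q_le_of_corner (A0 := (101 / 20 : ℝ)) (p0 := (10400747 / 10000000 : ℝ)) (q0 := (34221587 / 10000000 : ℝ))
      (by norm_num) (by norm_num) (by norm_num) (by norm_num) hs hsub) hpq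
  · exact tailL7_70 hp hq hpq hle hsub h1.le

theorem tailL7_68 {p q : ℝ} (hp : 0 < p) (hq : 0 < q) (hpq : 1 < p * q) (hle : p ≤ q)
    (hsub : (101 / 20 : ℝ) * (p * q - 1) ≤ 2 * (p + q + 2))
    (hs : (10343783 / 10000000 : ℝ) ≤ p) : NoSol 7 p q := by
  rcases le_or_gt p (10400747 / 10000000 : ℝ) with h1 | h1
  · exact rowL7_68 hp h1 hq (q_le_of_corner (A0 := (101 / 20 : ℝ)) (p0 := (10343783 / 10000000 : ℝ)) (q0 := (34491631 / 10000000 : ℝ))
      (by norm_num) (by norm_num) (by norm_num) (by norm_num) hs hsub) hpq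
  · exact tailL7_69 hp hq hpq hle hsub h1.le

theorem tailL7_67 {p q : ℝ} (hp : 0 < p) (hq : 0 < q) (hpq : 1 < p * q) (hle : p ≤ q)
    (hsub : (101 / 20 : ℝ) * (p * q - 1) ≤ 2 * (p + q + 2))
    (hs : (10287463 / 10000000 : ℝ) ≤ p) : NoSol 7 p q := by
  rcases le_or_gt p (10343783 / 10000000 : ℝ) with h1 | h1
  · exact rowL7_67 hp h1 hq (q_le_of_corner (A0 := (101 / 20 : ℝ)) (p0 := (10287463 / 10000000 : ℝ)) (q0 := (34763403 / 10000000 : ℝ))
      (by norm_num) (by norm_num) (by norm_num) (by norm_num) hs hsub) hpq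
  · exact tailL7_68 hp hq hpq hle hsub h1.le

theorem tailL7_66 {p q : ℝ} (hp : 0 < p) (hq : 0 < q) (hpq : 1 < p * q) (hle : p ≤ q)
    (hsub : (101 / 20 : ℝ) * (p * q - 1) ≤ 2 * (p + q + 2))
    (hs : (2558087 / 2500000 : ℝ) ≤ p) : NoSol 7 p q := by
  rcases le_or_gt p (10287463 / 10000000 : ℝ) with h1 | h1
  · exact rowL7_66 hp h1 hq (q_le_of_corner (A0 := (101 / 20 : ℝ)) (p0 := (2558087 / 2500000 : ℝ)) (q0 := (17517043 / 5000000 : ℝ))
      (by norm_num) (by norm_num) (by norm_num) (by norm_num) hs hsub) hpq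
  · exact tailL7_67 hp hq hpq hle hsub h1.le

theorem tailL7_65 {p q : ℝ} (hp : 0 < p) (hq : 0 < q) (hpq : 1 < p * q) (hle : p ≤ q)
    (hsub : (101 / 20 : ℝ) * (p * q - 1) ≤ 2 * (p + q + 2))
    (hs : (5088389 / 5000000 : ℝ) ≤ p) : NoSol 7 p q := by
  rcases le_or_gt p (2558087 / 2500000 : ℝ) with h1 | h1
  · exact rowL7_65 hp h1 hq (q_le_of_corner (A0 := (101 / 20 : ℝ)) (p0 := (5088389 / 5000000 : ℝ)) (q0 := (17655931 / 5000000 : ℝ))
      (by norm_num) (by norm_num) (by norm_num) (by norm_num) hs hsub) hpq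
  · exact tailL7_66 hp hq hpq hle hsub h1.le

theorem tailL7_64 {p q : ℝ} (hp : 0 < p) (hq : 0 < q) (hpq : 1 < p * q) (hle : p ≤ q)
    (hsub : (101 / 20 : ℝ) * (p * q - 1) ≤ 2 * (p + q + 2))
    (hs : (10121447 / 10000000 : ℝ) ≤ p) : NoSol 7 p q := by
  rcases le_or_gt p (5088389 / 5000000 : ℝ) with h1 | h1
  · exact rowL7_64 hp h1 hq (q_le_of_corner (A0 := (101 / 20 : ℝ)) (p0 := (10121447 / 10000000 : ℝ)) (q0 := (35593423 / 10000000 : ℝ))
      (by norm_num) (by norm_num) (by norm_num) (by norm_num) hs hsub) hpq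
  · exact tailL7_65 hp hq hpq hle hsub h1.le

theorem tailL7_63 {p q : ℝ} (hp : 0 < p) (hq : 0 < q) (hpq : 1 < p * q) (hle : p ≤ q)
    (hsub : (101 / 20 : ℝ) * (p * q - 1) ≤ 2 * (p + q + 2))
    (hs : (5033417 / 5000000 : ℝ) ≤ p) : NoSol 7 p q := by
  rcases le_or_gt p (10121447 / 10000000 : ℝ) with h1 | h1
  · exact rowL7_63 hp h1 hq (q_le_of_corner (A0 := (101 / 20 : ℝ)) (p0 := (5033417 / 5000000 : ℝ)) (q0 := (35876333 / 10000000 : ℝ))
      (by norm_num) (by norm_num) (by norm_num) (by norm_num) hs hsub) hpq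
  · exact tailL7_64 hp hq hpq hle hsub h1.le

theorem tailL7_62 {p q : ℝ} (hp : 0 < p) (hq : 0 < q) (hpq : 1 < p * q) (hle : p ≤ q)
    (hsub : (101 / 20 : ℝ) * (p * q - 1) ≤ 2 * (p + q + 2))
    (hs : (10012471 / 10000000 : ℝ) ≤ p) : NoSol 7 p q := by
  rcases le_or_gt p (5033417 / 5000000 : ℝ) with h1 | h1
  · exact rowL7_62 hp h1 hq (q_le_of_corner (A0 := (101 / 20 : ℝ)) (p0 := (10012471 / 10000000 : ℝ)) (q0 := (36163019 / 10000000 : ℝ))
      (by norm_num) (by norm_num) (by norm_num) (by norm_num) hs hsub) hpq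
  · exact tailL7_63 hp hq hpq hle hsub h1.le

theorem tailL7_61 {p q : ℝ} (hp : 0 < p) (hq : 0 < q) (hpq : 1 < p * q) (hle : p ≤ q)
    (hsub : (101 / 20 : ℝ) * (p * q - 1) ≤ 2 * (p + q + 2))
    (hs : (2489717 / 2500000 : ℝ) ≤ p) : NoSol 7 p q := by
  rcases le_or_gt p (10012471 / 10000000 : ℝ) with h1 | h1
  · exact rowL7_61 hp h1 hq (q_le_of_corner (A0 := (101 / 20 : ℝ)) (p0 := (2489717 / 2500000 : ℝ)) (q0 := (7290157 / 2000000 : ℝ))
      (by norm_num) (by norm_num) (by norm_num) (by norm_num) hs hsub) hpq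
  · exact tailL7_62 hp hq hpq hle hsub h1.le

theorem tailL7_60 {p q : ℝ} (hp : 0 < p) (hq : 0 < q) (hpq : 1 < p * q) (hle : p ≤ q)
    (hsub : (101 / 20 : ℝ) * (p * q - 1) ≤ 2 * (p + q + 2))
    (hs : (1238189 / 1250000 : ℝ) ≤ p) : NoSol 7 p q := by
  rcases le_or_gt p (2489717 / 2500000 : ℝ) with h1 | h1
  · exact rowL7_60 hp h1 hq (q_le_of_corner (A0 := (101 / 20 : ℝ)) (p0 := (1238189 / 1250000 : ℝ)) (q0 := (36742379 / 10000000 : ℝ))
      (by norm_num) (by norm_num) (by norm_num) (by norm_num) hs hsub) hpq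
  · exact tailL7_61 hp hq hpq hle hsub h1.le

theorem tailL7_59 {p q : ℝ} (hp : 0 < p) (hq : 0 < q) (hpq : 1 < p * q) (hle : p ≤ q)
    (hsub : (101 / 20 : ℝ) * (p * q - 1) ≤ 2 * (p + q + 2))
    (hs : (1231561 / 1250000 : ℝ) ≤ p) : NoSol 7 p q := by
  rcases le_or_gt p (1238189 / 1250000 : ℝ) with h1 | h1
  · exact rowL7_59 hp h1 hq (q_le_of_corner (A0 := (101 / 20 : ℝ)) (p0 := (1231561 / 1250000 : ℝ)) (q0 := (3703739 / 1000000 : ℝ))
      (by norm_num) (by norm_num) (by norm_num) (by norm_num) hs hsub) hpq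
  · exact tailL7_60 hp hq hpq hle hsub h1.le

theorem tailL7_58 {p q : ℝ} (hp : 0 < p) (hq : 0 < q) (hpq : 1 < p * q) (hle : p ≤ q)
    (hsub : (101 / 20 : ℝ) * (p * q - 1) ≤ 2 * (p + q + 2))
    (hs : (4901003 / 5000000 : ℝ) ≤ p) : NoSol 7 p q := by
  rcases le_or_gt p (1231561 / 1250000 : ℝ) with h1 | h1
  · exact rowL7_58 hp h1 hq (q_le_of_corner (A0 := (101 / 20 : ℝ)) (p0 := (4901003 / 5000000 : ℝ)) (q0 := (18661617 / 5000000 : ℝ))
      (by norm_num) (by norm_num) (by norm_num) (by norm_num) hs hsub) hpq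
  · exact tailL7_59 hp hq hpq hle hsub h1.le

theorem tailL7_57 {p q : ℝ} (hp : 0 < p) (hq : 0 < q) (hpq : 1 < p * q) (hle : p ≤ q)
    (hsub : (101 / 20 : ℝ) * (p * q - 1) ≤ 2 * (p + q + 2))
    (hs : (975019 / 1000000 : ℝ) ≤ p) : NoSol 7 p q := by
  rcases le_or_gt p (4901003 / 5000000 : ℝ) with h1 | h1
  · exact rowL7_57 hp h1 hq (q_le_of_corner (A0 := (101 / 20 : ℝ)) (p0 := (975019 / 1000000 : ℝ)) (q0 := (4702727 / 1250000 : ℝ))
      (by norm_num) (by norm_num) (by norm_num) (by norm_num) hs hsub) hpq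
  · exact tailL7_58 hp hq hpq hle hsub h1.le

theorem tailL7_56 {p q : ℝ} (hp : 0 < p) (hq : 0 < q) (hpq : 1 < p * q) (hle : p ≤ q)
    (hsub : (101 / 20 : ℝ) * (p * q - 1) ≤ 2 * (p + q + 2))
    (hs : (2424593 / 2500000 : ℝ) ≤ p) : NoSol 7 p q := by
  rcases le_or_gt p (975019 / 1000000 : ℝ) with h1 | h1
  · exact rowL7_56 hp h1 hq (q_le_of_corner (A0 := (101 / 20 : ℝ)) (p0 := (2424593 / 2500000 : ℝ)) (q0 := (37925803 / 10000000 : ℝ))
      (by norm_num) (by norm_num) (by norm_num) (by norm_num) hs hsub) hpq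
  · exact tailL7_57 hp hq hpq hle hsub h1.le

theorem tailL7_55 {p q : ℝ} (hp : 0 < p) (hq : 0 < q) (hpq : 1 < p * q) (hle : p ≤ q)
    (hsub : (101 / 20 : ℝ) * (p * q - 1) ≤ 2 * (p + q + 2))
    (hs : (1205887 / 1250000 : ℝ) ≤ p) : NoSol 7 p q := by
  rcases le_or_gt p (2424593 / 2500000 : ℝ) with h1 | h1
  · exact rowL7_55 hp h1 hq (q_le_of_corner (A0 := (101 / 20 : ℝ)) (p0 := (1205887 / 1250000 : ℝ)) (q0 := (38232063 / 10000000 : ℝ))
      (by norm_num) (by norm_num) (by norm_num) (by norm_num) hs hsub) hpq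
  · exact tailL7_56 hp hq hpq hle hsub h1.le

theorem tailL7_54 {p q : ℝ} (hp : 0 < p) (hq : 0 < q) (hpq : 1 < p * q) (hle : p ≤ q)
    (hsub : (101 / 20 : ℝ) * (p * q - 1) ≤ 2 * (p + q + 2))
    (hs : (959613 / 1000000 : ℝ) ≤ p) : NoSol 7 p q := by
  rcases le_or_gt p (1205887 / 1250000 : ℝ) with h1 | h1
  · exact rowL7_54 hp h1 hq (q_le_of_corner (A0 := (101 / 20 : ℝ)) (p0 := (959613 / 1000000 : ℝ)) (q0 := (19270997 / 5000000 : ℝ))
      (by norm_num) (by norm_num) (by norm_num) (by norm_num) hs hsub) hpq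
  · exact tailL7_55 hp hq hpq hle hsub h1.le

theorem tailL7_53 {p q : ℝ} (hp : 0 < p) (hq : 0 < q) (hpq : 1 < p * q) (hle : p ≤ q)
    (hsub : (101 / 20 : ℝ) * (p * q - 1) ≤ 2 * (p + q + 2))
    (hs : (2386391 / 2500000 : ℝ) ≤ p) : NoSol 7 p q := by
  rcases le_or_gt p (959613 / 1000000 : ℝ) with h1 | h1
  · exact rowL7_53 hp h1 hq (q_le_of_corner (A0 := (101 / 20 : ℝ)) (p0 := (2386391 / 2500000 : ℝ)) (q0 := (38855083 / 10000000 : ℝ))
      (by norm_num) (by norm_num) (by norm_num) (by norm_num) hs hsub) hpq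
  · exact tailL7_54 hp hq hpq hle hsub h1.le

theorem tailL7_52 {p q : ℝ} (hp : 0 < p) (hq : 0 < q) (hpq : 1 < p * q) (hle : p ≤ q)
    (hsub : (101 / 20 : ℝ) * (p * q - 1) ≤ 2 * (p + q + 2))
    (hs : (9495291 / 10000000 : ℝ) ≤ p) : NoSol 7 p q := by
  rcases le_or_gt p (2386391 / 2500000 : ℝ) with h1 | h1
  · exact rowL7_52 hp h1 hq (q_le_of_corner (A0 := (101 / 20 : ℝ)) (p0 := (9495291 / 10000000 : ℝ)) (q0 := (39172029 / 10000000 : ℝ))
      (by norm_num) (by norm_num) (by norm_num) (by norm_num) hs hsub) hpq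
  · exact tailL7_53 hp hq hpq hle hsub h1.le

theorem tailL7_51 {p q : ℝ} (hp : 0 < p) (hq : 0 < q) (hpq : 1 < p * q) (hle : p ≤ q)
    (hsub : (101 / 20 : ℝ) * (p * q - 1) ≤ 2 * (p + q + 2))
    (hs : (9445367 / 10000000 : ℝ) ≤ p) : NoSol 7 p q := by
  rcases le_or_gt p (9495291 / 10000000 : ℝ) with h1 | h1
  · exact rowL7_51 hp h1 hq (q_le_of_corner (A0 := (101 / 20 : ℝ)) (p0 := (9445367 / 10000000 : ℝ)) (q0 := (9873131 / 2500000 : ℝ))
      (by norm_num) (by norm_num) (by norm_num) (by norm_num) hs hsub) hpq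
  · exact tailL7_52 hp hq hpq hle hsub h1.le

theorem tailL7_50 {p q : ℝ} (hp : 0 < p) (hq : 0 < q) (hpq : 1 < p * q) (hle : p ≤ q)
    (hsub : (101 / 20 : ℝ) * (p * q - 1) ≤ 2 * (p + q + 2))
    (hs : (1174487 / 1250000 : ℝ) ≤ p) : NoSol 7 p q := by
  rcases le_or_gt p (9445367 / 10000000 : ℝ) with h1 | h1
  · exact rowL7_50 hp h1 hq (q_le_of_corner (A0 := (101 / 20 : ℝ)) (p0 := (1174487 / 1250000 : ℝ)) (q0 := (19907959 / 5000000 : ℝ))
      (by norm_num) (by norm_num) (by norm_num) (by norm_num) hs hsub) hpq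
  · exact tailL7_51 hp hq hpq hle hsub h1.le

theorem tailL7_49 {p q : ℝ} (hp : 0 < p) (hq : 0 < q) (hpq : 1 < p * q) (hle : p ≤ q)
    (hsub : (101 / 20 : ℝ) * (p * q - 1) ≤ 2 * (p + q + 2))
    (hs : (1869417 / 2000000 : ℝ) ≤ p) : NoSol 7 p q := by
  rcases le_or_gt p (1174487 / 1250000 : ℝ) with h1 | h1
  · exact rowL7_49 hp h1 hq (q_le_of_corner (A0 := (101 / 20 : ℝ)) (p0 := (1869417 / 2000000 : ℝ)) (q0 := (2007041 / 500000 : ℝ))
      (by norm_num) (by norm_num) (by norm_num) (by norm_num) hs hsub) hpq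
  · exact tailL7_50 hp hq hpq hle hsub h1.le

theorem tailL7_48 {p q : ℝ} (hp : 0 < p) (hq : 0 < q) (hpq : 1 < p * q) (hle : p ≤ q)
    (hsub : (101 / 20 : ℝ) * (p * q - 1) ≤ 2 * (p + q + 2))
    (hs : (290583 / 312500 : ℝ) ≤ p) : NoSol 7 p q := by
  rcases le_or_gt p (1869417 / 2000000 : ℝ) with h1 | h1
  · exact rowL7_48 hp h1 hq (q_le_of_corner (A0 := (101 / 20 : ℝ)) (p0 := (290583 / 312500 : ℝ)) (q0 := (40469051 / 10000000 : ℝ))
      (by norm_num) (by norm_num) (by norm_num) (by norm_num) hs hsub) hpq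
  · exact tailL7_49 hp hq hpq hle hsub h1.le

theorem tailL7_47 {p q : ℝ} (hp : 0 < p) (hq : 0 < q) (hpq : 1 < p * q) (hle : p ≤ q)
    (hsub : (101 / 20 : ℝ) * (p * q - 1) ≤ 2 * (p + q + 2))
    (hs : (9250419 / 10000000 : ℝ) ≤ p) : NoSol 7 p q := by
  rcases le_or_gt p (290583 / 312500 : ℝ) with h1 | h1
  · exact rowL7_47 hp h1 hq (q_le_of_corner (A0 := (101 / 20 : ℝ)) (p0 := (9250419 / 10000000 : ℝ)) (q0 := (20400977 / 5000000 : ℝ))
      (by norm_num) (by norm_num) (by norm_num) (by norm_num) hs hsub) hpq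
  · exact tailL7_48 hp hq hpq hle hsub h1.le

theorem tailL7_46 {p q : ℝ} (hp : 0 < p) (hq : 0 < q) (hpq : 1 < p * q) (hle : p ≤ q)
    (hsub : (101 / 20 : ℝ) * (p * q - 1) ≤ 2 * (p + q + 2))
    (hs : (4601257 / 5000000 : ℝ) ≤ p) : NoSol 7 p q := by
  rcases le_or_gt p (9250419 / 10000000 : ℝ) with h1 | h1
  · exact rowL7_46 hp h1 hq (q_le_of_corner (A0 := (101 / 20 : ℝ)) (p0 := (4601257 / 5000000 : ℝ)) (q0 := (4113863 / 1000000 : ℝ))
      (by norm_num) (by norm_num) (by norm_num) (by norm_num) hs hsub) hpq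
  · exact tailL7_47 hp hq hpq hle hsub h1.le

theorem tailL7_45 {p q : ℝ} (hp : 0 < p) (hq : 0 < q) (hpq : 1 < p * q) (hle : p ≤ q)
    (hsub : (101 / 20 : ℝ) * (p * q - 1) ≤ 2 * (p + q + 2))
    (hs : (9154927 / 10000000 : ℝ) ≤ p) : NoSol 7 p q := by
  rcases le_or_gt p (4601257 / 5000000 : ℝ) with h1 | h1
  · exact rowL7_45 hp h1 hq (q_le_of_corner (A0 := (101 / 20 : ℝ)) (p0 := (9154927 / 10000000 : ℝ)) (q0 := (41479219 / 10000000 : ℝ))
      (by norm_num) (by norm_num) (by norm_num) (by norm_num) hs hsub) hpq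
  · exact tailL7_46 hp hq hpq hle hsub h1.le

theorem tailL7_44 {p q : ℝ} (hp : 0 < p) (hq : 0 < q) (hpq : 1 < p * q) (hle : p ≤ q)
    (hsub : (101 / 20 : ℝ) * (p * q - 1) ≤ 2 * (p + q + 2))
    (hs : (1138491 / 1250000 : ℝ) ≤ p) : NoSol 7 p q := by
  rcases le_or_gt p (9154927 / 10000000 : ℝ) with h1 | h1
  · exact rowL7_44 hp h1 hq (q_le_of_corner (A0 := (101 / 20 : ℝ)) (p0 := (1138491 / 1250000 : ℝ)) (q0 := (41821781 / 10000000 : ℝ))
      (by norm_num) (by norm_num) (by norm_num) (by norm_num) hs hsub) hpq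
  · exact tailL7_45 hp hq hpq hle hsub h1.le

theorem tailL7_43 {p q : ℝ} (hp : 0 < p) (hq : 0 < q) (hpq : 1 < p * q) (hle : p ≤ q)
    (hsub : (101 / 20 : ℝ) * (p * q - 1) ≤ 2 * (p + q + 2))
    (hs : (1812241 / 2000000 : ℝ) ≤ p) : NoSol 7 p q := by
  rcases le_or_gt p (1138491 / 1250000 : ℝ) with h1 | h1
  · exact rowL7_43 hp h1 hq (q_le_of_corner (A0 := (101 / 20 : ℝ)) (p0 := (1812241 / 2000000 : ℝ)) (q0 := (10542147 / 2500000 : ℝ))
      (by norm_num) (by norm_num) (by norm_num) (by norm_num) hs hsub) hpq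
  · exact tailL7_44 hp hq hpq hle hsub h1.le

theorem tailL7_42 {p q : ℝ} (hp : 0 < p) (hq : 0 < q) (hpq : 1 < p * q) (hle : p ≤ q)
    (hsub : (101 / 20 : ℝ) * (p * q - 1) ≤ 2 * (p + q + 2))
    (hs : (4507103 / 5000000 : ℝ) ≤ p) : NoSol 7 p q := by
  rcases le_or_gt p (1812241 / 2000000 : ℝ) with h1 | h1
  · exact rowL7_42 hp h1 hq (q_le_of_corner (A0 := (101 / 20 : ℝ)) (p0 := (4507103 / 5000000 : ℝ)) (q0 := (42523913 / 10000000 : ℝ))
      (by norm_num) (by norm_num) (by norm_num) (by norm_num) hs hsub) hpq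
  · exact tailL7_43 hp hq hpq hle hsub h1.le

theorem tailL7_41 {p q : ℝ} (hp : 0 < p) (hq : 0 < q) (hpq : 1 < p * q) (hle : p ≤ q)
    (hsub : (101 / 20 : ℝ) * (p * q - 1) ≤ 2 * (p + q + 2))
    (hs : (8967963 / 10000000 : ℝ) ≤ p) : NoSol 7 p q := by
  rcases le_or_gt p (4507103 / 5000000 : ℝ) with h1 | h1
  · exact rowL7_41 hp h1 hq (q_le_of_corner (A0 := (101 / 20 : ℝ)) (p0 := (8967963 / 10000000 : ℝ)) (q0 := (42880033 / 10000000 : ℝ))
      (by norm_num) (by norm_num) (by norm_num) (by norm_num) hs hsub) hpq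
  · exact tailL7_42 hp hq hpq hle hsub h1.le

theorem tailL7_40 {p q : ℝ} (hp : 0 < p) (hq : 0 < q) (hpq : 1 < p * q) (hle : p ≤ q)
    (hsub : (101 / 20 : ℝ) * (p * q - 1) ≤ 2 * (p + q + 2))
    (hs : (8923361 / 10000000 : ℝ) ≤ p) : NoSol 7 p q := by
  rcases le_or_gt p (8967963 / 10000000 : ℝ) with h1 | h1
  · exact rowL7_40 hp h1 hq (q_le_of_corner (A0 := (101 / 20 : ℝ)) (p0 := (8923361 / 10000000 : ℝ)) (q0 := (43229803 / 10000000 : ℝ))
      (by norm_num) (by norm_num) (by norm_num) (by norm_num) hs hsub) hpq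
  · exact tailL7_41 hp hq hpq hle hsub h1.le

theorem tailL7_39 {p q : ℝ} (hp : 0 < p) (hq : 0 < q) (hpq : 1 < p * q) (hle : p ≤ q)
    (hsub : (101 / 20 : ℝ) * (p * q - 1) ≤ 2 * (p + q + 2))
    (hs : (8880133 / 10000000 : ℝ) ≤ p) : NoSol 7 p q := by
  rcases le_or_gt p (8923361 / 10000000 : ℝ) with h1 | h1
  · exact rowL7_39 hp h1 hq (q_le_of_corner (A0 := (101 / 20 : ℝ)) (p0 := (8880133 / 10000000 : ℝ)) (q0 := (43574849 / 10000000 : ℝ))
      (by norm_num) (by norm_num) (by norm_num) (by norm_num) hs hsub) hpq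
  · exact tailL7_40 hp hq hpq hle hsub h1.le

theorem tailL7_38 {p q : ℝ} (hp : 0 < p) (hq : 0 < q) (hpq : 1 < p * q) (hle : p ≤ q)
    (hsub : (101 / 20 : ℝ) * (p * q - 1) ≤ 2 * (p + q + 2))
    (hs : (8836629 / 10000000 : ℝ) ≤ p) : NoSol 7 p q := by
  rcases le_or_gt p (8880133 / 10000000 : ℝ) with h1 | h1
  · exact rowL7_38 hp h1 hq (q_le_of_corner (A0 := (101 / 20 : ℝ)) (p0 := (8836629 / 10000000 : ℝ)) (q0 := (1757131 / 400000 : ℝ))
      (by norm_num) (by norm_num) (by norm_num) (by norm_num) hs hsub) hpq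
  · exact tailL7_39 hp hq hpq hle hsub h1.le

theorem tailL7_37 {p q : ℝ} (hp : 0 < p) (hq : 0 < q) (hpq : 1 < p * q) (hle : p ≤ q)
    (hsub : (101 / 20 : ℝ) * (p * q - 1) ≤ 2 * (p + q + 2))
    (hs : (8792471 / 10000000 : ℝ) ≤ p) : NoSol 7 p q := by
  rcases le_or_gt p (8836629 / 10000000 : ℝ) with h1 | h1
  · exact rowL7_37 hp h1 hq (q_le_of_corner (A0 := (101 / 20 : ℝ)) (p0 := (8792471 / 10000000 : ℝ)) (q0 := (22146761 / 5000000 : ℝ))
      (by norm_num) (by norm_num) (by norm_num) (by norm_num) hs hsub) hpq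
  · exact tailL7_38 hp hq hpq hle hsub h1.le

theorem tailL7_36 {p q : ℝ} (hp : 0 < p) (hq : 0 < q) (hpq : 1 < p * q) (hle : p ≤ q)
    (hsub : (101 / 20 : ℝ) * (p * q - 1) ≤ 2 * (p + q + 2))
    (hs : (8748923 / 10000000 : ℝ) ≤ p) : NoSol 7 p q := by
  rcases le_or_gt p (8792471 / 10000000 : ℝ) with h1 | h1
  · exact rowL7_36 hp h1 hq (q_le_of_corner (A0 := (101 / 20 : ℝ)) (p0 := (8748923 / 10000000 : ℝ)) (q0 := (44660321 / 10000000 : ℝ))
      (by norm_num) (by norm_num) (by norm_num) (by norm_num) hs hsub) hpq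
  · exact tailL7_37 hp hq hpq hle hsub h1.le

theorem tailL7_35 {p q : ℝ} (hp : 0 < p) (hq : 0 < q) (hpq : 1 < p * q) (hle : p ≤ q)
    (hsub : (101 / 20 : ℝ) * (p * q - 1) ≤ 2 * (p + q + 2))
    (hs : (2176643 / 2500000 : ℝ) ≤ p) : NoSol 7 p q := by
  rcases le_or_gt p (8748923 / 10000000 : ℝ) with h1 | h1
  · exact rowL7_35 hp h1 hq (q_le_of_corner (A0 := (101 / 20 : ℝ)) (p0 := (2176643 / 2500000 : ℝ)) (q0 := (22511747 / 5000000 : ℝ))
      (by norm_num) (by norm_num) (by norm_num) (by norm_num) hs hsub) hpq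
  · exact tailL7_36 hp hq hpq hle hsub h1.le

theorem tailL7_34 {p q : ℝ} (hp : 0 < p) (hq : 0 < q) (hpq : 1 < p * q) (hle : p ≤ q)
    (hsub : (101 / 20 : ℝ) * (p * q - 1) ≤ 2 * (p + q + 2))
    (hs : (8664481 / 10000000 : ℝ) ≤ p) : NoSol 7 p q := by
  rcases le_or_gt p (2176643 / 2500000 : ℝ) with h1 | h1
  · exact rowL7_34 hp h1 hq (q_le_of_corner (A0 := (101 / 20 : ℝ)) (p0 := (8664481 / 10000000 : ℝ)) (q0 := (45390917 / 10000000 : ℝ))
      (by norm_num) (by norm_num) (by norm_num) (by norm_num) hs hsub) hpq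
  · exact tailL7_35 hp hq hpq hle hsub h1.le

theorem tailL7_33 {p q : ℝ} (hp : 0 < p) (hq : 0 < q) (hpq : 1 < p * q) (hle : p ≤ q)
    (hsub : (101 / 20 : ℝ) * (p * q - 1) ≤ 2 * (p + q + 2))
    (hs : (4311429 / 5000000 : ℝ) ≤ p) : NoSol 7 p q := by
  rcases le_or_gt p (8664481 / 10000000 : ℝ) with h1 | h1
  · exact rowL7_33 hp h1 hq (q_le_of_corner (A0 := (101 / 20 : ℝ)) (p0 := (4311429 / 5000000 : ℝ)) (q0 := (45760777 / 10000000 : ℝ))
      (by norm_num) (by norm_num) (by norm_num) (by norm_num) hs hsub) hpq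
  · exact tailL7_34 hp hq hpq hle hsub h1.le

theorem tailL7_32 {p q : ℝ} (hp : 0 < p) (hq : 0 < q) (hpq : 1 < p * q) (hle : p ≤ q)
    (hsub : (101 / 20 : ℝ) * (p * q - 1) ≤ 2 * (p + q + 2))
    (hs : (8581779 / 10000000 : ℝ) ≤ p) : NoSol 7 p q := by
  rcases le_or_gt p (4311429 / 5000000 : ℝ) with h1 | h1
  · exact rowL7_32 hp h1 hq (q_le_of_corner (A0 := (101 / 20 : ℝ)) (p0 := (8581779 / 10000000 : ℝ)) (q0 := (46132337 / 10000000 : ℝ))
      (by norm_num) (by norm_num) (by norm_num) (by norm_num) hs hsub) hpq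
  · exact tailL7_33 hp hq hpq hle hsub h1.le

theorem tailL7_31 {p q : ℝ} (hp : 0 < p) (hq : 0 < q) (hpq : 1 < p * q) (hle : p ≤ q)
    (hsub : (101 / 20 : ℝ) * (p * q - 1) ≤ 2 * (p + q + 2))
    (hs : (8541383 / 10000000 : ℝ) ≤ p) : NoSol 7 p q := by
  rcases le_or_gt p (8581779 / 10000000 : ℝ) with h1 | h1
  · exact rowL7_31 hp h1 hq (q_le_of_corner (A0 := (101 / 20 : ℝ)) (p0 := (8541383 / 10000000 : ℝ)) (q0 := (46504217 / 10000000 : ℝ))
      (by norm_num) (by norm_num) (by norm_num) (by norm_num) hs hsub) hpq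
  · exact tailL7_32 hp hq hpq hle hsub h1.le

theorem tailL7_30 {p q : ℝ} (hp : 0 < p) (hq : 0 < q) (hpq : 1 < p * q) (hle : p ≤ q)
    (hsub : (101 / 20 : ℝ) * (p * q - 1) ≤ 2 * (p + q + 2))
    (hs : (8501727 / 10000000 : ℝ) ≤ p) : NoSol 7 p q := by
  rcases le_or_gt p (8541383 / 10000000 : ℝ) with h1 | h1
  · exact rowL7_30 hp h1 hq (q_le_of_corner (A0 := (101 / 20 : ℝ)) (p0 := (8501727 / 10000000 : ℝ)) (q0 := (1171893 / 250000 : ℝ))
      (by norm_num) (by norm_num) (by norm_num) (by norm_num) hs hsub) hpq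
  · exact tailL7_31 hp hq hpq hle hsub h1.le

theorem tailL7_29 {p q : ℝ} (hp : 0 < p) (hq : 0 < q) (hpq : 1 < p * q) (hle : p ≤ q)
    (hsub : (101 / 20 : ℝ) * (p * q - 1) ≤ 2 * (p + q + 2))
    (hs : (8464447 / 10000000 : ℝ) ≤ p) : NoSol 7 p q := by
  rcases le_or_gt p (8501727 / 10000000 : ℝ) with h1 | h1
  · exact rowL7_29 hp h1 hq (q_le_of_corner (A0 := (101 / 20 : ℝ)) (p0 := (8464447 / 10000000 : ℝ)) (q0 := (4723093 / 1000000 : ℝ))
      (by norm_num) (by norm_num) (by norm_num) (by norm_num) hs hsub) hpq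
  · exact tailL7_30 hp hq hpq hle hsub h1.le

theorem tailL7_28 {p q : ℝ} (hp : 0 < p) (hq : 0 < q) (hpq : 1 < p * q) (hle : p ≤ q)
    (hsub : (101 / 20 : ℝ) * (p * q - 1) ≤ 2 * (p + q + 2))
    (hs : (2107411 / 2500000 : ℝ) ≤ p) : NoSol 7 p q := by
  rcases le_or_gt p (8464447 / 10000000 : ℝ) with h1 | h1
  · exact rowL7_28 hp h1 hq (q_le_of_corner (A0 := (101 / 20 : ℝ)) (p0 := (2107411 / 2500000 : ℝ)) (q0 := (47567887 / 10000000 : ℝ))
      (by norm_num) (by norm_num) (by norm_num) (by norm_num) hs hsub) hpq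
  · exact tailL7_29 hp hq hpq hle hsub h1.le

theorem tailL7_27 {p q : ℝ} (hp : 0 < p) (hq : 0 < q) (hpq : 1 < p * q) (hle : p ≤ q)
    (hsub : (101 / 20 : ℝ) * (p * q - 1) ≤ 2 * (p + q + 2))
    (hs : (1679859 / 2000000 : ℝ) ≤ p) : NoSol 7 p q := by
  rcases le_or_gt p (2107411 / 2500000 : ℝ) with h1 | h1
  · exact rowL7_27 hp h1 hq (q_le_of_corner (A0 := (101 / 20 : ℝ)) (p0 := (1679859 / 2000000 : ℝ)) (q0 := (47866033 / 10000000 : ℝ))
      (by norm_num) (by norm_num) (by norm_num) (by norm_num) hs hsub) hpq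
  · exact tailL7_28 hp hq hpq hle hsub h1.le

theorem tailL7_26 {p q : ℝ} (hp : 0 < p) (hq : 0 < q) (hpq : 1 < p * q) (hle : p ≤ q)
    (hsub : (101 / 20 : ℝ) * (p * q - 1) ≤ 2 * (p + q + 2))
    (hs : (1045367 / 1250000 : ℝ) ≤ p) : NoSol 7 p q := by
  rcases le_or_gt p (1679859 / 2000000 : ℝ) with h1 | h1
  · exact rowL7_26 hp h1 hq (q_le_of_corner (A0 := (101 / 20 : ℝ)) (p0 := (1045367 / 1250000 : ℝ)) (q0 := (24114317 / 5000000 : ℝ))
      (by norm_num) (by norm_num) (by norm_num) (by norm_num) hs hsub) hpq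
  · exact tailL7_27 hp hq hpq hle hsub h1.le

theorem tailL7_25 {p q : ℝ} (hp : 0 < p) (hq : 0 < q) (hpq : 1 < p * q) (hle : p ≤ q)
    (hsub : (101 / 20 : ℝ) * (p * q - 1) ≤ 2 * (p + q + 2))
    (hs : (8323967 / 10000000 : ℝ) ≤ p) : NoSol 7 p q := by
  rcases le_or_gt p (1045367 / 1250000 : ℝ) with h1 | h1
  · exact rowL7_25 hp h1 hq (q_le_of_corner (A0 := (101 / 20 : ℝ)) (p0 := (8323967 / 10000000 : ℝ)) (q0 := (48623973 / 10000000 : ℝ))
      (by norm_num) (by norm_num) (by norm_num) (by norm_num) hs hsub) hpq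
  · exact tailL7_26 hp hq hpq hle hsub h1.le

theorem tailL7_24 {p q : ℝ} (hp : 0 < p) (hq : 0 < q) (hpq : 1 < p * q) (hle : p ≤ q)
    (hsub : (101 / 20 : ℝ) * (p * q - 1) ≤ 2 * (p + q + 2))
    (hs : (8285967 / 10000000 : ℝ) ≤ p) : NoSol 7 p q := by
  rcases le_or_gt p (8323967 / 10000000 : ℝ) with h1 | h1
  · exact rowL7_24 hp h1 hq (q_le_of_corner (A0 := (101 / 20 : ℝ)) (p0 := (8285967 / 10000000 : ℝ)) (q0 := (49016341 / 10000000 : ℝ))
      (by norm_num) (by norm_num) (by norm_num) (by norm_num) hs hsub) hpq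
  · exact tailL7_25 hp hq hpq hle hsub h1.le

theorem tailL7_23 {p q : ℝ} (hp : 0 < p) (hq : 0 < q) (hpq : 1 < p * q) (hle : p ≤ q)
    (hsub : (101 / 20 : ℝ) * (p * q - 1) ≤ 2 * (p + q + 2))
    (hs : (1031107 / 1250000 : ℝ) ≤ p) : NoSol 7 p q := by
  rcases le_or_gt p (8285967 / 10000000 : ℝ) with h1 | h1
  · exact rowL7_23 hp h1 hq (q_le_of_corner (A0 := (101 / 20 : ℝ)) (p0 := (1031107 / 1250000 : ℝ)) (q0 := (49406241 / 10000000 : ℝ))
      (by norm_num) (by norm_num) (by norm_num) (by norm_num) hs hsub) hpq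
  · exact tailL7_24 hp hq hpq hle hsub h1.le

theorem tailL7_22 {p q : ℝ} (hp : 0 < p) (hq : 0 < q) (hpq : 1 < p * q) (hle : p ≤ q)
    (hsub : (101 / 20 : ℝ) * (p * q - 1) ≤ 2 * (p + q + 2))
    (hs : (1642833 / 2000000 : ℝ) ≤ p) : NoSol 7 p q := by
  rcases le_or_gt p (1031107 / 1250000 : ℝ) with h1 | h1
  · exact rowL7_22 hp h1 hq (q_le_of_corner (A0 := (101 / 20 : ℝ)) (p0 := (1642833 / 2000000 : ℝ)) (q0 := (12444217 / 2500000 : ℝ))
      (by norm_num) (by norm_num) (by norm_num) (by norm_num) hs hsub) hpq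
  · exact tailL7_23 hp hq hpq hle hsub h1.le

theorem tailL7_21 {p q : ℝ} (hp : 0 < p) (hq : 0 < q) (hpq : 1 < p * q) (hle : p ≤ q)
    (hsub : (101 / 20 : ℝ) * (p * q - 1) ≤ 2 * (p + q + 2))
    (hs : (2044921 / 2500000 : ℝ) ≤ p) : NoSol 7 p q := by
  rcases le_or_gt p (1642833 / 2000000 : ℝ) with h1 | h1
  · exact rowL7_21 hp h1 hq (q_le_of_corner (A0 := (101 / 20 : ℝ)) (p0 := (2044921 / 2500000 : ℝ)) (q0 := (50151291 / 10000000 : ℝ))
      (by norm_num) (by norm_num) (by norm_num) (by norm_num) hs hsub) hpq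
  · exact tailL7_22 hp hq hpq hle hsub h1.le

theorem tailL7_20 {p q : ℝ} (hp : 0 < p) (hq : 0 < q) (hpq : 1 < p * q) (hle : p ≤ q)
    (hsub : (101 / 20 : ℝ) * (p * q - 1) ≤ 2 * (p + q + 2))
    (hs : (407231 / 500000 : ℝ) ≤ p) : NoSol 7 p q := by
  rcases le_or_gt p (2044921 / 2500000 : ℝ) with h1 | h1
  · exact rowL7_20 hp h1 hq (q_le_of_corner (A0 := (101 / 20 : ℝ)) (p0 := (407231 / 500000 : ℝ)) (q0 := (50538373 / 10000000 : ℝ))
      (by norm_num) (by norm_num) (by norm_num) (by norm_num) hs hsub) hpq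
  · exact tailL7_21 hp hq hpq hle hsub h1.le

theorem tailL7_19 {p q : ℝ} (hp : 0 < p) (hq : 0 < q) (hpq : 1 < p * q) (hle : p ≤ q)
    (hsub : (101 / 20 : ℝ) * (p * q - 1) ≤ 2 * (p + q + 2))
    (hs : (4055437 / 5000000 : ℝ) ≤ p) : NoSol 7 p q := by
  rcases le_or_gt p (407231 / 500000 : ℝ) with h1 | h1
  · exact rowL7_19 hp h1 hq (q_le_of_corner (A0 := (101 / 20 : ℝ)) (p0 := (4055437 / 5000000 : ℝ)) (q0 := (25458541 / 5000000 : ℝ))
      (by norm_num) (by norm_num) (by norm_num) (by norm_num) hs hsub) hpq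
  · exact tailL7_20 hp hq hpq hle hsub h1.le

theorem tailL7_18 {p q : ℝ} (hp : 0 < p) (hq : 0 < q) (hpq : 1 < p * q) (hle : p ≤ q)
    (hsub : (101 / 20 : ℝ) * (p * q - 1) ≤ 2 * (p + q + 2))
    (hs : (1009663 / 1250000 : ℝ) ≤ p) : NoSol 7 p q := by
  rcases le_or_gt p (4055437 / 5000000 : ℝ) with h1 | h1
  · exact rowL7_18 hp h1 hq (q_le_of_corner (A0 := (101 / 20 : ℝ)) (p0 := (1009663 / 1250000 : ℝ)) (q0 := (2051999 / 400000 : ℝ))
      (by norm_num) (by norm_num) (by norm_num) (by norm_num) hs hsub) hpq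
  · exact tailL7_19 hp hq hpq hle hsub h1.le

theorem tailL7_17 {p q : ℝ} (hp : 0 < p) (hq : 0 < q) (hpq : 1 < p * q) (hle : p ≤ q)
    (hsub : (101 / 20 : ℝ) * (p * q - 1) ≤ 2 * (p + q + 2))
    (hs : (1608867 / 2000000 : ℝ) ≤ p) : NoSol 7 p q := by
  rcases le_or_gt p (1009663 / 1250000 : ℝ) with h1 | h1
  · exact rowL7_17 hp h1 hq (q_le_of_corner (A0 := (101 / 20 : ℝ)) (p0 := (1608867 / 2000000 : ℝ)) (q0 := (2584107 / 500000 : ℝ))
      (by norm_num) (by norm_num) (by norm_num) (by norm_num) hs hsub) hpq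
  · exact tailL7_18 hp hq hpq hle hsub h1.le

theorem tailL7_16 {p q : ℝ} (hp : 0 < p) (hq : 0 < q) (hpq : 1 < p * q) (hle : p ≤ q)
    (hsub : (101 / 20 : ℝ) * (p * q - 1) ≤ 2 * (p + q + 2))
    (hs : (1001507 / 1250000 : ℝ) ≤ p) : NoSol 7 p q := by
  rcases le_or_gt p (1608867 / 2000000 : ℝ) with h1 | h1
  · exact rowL7_16 hp h1 hq (q_le_of_corner (A0 := (101 / 20 : ℝ)) (p0 := (1001507 / 1250000 : ℝ)) (q0 := (13015583 / 2500000 : ℝ))
      (by norm_num) (by norm_num) (by norm_num) (by norm_num) hs hsub) hpq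
  · exact tailL7_17 hp hq hpq hle hsub h1.le

theorem tailL7_15 {p q : ℝ} (hp : 0 < p) (hq : 0 < q) (hpq : 1 < p * q) (hle : p ≤ q)
    (hsub : (101 / 20 : ℝ) * (p * q - 1) ≤ 2 * (p + q + 2))
    (hs : (3990497 / 5000000 : ℝ) ≤ p) : NoSol 7 p q := by
  rcases le_or_gt p (1001507 / 1250000 : ℝ) with h1 | h1
  · exact rowL7_15 hp h1 hq (q_le_of_corner (A0 := (101 / 20 : ℝ)) (p0 := (3990497 / 5000000 : ℝ)) (q0 := (26216977 / 5000000 : ℝ))
      (by norm_num) (by norm_num) (by norm_num) (by norm_num) hs hsub) hpq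
  · exact tailL7_16 hp hq hpq hle hsub h1.le

theorem tailL7_14 {p q : ℝ} (hp : 0 < p) (hq : 0 < q) (hpq : 1 < p * q) (hle : p ≤ q)
    (hsub : (101 / 20 : ℝ) * (p * q - 1) ≤ 2 * (p + q + 2))
    (hs : (159031 / 200000 : ℝ) ≤ p) : NoSol 7 p q := by
  rcases le_or_gt p (3990497 / 5000000 : ℝ) with h1 | h1
  · exact rowL7_14 hp h1 hq (q_le_of_corner (A0 := (101 / 20 : ℝ)) (p0 := (159031 / 200000 : ℝ)) (q0 := (52791559 / 10000000 : ℝ))
      (by norm_num) (by norm_num) (by norm_num) (by norm_num) hs hsub) hpq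
  · exact tailL7_15 hp hq hpq hle hsub h1.le

theorem tailL7_13 {p q : ℝ} (hp : 0 < p) (hq : 0 < q) (hpq : 1 < p * q) (hle : p ≤ q)
    (hsub : (101 / 20 : ℝ) * (p * q - 1) ≤ 2 * (p + q + 2))
    (hs : (7922533 / 10000000 : ℝ) ≤ p) : NoSol 7 p q := by
  rcases le_or_gt p (159031 / 200000 : ℝ) with h1 | h1
  · exact rowL7_13 hp h1 hq (q_le_of_corner (A0 := (101 / 20 : ℝ)) (p0 := (7922533 / 10000000 : ℝ)) (q0 := (53149177 / 10000000 : ℝ))
      (by norm_num) (by norm_num) (by norm_num) (by norm_num) hs hsub) hpq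
  · exact tailL7_14 hp hq hpq hle hsub h1.le

theorem tailL7_12 {p q : ℝ} (hp : 0 < p) (hq : 0 < q) (hpq : 1 < p * q) (hle : p ≤ q)
    (hsub : (101 / 20 : ℝ) * (p * q - 1) ≤ 2 * (p + q + 2))
    (hs : (3946607 / 5000000 : ℝ) ≤ p) : NoSol 7 p q := by
  rcases le_or_gt p (7922533 / 10000000 : ℝ) with h1 | h1
  · exact rowL7_12 hp h1 hq (q_le_of_corner (A0 := (101 / 20 : ℝ)) (p0 := (3946607 / 5000000 : ℝ)) (q0 := (26757939 / 5000000 : ℝ))
      (by norm_num) (by norm_num) (by norm_num) (by norm_num) hs hsub) hpq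
  · exact tailL7_13 hp hq hpq hle hsub h1.le

theorem tailL7_11 {p q : ℝ} (hp : 0 < p) (hq : 0 < q) (hpq : 1 < p * q) (hle : p ≤ q)
    (hsub : (101 / 20 : ℝ) * (p * q - 1) ≤ 2 * (p + q + 2))
    (hs : (1572857 / 2000000 : ℝ) ≤ p) : NoSol 7 p q := by
  rcases le_or_gt p (3946607 / 5000000 : ℝ) with h1 | h1
  · exact rowL7_11 hp h1 hq (q_le_of_corner (A0 := (101 / 20 : ℝ)) (p0 := (1572857 / 2000000 : ℝ)) (q0 := (53883099 / 10000000 : ℝ))
      (by norm_num) (by norm_num) (by norm_num) (by norm_num) hs hsub) hpq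
  · exact tailL7_12 hp hq hpq hle hsub h1.le

theorem tailL7_10 {p q : ℝ} (hp : 0 < p) (hq : 0 < q) (hpq : 1 < p * q) (hle : p ≤ q)
    (hsub : (101 / 20 : ℝ) * (p * q - 1) ≤ 2 * (p + q + 2))
    (hs : (3918117 / 5000000 : ℝ) ≤ p) : NoSol 7 p q := by
  rcases le_or_gt p (1572857 / 2000000 : ℝ) with h1 | h1
  · exact rowL7_10 hp h1 hq (q_le_of_corner (A0 := (101 / 20 : ℝ)) (p0 := (3918117 / 5000000 : ℝ)) (q0 := (5424441 / 1000000 : ℝ))
      (by norm_num) (by norm_num) (by norm_num) (by norm_num) hs hsub) hpq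
  · exact tailL7_11 hp hq hpq hle hsub h1.le

theorem tailL7_9 {p q : ℝ} (hp : 0 < p) (hq : 0 < q) (hpq : 1 < p * q) (hle : p ≤ q)
    (hsub : (101 / 20 : ℝ) * (p * q - 1) ≤ 2 * (p + q + 2))
    (hs : (7809063 / 10000000 : ℝ) ≤ p) : NoSol 7 p q := by
  rcases le_or_gt p (3918117 / 5000000 : ℝ) with h1 | h1
  · exact rowL7_9 hp h1 hq (q_le_of_corner (A0 := (101 / 20 : ℝ)) (p0 := (7809063 / 10000000 : ℝ)) (q0 := (54599407 / 10000000 : ℝ))
      (by norm_num) (by norm_num) (by norm_num) (by norm_num) hs hsub) hpq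
  · exact tailL7_10 hp hq hpq hle hsub h1.le

theorem tailL7_8 {p q : ℝ} (hp : 0 < p) (hq : 0 < q) (hpq : 1 < p * q) (hle : p ≤ q)
    (hsub : (101 / 20 : ℝ) * (p * q - 1) ≤ 2 * (p + q + 2))
    (hs : (972823 / 1250000 : ℝ) ≤ p) : NoSol 7 p q := by
  rcases le_or_gt p (7809063 / 10000000 : ℝ) with h1 | h1
  · exact rowL7_8 hp h1 hq (q_le_of_corner (A0 := (101 / 20 : ℝ)) (p0 := (972823 / 1250000 : ℝ)) (q0 := (54950219 / 10000000 : ℝ))
      (by norm_num) (by norm_num) (by norm_num) (by norm_num) hs hsub) hpq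
  · exact tailL7_9 hp hq hpq hle hsub h1.le

theorem tailL7_7 {p q : ℝ} (hp : 0 < p) (hq : 0 < q) (hpq : 1 < p * q) (hle : p ≤ q)
    (hsub : (101 / 20 : ℝ) * (p * q - 1) ≤ 2 * (p + q + 2))
    (hs : (1939443 / 2500000 : ℝ) ≤ p) : NoSol 7 p q := by
  rcases le_or_gt p (972823 / 1250000 : ℝ) with h1 | h1
  · exact rowL7_7 hp h1 hq (q_le_of_corner (A0 := (101 / 20 : ℝ)) (p0 := (1939443 / 2500000 : ℝ)) (q0 := (27641693 / 5000000 : ℝ))
      (by norm_num) (by norm_num) (by norm_num) (by norm_num) hs hsub) hpq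
  · exact tailL7_8 hp hq hpq hle hsub h1.le

theorem tailL7_6 {p q : ℝ} (hp : 0 < p) (hq : 0 < q) (hpq : 1 < p * q) (hle : p ≤ q)
    (hsub : (101 / 20 : ℝ) * (p * q - 1) ≤ 2 * (p + q + 2))
    (hs : (3866923 / 5000000 : ℝ) ≤ p) : NoSol 7 p q := by
  rcases le_or_gt p (1939443 / 2500000 : ℝ) with h1 | h1
  · exact rowL7_6 hp h1 hq (q_le_of_corner (A0 := (101 / 20 : ℝ)) (p0 := (3866923 / 5000000 : ℝ)) (q0 := (11121761 / 2000000 : ℝ))
      (by norm_num) (by norm_num) (by norm_num) (by norm_num) hs hsub) hpq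
  · exact tailL7_7 hp hq hpq hle hsub h1.le

theorem tailL7_5 {p q : ℝ} (hp : 0 < p) (hq : 0 < q) (hpq : 1 < p * q) (hle : p ≤ q)
    (hsub : (101 / 20 : ℝ) * (p * q - 1) ≤ 2 * (p + q + 2))
    (hs : (60234 / 78125 : ℝ) ≤ p) : NoSol 7 p q := by
  rcases le_or_gt p (3866923 / 5000000 : ℝ) with h1 | h1
  · exact rowL7_5 hp h1 hq (q_le_of_corner (A0 := (101 / 20 : ℝ)) (p0 := (60234 / 78125 : ℝ)) (q0 := (27968967 / 5000000 : ℝ))
      (by norm_num) (by norm_num) (by norm_num) (by norm_num) hs hsub) hpq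
  · exact tailL7_6 hp hq hpq hle hsub h1.le

theorem tailL7_4 {p q : ℝ} (hp : 0 < p) (hq : 0 < q) (hpq : 1 < p * q) (hle : p ≤ q)
    (hsub : (101 / 20 : ℝ) * (p * q - 1) ≤ 2 * (p + q + 2))
    (hs : (3845277 / 5000000 : ℝ) ≤ p) : NoSol 7 p q := by
  rcases le_or_gt p (60234 / 78125 : ℝ) with h1 | h1
  · exact rowL7_4 hp h1 hq (q_le_of_corner (A0 := (101 / 20 : ℝ)) (p0 := (3845277 / 5000000 : ℝ)) (q0 := (28104117 / 5000000 : ℝ))
      (by norm_num) (by norm_num) (by norm_num) (by norm_num) hs hsub) hpq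
  · exact tailL7_5 hp hq hpq hle hsub h1.le

theorem tailL7_3 {p q : ℝ} (hp : 0 < p) (hq : 0 < q) (hpq : 1 < p * q) (hle : p ≤ q)
    (hsub : (101 / 20 : ℝ) * (p * q - 1) ≤ 2 * (p + q + 2))
    (hs : (7671331 / 10000000 : ℝ) ≤ p) : NoSol 7 p q := by
  rcases le_or_gt p (3845277 / 5000000 : ℝ) with h1 | h1
  · exact rowL7_3 hp h1 hq (q_le_of_corner (A0 := (101 / 20 : ℝ)) (p0 := (7671331 / 10000000 : ℝ)) (q0 := (56478883 / 10000000 : ℝ))
      (by norm_num) (by norm_num) (by norm_num) (by norm_num) hs hsub) hpq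
  · exact tailL7_4 hp hq hpq hle hsub h1.le

theorem tailL7_2 {p q : ℝ} (hp : 0 < p) (hq : 0 < q) (hpq : 1 < p * q) (hle : p ≤ q)
    (hsub : (101 / 20 : ℝ) * (p * q - 1) ≤ 2 * (p + q + 2))
    (hs : (1530571 / 2000000 : ℝ) ≤ p) : NoSol 7 p q := by
  rcases le_or_gt p (7671331 / 10000000 : ℝ) with h1 | h1
  · exact rowL7_2 hp h1 hq (q_le_of_corner (A0 := (101 / 20 : ℝ)) (p0 := (1530571 / 2000000 : ℝ)) (q0 := (5674167 / 1000000 : ℝ))
      (by norm_num) (by norm_num) (by norm_num) (by norm_num) hs hsub) hpq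
  · exact tailL7_3 hp hq hpq hle hsub h1.le

theorem tailL7_1 {p q : ℝ} (hp : 0 < p) (hq : 0 < q) (hpq : 1 < p * q) (hle : p ≤ q)
    (hsub : (101 / 20 : ℝ) * (p * q - 1) ≤ 2 * (p + q + 2))
    (hs : (7636467 / 10000000 : ℝ) ≤ p) : NoSol 7 p q := by
  rcases le_or_gt p (1530571 / 2000000 : ℝ) with h1 | h1
  · exact rowL7_1 hp h1 hq (q_le_of_corner (A0 := (101 / 20 : ℝ)) (p0 := (7636467 / 10000000 : ℝ)) (q0 := (5697697 / 1000000 : ℝ))
      (by norm_num) (by norm_num) (by norm_num) (by norm_num) hs hsub) hpq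
  · exact tailL7_2 hp hq hpq hle hsub h1.le

theorem tailL7_0 {p q : ℝ} (hp : 0 < p) (hq : 0 < q) (hpq : 1 < p * q) (hle : p ≤ q)
    (hsub : (101 / 20 : ℝ) * (p * q - 1) ≤ 2 * (p + q + 2))
    (hs : (61 / 80 : ℝ) ≤ p) : NoSol 7 p q := by
  rcases le_or_gt p (7636467 / 10000000 : ℝ) with h1 | h1
  · exact rowL7_0 hp h1 hq (q_le_of_corner (A0 := (101 / 20 : ℝ)) (p0 := (61 / 80 : ℝ)) (q0 := (57142863 / 10000000 : ℝ))
      (by norm_num) (by norm_num) (by norm_num) (by norm_num) hs hsub) hpq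
  · exact tailL7_1 hp hq hpq hle hsub h1.le

/-- The staircase: `α + β ≥ 5.05`, `max(α, β) ≤ 4`, in dimension 7. -/
theorem tableL7 {p q : ℝ} (hp : 0 < p) (hq : 0 < q) (hpq : 1 < p * q)
    (hsub : (101 / 20 : ℝ) * (p * q - 1) ≤ 2 * (p + q + 2))
    (hα : 2 * (p + 1) ≤ (4 : ℝ) * (p * q - 1)) (hβ : 2 * (q + 1) ≤ (4 : ℝ) * (p * q - 1)) :
    NoSol 7 p q := by
  rcases le_total p q with hle | hle
  · have hs := p_lower (B := 4) (by norm_num) hq hpq hsub hβ (by norm_num)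
    have hs' : (61 / 80 : ℝ) ≤ p := by
      norm_num at hs ⊢
      linarith
    exact tailL7_0 hp hq hpq hle hsub hs'
  · have hpq' : 1 < q * p := by linarith [mul_comm p q]
    have hsub' : (101 / 20 : ℝ) * (q * p - 1) ≤ 2 * (q + p + 2) := by
      rw [mul_comm q p, add_comm q p]
      exact hsub
    have hα' : 2 * (p + 1) ≤ (4 : ℝ) * (q * p - 1) := by
      rw [mul_comm q p]
      exact hα
    have hs := p_lower (B := 4) (by norm_num) hp hpq' hsub' hα' (by norm_num)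
    have hs' : (61 / 80 : ℝ) ≤ q := by
      norm_num at hs ⊢
      linarith
    exact (tailL7_0 hq hp hpq' hle hsub' hs').swap

end Vale.Agent.Lib.P100
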