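import Vale.Agent.Lib.P100.RowsL8_1
import Vale.Agent.Lib.P100.RowsL8_2
import Vale.Agent.Lib.P100.RowsL8_3

/-!
The staircase in dimension 8.
-/

namespace Vale.Agent.Lib.P100

theorem tailL8_111 {p q : ℝ} (hp : 0 < p) (hq : 0 < q) (hpq : 1 < p * q) (hle : p ≤ q)
    (hsub : (609 / 100 : ℝ) * (p * q - 1) ≤ 2 * (p + q + 2))
    (hs : (1035171 / 625000 : ℝ) ≤ p) : NoSol 8 p q := by
  have h1 : p ≤ (8379993 / 5000000 : ℝ) := by
    by_contra h
    push Not at h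
    have h3 := corner_mono (A0 := (609 / 100 : ℝ)) (p0 := (8379993 / 5000000 : ℝ)) (q0 := (8379993 / 5000000 : ℝ)) (p := p) (q := q) (by norm_num) (by norm_num)
      (by norm_num) (by norm_num) h.le (le_trans h.le hle)
    linarith
  have h4 : q ≤ (8286779 / 5000000 : ℝ) :=
    q_le_of_corner (A0 := (609 / 100 : ℝ)) (p0 := (1035171 / 625000 : ℝ)) (q0 := (8286779 / 5000000 : ℝ)) (by norm_num) (by norm_num)
      (by norm_num) (by norm_num) hs hsub
  exact rowL8_111 hp h1 hq h4 hpq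

theorem tailL8_110 {p q : ℝ} (hp : 0 < p) (hq : 0 < q) (hpq : 1 < p * q) (hle : p ≤ q)
    (hsub : (609 / 100 : ℝ) * (p * q - 1) ≤ 2 * (p + q + 2))
    (hs : (3273693 / 2000000 : ℝ) ≤ p) : NoSol 8 p q := by
  rcases le_or_gt p (1035171 / 625000 : ℝ) with h1 | h1
  · exact rowL8_110 hp h1 hq (q_le_of_corner (A0 := (609 / 100 : ℝ)) (p0 := (3273693 / 2000000 : ℝ)) (q0 := (8385437 / 5000000 : ℝ))
      (by norm_num) (by norm_num) (by norm_num) (by norm_num) hs hsub) hpq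
  · exact tailL8_111 hp hq hpq hle hsub h1.le

theorem tailL8_109 {p q : ℝ} (hp : 0 < p) (hq : 0 < q) (hpq : 1 < p * q) (hle : p ≤ q)
    (hsub : (609 / 100 : ℝ) * (p * q - 1) ≤ 2 * (p + q + 2))
    (hs : (8088519 / 5000000 : ℝ) ≤ p) : NoSol 8 p q := by
  rcases le_or_gt p (3273693 / 2000000 : ℝ) with h1 | h1
  · exact rowL8_109 hp h1 hq (q_le_of_corner (A0 := (609 / 100 : ℝ)) (p0 := (8088519 / 5000000 : ℝ)) (q0 := (8485559 / 5000000 : ℝ))
      (by norm_num) (by norm_num) (by norm_num) (by norm_num) hs hsub) hpq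
  · exact tailL8_110 hp hq hpq hle hsub h1.le

theorem tailL8_108 {p q : ℝ} (hp : 0 < p) (hq : 0 < q) (hpq : 1 < p * q) (hle : p ≤ q)
    (hsub : (609 / 100 : ℝ) * (p * q - 1) ≤ 2 * (p + q + 2))
    (hs : (7994597 / 5000000 : ℝ) ≤ p) : NoSol 8 p q := by
  rcases le_or_gt p (8088519 / 5000000 : ℝ) with h1 | h1
  · exact rowL8_108 hp h1 hq (q_le_of_corner (A0 := (609 / 100 : ℝ)) (p0 := (7994597 / 5000000 : ℝ)) (q0 := (17173479 / 10000000 : ℝ))
      (by norm_num) (by norm_num) (by norm_num) (by norm_num) hs hsub) hpq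
  · exact tailL8_109 hp hq hpq hle hsub h1.le

theorem tailL8_107 {p q : ℝ} (hp : 0 < p) (hq : 0 < q) (hpq : 1 < p * q) (hle : p ≤ q)
    (hsub : (609 / 100 : ℝ) * (p * q - 1) ≤ 2 * (p + q + 2))
    (hs : (15804467 / 10000000 : ℝ) ≤ p) : NoSol 8 p q := by
  rcases le_or_gt p (7994597 / 5000000 : ℝ) with h1 | h1
  · exact rowL8_107 hp h1 hq (q_le_of_corner (A0 := (609 / 100 : ℝ)) (p0 := (15804467 / 10000000 : ℝ)) (q0 := (3475681 / 2000000 : ℝ))
      (by norm_num) (by norm_num) (by norm_num) (by norm_num) hs hsub) hpq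
  · exact tailL8_108 hp hq hpq hle hsub h1.le

theorem tailL8_106 {p q : ℝ} (hp : 0 < p) (hq : 0 < q) (hpq : 1 < p * q) (hle : p ≤ q)
    (hsub : (609 / 100 : ℝ) * (p * q - 1) ≤ 2 * (p + q + 2))
    (hs : (3905371 / 2500000 : ℝ) ≤ p) : NoSol 8 p q := by
  rcases le_or_gt p (15804467 / 10000000 : ℝ) with h1 | h1
  · exact rowL8_106 hp h1 hq (q_le_of_corner (A0 := (609 / 100 : ℝ)) (p0 := (3905371 / 2500000 : ℝ)) (q0 := (8793723 / 5000000 : ℝ))
      (by norm_num) (by norm_num) (by norm_num) (by norm_num) hs hsub) hpq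
  · exact tailL8_107 hp hq hpq hle hsub h1.le

theorem tailL8_105 {p q : ℝ} (hp : 0 < p) (hq : 0 < q) (hpq : 1 < p * q) (hle : p ≤ q)
    (hsub : (609 / 100 : ℝ) * (p * q - 1) ≤ 2 * (p + q + 2))
    (hs : (15441247 / 10000000 : ℝ) ≤ p) : NoSol 8 p q := by
  rcases le_or_gt p (3905371 / 2500000 : ℝ) with h1 | h1
  · exact rowL8_105 hp h1 hq (q_le_of_corner (A0 := (609 / 100 : ℝ)) (p0 := (15441247 / 10000000 : ℝ)) (q0 := (17799501 / 10000000 : ℝ))
      (by norm_num) (by norm_num) (by norm_num) (by norm_num) hs hsub) hpq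
  · exact tailL8_106 hp hq hpq hle hsub h1.le

theorem tailL8_104 {p q : ℝ} (hp : 0 < p) (hq : 0 < q) (hpq : 1 < p * q) (hle : p ≤ q)
    (hsub : (609 / 100 : ℝ) * (p * q - 1) ≤ 2 * (p + q + 2))
    (hs : (7632007 / 5000000 : ℝ) ≤ p) : NoSol 8 p q := by
  rcases le_or_gt p (15441247 / 10000000 : ℝ) with h1 | h1
  · exact rowL8_104 hp h1 hq (q_le_of_corner (A0 := (609 / 100 : ℝ)) (p0 := (7632007 / 5000000 : ℝ)) (q0 := (3602849 / 2000000 : ℝ))
      (by norm_num) (by norm_num) (by norm_num) (by norm_num) hs hsub) hpq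
  · exact tailL8_105 hp hq hpq hle hsub h1.le

theorem tailL8_103 {p q : ℝ} (hp : 0 < p) (hq : 0 < q) (hpq : 1 < p * q) (hle : p ≤ q)
    (hsub : (609 / 100 : ℝ) * (p * q - 1) ≤ 2 * (p + q + 2))
    (hs : (3017899 / 2000000 : ℝ) ≤ p) : NoSol 8 p q := by
  rcases le_or_gt p (7632007 / 5000000 : ℝ) with h1 | h1
  · exact rowL8_103 hp h1 hq (q_le_of_corner (A0 := (609 / 100 : ℝ)) (p0 := (3017899 / 2000000 : ℝ)) (q0 := (2279 / 1250 : ℝ))
      (by norm_num) (by norm_num) (by norm_num) (by norm_num) hs hsub) hpq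
  · exact tailL8_104 hp hq hpq hle hsub h1.le

theorem tailL8_102 {p q : ℝ} (hp : 0 < p) (hq : 0 < q) (hpq : 1 < p * q) (hle : p ≤ q)
    (hsub : (609 / 100 : ℝ) * (p * q - 1) ≤ 2 * (p + q + 2))
    (hs : (7458869 / 5000000 : ℝ) ≤ p) : NoSol 8 p q := by
  rcases le_or_gt p (3017899 / 2000000 : ℝ) with h1 | h1
  · exact rowL8_102 hp h1 hq (q_le_of_corner (A0 := (609 / 100 : ℝ)) (p0 := (7458869 / 5000000 : ℝ)) (q0 := (1153293 / 625000 : ℝ))
      (by norm_num) (by norm_num) (by norm_num) (by norm_num) hs hsub) hpq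
  · exact tailL8_103 hp hq hpq hle hsub h1.le

theorem tailL8_101 {p q : ℝ} (hp : 0 < p) (hq : 0 < q) (hpq : 1 < p * q) (hle : p ≤ q)
    (hsub : (609 / 100 : ℝ) * (p * q - 1) ≤ 2 * (p + q + 2))
    (hs : (14748627 / 10000000 : ℝ) ≤ p) : NoSol 8 p q := by
  rcases le_or_gt p (7458869 / 5000000 : ℝ) with h1 | h1
  · exact rowL8_101 hp h1 hq (q_le_of_corner (A0 := (609 / 100 : ℝ)) (p0 := (14748627 / 10000000 : ℝ)) (q0 := (18676437 / 10000000 : ℝ))
      (by norm_num) (by norm_num) (by norm_num) (by norm_num) hs hsub) hpq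
  · exact tailL8_102 hp hq hpq hle hsub h1.le

theorem tailL8_100 {p q : ℝ} (hp : 0 < p) (hq : 0 < q) (hpq : 1 < p * q) (hle : p ≤ q)
    (hsub : (609 / 100 : ℝ) * (p * q - 1) ≤ 2 * (p + q + 2))
    (hs : (7291501 / 5000000 : ℝ) ≤ p) : NoSol 8 p q := by
  rcases le_or_gt p (14748627 / 10000000 : ℝ) with h1 | h1
  · exact rowL8_100 hp h1 hq (q_le_of_corner (A0 := (609 / 100 : ℝ)) (p0 := (7291501 / 5000000 : ℝ)) (q0 := (3780413 / 2000000 : ℝ))
      (by norm_num) (by norm_num) (by norm_num) (by norm_num) hs hsub) hpq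
  · exact tailL8_101 hp hq hpq hle hsub h1.le

theorem tailL8_99 {p q : ℝ} (hp : 0 < p) (hq : 0 < q) (hpq : 1 < p * q) (hle : p ≤ q)
    (hsub : (609 / 100 : ℝ) * (p * q - 1) ≤ 2 * (p + q + 2))
    (hs : (720941 / 500000 : ℝ) ≤ p) : NoSol 8 p q := by
  rcases le_or_gt p (7291501 / 5000000 : ℝ) with h1 | h1
  · exact rowL8_99 hp h1 hq (q_le_of_corner (A0 := (609 / 100 : ℝ)) (p0 := (720941 / 500000 : ℝ)) (q0 := (19132353 / 10000000 : ℝ))
      (by norm_num) (by norm_num) (by norm_num) (by norm_num) hs hsub) hpq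
  · exact tailL8_100 hp hq hpq hle hsub h1.le

theorem tailL8_98 {p q : ℝ} (hp : 0 < p) (hq : 0 < q) (hpq : 1 < p * q) (hle : p ≤ q)
    (hsub : (609 / 100 : ℝ) * (p * q - 1) ≤ 2 * (p + q + 2))
    (hs : (14257207 / 10000000 : ℝ) ≤ p) : NoSol 8 p q := by
  rcases le_or_gt p (720941 / 500000 : ℝ) with h1 | h1
  · exact rowL8_98 hp h1 hq (q_le_of_corner (A0 := (609 / 100 : ℝ)) (p0 := (14257207 / 10000000 : ℝ)) (q0 := (19365767 / 10000000 : ℝ))
      (by norm_num) (by norm_num) (by norm_num) (by norm_num) hs hsub) hpq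
  · exact tailL8_99 hp hq hpq hle hsub h1.le

theorem tailL8_97 {p q : ℝ} (hp : 0 < p) (hq : 0 < q) (hpq : 1 < p * q) (hle : p ≤ q)
    (hsub : (609 / 100 : ℝ) * (p * q - 1) ≤ 2 * (p + q + 2))
    (hs : (14098327 / 10000000 : ℝ) ≤ p) : NoSol 8 p q := by
  rcases le_or_gt p (14257207 / 10000000 : ℝ) with h1 | h1
  · exact rowL8_97 hp h1 hq (q_le_of_corner (A0 := (609 / 100 : ℝ)) (p0 := (14098327 / 10000000 : ℝ)) (q0 := (3920407 / 2000000 : ℝ))
      (by norm_num) (by norm_num) (by norm_num) (by norm_num) hs hsub) hpq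
  · exact tailL8_98 hp hq hpq hle hsub h1.le

theorem tailL8_96 {p q : ℝ} (hp : 0 < p) (hq : 0 < q) (hpq : 1 < p * q) (hle : p ≤ q)
    (hsub : (609 / 100 : ℝ) * (p * q - 1) ≤ 2 * (p + q + 2))
    (hs : (13942187 / 10000000 : ℝ) ≤ p) : NoSol 8 p q := by
  rcases le_or_gt p (14098327 / 10000000 : ℝ) with h1 | h1
  · exact rowL8_96 hp h1 hq (q_le_of_corner (A0 := (609 / 100 : ℝ)) (p0 := (13942187 / 10000000 : ℝ)) (q0 := (19841091 / 10000000 : ℝ))
      (by norm_num) (by norm_num) (by norm_num) (by norm_num) hs hsub) hpq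
  · exact tailL8_97 hp hq hpq hle hsub h1.le

theorem tailL8_95 {p q : ℝ} (hp : 0 < p) (hq : 0 < q) (hpq : 1 < p * q) (hle : p ≤ q)
    (hsub : (609 / 100 : ℝ) * (p * q - 1) ≤ 2 * (p + q + 2))
    (hs : (1723577 / 1250000 : ℝ) ≤ p) : NoSol 8 p q := by
  rcases le_or_gt p (13942187 / 10000000 : ℝ) with h1 | h1
  · exact rowL8_95 hp h1 hq (q_le_of_corner (A0 := (609 / 100 : ℝ)) (p0 := (1723577 / 1250000 : ℝ)) (q0 := (10041573 / 5000000 : ℝ))
      (by norm_num) (by norm_num) (by norm_num) (by norm_num) hs hsub) hpq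
  · exact tailL8_96 hp hq hpq hle hsub h1.le

theorem tailL8_94 {p q : ℝ} (hp : 0 < p) (hq : 0 < q) (hpq : 1 < p * q) (hle : p ≤ q)
    (hsub : (609 / 100 : ℝ) * (p * q - 1) ≤ 2 * (p + q + 2))
    (hs : (6818883 / 5000000 : ℝ) ≤ p) : NoSol 8 p q := by
  rcases le_or_gt p (1723577 / 1250000 : ℝ) with h1 | h1
  · exact rowL8_94 hp h1 hq (q_le_of_corner (A0 := (609 / 100 : ℝ)) (p0 := (6818883 / 5000000 : ℝ)) (q0 := (20327903 / 10000000 : ℝ))
      (by norm_num) (by norm_num) (by norm_num) (by norm_num) hs hsub) hpq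
  · exact tailL8_95 hp hq hpq hle hsub h1.le

theorem tailL8_93 {p q : ℝ} (hp : 0 < p) (hq : 0 < q) (hpq : 1 < p * q) (hle : p ≤ q)
    (hsub : (609 / 100 : ℝ) * (p * q - 1) ≤ 2 * (p + q + 2))
    (hs : (3372387 / 2500000 : ℝ) ≤ p) : NoSol 8 p q := by
  rcases le_or_gt p (6818883 / 5000000 : ℝ) with h1 | h1
  · exact rowL8_93 hp h1 hq (q_le_of_corner (A0 := (609 / 100 : ℝ)) (p0 := (3372387 / 2500000 : ℝ)) (q0 := (20575437 / 10000000 : ℝ))
      (by norm_num) (by norm_num) (by norm_num) (by norm_num) hs hsub) hpq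
  · exact tailL8_94 hp hq hpq hle hsub h1.le

theorem tailL8_92 {p q : ℝ} (hp : 0 < p) (hq : 0 < q) (hpq : 1 < p * q) (hle : p ≤ q)
    (hsub : (609 / 100 : ℝ) * (p * q - 1) ≤ 2 * (p + q + 2))
    (hs : (13343283 / 10000000 : ℝ) ≤ p) : NoSol 8 p q := by
  rcases le_or_gt p (3372387 / 2500000 : ℝ) with h1 | h1
  · exact rowL8_92 hp h1 hq (q_le_of_corner (A0 := (609 / 100 : ℝ)) (p0 := (13343283 / 10000000 : ℝ)) (q0 := (20826861 / 10000000 : ℝ))
      (by norm_num) (by norm_num) (by norm_num) (by norm_num) hs hsub) hpq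
  · exact tailL8_93 hp hq hpq hle hsub h1.le

theorem tailL8_91 {p q : ℝ} (hp : 0 < p) (hq : 0 < q) (hpq : 1 < p * q) (hle : p ≤ q)
    (hsub : (609 / 100 : ℝ) * (p * q - 1) ≤ 2 * (p + q + 2))
    (hs : (13199907 / 10000000 : ℝ) ≤ p) : NoSol 8 p q := by
  rcases le_or_gt p (13343283 / 10000000 : ℝ) with h1 | h1
  · exact rowL8_91 hp h1 hq (q_le_of_corner (A0 := (609 / 100 : ℝ)) (p0 := (13199907 / 10000000 : ℝ)) (q0 := (21080517 / 10000000 : ℝ))
      (by norm_num) (by norm_num) (by norm_num) (by norm_num) hs hsub) hpq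
  · exact tailL8_92 hp hq hpq hle hsub h1.le

theorem tailL8_90 {p q : ℝ} (hp : 0 < p) (hq : 0 < q) (hpq : 1 < p * q) (hle : p ≤ q)
    (hsub : (609 / 100 : ℝ) * (p * q - 1) ≤ 2 * (p + q + 2))
    (hs : (1632257 / 1250000 : ℝ) ≤ p) : NoSol 8 p q := by
  rcases le_or_gt p (13199907 / 10000000 : ℝ) with h1 | h1
  · exact rowL8_90 hp h1 hq (q_le_of_corner (A0 := (609 / 100 : ℝ)) (p0 := (1632257 / 1250000 : ℝ)) (q0 := (21338799 / 10000000 : ℝ))
      (by norm_num) (by norm_num) (by norm_num) (by norm_num) hs hsub) hpq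
  · exact tailL8_91 hp hq hpq hle hsub h1.le

theorem tailL8_89 {p q : ℝ} (hp : 0 < p) (hq : 0 < q) (hpq : 1 < p * q) (hle : p ≤ q)
    (hsub : (609 / 100 : ℝ) * (p * q - 1) ≤ 2 * (p + q + 2))
    (hs : (6459501 / 5000000 : ℝ) ≤ p) : NoSol 8 p q := by
  rcases le_or_gt p (1632257 / 1250000 : ℝ) with h1 | h1
  · exact rowL8_89 hp h1 hq (q_le_of_corner (A0 := (609 / 100 : ℝ)) (p0 := (6459501 / 5000000 : ℝ)) (q0 := (2159937 / 1000000 : ℝ))
      (by norm_num) (by norm_num) (by norm_num) (by norm_num) hs hsub) hpq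
  · exact tailL8_90 hp hq hpq hle hsub h1.le

theorem tailL8_88 {p q : ℝ} (hp : 0 < p) (hq : 0 < q) (hpq : 1 < p * q) (hle : p ≤ q)
    (hsub : (609 / 100 : ℝ) * (p * q - 1) ≤ 2 * (p + q + 2))
    (hs : (1597759 / 1250000 : ℝ) ≤ p) : NoSol 8 p q := by
  rcases le_or_gt p (6459501 / 5000000 : ℝ) with h1 | h1
  · exact rowL8_88 hp h1 hq (q_le_of_corner (A0 := (609 / 100 : ℝ)) (p0 := (1597759 / 1250000 : ℝ)) (q0 := (2732927 / 1250000 : ℝ))
      (by norm_num) (by norm_num) (by norm_num) (by norm_num) hs hsub) hpq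
  · exact tailL8_89 hp hq hpq hle hsub h1.le

theorem tailL8_87 {p q : ℝ} (hp : 0 < p) (hq : 0 < q) (hpq : 1 < p * q) (hle : p ≤ q)
    (hsub : (609 / 100 : ℝ) * (p * q - 1) ≤ 2 * (p + q + 2))
    (hs : (12647099 / 10000000 : ℝ) ≤ p) : NoSol 8 p q := by
  rcases le_or_gt p (1597759 / 1250000 : ℝ) with h1 | h1
  · exact rowL8_87 hp h1 hq (q_le_of_corner (A0 := (609 / 100 : ℝ)) (p0 := (12647099 / 10000000 : ℝ)) (q0 := (22131247 / 10000000 : ℝ))
      (by norm_num) (by norm_num) (by norm_num) (by norm_num) hs hsub) hpq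
  · exact tailL8_88 hp hq hpq hle hsub h1.le

theorem tailL8_86 {p q : ℝ} (hp : 0 < p) (hq : 0 < q) (hpq : 1 < p * q) (hle : p ≤ q)
    (hsub : (609 / 100 : ℝ) * (p * q - 1) ≤ 2 * (p + q + 2))
    (hs : (6257723 / 5000000 : ℝ) ≤ p) : NoSol 8 p q := by
  rcases le_or_gt p (12647099 / 10000000 : ℝ) with h1 | h1
  · exact rowL8_86 hp h1 hq (q_le_of_corner (A0 := (609 / 100 : ℝ)) (p0 := (6257723 / 5000000 : ℝ)) (q0 := (5600009 / 2500000 : ℝ))
      (by norm_num) (by norm_num) (by norm_num) (by norm_num) hs hsub) hpq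
  · exact tailL8_87 hp hq hpq hle hsub h1.le

theorem tailL8_85 {p q : ℝ} (hp : 0 < p) (hq : 0 < q) (hpq : 1 < p * q) (hle : p ≤ q)
    (hsub : (609 / 100 : ℝ) * (p * q - 1) ≤ 2 * (p + q + 2))
    (hs : (12384713 / 10000000 : ℝ) ≤ p) : NoSol 8 p q := by
  rcases le_or_gt p (6257723 / 5000000 : ℝ) with h1 | h1
  · exact rowL8_85 hp h1 hq (q_le_of_corner (A0 := (609 / 100 : ℝ)) (p0 := (12384713 / 10000000 : ℝ)) (q0 := (11337321 / 5000000 : ℝ))
      (by norm_num) (by norm_num) (by norm_num) (by norm_num) hs hsub) hpq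
  · exact tailL8_86 hp hq hpq hle hsub h1.le

theorem tailL8_84 {p q : ℝ} (hp : 0 < p) (hq : 0 < q) (hpq : 1 < p * q) (hle : p ≤ q)
    (hsub : (609 / 100 : ℝ) * (p * q - 1) ≤ 2 * (p + q + 2))
    (hs : (12256129 / 10000000 : ℝ) ≤ p) : NoSol 8 p q := by
  rcases le_or_gt p (12384713 / 10000000 : ℝ) with h1 | h1
  · exact rowL8_84 hp h1 hq (q_le_of_corner (A0 := (609 / 100 : ℝ)) (p0 := (12256129 / 10000000 : ℝ)) (q0 := (1147627 / 500000 : ℝ))
      (by norm_num) (by norm_num) (by norm_num) (by norm_num) hs hsub) hpq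
  · exact tailL8_85 hp hq hpq hle hsub h1.le

theorem tailL8_83 {p q : ℝ} (hp : 0 < p) (hq : 0 < q) (hpq : 1 < p * q) (hle : p ≤ q)
    (hsub : (609 / 100 : ℝ) * (p * q - 1) ≤ 2 * (p + q + 2))
    (hs : (12129897 / 10000000 : ℝ) ≤ p) : NoSol 8 p q := by
  rcases le_or_gt p (12256129 / 10000000 : ℝ) with h1 | h1
  · exact rowL8_83 hp h1 hq (q_le_of_corner (A0 := (609 / 100 : ℝ)) (p0 := (12129897 / 10000000 : ℝ)) (q0 := (23233213 / 10000000 : ℝ))
      (by norm_num) (by norm_num) (by norm_num) (by norm_num) hs hsub) hpq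
  · exact tailL8_84 hp hq hpq hle hsub h1.le

theorem tailL8_82 {p q : ℝ} (hp : 0 < p) (hq : 0 < q) (hpq : 1 < p * q) (hle : p ≤ q)
    (hsub : (609 / 100 : ℝ) * (p * q - 1) ≤ 2 * (p + q + 2))
    (hs : (12005561 / 10000000 : ℝ) ≤ p) : NoSol 8 p q := by
  rcases le_or_gt p (12129897 / 10000000 : ℝ) with h1 | h1
  · exact rowL8_82 hp h1 hq (q_le_of_corner (A0 := (609 / 100 : ℝ)) (p0 := (12005561 / 10000000 : ℝ)) (q0 := (11758807 / 5000000 : ℝ))
      (by norm_num) (by norm_num) (by norm_num) (by norm_num) hs hsub) hpq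
  · exact tailL8_83 hp hq hpq hle hsub h1.le

theorem tailL8_81 {p q : ℝ} (hp : 0 < p) (hq : 0 < q) (hpq : 1 < p * q) (hle : p ≤ q)
    (hsub : (609 / 100 : ℝ) * (p * q - 1) ≤ 2 * (p + q + 2))
    (hs : (1485401 / 1250000 : ℝ) ≤ p) : NoSol 8 p q := by
  rcases le_or_gt p (12005561 / 10000000 : ℝ) with h1 | h1
  · exact rowL8_81 hp h1 hq (q_le_of_corner (A0 := (609 / 100 : ℝ)) (p0 := (1485401 / 1250000 : ℝ)) (q0 := (23805507 / 10000000 : ℝ))
      (by norm_num) (by norm_num) (by norm_num) (by norm_num) hs hsub) hpq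
  · exact tailL8_82 hp hq hpq hle hsub h1.le

theorem tailL8_80 {p q : ℝ} (hp : 0 < p) (hq : 0 < q) (hpq : 1 < p * q) (hle : p ≤ q)
    (hsub : (609 / 100 : ℝ) * (p * q - 1) ≤ 2 * (p + q + 2))
    (hs : (1470371 / 1250000 : ℝ) ≤ p) : NoSol 8 p q := by
  rcases le_or_gt p (1485401 / 1250000 : ℝ) with h1 | h1
  · exact rowL8_80 hp h1 hq (q_le_of_corner (A0 := (609 / 100 : ℝ)) (p0 := (1470371 / 1250000 : ℝ)) (q0 := (6024131 / 2500000 : ℝ))
      (by norm_num) (by norm_num) (by norm_num) (by norm_num) hs hsub) hpq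
  · exact tailL8_81 hp hq hpq hle hsub h1.le

theorem tailL8_79 {p q : ℝ} (hp : 0 < p) (hq : 0 < q) (hpq : 1 < p * q) (hle : p ≤ q)
    (hsub : (609 / 100 : ℝ) * (p * q - 1) ≤ 2 * (p + q + 2))
    (hs : (363891 / 312500 : ℝ) ≤ p) : NoSol 8 p q := by
  rcases le_or_gt p (1470371 / 1250000 : ℝ) with h1 | h1
  · exact rowL8_79 hp h1 hq (q_le_of_corner (A0 := (609 / 100 : ℝ)) (p0 := (363891 / 312500 : ℝ)) (q0 := (1524463 / 625000 : ℝ))
      (by norm_num) (by norm_num) (by norm_num) (by norm_num) hs hsub) hpq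
  · exact tailL8_80 hp hq hpq hle hsub h1.le

theorem tailL8_78 {p q : ℝ} (hp : 0 < p) (hq : 0 < q) (hpq : 1 < p * q) (hle : p ≤ q)
    (hsub : (609 / 100 : ℝ) * (p * q - 1) ≤ 2 * (p + q + 2))
    (hs : (360241 / 312500 : ℝ) ≤ p) : NoSol 8 p q := by
  rcases le_or_gt p (363891 / 312500 : ℝ) with h1 | h1
  · exact rowL8_78 hp h1 hq (q_le_of_corner (A0 := (609 / 100 : ℝ)) (p0 := (360241 / 312500 : ℝ)) (q0 := (24690467 / 10000000 : ℝ))
      (by norm_num) (by norm_num) (by norm_num) (by norm_num) hs hsub) hpq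
  · exact tailL8_79 hp hq hpq hle hsub h1.le

theorem tailL8_77 {p q : ℝ} (hp : 0 < p) (hq : 0 < q) (hpq : 1 < p * q) (hle : p ≤ q)
    (hsub : (609 / 100 : ℝ) * (p * q - 1) ≤ 2 * (p + q + 2))
    (hs : (456507 / 400000 : ℝ) ≤ p) : NoSol 8 p q := by
  rcases le_or_gt p (360241 / 312500 : ℝ) with h1 | h1
  · exact rowL8_77 hp h1 hq (q_le_of_corner (A0 := (609 / 100 : ℝ)) (p0 := (456507 / 400000 : ℝ)) (q0 := (24993413 / 10000000 : ℝ))
      (by norm_num) (by norm_num) (by norm_num) (by norm_num) hs hsub) hpq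
  · exact tailL8_78 hp hq hpq hle hsub h1.le

theorem tailL8_76 {p q : ℝ} (hp : 0 < p) (hq : 0 < q) (hpq : 1 < p * q) (hle : p ≤ q)
    (hsub : (609 / 100 : ℝ) * (p * q - 1) ≤ 2 * (p + q + 2))
    (hs : (11299339 / 10000000 : ℝ) ≤ p) : NoSol 8 p q := by
  rcases le_or_gt p (456507 / 400000 : ℝ) with h1 | h1
  · exact rowL8_76 hp h1 hq (q_le_of_corner (A0 := (609 / 100 : ℝ)) (p0 := (11299339 / 10000000 : ℝ)) (q0 := (25300383 / 10000000 : ℝ))
      (by norm_num) (by norm_num) (by norm_num) (by norm_num) hs hsub) hpq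
  · exact tailL8_77 hp hq hpq hle hsub h1.le

theorem tailL8_75 {p q : ℝ} (hp : 0 < p) (hq : 0 < q) (hpq : 1 < p * q) (hle : p ≤ q)
    (hsub : (609 / 100 : ℝ) * (p * q - 1) ≤ 2 * (p + q + 2))
    (hs : (2796931 / 2500000 : ℝ) ≤ p) : NoSol 8 p q := by
  rcases le_or_gt p (11299339 / 10000000 : ℝ) with h1 | h1
  · exact rowL8_75 hp h1 hq (q_le_of_corner (A0 := (609 / 100 : ℝ)) (p0 := (2796931 / 2500000 : ℝ)) (q0 := (800353 / 312500 : ℝ))
      (by norm_num) (by norm_num) (by norm_num) (by norm_num) hs hsub) hpq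
  · exact tailL8_76 hp hq hpq hle hsub h1.le

theorem tailL8_74 {p q : ℝ} (hp : 0 < p) (hq : 0 < q) (hpq : 1 < p * q) (hle : p ≤ q)
    (hsub : (609 / 100 : ℝ) * (p * q - 1) ≤ 2 * (p + q + 2))
    (hs : (11077721 / 10000000 : ℝ) ≤ p) : NoSol 8 p q := by
  rcases le_or_gt p (2796931 / 2500000 : ℝ) with h1 | h1
  · exact rowL8_74 hp h1 hq (q_le_of_corner (A0 := (609 / 100 : ℝ)) (p0 := (11077721 / 10000000 : ℝ)) (q0 := (25926433 / 10000000 : ℝ))
      (by norm_num) (by norm_num) (by norm_num) (by norm_num) hs hsub) hpq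
  · exact tailL8_75 hp hq hpq hle hsub h1.le

theorem tailL8_73 {p q : ℝ} (hp : 0 < p) (hq : 0 < q) (hpq : 1 < p * q) (hle : p ≤ q)
    (hsub : (609 / 100 : ℝ) * (p * q - 1) ≤ 2 * (p + q + 2))
    (hs : (2742347 / 2500000 : ℝ) ≤ p) : NoSol 8 p q := by
  rcases le_or_gt p (11077721 / 10000000 : ℝ) with h1 | h1
  · exact rowL8_73 hp h1 hq (q_le_of_corner (A0 := (609 / 100 : ℝ)) (p0 := (2742347 / 2500000 : ℝ)) (q0 := (13122801 / 5000000 : ℝ))
      (by norm_num) (by norm_num) (by norm_num) (by norm_num) hs hsub) hpq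
  · exact tailL8_74 hp hq hpq hle hsub h1.le

theorem tailL8_72 {p q : ℝ} (hp : 0 < p) (hq : 0 < q) (hpq : 1 < p * q) (hle : p ≤ q)
    (hsub : (609 / 100 : ℝ) * (p * q - 1) ≤ 2 * (p + q + 2))
    (hs : (10862671 / 10000000 : ℝ) ≤ p) : NoSol 8 p q := by
  rcases le_or_gt p (2742347 / 2500000 : ℝ) with h1 | h1
  · exact rowL8_72 hp h1 hq (q_le_of_corner (A0 := (609 / 100 : ℝ)) (p0 := (10862671 / 10000000 : ℝ)) (q0 := (26568931 / 10000000 : ℝ))
      (by norm_num) (by norm_num) (by norm_num) (by norm_num) hs hsub) hpq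
  · exact tailL8_73 hp hq hpq hle hsub h1.le

theorem tailL8_71 {p q : ℝ} (hp : 0 < p) (hq : 0 < q) (hpq : 1 < p * q) (hle : p ≤ q)
    (hsub : (609 / 100 : ℝ) * (p * q - 1) ≤ 2 * (p + q + 2))
    (hs : (5378967 / 5000000 : ℝ) ≤ p) : NoSol 8 p q := by
  rcases le_or_gt p (10862671 / 10000000 : ℝ) with h1 | h1
  · exact rowL8_71 hp h1 hq (q_le_of_corner (A0 := (609 / 100 : ℝ)) (p0 := (5378967 / 5000000 : ℝ)) (q0 := (672381 / 250000 : ℝ))
      (by norm_num) (by norm_num) (by norm_num) (by norm_num) hs hsub) hpq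
  · exact tailL8_72 hp hq hpq hle hsub h1.le

theorem tailL8_70 {p q : ℝ} (hp : 0 < p) (hq : 0 < q) (hpq : 1 < p * q) (hle : p ≤ q)
    (hsub : (609 / 100 : ℝ) * (p * q - 1) ≤ 2 * (p + q + 2))
    (hs : (532713 / 500000 : ℝ) ≤ p) : NoSol 8 p q := by
  rcases le_or_gt p (5378967 / 5000000 : ℝ) with h1 | h1
  · exact rowL8_70 hp h1 hq (q_le_of_corner (A0 := (609 / 100 : ℝ)) (p0 := (532713 / 500000 : ℝ)) (q0 := (27227371 / 10000000 : ℝ))
      (by norm_num) (by norm_num) (by norm_num) (by norm_num) hs hsub) hpq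
  · exact tailL8_71 hp hq hpq hle hsub h1.le

theorem tailL8_69 {p q : ℝ} (hp : 0 < p) (hq : 0 < q) (hpq : 1 < p * q) (hle : p ≤ q)
    (hsub : (609 / 100 : ℝ) * (p * q - 1) ≤ 2 * (p + q + 2))
    (hs : (10552437 / 10000000 : ℝ) ≤ p) : NoSol 8 p q := by
  rcases le_or_gt p (532713 / 500000 : ℝ) with h1 | h1
  · exact rowL8_69 hp h1 hq (q_le_of_corner (A0 := (609 / 100 : ℝ)) (p0 := (10552437 / 10000000 : ℝ)) (q0 := (13781397 / 5000000 : ℝ))
      (by norm_num) (by norm_num) (by norm_num) (by norm_num) hs hsub) hpq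
  · exact tailL8_70 hp hq hpq hle hsub h1.le

theorem tailL8_68 {p q : ℝ} (hp : 0 < p) (hq : 0 < q) (hpq : 1 < p * q) (hle : p ≤ q)
    (hsub : (609 / 100 : ℝ) * (p * q - 1) ≤ 2 * (p + q + 2))
    (hs : (1306511 / 1250000 : ℝ) ≤ p) : NoSol 8 p q := by
  rcases le_or_gt p (10552437 / 10000000 : ℝ) with h1 | h1
  · exact rowL8_68 hp h1 hq (q_le_of_corner (A0 := (609 / 100 : ℝ)) (p0 := (1306511 / 1250000 : ℝ)) (q0 := (5580537 / 2000000 : ℝ))
      (by norm_num) (by norm_num) (by norm_num) (by norm_num) hs hsub) hpq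
  · exact tailL8_69 hp hq hpq hle hsub h1.le

theorem tailL8_67 {p q : ℝ} (hp : 0 < p) (hq : 0 < q) (hpq : 1 < p * q) (hle : p ≤ q)
    (hsub : (609 / 100 : ℝ) * (p * q - 1) ≤ 2 * (p + q + 2))
    (hs : (10352551 / 10000000 : ℝ) ≤ p) : NoSol 8 p q := by
  rcases le_or_gt p (1306511 / 1250000 : ℝ) with h1 | h1
  · exact rowL8_67 hp h1 hq (q_le_of_corner (A0 := (609 / 100 : ℝ)) (p0 := (10352551 / 10000000 : ℝ)) (q0 := (353117 / 125000 : ℝ))
      (by norm_num) (by norm_num) (by norm_num) (by norm_num) hs hsub) hpq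
  · exact tailL8_68 hp hq hpq hle hsub h1.le

theorem tailL8_66 {p q : ℝ} (hp : 0 < p) (hq : 0 < q) (hpq : 1 < p * q) (hle : p ≤ q)
    (hsub : (609 / 100 : ℝ) * (p * q - 1) ≤ 2 * (p + q + 2))
    (hs : (1281807 / 1250000 : ℝ) ≤ p) : NoSol 8 p q := by
  rcases le_or_gt p (10352551 / 10000000 : ℝ) with h1 | h1
  · exact rowL8_66 hp h1 hq (q_le_of_corner (A0 := (609 / 100 : ℝ)) (p0 := (1281807 / 1250000 : ℝ)) (q0 := (28600699 / 10000000 : ℝ))
      (by norm_num) (by norm_num) (by norm_num) (by norm_num) hs hsub) hpq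
  · exact tailL8_67 hp hq hpq hle hsub h1.le

theorem tailL8_65 {p q : ℝ} (hp : 0 < p) (hq : 0 < q) (hpq : 1 < p * q) (hle : p ≤ q)
    (hsub : (609 / 100 : ℝ) * (p * q - 1) ≤ 2 * (p + q + 2))
    (hs : (10157697 / 10000000 : ℝ) ≤ p) : NoSol 8 p q := by
  rcases le_or_gt p (1281807 / 1250000 : ℝ) with h1 | h1
  · exact rowL8_65 hp h1 hq (q_le_of_corner (A0 := (609 / 100 : ℝ)) (p0 := (10157697 / 10000000 : ℝ)) (q0 := (28957077 / 10000000 : ℝ))
      (by norm_num) (by norm_num) (by norm_num) (by norm_num) hs hsub) hpq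
  · exact tailL8_66 hp hq hpq hle hsub h1.le

theorem tailL8_64 {p q : ℝ} (hp : 0 < p) (hq : 0 < q) (hpq : 1 < p * q) (hle : p ≤ q)
    (hsub : (609 / 100 : ℝ) * (p * q - 1) ≤ 2 * (p + q + 2))
    (hs : (10062857 / 10000000 : ℝ) ≤ p) : NoSol 8 p q := by
  rcases le_or_gt p (10157697 / 10000000 : ℝ) with h1 | h1
  · exact rowL8_64 hp h1 hq (q_le_of_corner (A0 := (609 / 100 : ℝ)) (p0 := (10062857 / 10000000 : ℝ)) (q0 := (29316261 / 10000000 : ℝ))
      (by norm_num) (by norm_num) (by norm_num) (by norm_num) hs hsub) hpq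
  · exact tailL8_65 hp hq hpq hle hsub h1.le

theorem tailL8_63 {p q : ℝ} (hp : 0 < p) (hq : 0 < q) (hpq : 1 < p * q) (hle : p ≤ q)
    (hsub : (609 / 100 : ℝ) * (p * q - 1) ≤ 2 * (p + q + 2))
    (hs : (2492177 / 2500000 : ℝ) ≤ p) : NoSol 8 p q := by
  rcases le_or_gt p (10062857 / 10000000 : ℝ) with h1 | h1
  · exact rowL8_63 hp h1 hq (q_le_of_corner (A0 := (609 / 100 : ℝ)) (p0 := (2492177 / 2500000 : ℝ)) (q0 := (7420727 / 2500000 : ℝ))
      (by norm_num) (by norm_num) (by norm_num) (by norm_num) hs hsub) hpq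
  · exact tailL8_64 hp hq hpq hle hsub h1.le

theorem tailL8_62 {p q : ℝ} (hp : 0 < p) (hq : 0 < q) (hpq : 1 < p * q) (hle : p ≤ q)
    (hsub : (609 / 100 : ℝ) * (p * q - 1) ≤ 2 * (p + q + 2))
    (hs : (9875599 / 10000000 : ℝ) ≤ p) : NoSol 8 p q := by
  rcases le_or_gt p (2492177 / 2500000 : ℝ) with h1 | h1
  · exact rowL8_62 hp h1 hq (q_le_of_corner (A0 := (609 / 100 : ℝ)) (p0 := (9875599 / 10000000 : ℝ)) (q0 := (30055807 / 10000000 : ℝ))
      (by norm_num) (by norm_num) (by norm_num) (by norm_num) hs hsub) hpq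
  · exact tailL8_63 hp hq hpq hle hsub h1.le

theorem tailL8_61 {p q : ℝ} (hp : 0 < p) (hq : 0 < q) (hpq : 1 < p * q) (hle : p ≤ q)
    (hsub : (609 / 100 : ℝ) * (p * q - 1) ≤ 2 * (p + q + 2))
    (hs : (4891867 / 5000000 : ℝ) ≤ p) : NoSol 8 p q := by
  rcases le_or_gt p (9875599 / 10000000 : ℝ) with h1 | h1
  · exact rowL8_61 hp h1 hq (q_le_of_corner (A0 := (609 / 100 : ℝ)) (p0 := (4891867 / 5000000 : ℝ)) (q0 := (30434193 / 10000000 : ℝ))
      (by norm_num) (by norm_num) (by norm_num) (by norm_num) hs hsub) hpq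
  · exact tailL8_62 hp hq hpq hle hsub h1.le

theorem tailL8_60 {p q : ℝ} (hp : 0 < p) (hq : 0 < q) (hpq : 1 < p * q) (hle : p ≤ q)
    (hsub : (609 / 100 : ℝ) * (p * q - 1) ≤ 2 * (p + q + 2))
    (hs : (4846821 / 5000000 : ℝ) ≤ p) : NoSol 8 p q := by
  rcases le_or_gt p (4891867 / 5000000 : ℝ) with h1 | h1
  · exact rowL8_60 hp h1 hq (q_le_of_corner (A0 := (609 / 100 : ℝ)) (p0 := (4846821 / 5000000 : ℝ)) (q0 := (7703953 / 2500000 : ℝ))
      (by norm_num) (by norm_num) (by norm_num) (by norm_num) hs hsub) hpq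
  · exact tailL8_61 hp hq hpq hle hsub h1.le

theorem tailL8_59 {p q : ℝ} (hp : 0 < p) (hq : 0 < q) (hpq : 1 < p * q) (hle : p ≤ q)
    (hsub : (609 / 100 : ℝ) * (p * q - 1) ≤ 2 * (p + q + 2))
    (hs : (4802153 / 5000000 : ℝ) ≤ p) : NoSol 8 p q := by
  rcases le_or_gt p (4846821 / 5000000 : ℝ) with h1 | h1
  · exact rowL8_59 hp h1 hq (q_le_of_corner (A0 := (609 / 100 : ℝ)) (p0 := (4802153 / 5000000 : ℝ)) (q0 := (31204971 / 10000000 : ℝ))
      (by norm_num) (by norm_num) (by norm_num) (by norm_num) hs hsub) hpq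
  · exact tailL8_60 hp hq hpq hle hsub h1.le

theorem tailL8_58 {p q : ℝ} (hp : 0 < p) (hq : 0 < q) (hpq : 1 < p * q) (hle : p ≤ q)
    (hsub : (609 / 100 : ℝ) * (p * q - 1) ≤ 2 * (p + q + 2))
    (hs : (4758057 / 5000000 : ℝ) ≤ p) : NoSol 8 p q := by
  rcases le_or_gt p (4802153 / 5000000 : ℝ) with h1 | h1
  · exact rowL8_58 hp h1 hq (q_le_of_corner (A0 := (609 / 100 : ℝ)) (p0 := (4758057 / 5000000 : ℝ)) (q0 := (3160009 / 1000000 : ℝ))
      (by norm_num) (by norm_num) (by norm_num) (by norm_num) hs hsub) hpq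
  · exact tailL8_59 hp hq hpq hle hsub h1.le

theorem tailL8_57 {p q : ℝ} (hp : 0 < p) (hq : 0 < q) (hpq : 1 < p * q) (hle : p ≤ q)
    (hsub : (609 / 100 : ℝ) * (p * q - 1) ≤ 2 * (p + q + 2))
    (hs : (2357137 / 2500000 : ℝ) ≤ p) : NoSol 8 p q := by
  rcases le_or_gt p (4758057 / 5000000 : ℝ) with h1 | h1
  · exact rowL8_57 hp h1 hq (q_le_of_corner (A0 := (609 / 100 : ℝ)) (p0 := (2357137 / 2500000 : ℝ)) (q0 := (16001813 / 5000000 : ℝ))
      (by norm_num) (by norm_num) (by norm_num) (by norm_num) hs hsub) hpq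
  · exact tailL8_58 hp hq hpq hle hsub h1.le

theorem tailL8_56 {p q : ℝ} (hp : 0 < p) (hq : 0 < q) (hpq : 1 < p * q) (hle : p ≤ q)
    (hsub : (609 / 100 : ℝ) * (p * q - 1) ≤ 2 * (p + q + 2))
    (hs : (4671057 / 5000000 : ℝ) ≤ p) : NoSol 8 p q := by
  rcases le_or_gt p (2357137 / 2500000 : ℝ) with h1 | h1
  · exact rowL8_56 hp h1 hq (q_le_of_corner (A0 := (609 / 100 : ℝ)) (p0 := (4671057 / 5000000 : ℝ)) (q0 := (32413387 / 10000000 : ℝ))
      (by norm_num) (by norm_num) (by norm_num) (by norm_num) hs hsub) hpq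
  · exact tailL8_57 hp hq hpq hle hsub h1.le

theorem tailL8_55 {p q : ℝ} (hp : 0 < p) (hq : 0 < q) (hpq : 1 < p * q) (hle : p ≤ q)
    (hsub : (609 / 100 : ℝ) * (p * q - 1) ≤ 2 * (p + q + 2))
    (hs : (9256879 / 10000000 : ℝ) ≤ p) : NoSol 8 p q := by
  rcases le_or_gt p (4671057 / 5000000 : ℝ) with h1 | h1
  · exact rowL8_55 hp h1 hq (q_le_of_corner (A0 := (609 / 100 : ℝ)) (p0 := (9256879 / 10000000 : ℝ)) (q0 := (32829077 / 10000000 : ℝ))
      (by norm_num) (by norm_num) (by norm_num) (by norm_num) hs hsub) hpq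
  · exact tailL8_56 hp hq hpq hle hsub h1.le

theorem tailL8_54 {p q : ℝ} (hp : 0 < p) (hq : 0 < q) (hpq : 1 < p * q) (hle : p ≤ q)
    (hsub : (609 / 100 : ℝ) * (p * q - 1) ≤ 2 * (p + q + 2))
    (hs : (1146599 / 1250000 : ℝ) ≤ p) : NoSol 8 p q := by
  rcases le_or_gt p (9256879 / 10000000 : ℝ) with h1 | h1
  · exact rowL8_54 hp h1 hq (q_le_of_corner (A0 := (609 / 100 : ℝ)) (p0 := (1146599 / 1250000 : ℝ)) (q0 := (415637 / 125000 : ℝ))
      (by norm_num) (by norm_num) (by norm_num) (by norm_num) hs hsub) hpq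
  · exact tailL8_55 hp hq hpq hle hsub h1.le

theorem tailL8_53 {p q : ℝ} (hp : 0 < p) (hq : 0 < q) (hpq : 1 < p * q) (hle : p ≤ q)
    (hsub : (609 / 100 : ℝ) * (p * q - 1) ≤ 2 * (p + q + 2))
    (hs : (4544871 / 5000000 : ℝ) ≤ p) : NoSol 8 p q := by
  rcases le_or_gt p (1146599 / 1250000 : ℝ) with h1 | h1
  · exact rowL8_53 hp h1 hq (q_le_of_corner (A0 := (609 / 100 : ℝ)) (p0 := (4544871 / 5000000 : ℝ)) (q0 := (8419909 / 2500000 : ℝ))
      (by norm_num) (by norm_num) (by norm_num) (by norm_num) hs hsub) hpq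
  · exact tailL8_54 hp hq hpq hle hsub h1.le

theorem tailL8_52 {p q : ℝ} (hp : 0 < p) (hq : 0 < q) (hpq : 1 < p * q) (hle : p ≤ q)
    (hsub : (609 / 100 : ℝ) * (p * q - 1) ≤ 2 * (p + q + 2))
    (hs : (2251941 / 2500000 : ℝ) ≤ p) : NoSol 8 p q := by
  rcases le_or_gt p (4544871 / 5000000 : ℝ) with h1 | h1
  · exact rowL8_52 hp h1 hq (q_le_of_corner (A0 := (609 / 100 : ℝ)) (p0 := (2251941 / 2500000 : ℝ)) (q0 := (17057489 / 5000000 : ℝ))
      (by norm_num) (by norm_num) (by norm_num) (by norm_num) hs hsub) hpq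
  · exact tailL8_53 hp hq hpq hle hsub h1.le

theorem tailL8_51 {p q : ℝ} (hp : 0 < p) (hq : 0 < q) (hpq : 1 < p * q) (hle : p ≤ q)
    (hsub : (609 / 100 : ℝ) * (p * q - 1) ≤ 2 * (p + q + 2))
    (hs : (8926523 / 10000000 : ℝ) ≤ p) : NoSol 8 p q := by
  rcases le_or_gt p (2251941 / 2500000 : ℝ) with h1 | h1
  · exact rowL8_51 hp h1 hq (q_le_of_corner (A0 := (609 / 100 : ℝ)) (p0 := (8926523 / 10000000 : ℝ)) (q0 := (34558887 / 10000000 : ℝ))
      (by norm_num) (by norm_num) (by norm_num) (by norm_num) hs hsub) hpq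
  · exact tailL8_52 hp hq hpq hle hsub h1.le

theorem tailL8_50 {p q : ℝ} (hp : 0 < p) (hq : 0 < q) (hpq : 1 < p * q) (hle : p ≤ q)
    (hsub : (609 / 100 : ℝ) * (p * q - 1) ≤ 2 * (p + q + 2))
    (hs : (4422761 / 5000000 : ℝ) ≤ p) : NoSol 8 p q := by
  rcases le_or_gt p (8926523 / 10000000 : ℝ) with h1 | h1
  · exact rowL8_50 hp h1 hq (q_le_of_corner (A0 := (609 / 100 : ℝ)) (p0 := (4422761 / 5000000 : ℝ)) (q0 := (8753599 / 2500000 : ℝ))
      (by norm_num) (by norm_num) (by norm_num) (by norm_num) hs hsub) hpq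
  · exact tailL8_51 hp hq hpq hle hsub h1.le

theorem tailL8_49 {p q : ℝ} (hp : 0 < p) (hq : 0 < q) (hpq : 1 < p * q) (hle : p ≤ q)
    (hsub : (609 / 100 : ℝ) * (p * q - 1) ≤ 2 * (p + q + 2))
    (hs : (8765487 / 10000000 : ℝ) ≤ p) : NoSol 8 p q := by
  rcases le_or_gt p (4422761 / 5000000 : ℝ) with h1 | h1
  · exact rowL8_49 hp h1 hq (q_le_of_corner (A0 := (609 / 100 : ℝ)) (p0 := (8765487 / 10000000 : ℝ)) (q0 := (554339 / 156250 : ℝ))
      (by norm_num) (by norm_num) (by norm_num) (by norm_num) hs hsub) hpq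
  · exact tailL8_50 hp hq hpq hle hsub h1.le

theorem tailL8_48 {p q : ℝ} (hp : 0 < p) (hq : 0 < q) (hpq : 1 < p * q) (hle : p ≤ q)
    (hsub : (609 / 100 : ℝ) * (p * q - 1) ≤ 2 * (p + q + 2))
    (hs : (1737237 / 2000000 : ℝ) ≤ p) : NoSol 8 p q := by
  rcases le_or_gt p (8765487 / 10000000 : ℝ) with h1 | h1
  · exact rowL8_48 hp h1 hq (q_le_of_corner (A0 := (609 / 100 : ℝ)) (p0 := (1737237 / 2000000 : ℝ)) (q0 := (8987573 / 2500000 : ℝ))
      (by norm_num) (by norm_num) (by norm_num) (by norm_num) hs hsub) hpq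
  · exact tailL8_49 hp hq hpq hle hsub h1.le

theorem tailL8_47 {p q : ℝ} (hp : 0 < p) (hq : 0 < q) (hpq : 1 < p * q) (hle : p ≤ q)
    (hsub : (609 / 100 : ℝ) * (p * q - 1) ≤ 2 * (p + q + 2))
    (hs : (430399 / 500000 : ℝ) ≤ p) : NoSol 8 p q := by
  rcases le_or_gt p (1737237 / 2000000 : ℝ) with h1 | h1
  · exact rowL8_47 hp h1 hq (q_le_of_corner (A0 := (609 / 100 : ℝ)) (p0 := (430399 / 500000 : ℝ)) (q0 := (36430139 / 10000000 : ℝ))
      (by norm_num) (by norm_num) (by norm_num) (by norm_num) hs hsub) hpq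
  · exact tailL8_48 hp hq hpq hle hsub h1.le

theorem tailL8_46 {p q : ℝ} (hp : 0 < p) (hq : 0 < q) (hpq : 1 < p * q) (hle : p ≤ q)
    (hsub : (609 / 100 : ℝ) * (p * q - 1) ≤ 2 * (p + q + 2))
    (hs : (8530441 / 10000000 : ℝ) ≤ p) : NoSol 8 p q := by
  rcases le_or_gt p (430399 / 500000 : ℝ) with h1 | h1
  · exact rowL8_46 hp h1 hq (q_le_of_corner (A0 := (609 / 100 : ℝ)) (p0 := (8530441 / 10000000 : ℝ)) (q0 := (36920023 / 10000000 : ℝ))
      (by norm_num) (by norm_num) (by norm_num) (by norm_num) hs hsub) hpq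
  · exact tailL8_47 hp hq hpq hle hsub h1.le

theorem tailL8_45 {p q : ℝ} (hp : 0 < p) (hq : 0 < q) (hpq : 1 < p * q) (hle : p ≤ q)
    (hsub : (609 / 100 : ℝ) * (p * q - 1) ≤ 2 * (p + q + 2))
    (hs : (422671 / 500000 : ℝ) ≤ p) : NoSol 8 p q := by
  rcases le_or_gt p (8530441 / 10000000 : ℝ) with h1 | h1
  · exact rowL8_45 hp h1 hq (q_le_of_corner (A0 := (609 / 100 : ℝ)) (p0 := (422671 / 500000 : ℝ)) (q0 := (292353 / 78125 : ℝ))
      (by norm_num) (by norm_num) (by norm_num) (by norm_num) hs hsub) hpq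
  · exact tailL8_46 hp hq hpq hle hsub h1.le

theorem tailL8_44 {p q : ℝ} (hp : 0 < p) (hq : 0 < q) (hpq : 1 < p * q) (hle : p ≤ q)
    (hsub : (609 / 100 : ℝ) * (p * q - 1) ≤ 2 * (p + q + 2))
    (hs : (8377767 / 10000000 : ℝ) ≤ p) : NoSol 8 p q := by
  rcases le_or_gt p (422671 / 500000 : ℝ) with h1 | h1
  · exact rowL8_44 hp h1 hq (q_le_of_corner (A0 := (609 / 100 : ℝ)) (p0 := (8377767 / 10000000 : ℝ)) (q0 := (18964099 / 5000000 : ℝ))
      (by norm_num) (by norm_num) (by norm_num) (by norm_num) hs hsub) hpq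
  · exact tailL8_45 hp hq hpq hle hsub h1.le

theorem tailL8_43 {p q : ℝ} (hp : 0 < p) (hq : 0 < q) (hpq : 1 < p * q) (hle : p ≤ q)
    (hsub : (609 / 100 : ℝ) * (p * q - 1) ≤ 2 * (p + q + 2))
    (hs : (8302269 / 10000000 : ℝ) ≤ p) : NoSol 8 p q := by
  rcases le_or_gt p (8377767 / 10000000 : ℝ) with h1 | h1
  · exact rowL8_43 hp h1 hq (q_le_of_corner (A0 := (609 / 100 : ℝ)) (p0 := (8302269 / 10000000 : ℝ)) (q0 := (19224707 / 5000000 : ℝ))
      (by norm_num) (by norm_num) (by norm_num) (by norm_num) hs hsub) hpq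
  · exact tailL8_44 hp hq hpq hle hsub h1.le

theorem tailL8_42 {p q : ℝ} (hp : 0 < p) (hq : 0 < q) (hpq : 1 < p * q) (hle : p ≤ q)
    (hsub : (609 / 100 : ℝ) * (p * q - 1) ≤ 2 * (p + q + 2))
    (hs : (4113699 / 5000000 : ℝ) ≤ p) : NoSol 8 p q := by
  rcases le_or_gt p (8302269 / 10000000 : ℝ) with h1 | h1
  · exact rowL8_42 hp h1 hq (q_le_of_corner (A0 := (609 / 100 : ℝ)) (p0 := (4113699 / 5000000 : ℝ)) (q0 := (4872753 / 1250000 : ℝ))
      (by norm_num) (by norm_num) (by norm_num) (by norm_num) hs hsub) hpq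
  · exact tailL8_43 hp hq hpq hle hsub h1.le

theorem tailL8_41 {p q : ℝ} (hp : 0 < p) (hq : 0 < q) (hpq : 1 < p * q) (hle : p ≤ q)
    (hsub : (609 / 100 : ℝ) * (p * q - 1) ≤ 2 * (p + q + 2))
    (hs : (1630711 / 2000000 : ℝ) ≤ p) : NoSol 8 p q := by
  rcases le_or_gt p (4113699 / 5000000 : ℝ) with h1 | h1
  · exact rowL8_41 hp h1 hq (q_le_of_corner (A0 := (609 / 100 : ℝ)) (p0 := (1630711 / 2000000 : ℝ)) (q0 := (39523363 / 10000000 : ℝ))
      (by norm_num) (by norm_num) (by norm_num) (by norm_num) hs hsub) hpq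
  · exact tailL8_42 hp hq hpq hle hsub h1.le

theorem tailL8_40 {p q : ℝ} (hp : 0 < p) (hq : 0 < q) (hpq : 1 < p * q) (hle : p ≤ q)
    (hsub : (609 / 100 : ℝ) * (p * q - 1) ≤ 2 * (p + q + 2))
    (hs : (8080507 / 10000000 : ℝ) ≤ p) : NoSol 8 p q := by
  rcases le_or_gt p (1630711 / 2000000 : ℝ) with h1 | h1
  · exact rowL8_40 hp h1 hq (q_le_of_corner (A0 := (609 / 100 : ℝ)) (p0 := (8080507 / 10000000 : ℝ)) (q0 := (1603011 / 400000 : ℝ))
      (by norm_num) (by norm_num) (by norm_num) (by norm_num) hs hsub) hpq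
  · exact tailL8_41 hp hq hpq hle hsub h1.le

theorem tailL8_39 {p q : ℝ} (hp : 0 < p) (hq : 0 < q) (hpq : 1 < p * q) (hle : p ≤ q)
    (hsub : (609 / 100 : ℝ) * (p * q - 1) ≤ 2 * (p + q + 2))
    (hs : (2002019 / 2500000 : ℝ) ≤ p) : NoSol 8 p q := by
  rcases le_or_gt p (8080507 / 10000000 : ℝ) with h1 | h1
  · exact rowL8_39 hp h1 hq (q_le_of_corner (A0 := (609 / 100 : ℝ)) (p0 := (2002019 / 2500000 : ℝ)) (q0 := (20319689 / 5000000 : ℝ))
      (by norm_num) (by norm_num) (by norm_num) (by norm_num) hs hsub) hpq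
  · exact tailL8_40 hp hq hpq hle hsub h1.le

theorem tailL8_38 {p q : ℝ} (hp : 0 < p) (hq : 0 < q) (hpq : 1 < p * q) (hle : p ≤ q)
    (hsub : (609 / 100 : ℝ) * (p * q - 1) ≤ 2 * (p + q + 2))
    (hs : (7936139 / 10000000 : ℝ) ≤ p) : NoSol 8 p q := by
  rcases le_or_gt p (2002019 / 2500000 : ℝ) with h1 | h1
  · exact rowL8_38 hp h1 hq (q_le_of_corner (A0 := (609 / 100 : ℝ)) (p0 := (7936139 / 10000000 : ℝ)) (q0 := (2060851 / 500000 : ℝ))
      (by norm_num) (by norm_num) (by norm_num) (by norm_num) hs hsub) hpq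
  · exact tailL8_39 hp hq hpq hle hsub h1.le

theorem tailL8_37 {p q : ℝ} (hp : 0 < p) (hq : 0 < q) (hpq : 1 < p * q) (hle : p ≤ q)
    (hsub : (609 / 100 : ℝ) * (p * q - 1) ≤ 2 * (p + q + 2))
    (hs : (7865501 / 10000000 : ℝ) ≤ p) : NoSol 8 p q := by
  rcases le_or_gt p (7936139 / 10000000 : ℝ) with h1 | h1
  · exact rowL8_37 hp h1 hq (q_le_of_corner (A0 := (609 / 100 : ℝ)) (p0 := (7865501 / 10000000 : ℝ)) (q0 := (20900941 / 5000000 : ℝ))
      (by norm_num) (by norm_num) (by norm_num) (by norm_num) hs hsub) hpq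
  · exact tailL8_38 hp hq hpq hle hsub h1.le

theorem tailL8_36 {p q : ℝ} (hp : 0 < p) (hq : 0 < q) (hpq : 1 < p * q) (hle : p ≤ q)
    (hsub : (609 / 100 : ℝ) * (p * q - 1) ≤ 2 * (p + q + 2))
    (hs : (7796443 / 10000000 : ℝ) ≤ p) : NoSol 8 p q := by
  rcases le_or_gt p (7865501 / 10000000 : ℝ) with h1 | h1
  · exact rowL8_36 hp h1 hq (q_le_of_corner (A0 := (609 / 100 : ℝ)) (p0 := (7796443 / 10000000 : ℝ)) (q0 := (8478273 / 2000000 : ℝ))
      (by norm_num) (by norm_num) (by norm_num) (by norm_num) hs hsub) hpq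
  · exact tailL8_37 hp hq hpq hle hsub h1.le

theorem tailL8_35 {p q : ℝ} (hp : 0 < p) (hq : 0 < q) (hpq : 1 < p * q) (hle : p ≤ q)
    (hsub : (609 / 100 : ℝ) * (p * q - 1) ≤ 2 * (p + q + 2))
    (hs : (965913 / 1250000 : ℝ) ≤ p) : NoSol 8 p q := by
  rcases le_or_gt p (7796443 / 10000000 : ℝ) with h1 | h1
  · exact rowL8_35 hp h1 hq (q_le_of_corner (A0 := (609 / 100 : ℝ)) (p0 := (965913 / 1250000 : ℝ)) (q0 := (8599979 / 2000000 : ℝ))
      (by norm_num) (by norm_num) (by norm_num) (by norm_num) hs hsub) hpq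
  · exact tailL8_36 hp hq hpq hle hsub h1.le

theorem tailL8_34 {p q : ℝ} (hp : 0 < p) (hq : 0 < q) (hpq : 1 < p * q) (hle : p ≤ q)
    (hsub : (609 / 100 : ℝ) * (p * q - 1) ≤ 2 * (p + q + 2))
    (hs : (7659259 / 10000000 : ℝ) ≤ p) : NoSol 8 p q := by
  rcases le_or_gt p (965913 / 1250000 : ℝ) with h1 | h1
  · exact rowL8_34 hp h1 hq (q_le_of_corner (A0 := (609 / 100 : ℝ)) (p0 := (7659259 / 10000000 : ℝ)) (q0 := (21808787 / 5000000 : ℝ))
      (by norm_num) (by norm_num) (by norm_num) (by norm_num) hs hsub) hpq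
  · exact tailL8_35 hp hq hpq hle hsub h1.le

theorem tailL8_33 {p q : ℝ} (hp : 0 < p) (hq : 0 < q) (hpq : 1 < p * q) (hle : p ≤ q)
    (hsub : (609 / 100 : ℝ) * (p * q - 1) ≤ 2 * (p + q + 2))
    (hs : (7594153 / 10000000 : ℝ) ≤ p) : NoSol 8 p q := by
  rcases le_or_gt p (7659259 / 10000000 : ℝ) with h1 | h1
  · exact rowL8_33 hp h1 hq (q_le_of_corner (A0 := (609 / 100 : ℝ)) (p0 := (7594153 / 10000000 : ℝ)) (q0 := (44226833 / 10000000 : ℝ))
      (by norm_num) (by norm_num) (by norm_num) (by norm_num) hs hsub) hpq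
  · exact tailL8_34 hp hq hpq hle hsub h1.le

theorem tailL8_32 {p q : ℝ} (hp : 0 < p) (hq : 0 < q) (hpq : 1 < p * q) (hle : p ≤ q)
    (hsub : (609 / 100 : ℝ) * (p * q - 1) ≤ 2 * (p + q + 2))
    (hs : (7528849 / 10000000 : ℝ) ≤ p) : NoSol 8 p q := by
  rcases le_or_gt p (7594153 / 10000000 : ℝ) with h1 | h1
  · exact rowL8_32 hp h1 hq (q_le_of_corner (A0 := (609 / 100 : ℝ)) (p0 := (7528849 / 10000000 : ℝ)) (q0 := (44856719 / 10000000 : ℝ))
      (by norm_num) (by norm_num) (by norm_num) (by norm_num) hs hsub) hpq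
  · exact tailL8_33 hp hq hpq hle hsub h1.le

theorem tailL8_31 {p q : ℝ} (hp : 0 < p) (hq : 0 < q) (hpq : 1 < p * q) (hle : p ≤ q)
    (hsub : (609 / 100 : ℝ) * (p * q - 1) ≤ 2 * (p + q + 2))
    (hs : (7466079 / 10000000 : ℝ) ≤ p) : NoSol 8 p q := by
  rcases le_or_gt p (7528849 / 10000000 : ℝ) with h1 | h1
  · exact rowL8_31 hp h1 hq (q_le_of_corner (A0 := (609 / 100 : ℝ)) (p0 := (7466079 / 10000000 : ℝ)) (q0 := (9096141 / 2000000 : ℝ))
      (by norm_num) (by norm_num) (by norm_num) (by norm_num) hs hsub) hpq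
  · exact tailL8_32 hp hq hpq hle hsub h1.le

theorem tailL8_30 {p q : ℝ} (hp : 0 < p) (hq : 0 < q) (hpq : 1 < p * q) (hle : p ≤ q)
    (hsub : (609 / 100 : ℝ) * (p * q - 1) ≤ 2 * (p + q + 2))
    (hs : (740197 / 1000000 : ℝ) ≤ p) : NoSol 8 p q := by
  rcases le_or_gt p (7466079 / 10000000 : ℝ) with h1 | h1
  · exact rowL8_30 hp h1 hq (q_le_of_corner (A0 := (609 / 100 : ℝ)) (p0 := (740197 / 1000000 : ℝ)) (q0 := (23068819 / 5000000 : ℝ))
      (by norm_num) (by norm_num) (by norm_num) (by norm_num) hs hsub) hpq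
  · exact tailL8_31 hp hq hpq hle hsub h1.le

theorem tailL8_29 {p q : ℝ} (hp : 0 < p) (hq : 0 < q) (hpq : 1 < p * q) (hle : p ≤ q)
    (hsub : (609 / 100 : ℝ) * (p * q - 1) ≤ 2 * (p + q + 2))
    (hs : (7340829 / 10000000 : ℝ) ≤ p) : NoSol 8 p q := by
  rcases le_or_gt p (740197 / 1000000 : ℝ) with h1 | h1
  · exact rowL8_29 hp h1 hq (q_le_of_corner (A0 := (609 / 100 : ℝ)) (p0 := (7340829 / 10000000 : ℝ)) (q0 := (46783501 / 10000000 : ℝ))
      (by norm_num) (by norm_num) (by norm_num) (by norm_num) hs hsub) hpq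
  · exact tailL8_30 hp hq hpq hle hsub h1.le

theorem tailL8_28 {p q : ℝ} (hp : 0 < p) (hq : 0 < q) (hpq : 1 < p * q) (hle : p ≤ q)
    (hsub : (609 / 100 : ℝ) * (p * q - 1) ≤ 2 * (p + q + 2))
    (hs : (3639891 / 5000000 : ℝ) ≤ p) : NoSol 8 p q := by
  rcases le_or_gt p (7340829 / 10000000 : ℝ) with h1 | h1
  · exact rowL8_28 hp h1 hq (q_le_of_corner (A0 := (609 / 100 : ℝ)) (p0 := (3639891 / 5000000 : ℝ)) (q0 := (11862023 / 2500000 : ℝ))
      (by norm_num) (by norm_num) (by norm_num) (by norm_num) hs hsub) hpq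
  · exact tailL8_29 hp hq hpq hle hsub h1.le

theorem tailL8_27 {p q : ℝ} (hp : 0 < p) (hq : 0 < q) (hpq : 1 < p * q) (hle : p ≤ q)
    (hsub : (609 / 100 : ℝ) * (p * q - 1) ≤ 2 * (p + q + 2))
    (hs : (7220027 / 10000000 : ℝ) ≤ p) : NoSol 8 p q := by
  rcases le_or_gt p (3639891 / 5000000 : ℝ) with h1 | h1
  · exact rowL8_27 hp h1 hq (q_le_of_corner (A0 := (609 / 100 : ℝ)) (p0 := (7220027 / 10000000 : ℝ)) (q0 := (24059291 / 5000000 : ℝ))
      (by norm_num) (by norm_num) (by norm_num) (by norm_num) hs hsub) hpq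
  · exact tailL8_28 hp hq hpq hle hsub h1.le

theorem tailL8_26 {p q : ℝ} (hp : 0 < p) (hq : 0 < q) (hpq : 1 < p * q) (hle : p ≤ q)
    (hsub : (609 / 100 : ℝ) * (p * q - 1) ≤ 2 * (p + q + 2))
    (hs : (7162479 / 10000000 : ℝ) ≤ p) : NoSol 8 p q := by
  rcases le_or_gt p (7220027 / 10000000 : ℝ) with h1 | h1
  · exact rowL8_26 hp h1 hq (q_le_of_corner (A0 := (609 / 100 : ℝ)) (p0 := (7162479 / 10000000 : ℝ)) (q0 := (48783839 / 10000000 : ℝ))
      (by norm_num) (by norm_num) (by norm_num) (by norm_num) hs hsub) hpq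
  · exact tailL8_27 hp hq hpq hle hsub h1.le

theorem tailL8_25 {p q : ℝ} (hp : 0 < p) (hq : 0 < q) (hpq : 1 < p * q) (hle : p ≤ q)
    (hsub : (609 / 100 : ℝ) * (p * q - 1) ≤ 2 * (p + q + 2))
    (hs : (3552547 / 5000000 : ℝ) ≤ p) : NoSol 8 p q := by
  rcases le_or_gt p (7162479 / 10000000 : ℝ) with h1 | h1
  · exact rowL8_25 hp h1 hq (q_le_of_corner (A0 := (609 / 100 : ℝ)) (p0 := (3552547 / 5000000 : ℝ)) (q0 := (9893433 / 2000000 : ℝ))
      (by norm_num) (by norm_num) (by norm_num) (by norm_num) hs hsub) hpq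
  · exact tailL8_26 hp hq hpq hle hsub h1.le

theorem tailL8_24 {p q : ℝ} (hp : 0 < p) (hq : 0 < q) (hpq : 1 < p * q) (hle : p ≤ q)
    (hsub : (609 / 100 : ℝ) * (p * q - 1) ≤ 2 * (p + q + 2))
    (hs : (7049167 / 10000000 : ℝ) ≤ p) : NoSol 8 p q := by
  rcases le_or_gt p (3552547 / 5000000 : ℝ) with h1 | h1
  · exact rowL8_24 hp h1 hq (q_le_of_corner (A0 := (609 / 100 : ℝ)) (p0 := (7049167 / 10000000 : ℝ)) (q0 := (12538293 / 2500000 : ℝ))
      (by norm_num) (by norm_num) (by norm_num) (by norm_num) hs hsub) hpq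
  · exact tailL8_25 hp hq hpq hle hsub h1.le

theorem tailL8_23 {p q : ℝ} (hp : 0 < p) (hq : 0 < q) (hpq : 1 < p * q) (hle : p ≤ q)
    (hsub : (609 / 100 : ℝ) * (p * q - 1) ≤ 2 * (p + q + 2))
    (hs : (6994041 / 10000000 : ℝ) ≤ p) : NoSol 8 p q := by
  rcases le_or_gt p (7049167 / 10000000 : ℝ) with h1 | h1
  · exact rowL8_23 hp h1 hq (q_le_of_corner (A0 := (609 / 100 : ℝ)) (p0 := (6994041 / 10000000 : ℝ)) (q0 := (10169919 / 2000000 : ℝ))
      (by norm_num) (by norm_num) (by norm_num) (by norm_num) hs hsub) hpq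
  · exact tailL8_24 hp hq hpq hle hsub h1.le

theorem tailL8_22 {p q : ℝ} (hp : 0 < p) (hq : 0 < q) (hpq : 1 < p * q) (hle : p ≤ q)
    (hsub : (609 / 100 : ℝ) * (p * q - 1) ≤ 2 * (p + q + 2))
    (hs : (6941209 / 10000000 : ℝ) ≤ p) : NoSol 8 p q := by
  rcases le_or_gt p (6994041 / 10000000 : ℝ) with h1 | h1
  · exact rowL8_22 hp h1 hq (q_le_of_corner (A0 := (609 / 100 : ℝ)) (p0 := (6941209 / 10000000 : ℝ)) (q0 := (2576837 / 500000 : ℝ))
      (by norm_num) (by norm_num) (by norm_num) (by norm_num) hs hsub) hpq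
  · exact tailL8_23 hp hq hpq hle hsub h1.le

theorem tailL8_21 {p q : ℝ} (hp : 0 < p) (hq : 0 < q) (hpq : 1 < p * q) (hle : p ≤ q)
    (hsub : (609 / 100 : ℝ) * (p * q - 1) ≤ 2 * (p + q + 2))
    (hs : (6889709 / 10000000 : ℝ) ≤ p) : NoSol 8 p q := by
  rcases le_or_gt p (6941209 / 10000000 : ℝ) with h1 | h1
  · exact rowL8_21 hp h1 hq (q_le_of_corner (A0 := (609 / 100 : ℝ)) (p0 := (6889709 / 10000000 : ℝ)) (q0 := (26112971 / 5000000 : ℝ))
      (by norm_num) (by norm_num) (by norm_num) (by norm_num) hs hsub) hpq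
  · exact tailL8_22 hp hq hpq hle hsub h1.le

theorem tailL8_20 {p q : ℝ} (hp : 0 < p) (hq : 0 < q) (hpq : 1 < p * q) (hle : p ≤ q)
    (hsub : (609 / 100 : ℝ) * (p * q - 1) ≤ 2 * (p + q + 2))
    (hs : (21377 / 31250 : ℝ) ≤ p) : NoSol 8 p q := by
  rcases le_or_gt p (6889709 / 10000000 : ℝ) with h1 | h1
  · exact rowL8_20 hp h1 hq (q_le_of_corner (A0 := (609 / 100 : ℝ)) (p0 := (21377 / 31250 : ℝ)) (q0 := (52901179 / 10000000 : ℝ))
      (by norm_num) (by norm_num) (by norm_num) (by norm_num) hs hsub) hpq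
  · exact tailL8_21 hp hq hpq hle hsub h1.le

theorem tailL8_19 {p q : ℝ} (hp : 0 < p) (hq : 0 < q) (hpq : 1 < p * q) (hle : p ≤ q)
    (hsub : (609 / 100 : ℝ) * (p * q - 1) ≤ 2 * (p + q + 2))
    (hs : (6795739 / 10000000 : ℝ) ≤ p) : NoSol 8 p q := by
  rcases le_or_gt p (21377 / 31250 : ℝ) with h1 | h1
  · exact rowL8_19 hp h1 hq (q_le_of_corner (A0 := (609 / 100 : ℝ)) (p0 := (6795739 / 10000000 : ℝ)) (q0 := (10707119 / 2000000 : ℝ))
      (by norm_num) (by norm_num) (by norm_num) (by norm_num) hs hsub) hpq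
  · exact tailL8_20 hp hq hpq hle hsub h1.le

theorem tailL8_18 {p q : ℝ} (hp : 0 < p) (hq : 0 < q) (hpq : 1 < p * q) (hle : p ≤ q)
    (hsub : (609 / 100 : ℝ) * (p * q - 1) ≤ 2 * (p + q + 2))
    (hs : (6750549 / 10000000 : ℝ) ≤ p) : NoSol 8 p q := by
  rcases le_or_gt p (6795739 / 10000000 : ℝ) with h1 | h1
  · exact rowL8_18 hp h1 hq (q_le_of_corner (A0 := (609 / 100 : ℝ)) (p0 := (6750549 / 10000000 : ℝ)) (q0 := (54190689 / 10000000 : ℝ))
      (by norm_num) (by norm_num) (by norm_num) (by norm_num) hs hsub) hpq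
  · exact tailL8_19 hp hq hpq hle hsub h1.le

theorem tailL8_17 {p q : ℝ} (hp : 0 < p) (hq : 0 < q) (hpq : 1 < p * q) (hle : p ≤ q)
    (hsub : (609 / 100 : ℝ) * (p * q - 1) ≤ 2 * (p + q + 2))
    (hs : (6706501 / 10000000 : ℝ) ≤ p) : NoSol 8 p q := by
  rcases le_or_gt p (6750549 / 10000000 : ℝ) with h1 | h1
  · exact rowL8_17 hp h1 hq (q_le_of_corner (A0 := (609 / 100 : ℝ)) (p0 := (6706501 / 10000000 : ℝ)) (q0 := (54845877 / 10000000 : ℝ))
      (by norm_num) (by norm_num) (by norm_num) (by norm_num) hs hsub) hpq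
  · exact tailL8_18 hp hq hpq hle hsub h1.le

theorem tailL8_16 {p q : ℝ} (hp : 0 < p) (hq : 0 < q) (hpq : 1 < p * q) (hle : p ≤ q)
    (hsub : (609 / 100 : ℝ) * (p * q - 1) ≤ 2 * (p + q + 2))
    (hs : (1332961 / 2000000 : ℝ) ≤ p) : NoSol 8 p q := by
  rcases le_or_gt p (6706501 / 10000000 : ℝ) with h1 | h1
  · exact rowL8_16 hp h1 hq (q_le_of_corner (A0 := (609 / 100 : ℝ)) (p0 := (1332961 / 2000000 : ℝ)) (q0 := (5548181 / 1000000 : ℝ))
      (by norm_num) (by norm_num) (by norm_num) (by norm_num) hs hsub) hpq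
  · exact tailL8_17 hp hq hpq hle hsub h1.le

theorem tailL8_15 {p q : ℝ} (hp : 0 < p) (hq : 0 < q) (hpq : 1 < p * q) (hle : p ≤ q)
    (hsub : (609 / 100 : ℝ) * (p * q - 1) ≤ 2 * (p + q + 2))
    (hs : (828151 / 1250000 : ℝ) ≤ p) : NoSol 8 p q := by
  rcases le_or_gt p (1332961 / 2000000 : ℝ) with h1 | h1
  · exact rowL8_15 hp h1 hq (q_le_of_corner (A0 := (609 / 100 : ℝ)) (p0 := (828151 / 1250000 : ℝ)) (q0 := (2244017 / 400000 : ℝ))
      (by norm_num) (by norm_num) (by norm_num) (by norm_num) hs hsub) hpq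
  · exact tailL8_16 hp hq hpq hle hsub h1.le

theorem tailL8_14 {p q : ℝ} (hp : 0 < p) (hq : 0 < q) (hpq : 1 < p * q) (hle : p ≤ q)
    (hsub : (609 / 100 : ℝ) * (p * q - 1) ≤ 2 * (p + q + 2))
    (hs : (3293433 / 5000000 : ℝ) ≤ p) : NoSol 8 p q := by
  rcases le_or_gt p (828151 / 1250000 : ℝ) with h1 | h1
  · exact rowL8_14 hp h1 hq (q_le_of_corner (A0 := (609 / 100 : ℝ)) (p0 := (3293433 / 5000000 : ℝ)) (q0 := (56713567 / 10000000 : ℝ))
      (by norm_num) (by norm_num) (by norm_num) (by norm_num) hs hsub) hpq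
  · exact tailL8_15 hp hq hpq hle hsub h1.le

theorem tailL8_13 {p q : ℝ} (hp : 0 < p) (hq : 0 < q) (hpq : 1 < p * q) (hle : p ≤ q)
    (hsub : (609 / 100 : ℝ) * (p * q - 1) ≤ 2 * (p + q + 2))
    (hs : (163717 / 250000 : ℝ) ≤ p) : NoSol 8 p q := by
  rcases le_or_gt p (3293433 / 5000000 : ℝ) with h1 | h1
  · exact rowL8_13 hp h1 hq (q_le_of_corner (A0 := (609 / 100 : ℝ)) (p0 := (163717 / 250000 : ℝ)) (q0 := (5733853 / 1000000 : ℝ))
      (by norm_num) (by norm_num) (by norm_num) (by norm_num) hs hsub) hpq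
  · exact tailL8_14 hp hq hpq hle hsub h1.le

theorem tailL8_12 {p q : ℝ} (hp : 0 < p) (hq : 0 < q) (hpq : 1 < p * q) (hle : p ≤ q)
    (hsub : (609 / 100 : ℝ) * (p * q - 1) ≤ 2 * (p + q + 2))
    (hs : (130229 / 200000 : ℝ) ≤ p) : NoSol 8 p q := by
  rcases le_or_gt p (163717 / 250000 : ℝ) with h1 | h1
  · exact rowL8_12 hp h1 hq (q_le_of_corner (A0 := (609 / 100 : ℝ)) (p0 := (130229 / 200000 : ℝ)) (q0 := (11592417 / 2000000 : ℝ))
      (by norm_num) (by norm_num) (by norm_num) (by norm_num) hs hsub) hpq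
  · exact tailL8_13 hp hq hpq hle hsub h1.le

theorem tailL8_11 {p q : ℝ} (hp : 0 < p) (hq : 0 < q) (hpq : 1 < p * q) (hle : p ≤ q)
    (hsub : (609 / 100 : ℝ) * (p * q - 1) ≤ 2 * (p + q + 2))
    (hs : (404729 / 625000 : ℝ) ≤ p) : NoSol 8 p q := by
  rcases le_or_gt p (130229 / 200000 : ℝ) with h1 | h1
  · exact rowL8_11 hp h1 hq (q_le_of_corner (A0 := (609 / 100 : ℝ)) (p0 := (404729 / 625000 : ℝ)) (q0 := (58575167 / 10000000 : ℝ))
      (by norm_num) (by norm_num) (by norm_num) (by norm_num) hs hsub) hpq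
  · exact tailL8_12 hp hq hpq hle hsub h1.le

theorem tailL8_10 {p q : ℝ} (hp : 0 < p) (hq : 0 < q) (hpq : 1 < p * q) (hle : p ≤ q)
    (hsub : (609 / 100 : ℝ) * (p * q - 1) ≤ 2 * (p + q + 2))
    (hs : (6441957 / 10000000 : ℝ) ≤ p) : NoSol 8 p q := by
  rcases le_or_gt p (404729 / 625000 : ℝ) with h1 | h1
  · exact rowL8_10 hp h1 hq (q_le_of_corner (A0 := (609 / 100 : ℝ)) (p0 := (6441957 / 10000000 : ℝ)) (q0 := (2958267 / 500000 : ℝ))
      (by norm_num) (by norm_num) (by norm_num) (by norm_num) hs hsub) hpq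
  · exact tailL8_11 hp hq hpq hle hsub h1.le

theorem tailL8_9 {p q : ℝ} (hp : 0 < p) (hq : 0 < q) (hpq : 1 < p * q) (hle : p ≤ q)
    (hsub : (609 / 100 : ℝ) * (p * q - 1) ≤ 2 * (p + q + 2))
    (hs : (6408677 / 10000000 : ℝ) ≤ p) : NoSol 8 p q := by
  rcases le_or_gt p (6441957 / 10000000 : ℝ) with h1 | h1
  · exact rowL8_9 hp h1 hq (q_le_of_corner (A0 := (609 / 100 : ℝ)) (p0 := (6408677 / 10000000 : ℝ)) (q0 := (3735033 / 625000 : ℝ))
      (by norm_num) (by norm_num) (by norm_num) (by norm_num) hs hsub) hpq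
  · exact tailL8_10 hp hq hpq hle hsub h1.le

theorem tailL8_8 {p q : ℝ} (hp : 0 < p) (hq : 0 < q) (hpq : 1 < p * q) (hle : p ≤ q)
    (hsub : (609 / 100 : ℝ) * (p * q - 1) ≤ 2 * (p + q + 2))
    (hs : (3188601 / 5000000 : ℝ) ≤ p) : NoSol 8 p q := by
  rcases le_or_gt p (6408677 / 10000000 : ℝ) with h1 | h1
  · exact rowL8_8 hp h1 hq (q_le_of_corner (A0 := (609 / 100 : ℝ)) (p0 := (3188601 / 5000000 : ℝ)) (q0 := (3016761 / 500000 : ℝ))
      (by norm_num) (by norm_num) (by norm_num) (by norm_num) hs hsub) hpq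
  · exact tailL8_9 hp hq hpq hle hsub h1.le

theorem tailL8_7 {p q : ℝ} (hp : 0 < p) (hq : 0 < q) (hpq : 1 < p * q) (hle : p ≤ q)
    (hsub : (609 / 100 : ℝ) * (p * q - 1) ≤ 2 * (p + q + 2))
    (hs : (6346641 / 10000000 : ℝ) ≤ p) : NoSol 8 p q := by
  rcases le_or_gt p (3188601 / 5000000 : ℝ) with h1 | h1
  · exact rowL8_7 hp h1 hq (q_le_of_corner (A0 := (609 / 100 : ℝ)) (p0 := (6346641 / 10000000 : ℝ)) (q0 := (60904527 / 10000000 : ℝ))
      (by norm_num) (by norm_num) (by norm_num) (by norm_num) hs hsub) hpq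
  · exact tailL8_8 hp hq hpq hle hsub h1.le

theorem tailL8_6 {p q : ℝ} (hp : 0 < p) (hq : 0 < q) (hpq : 1 < p * q) (hle : p ≤ q)
    (hsub : (609 / 100 : ℝ) * (p * q - 1) ≤ 2 * (p + q + 2))
    (hs : (1263181 / 2000000 : ℝ) ≤ p) : NoSol 8 p q := by
  rcases le_or_gt p (6346641 / 10000000 : ℝ) with h1 | h1
  · exact rowL8_6 hp h1 hq (q_le_of_corner (A0 := (609 / 100 : ℝ)) (p0 := (1263181 / 2000000 : ℝ)) (q0 := (61488669 / 10000000 : ℝ))
      (by norm_num) (by norm_num) (by norm_num) (by norm_num) hs hsub) hpq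
  · exact tailL8_7 hp hq hpq hle hsub h1.le

theorem tailL8_5 {p q : ℝ} (hp : 0 < p) (hq : 0 < q) (hpq : 1 < p * q) (hle : p ≤ q)
    (hsub : (609 / 100 : ℝ) * (p * q - 1) ≤ 2 * (p + q + 2))
    (hs : (1571783 / 2500000 : ℝ) ≤ p) : NoSol 8 p q := by
  rcases le_or_gt p (1263181 / 2000000 : ℝ) with h1 | h1
  · exact rowL8_5 hp h1 hq (q_le_of_corner (A0 := (609 / 100 : ℝ)) (p0 := (1571783 / 2500000 : ℝ)) (q0 := (62046341 / 10000000 : ℝ))
      (by norm_num) (by norm_num) (by norm_num) (by norm_num) hs hsub) hpq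
  · exact tailL8_6 hp hq hpq hle hsub h1.le

theorem tailL8_4 {p q : ℝ} (hp : 0 < p) (hq : 0 < q) (hpq : 1 < p * q) (hle : p ≤ q)
    (hsub : (609 / 100 : ℝ) * (p * q - 1) ≤ 2 * (p + q + 2))
    (hs : (3129983 / 5000000 : ℝ) ≤ p) : NoSol 8 p q := by
  rcases le_or_gt p (1571783 / 2500000 : ℝ) with h1 | h1
  · exact rowL8_4 hp h1 hq (q_le_of_corner (A0 := (609 / 100 : ℝ)) (p0 := (3129983 / 5000000 : ℝ)) (q0 := (62582763 / 10000000 : ℝ))
      (by norm_num) (by norm_num) (by norm_num) (by norm_num) hs hsub) hpq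
  · exact tailL8_5 hp hq hpq hle hsub h1.le

theorem tailL8_3 {p q : ℝ} (hp : 0 < p) (hq : 0 < q) (hpq : 1 < p * q) (hle : p ≤ q)
    (hsub : (609 / 100 : ℝ) * (p * q - 1) ≤ 2 * (p + q + 2))
    (hs : (155881 / 250000 : ℝ) ≤ p) : NoSol 8 p q := by
  rcases le_or_gt p (3129983 / 5000000 : ℝ) with h1 | h1
  · exact rowL8_3 hp h1 hq (q_le_of_corner (A0 := (609 / 100 : ℝ)) (p0 := (155881 / 250000 : ℝ)) (q0 := (6307959 / 1000000 : ℝ))
      (by norm_num) (by norm_num) (by norm_num) (by norm_num) hs hsub) hpq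
  · exact tailL8_4 hp hq hpq hle hsub h1.le

theorem tailL8_2 {p q : ℝ} (hp : 0 < p) (hq : 0 < q) (hpq : 1 < p * q) (hle : p ≤ q)
    (hsub : (609 / 100 : ℝ) * (p * q - 1) ≤ 2 * (p + q + 2))
    (hs : (776571 / 1250000 : ℝ) ≤ p) : NoSol 8 p q := by
  rcases le_or_gt p (155881 / 250000 : ℝ) with h1 | h1
  · exact rowL8_2 hp h1 hq (q_le_of_corner (A0 := (609 / 100 : ℝ)) (p0 := (776571 / 1250000 : ℝ)) (q0 := (31771259 / 5000000 : ℝ))
      (by norm_num) (by norm_num) (by norm_num) (by norm_num) hs hsub) hpq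
  · exact tailL8_3 hp hq hpq hle hsub h1.le

theorem tailL8_1 {p q : ℝ} (hp : 0 < p) (hq : 0 < q) (hpq : 1 < p * q) (hle : p ≤ q)
    (hsub : (609 / 100 : ℝ) * (p * q - 1) ≤ 2 * (p + q + 2))
    (hs : (387133 / 625000 : ℝ) ≤ p) : NoSol 8 p q := by
  rcases le_or_gt p (776571 / 1250000 : ℝ) with h1 | h1
  · exact rowL8_1 hp h1 hq (q_le_of_corner (A0 := (609 / 100 : ℝ)) (p0 := (387133 / 625000 : ℝ)) (q0 := (12784871 / 2000000 : ℝ))
      (by norm_num) (by norm_num) (by norm_num) (by norm_num) hs hsub) hpq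
  · exact tailL8_2 hp hq hpq hle hsub h1.le

theorem tailL8_0 {p q : ℝ} (hp : 0 < p) (hq : 0 < q) (hpq : 1 < p * q) (hle : p ≤ q)
    (hsub : (609 / 100 : ℝ) * (p * q - 1) ≤ 2 * (p + q + 2))
    (hs : (309 / 500 : ℝ) ≤ p) : NoSol 8 p q := by
  rcases le_or_gt p (387133 / 625000 : ℝ) with h1 | h1
  · exact rowL8_0 hp h1 hq (q_le_of_corner (A0 := (609 / 100 : ℝ)) (p0 := (309 / 500 : ℝ)) (q0 := (6422019 / 1000000 : ℝ))
      (by norm_num) (by norm_num) (by norm_num) (by norm_num) hs hsub) hpq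
  · exact tailL8_1 hp hq hpq hle hsub h1.le

/-- The staircase: `α + β ≥ 6.09`, `max(α, β) ≤ 5`, in dimension 8. -/
theorem tableL8 {p q : ℝ} (hp : 0 < p) (hq : 0 < q) (hpq : 1 < p * q)
    (hsub : (609 / 100 : ℝ) * (p * q - 1) ≤ 2 * (p + q + 2))
    (hα : 2 * (p + 1) ≤ (5 : ℝ) * (p * q - 1)) (hβ : 2 * (q + 1) ≤ (5 : ℝ) * (p * q - 1)) :
    NoSol 8 p q := by
  rcases le_total p q with hle | hle
  · have hs := p_lower (B := 5) (by norm_num) hq hpq hsub hβ (by norm_num)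
    have hs' : (309 / 500 : ℝ) ≤ p := by
      norm_num at hs ⊢
      linarith
    exact tailL8_0 hp hq hpq hle hsub hs'
  · have hpq' : 1 < q * p := by linarith [mul_comm p q]
    have hsub' : (609 / 100 : ℝ) * (q * p - 1) ≤ 2 * (q + p + 2) := by
      rw [mul_comm q p, add_comm q p]
      exact hsub
    have hα' : 2 * (p + 1) ≤ (5 : ℝ) * (q * p - 1) := by
      rw [mul_comm q p]
      exact hα
    have hs := p_lower (B := 5) (by norm_num) hp hpq' hsub' hα' (by norm_num)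
    have hs' : (309 / 500 : ℝ) ≤ q := by
      norm_num at hs ⊢
      linarith
    exact (tailL8_0 hq hp hpq' hle hsub' hs').swap

end Vale.Agent.Lib.P100
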