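import Vale.Agent.Lib.P100.RowsL9_1
import Vale.Agent.Lib.P100.RowsL9_2
import Vale.Agent.Lib.P100.RowsL9_3

/-!
The staircase in dimension 9.
-/

namespace Vale.Agent.Lib.P100

theorem tailL9_97 {p q : ℝ} (hp : 0 < p) (hq : 0 < q) (hpq : 1 < p * q) (hle : p ≤ q)
    (hsub : (357 / 50 : ℝ) * (p * q - 1) ≤ 2 * (p + q + 2))
    (hs : (773343 / 500000 : ℝ) ≤ p) : NoSol 9 p q := by
  have h1 : p ≤ (15689283 / 10000000 : ℝ) := by
    by_contra h
    push Not at h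
    have h3 := corner_mono (A0 := (357 / 50 : ℝ)) (p0 := (15689283 / 10000000 : ℝ)) (q0 := (15689283 / 10000000 : ℝ)) (p := p) (q := q) (by norm_num) (by norm_num)
      (by norm_num) (by norm_num) h.le (le_trans h.le hle)
    linarith
  have h4 : q ≤ (15739071 / 10000000 : ℝ) :=
    q_le_of_corner (A0 := (357 / 50 : ℝ)) (p0 := (773343 / 500000 : ℝ)) (q0 := (15739071 / 10000000 : ℝ)) (by norm_num) (by norm_num)
      (by norm_num) (by norm_num) hs hsub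
  exact rowL9_97 hp h1 hq h4 hpq

theorem tailL9_96 {p q : ℝ} (hp : 0 < p) (hq : 0 < q) (hpq : 1 < p * q) (hle : p ≤ q)
    (hsub : (357 / 50 : ℝ) * (p * q - 1) ≤ 2 * (p + q + 2))
    (hs : (3049651 / 2000000 : ℝ) ≤ p) : NoSol 9 p q := by
  rcases le_or_gt p (773343 / 500000 : ℝ) with h1 | h1
  · exact rowL9_96 hp h1 hq (q_le_of_corner (A0 := (357 / 50 : ℝ)) (p0 := (3049651 / 2000000 : ℝ)) (q0 := (1995787 / 1250000 : ℝ))
      (by norm_num) (by norm_num) (by norm_num) (by norm_num) hs hsub) hpq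
  · exact tailL9_97 hp hq hpq hle hsub h1.le

theorem tailL9_95 {p q : ℝ} (hp : 0 < p) (hq : 0 < q) (hpq : 1 < p * q) (hle : p ≤ q)
    (hsub : (357 / 50 : ℝ) * (p * q - 1) ≤ 2 * (p + q + 2))
    (hs : (1503371 / 1000000 : ℝ) ≤ p) : NoSol 9 p q := by
  rcases le_or_gt p (3049651 / 2000000 : ℝ) with h1 | h1
  · exact rowL9_95 hp h1 hq (q_le_of_corner (A0 := (357 / 50 : ℝ)) (p0 := (1503371 / 1000000 : ℝ)) (q0 := (8098599 / 5000000 : ℝ))
      (by norm_num) (by norm_num) (by norm_num) (by norm_num) hs hsub) hpq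
  · exact tailL9_96 hp hq hpq hle hsub h1.le

theorem tailL9_94 {p q : ℝ} (hp : 0 < p) (hq : 0 < q) (hpq : 1 < p * q) (hle : p ≤ q)
    (hsub : (357 / 50 : ℝ) * (p * q - 1) ≤ 2 * (p + q + 2))
    (hs : (2964621 / 2000000 : ℝ) ≤ p) : NoSol 9 p q := by
  rcases le_or_gt p (1503371 / 1000000 : ℝ) with h1 | h1
  · exact rowL9_94 hp h1 hq (q_le_of_corner (A0 := (357 / 50 : ℝ)) (p0 := (2964621 / 2000000 : ℝ)) (q0 := (8215937 / 5000000 : ℝ))
      (by norm_num) (by norm_num) (by norm_num) (by norm_num) hs hsub) hpq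
  · exact tailL9_95 hp hq hpq hle hsub h1.le

theorem tailL9_93 {p q : ℝ} (hp : 0 < p) (hq : 0 < q) (hpq : 1 < p * q) (hle : p ≤ q)
    (hsub : (357 / 50 : ℝ) * (p * q - 1) ≤ 2 * (p + q + 2))
    (hs : (14615879 / 10000000 : ℝ) ≤ p) : NoSol 9 p q := by
  rcases le_or_gt p (2964621 / 2000000 : ℝ) with h1 | h1
  · exact rowL9_93 hp h1 hq (q_le_of_corner (A0 := (357 / 50 : ℝ)) (p0 := (14615879 / 10000000 : ℝ)) (q0 := (2083869 / 1250000 : ℝ))
      (by norm_num) (by norm_num) (by norm_num) (by norm_num) hs hsub) hpq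
  · exact tailL9_94 hp hq hpq hle hsub h1.le

theorem tailL9_92 {p q : ℝ} (hp : 0 < p) (hq : 0 < q) (hpq : 1 < p * q) (hle : p ≤ q)
    (hsub : (357 / 50 : ℝ) * (p * q - 1) ≤ 2 * (p + q + 2))
    (hs : (14412327 / 10000000 : ℝ) ≤ p) : NoSol 9 p q := by
  rcases le_or_gt p (14615879 / 10000000 : ℝ) with h1 | h1
  · exact rowL9_92 hp h1 hq (q_le_of_corner (A0 := (357 / 50 : ℝ)) (p0 := (14412327 / 10000000 : ℝ)) (q0 := (16914099 / 10000000 : ℝ))
      (by norm_num) (by norm_num) (by norm_num) (by norm_num) hs hsub) hpq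
  · exact tailL9_93 hp hq hpq hle hsub h1.le

theorem tailL9_91 {p q : ℝ} (hp : 0 < p) (hq : 0 < q) (hpq : 1 < p * q) (hle : p ≤ q)
    (hsub : (357 / 50 : ℝ) * (p * q - 1) ≤ 2 * (p + q + 2))
    (hs : (14212453 / 10000000 : ℝ) ≤ p) : NoSol 9 p q := by
  rcases le_or_gt p (14412327 / 10000000 : ℝ) with h1 | h1
  · exact rowL9_91 hp h1 hq (q_le_of_corner (A0 := (357 / 50 : ℝ)) (p0 := (14212453 / 10000000 : ℝ)) (q0 := (8580647 / 5000000 : ℝ))
      (by norm_num) (by norm_num) (by norm_num) (by norm_num) hs hsub) hpq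
  · exact tailL9_92 hp hq hpq hle hsub h1.le

theorem tailL9_90 {p q : ℝ} (hp : 0 < p) (hq : 0 < q) (hpq : 1 < p * q) (hle : p ≤ q)
    (hsub : (357 / 50 : ℝ) * (p * q - 1) ≤ 2 * (p + q + 2))
    (hs : (14016811 / 10000000 : ℝ) ≤ p) : NoSol 9 p q := by
  rcases le_or_gt p (14212453 / 10000000 : ℝ) with h1 | h1
  · exact rowL9_90 hp h1 hq (q_le_of_corner (A0 := (357 / 50 : ℝ)) (p0 := (14016811 / 10000000 : ℝ)) (q0 := (17411787 / 10000000 : ℝ))
      (by norm_num) (by norm_num) (by norm_num) (by norm_num) hs hsub) hpq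
  · exact tailL9_91 hp hq hpq hle hsub h1.le

theorem tailL9_89 {p q : ℝ} (hp : 0 < p) (hq : 0 < q) (hpq : 1 < p * q) (hle : p ≤ q)
    (hsub : (357 / 50 : ℝ) * (p * q - 1) ≤ 2 * (p + q + 2))
    (hs : (276509 / 200000 : ℝ) ≤ p) : NoSol 9 p q := by
  rcases le_or_gt p (14016811 / 10000000 : ℝ) with h1 | h1
  · exact rowL9_89 hp h1 hq (q_le_of_corner (A0 := (357 / 50 : ℝ)) (p0 := (276509 / 200000 : ℝ)) (q0 := (88327 / 50000 : ℝ))
      (by norm_num) (by norm_num) (by norm_num) (by norm_num) hs hsub) hpq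
  · exact tailL9_90 hp hq hpq hle hsub h1.le

theorem tailL9_88 {p q : ℝ} (hp : 0 < p) (hq : 0 < q) (hpq : 1 < p * q) (hle : p ≤ q)
    (hsub : (357 / 50 : ℝ) * (p * q - 1) ≤ 2 * (p + q + 2))
    (hs : (545497 / 400000 : ℝ) ≤ p) : NoSol 9 p q := by
  rcases le_or_gt p (276509 / 200000 : ℝ) with h1 | h1
  · exact rowL9_88 hp h1 hq (q_le_of_corner (A0 := (357 / 50 : ℝ)) (p0 := (545497 / 400000 : ℝ)) (q0 := (4480829 / 2500000 : ℝ))
      (by norm_num) (by norm_num) (by norm_num) (by norm_num) hs hsub) hpq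
  · exact tailL9_89 hp hq hpq hle hsub h1.le

theorem tailL9_87 {p q : ℝ} (hp : 0 < p) (hq : 0 < q) (hpq : 1 < p * q) (hle : p ≤ q)
    (hsub : (357 / 50 : ℝ) * (p * q - 1) ≤ 2 * (p + q + 2))
    (hs : (13451933 / 10000000 : ℝ) ≤ p) : NoSol 9 p q := by
  rcases le_or_gt p (545497 / 400000 : ℝ) with h1 | h1
  · exact rowL9_87 hp h1 hq (q_le_of_corner (A0 := (357 / 50 : ℝ)) (p0 := (13451933 / 10000000 : ℝ)) (q0 := (454667 / 250000 : ℝ))
      (by norm_num) (by norm_num) (by norm_num) (by norm_num) hs hsub) hpq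
  · exact tailL9_88 hp hq hpq hle hsub h1.le

theorem tailL9_86 {p q : ℝ} (hp : 0 < p) (hq : 0 < q) (hpq : 1 < p * q) (hle : p ≤ q)
    (hsub : (357 / 50 : ℝ) * (p * q - 1) ≤ 2 * (p + q + 2))
    (hs : (6634551 / 5000000 : ℝ) ≤ p) : NoSol 9 p q := by
  rcases le_or_gt p (13451933 / 10000000 : ℝ) with h1 | h1
  · exact rowL9_86 hp h1 hq (q_le_of_corner (A0 := (357 / 50 : ℝ)) (p0 := (6634551 / 5000000 : ℝ)) (q0 := (92277 / 50000 : ℝ))
      (by norm_num) (by norm_num) (by norm_num) (by norm_num) hs hsub) hpq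
  · exact tailL9_87 hp hq hpq hle hsub h1.le

theorem tailL9_85 {p q : ℝ} (hp : 0 < p) (hq : 0 < q) (hpq : 1 < p * q) (hle : p ≤ q)
    (hsub : (357 / 50 : ℝ) * (p * q - 1) ≤ 2 * (p + q + 2))
    (hs : (2617941 / 2000000 : ℝ) ≤ p) : NoSol 9 p q := by
  rcases le_or_gt p (6634551 / 5000000 : ℝ) with h1 | h1
  · exact rowL9_85 hp h1 hq (q_le_of_corner (A0 := (357 / 50 : ℝ)) (p0 := (2617941 / 2000000 : ℝ)) (q0 := (4682089 / 2500000 : ℝ))
      (by norm_num) (by norm_num) (by norm_num) (by norm_num) hs hsub) hpq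
  · exact tailL9_86 hp hq hpq hle hsub h1.le

theorem tailL9_84 {p q : ℝ} (hp : 0 < p) (hq : 0 < q) (hpq : 1 < p * q) (hle : p ≤ q)
    (hsub : (357 / 50 : ℝ) * (p * q - 1) ≤ 2 * (p + q + 2))
    (hs : (1614171 / 1250000 : ℝ) ≤ p) : NoSol 9 p q := by
  rcases le_or_gt p (2617941 / 2000000 : ℝ) with h1 | h1
  · exact rowL9_84 hp h1 hq (q_le_of_corner (A0 := (357 / 50 : ℝ)) (p0 := (1614171 / 1250000 : ℝ)) (q0 := (3801219 / 2000000 : ℝ))
      (by norm_num) (by norm_num) (by norm_num) (by norm_num) hs hsub) hpq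
  · exact tailL9_85 hp hq hpq hle hsub h1.le

theorem tailL9_83 {p q : ℝ} (hp : 0 < p) (hq : 0 < q) (hpq : 1 < p * q) (hle : p ≤ q)
    (hsub : (357 / 50 : ℝ) * (p * q - 1) ≤ 2 * (p + q + 2))
    (hs : (12739951 / 10000000 : ℝ) ≤ p) : NoSol 9 p q := by
  rcases le_or_gt p (1614171 / 1250000 : ℝ) with h1 | h1
  · exact rowL9_83 hp h1 hq (q_le_of_corner (A0 := (357 / 50 : ℝ)) (p0 := (12739951 / 10000000 : ℝ)) (q0 := (9644423 / 5000000 : ℝ))
      (by norm_num) (by norm_num) (by norm_num) (by norm_num) hs hsub) hpq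
  · exact tailL9_84 hp hq hpq hle hsub h1.le

theorem tailL9_82 {p q : ℝ} (hp : 0 < p) (hq : 0 < q) (hpq : 1 < p * q) (hle : p ≤ q)
    (hsub : (357 / 50 : ℝ) * (p * q - 1) ≤ 2 * (p + q + 2))
    (hs : (12570043 / 10000000 : ℝ) ≤ p) : NoSol 9 p q := by
  rcases le_or_gt p (12739951 / 10000000 : ℝ) with h1 | h1
  · exact rowL9_82 hp h1 hq (q_le_of_corner (A0 := (357 / 50 : ℝ)) (p0 := (12570043 / 10000000 : ℝ)) (q0 := (4893903 / 2500000 : ℝ))
      (by norm_num) (by norm_num) (by norm_num) (by norm_num) hs hsub) hpq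
  · exact tailL9_83 hp hq hpq hle hsub h1.le

theorem tailL9_81 {p q : ℝ} (hp : 0 < p) (hq : 0 < q) (hpq : 1 < p * q) (hle : p ≤ q)
    (hsub : (357 / 50 : ℝ) * (p * q - 1) ≤ 2 * (p + q + 2))
    (hs : (12403903 / 10000000 : ℝ) ≤ p) : NoSol 9 p q := by
  rcases le_or_gt p (12570043 / 10000000 : ℝ) with h1 | h1
  · exact rowL9_81 hp h1 hq (q_le_of_corner (A0 := (357 / 50 : ℝ)) (p0 := (12403903 / 10000000 : ℝ)) (q0 := (2483229 / 1250000 : ℝ))
      (by norm_num) (by norm_num) (by norm_num) (by norm_num) hs hsub) hpq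
  · exact tailL9_82 hp hq hpq hle hsub h1.le

theorem tailL9_80 {p q : ℝ} (hp : 0 < p) (hq : 0 < q) (hpq : 1 < p * q) (hle : p ≤ q)
    (hsub : (357 / 50 : ℝ) * (p * q - 1) ≤ 2 * (p + q + 2))
    (hs : (3059867 / 2500000 : ℝ) ≤ p) : NoSol 9 p q := by
  rcases le_or_gt p (12403903 / 10000000 : ℝ) with h1 | h1
  · exact rowL9_80 hp h1 hq (q_le_of_corner (A0 := (357 / 50 : ℝ)) (p0 := (3059867 / 2500000 : ℝ)) (q0 := (20163133 / 10000000 : ℝ))
      (by norm_num) (by norm_num) (by norm_num) (by norm_num) hs hsub) hpq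
  · exact tailL9_81 hp hq hpq hle hsub h1.le

theorem tailL9_79 {p q : ℝ} (hp : 0 < p) (hq : 0 < q) (hpq : 1 < p * q) (hle : p ≤ q)
    (hsub : (357 / 50 : ℝ) * (p * q - 1) ≤ 2 * (p + q + 2))
    (hs : (1509759 / 1250000 : ℝ) ≤ p) : NoSol 9 p q := by
  rcases le_or_gt p (3059867 / 2500000 : ℝ) with h1 | h1
  · exact rowL9_79 hp h1 hq (q_le_of_corner (A0 := (357 / 50 : ℝ)) (p0 := (1509759 / 1250000 : ℝ)) (q0 := (20465189 / 10000000 : ℝ))
      (by norm_num) (by norm_num) (by norm_num) (by norm_num) hs hsub) hpq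
  · exact tailL9_80 hp hq hpq hle hsub h1.le

theorem tailL9_78 {p q : ℝ} (hp : 0 < p) (hq : 0 < q) (hpq : 1 < p * q) (hle : p ≤ q)
    (hsub : (357 / 50 : ℝ) * (p * q - 1) ≤ 2 * (p + q + 2))
    (hs : (2979843 / 2500000 : ℝ) ≤ p) : NoSol 9 p q := by
  rcases le_or_gt p (1509759 / 1250000 : ℝ) with h1 | h1
  · exact rowL9_78 hp h1 hq (q_le_of_corner (A0 := (357 / 50 : ℝ)) (p0 := (2979843 / 2500000 : ℝ)) (q0 := (10386313 / 5000000 : ℝ))
      (by norm_num) (by norm_num) (by norm_num) (by norm_num) hs hsub) hpq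
  · exact tailL9_79 hp hq hpq hle hsub h1.le

theorem tailL9_77 {p q : ℝ} (hp : 0 < p) (hq : 0 < q) (hpq : 1 < p * q) (hle : p ≤ q)
    (hsub : (357 / 50 : ℝ) * (p * q - 1) ≤ 2 * (p + q + 2))
    (hs : (11763419 / 10000000 : ℝ) ≤ p) : NoSol 9 p q := by
  rcases le_or_gt p (2979843 / 2500000 : ℝ) with h1 | h1
  · exact rowL9_77 hp h1 hq (q_le_of_corner (A0 := (357 / 50 : ℝ)) (p0 := (11763419 / 10000000 : ℝ)) (q0 := (21085349 / 10000000 : ℝ))
      (by norm_num) (by norm_num) (by norm_num) (by norm_num) hs hsub) hpq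
  · exact tailL9_78 hp hq hpq hle hsub h1.le

theorem tailL9_76 {p q : ℝ} (hp : 0 < p) (hq : 0 < q) (hpq : 1 < p * q) (hle : p ≤ q)
    (hsub : (357 / 50 : ℝ) * (p * q - 1) ≤ 2 * (p + q + 2))
    (hs : (1451277 / 1250000 : ℝ) ≤ p) : NoSol 9 p q := by
  rcases le_or_gt p (11763419 / 10000000 : ℝ) with h1 | h1
  · exact rowL9_76 hp h1 hq (q_le_of_corner (A0 := (357 / 50 : ℝ)) (p0 := (1451277 / 1250000 : ℝ)) (q0 := (10701669 / 5000000 : ℝ))
      (by norm_num) (by norm_num) (by norm_num) (by norm_num) hs hsub) hpq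
  · exact tailL9_77 hp hq hpq hle hsub h1.le

theorem tailL9_75 {p q : ℝ} (hp : 0 < p) (hq : 0 < q) (hpq : 1 < p * q) (hle : p ≤ q)
    (hsub : (357 / 50 : ℝ) * (p * q - 1) ≤ 2 * (p + q + 2))
    (hs : (5729831 / 5000000 : ℝ) ≤ p) : NoSol 9 p q := by
  rcases le_or_gt p (1451277 / 1250000 : ℝ) with h1 | h1
  · exact rowL9_75 hp h1 hq (q_le_of_corner (A0 := (357 / 50 : ℝ)) (p0 := (5729831 / 5000000 : ℝ)) (q0 := (2715849 / 1250000 : ℝ))
      (by norm_num) (by norm_num) (by norm_num) (by norm_num) hs hsub) hpq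
  · exact tailL9_76 hp hq hpq hle hsub h1.le

theorem tailL9_74 {p q : ℝ} (hp : 0 < p) (hq : 0 < q) (hpq : 1 < p * q) (hle : p ≤ q)
    (hsub : (357 / 50 : ℝ) * (p * q - 1) ≤ 2 * (p + q + 2))
    (hs : (11311923 / 10000000 : ℝ) ≤ p) : NoSol 9 p q := by
  rcases le_or_gt p (5729831 / 5000000 : ℝ) with h1 | h1
  · exact rowL9_74 hp h1 hq (q_le_of_corner (A0 := (357 / 50 : ℝ)) (p0 := (11311923 / 10000000 : ℝ)) (q0 := (22055323 / 10000000 : ℝ))
      (by norm_num) (by norm_num) (by norm_num) (by norm_num) hs hsub) hpq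
  · exact tailL9_75 hp hq hpq hle hsub h1.le

theorem tailL9_73 {p q : ℝ} (hp : 0 < p) (hq : 0 < q) (hpq : 1 < p * q) (hle : p ≤ q)
    (hsub : (357 / 50 : ℝ) * (p * q - 1) ≤ 2 * (p + q + 2))
    (hs : (2233379 / 2000000 : ℝ) ≤ p) : NoSol 9 p q := by
  rcases le_or_gt p (11311923 / 10000000 : ℝ) with h1 | h1
  · exact rowL9_73 hp h1 hq (q_le_of_corner (A0 := (357 / 50 : ℝ)) (p0 := (2233379 / 2000000 : ℝ)) (q0 := (22389111 / 10000000 : ℝ))
      (by norm_num) (by norm_num) (by norm_num) (by norm_num) hs hsub) hpq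
  · exact tailL9_74 hp hq hpq hle hsub h1.le

theorem tailL9_72 {p q : ℝ} (hp : 0 < p) (hq : 0 < q) (hpq : 1 < p * q) (hle : p ≤ q)
    (hsub : (357 / 50 : ℝ) * (p * q - 1) ≤ 2 * (p + q + 2))
    (hs : (689019 / 625000 : ℝ) ≤ p) : NoSol 9 p q := by
  rcases le_or_gt p (2233379 / 2000000 : ℝ) with h1 | h1
  · exact rowL9_72 hp h1 hq (q_le_of_corner (A0 := (357 / 50 : ℝ)) (p0 := (689019 / 625000 : ℝ)) (q0 := (22728769 / 10000000 : ℝ))
      (by norm_num) (by norm_num) (by norm_num) (by norm_num) hs hsub) hpq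
  · exact tailL9_73 hp hq hpq hle hsub h1.le

theorem tailL9_71 {p q : ℝ} (hp : 0 < p) (hq : 0 < q) (hpq : 1 < p * q) (hle : p ≤ q)
    (hsub : (357 / 50 : ℝ) * (p * q - 1) ≤ 2 * (p + q + 2))
    (hs : (1360487 / 1250000 : ℝ) ≤ p) : NoSol 9 p q := by
  rcases le_or_gt p (689019 / 625000 : ℝ) with h1 | h1
  · exact rowL9_71 hp h1 hq (q_le_of_corner (A0 := (357 / 50 : ℝ)) (p0 := (1360487 / 1250000 : ℝ)) (q0 := (23074937 / 10000000 : ℝ))
      (by norm_num) (by norm_num) (by norm_num) (by norm_num) hs hsub) hpq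
  · exact tailL9_72 hp hq hpq hle hsub h1.le

theorem tailL9_70 {p q : ℝ} (hp : 0 < p) (hq : 0 < q) (hpq : 1 < p * q) (hle : p ≤ q)
    (hsub : (357 / 50 : ℝ) * (p * q - 1) ≤ 2 * (p + q + 2))
    (hs : (10745917 / 10000000 : ℝ) ≤ p) : NoSol 9 p q := by
  rcases le_or_gt p (1360487 / 1250000 : ℝ) with h1 | h1
  · exact rowL9_70 hp h1 hq (q_le_of_corner (A0 := (357 / 50 : ℝ)) (p0 := (10745917 / 10000000 : ℝ)) (q0 := (23427037 / 10000000 : ℝ))
      (by norm_num) (by norm_num) (by norm_num) (by norm_num) hs hsub) hpq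
  · exact tailL9_71 hp hq hpq hle hsub h1.le

theorem tailL9_69 {p q : ℝ} (hp : 0 < p) (hq : 0 < q) (hpq : 1 < p * q) (hle : p ≤ q)
    (hsub : (357 / 50 : ℝ) * (p * q - 1) ≤ 2 * (p + q + 2))
    (hs : (1061019 / 1000000 : ℝ) ≤ p) : NoSol 9 p q := by
  rcases le_or_gt p (10745917 / 10000000 : ℝ) with h1 | h1
  · exact rowL9_69 hp h1 hq (q_le_of_corner (A0 := (357 / 50 : ℝ)) (p0 := (1061019 / 1000000 : ℝ)) (q0 := (2378553 / 1000000 : ℝ))
      (by norm_num) (by norm_num) (by norm_num) (by norm_num) hs hsub) hpq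
  · exact tailL9_70 hp hq hpq hle hsub h1.le

theorem tailL9_68 {p q : ℝ} (hp : 0 < p) (hq : 0 < q) (hpq : 1 < p * q) (hle : p ≤ q)
    (hsub : (357 / 50 : ℝ) * (p * q - 1) ≤ 2 * (p + q + 2))
    (hs : (65479 / 62500 : ℝ) ≤ p) : NoSol 9 p q := by
  rcases le_or_gt p (1061019 / 1000000 : ℝ) with h1 | h1
  · exact rowL9_68 hp h1 hq (q_le_of_corner (A0 := (357 / 50 : ℝ)) (p0 := (65479 / 62500 : ℝ)) (q0 := (24150647 / 10000000 : ℝ))
      (by norm_num) (by norm_num) (by norm_num) (by norm_num) hs hsub) hpq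
  · exact tailL9_69 hp hq hpq hle hsub h1.le

theorem tailL9_67 {p q : ℝ} (hp : 0 < p) (hq : 0 < q) (hpq : 1 < p * q) (hle : p ≤ q)
    (hsub : (357 / 50 : ℝ) * (p * q - 1) ≤ 2 * (p + q + 2))
    (hs : (2069127 / 2000000 : ℝ) ≤ p) : NoSol 9 p q := by
  rcases le_or_gt p (65479 / 62500 : ℝ) with h1 | h1
  · exact rowL9_67 hp h1 hq (q_le_of_corner (A0 := (357 / 50 : ℝ)) (p0 := (2069127 / 2000000 : ℝ)) (q0 := (12260683 / 5000000 : ℝ))
      (by norm_num) (by norm_num) (by norm_num) (by norm_num) hs hsub) hpq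
  · exact tailL9_68 hp hq hpq hle hsub h1.le

theorem tailL9_66 {p q : ℝ} (hp : 0 < p) (hq : 0 < q) (hpq : 1 < p * q) (hle : p ≤ q)
    (hsub : (357 / 50 : ℝ) * (p * q - 1) ≤ 2 * (p + q + 2))
    (hs : (204327 / 200000 : ℝ) ≤ p) : NoSol 9 p q := by
  rcases le_or_gt p (2069127 / 2000000 : ℝ) with h1 | h1
  · exact rowL9_66 hp h1 hq (q_le_of_corner (A0 := (357 / 50 : ℝ)) (p0 := (204327 / 200000 : ℝ)) (q0 := (1245003 / 500000 : ℝ))
      (by norm_num) (by norm_num) (by norm_num) (by norm_num) hs hsub) hpq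
  · exact tailL9_67 hp hq hpq hle hsub h1.le

theorem tailL9_65 {p q : ℝ} (hp : 0 < p) (hq : 0 < q) (hpq : 1 < p * q) (hle : p ≤ q)
    (hsub : (357 / 50 : ℝ) * (p * q - 1) ≤ 2 * (p + q + 2))
    (hs : (10089183 / 10000000 : ℝ) ≤ p) : NoSol 9 p q := by
  rcases le_or_gt p (204327 / 200000 : ℝ) with h1 | h1
  · exact rowL9_65 hp h1 hq (q_le_of_corner (A0 := (357 / 50 : ℝ)) (p0 := (10089183 / 10000000 : ℝ)) (q0 := (25285657 / 10000000 : ℝ))
      (by norm_num) (by norm_num) (by norm_num) (by norm_num) hs hsub) hpq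
  · exact tailL9_66 hp hq hpq hle hsub h1.le

theorem tailL9_64 {p q : ℝ} (hp : 0 < p) (hq : 0 < q) (hpq : 1 < p * q) (hle : p ≤ q)
    (hsub : (357 / 50 : ℝ) * (p * q - 1) ≤ 2 * (p + q + 2))
    (hs : (2491037 / 2500000 : ℝ) ≤ p) : NoSol 9 p q := by
  rcases le_or_gt p (10089183 / 10000000 : ℝ) with h1 | h1
  · exact rowL9_64 hp h1 hq (q_le_of_corner (A0 := (357 / 50 : ℝ)) (p0 := (2491037 / 2500000 : ℝ)) (q0 := (25678139 / 10000000 : ℝ))
      (by norm_num) (by norm_num) (by norm_num) (by norm_num) hs hsub) hpq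
  · exact tailL9_65 hp hq hpq hle hsub h1.le

theorem tailL9_63 {p q : ℝ} (hp : 0 < p) (hq : 0 < q) (hpq : 1 < p * q) (hle : p ≤ q)
    (hsub : (357 / 50 : ℝ) * (p * q - 1) ≤ 2 * (p + q + 2))
    (hs : (615049 / 625000 : ℝ) ≤ p) : NoSol 9 p q := by
  rcases le_or_gt p (2491037 / 2500000 : ℝ) with h1 | h1
  · exact rowL9_63 hp h1 hq (q_le_of_corner (A0 := (357 / 50 : ℝ)) (p0 := (615049 / 625000 : ℝ)) (q0 := (13039519 / 5000000 : ℝ))
      (by norm_num) (by norm_num) (by norm_num) (by norm_num) hs hsub) hpq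
  · exact tailL9_64 hp hq hpq hle hsub h1.le

theorem tailL9_62 {p q : ℝ} (hp : 0 < p) (hq : 0 < q) (hpq : 1 < p * q) (hle : p ≤ q)
    (hsub : (357 / 50 : ℝ) * (p * q - 1) ≤ 2 * (p + q + 2))
    (hs : (75936 / 78125 : ℝ) ≤ p) : NoSol 9 p q := by
  rcases le_or_gt p (615049 / 625000 : ℝ) with h1 | h1
  · exact rowL9_62 hp h1 hq (q_le_of_corner (A0 := (357 / 50 : ℝ)) (p0 := (75936 / 78125 : ℝ)) (q0 := (13243031 / 5000000 : ℝ))
      (by norm_num) (by norm_num) (by norm_num) (by norm_num) hs hsub) hpq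
  · exact tailL9_63 hp hq hpq hle hsub h1.le

theorem tailL9_61 {p q : ℝ} (hp : 0 < p) (hq : 0 < q) (hpq : 1 < p * q) (hle : p ≤ q)
    (hsub : (357 / 50 : ℝ) * (p * q - 1) ≤ 2 * (p + q + 2))
    (hs : (4800379 / 5000000 : ℝ) ≤ p) : NoSol 9 p q := by
  rcases le_or_gt p (75936 / 78125 : ℝ) with h1 | h1
  · exact rowL9_61 hp h1 hq (q_le_of_corner (A0 := (357 / 50 : ℝ)) (p0 := (4800379 / 5000000 : ℝ)) (q0 := (5380149 / 2000000 : ℝ))
      (by norm_num) (by norm_num) (by norm_num) (by norm_num) hs hsub) hpq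
  · exact tailL9_62 hp hq hpq hle hsub h1.le

theorem tailL9_60 {p q : ℝ} (hp : 0 < p) (hq : 0 < q) (hpq : 1 < p * q) (hle : p ≤ q)
    (hsub : (357 / 50 : ℝ) * (p * q - 1) ≤ 2 * (p + q + 2))
    (hs : (592683 / 625000 : ℝ) ≤ p) : NoSol 9 p q := by
  rcases le_or_gt p (4800379 / 5000000 : ℝ) with h1 | h1
  · exact rowL9_60 hp h1 hq (q_le_of_corner (A0 := (357 / 50 : ℝ)) (p0 := (592683 / 625000 : ℝ)) (q0 := (853929 / 312500 : ℝ))
      (by norm_num) (by norm_num) (by norm_num) (by norm_num) hs hsub) hpq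
  · exact tailL9_61 hp hq hpq hle hsub h1.le

theorem tailL9_59 {p q : ℝ} (hp : 0 < p) (hq : 0 < q) (hpq : 1 < p * q) (hle : p ≤ q)
    (hsub : (357 / 50 : ℝ) * (p * q - 1) ≤ 2 * (p + q + 2))
    (hs : (1873741 / 2000000 : ℝ) ≤ p) : NoSol 9 p q := by
  rcases le_or_gt p (592683 / 625000 : ℝ) with h1 | h1
  · exact rowL9_59 hp h1 hq (q_le_of_corner (A0 := (357 / 50 : ℝ)) (p0 := (1873741 / 2000000 : ℝ)) (q0 := (27752259 / 10000000 : ℝ))
      (by norm_num) (by norm_num) (by norm_num) (by norm_num) hs hsub) hpq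
  · exact tailL9_60 hp hq hpq hle hsub h1.le

theorem tailL9_58 {p q : ℝ} (hp : 0 < p) (hq : 0 < q) (hpq : 1 < p * q) (hle : p ≤ q)
    (hsub : (357 / 50 : ℝ) * (p * q - 1) ≤ 2 * (p + q + 2))
    (hs : (9254251 / 10000000 : ℝ) ≤ p) : NoSol 9 p q := by
  rcases le_or_gt p (1873741 / 2000000 : ℝ) with h1 | h1
  · exact rowL9_58 hp h1 hq (q_le_of_corner (A0 := (357 / 50 : ℝ)) (p0 := (9254251 / 10000000 : ℝ)) (q0 := (28194797 / 10000000 : ℝ))
      (by norm_num) (by norm_num) (by norm_num) (by norm_num) hs hsub) hpq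
  · exact tailL9_59 hp hq hpq hle hsub h1.le

theorem tailL9_57 {p q : ℝ} (hp : 0 < p) (hq : 0 < q) (hpq : 1 < p * q) (hle : p ≤ q)
    (hsub : (357 / 50 : ℝ) * (p * q - 1) ≤ 2 * (p + q + 2))
    (hs : (4570721 / 5000000 : ℝ) ≤ p) : NoSol 9 p q := by
  rcases le_or_gt p (9254251 / 10000000 : ℝ) with h1 | h1
  · exact rowL9_57 hp h1 hq (q_le_of_corner (A0 := (357 / 50 : ℝ)) (p0 := (4570721 / 5000000 : ℝ)) (q0 := (28646609 / 10000000 : ℝ))
      (by norm_num) (by norm_num) (by norm_num) (by norm_num) hs hsub) hpq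
  · exact tailL9_58 hp hq hpq hle hsub h1.le

theorem tailL9_56 {p q : ℝ} (hp : 0 < p) (hq : 0 < q) (hpq : 1 < p * q) (hle : p ≤ q)
    (hsub : (357 / 50 : ℝ) * (p * q - 1) ≤ 2 * (p + q + 2))
    (hs : (1128847 / 1250000 : ℝ) ≤ p) : NoSol 9 p q := by
  rcases le_or_gt p (4570721 / 5000000 : ℝ) with h1 | h1
  · exact rowL9_56 hp h1 hq (q_le_of_corner (A0 := (357 / 50 : ℝ)) (p0 := (1128847 / 1250000 : ℝ)) (q0 := (29105739 / 10000000 : ℝ))
      (by norm_num) (by norm_num) (by norm_num) (by norm_num) hs hsub) hpq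
  · exact tailL9_57 hp hq hpq hle hsub h1.le

theorem tailL9_55 {p q : ℝ} (hp : 0 < p) (hq : 0 < q) (hpq : 1 < p * q) (hle : p ≤ q)
    (hsub : (357 / 50 : ℝ) * (p * q - 1) ≤ 2 * (p + q + 2))
    (hs : (8921317 / 10000000 : ℝ) ≤ p) : NoSol 9 p q := by
  rcases le_or_gt p (1128847 / 1250000 : ℝ) with h1 | h1
  · exact rowL9_55 hp h1 hq (q_le_of_corner (A0 := (357 / 50 : ℝ)) (p0 := (8921317 / 10000000 : ℝ)) (q0 := (14788097 / 5000000 : ℝ))
      (by norm_num) (by norm_num) (by norm_num) (by norm_num) hs hsub) hpq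
  · exact tailL9_56 hp hq hpq hle hsub h1.le

theorem tailL9_54 {p q : ℝ} (hp : 0 < p) (hq : 0 < q) (hpq : 1 < p * q) (hle : p ≤ q)
    (hsub : (357 / 50 : ℝ) * (p * q - 1) ≤ 2 * (p + q + 2))
    (hs : (2203341 / 2500000 : ℝ) ≤ p) : NoSol 9 p q := by
  rcases le_or_gt p (8921317 / 10000000 : ℝ) with h1 | h1
  · exact rowL9_54 hp h1 hq (q_le_of_corner (A0 := (357 / 50 : ℝ)) (p0 := (2203341 / 2500000 : ℝ)) (q0 := (15028477 / 5000000 : ℝ))
      (by norm_num) (by norm_num) (by norm_num) (by norm_num) hs hsub) hpq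
  · exact tailL9_55 hp hq hpq hle hsub h1.le

theorem tailL9_53 {p q : ℝ} (hp : 0 < p) (hq : 0 < q) (hpq : 1 < p * q) (hle : p ≤ q)
    (hsub : (357 / 50 : ℝ) * (p * q - 1) ≤ 2 * (p + q + 2))
    (hs : (1088323 / 1250000 : ℝ) ≤ p) : NoSol 9 p q := by
  rcases le_or_gt p (2203341 / 2500000 : ℝ) with h1 | h1
  · exact rowL9_53 hp h1 hq (q_le_of_corner (A0 := (357 / 50 : ℝ)) (p0 := (1088323 / 1250000 : ℝ)) (q0 := (15274891 / 5000000 : ℝ))
      (by norm_num) (by norm_num) (by norm_num) (by norm_num) hs hsub) hpq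
  · exact tailL9_54 hp hq hpq hle hsub h1.le

theorem tailL9_52 {p q : ℝ} (hp : 0 < p) (hq : 0 < q) (hpq : 1 < p * q) (hle : p ≤ q)
    (hsub : (357 / 50 : ℝ) * (p * q - 1) ≤ 2 * (p + q + 2))
    (hs : (8602031 / 10000000 : ℝ) ≤ p) : NoSol 9 p q := by
  rcases le_or_gt p (1088323 / 1250000 : ℝ) with h1 | h1
  · exact rowL9_52 hp h1 hq (q_le_of_corner (A0 := (357 / 50 : ℝ)) (p0 := (8602031 / 10000000 : ℝ)) (q0 := (3881239 / 1250000 : ℝ))
      (by norm_num) (by norm_num) (by norm_num) (by norm_num) hs hsub) hpq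
  · exact tailL9_53 hp hq hpq hle hsub h1.le

theorem tailL9_51 {p q : ℝ} (hp : 0 < p) (hq : 0 < q) (hpq : 1 < p * q) (hle : p ≤ q)
    (hsub : (357 / 50 : ℝ) * (p * q - 1) ≤ 2 * (p + q + 2))
    (hs : (8498969 / 10000000 : ℝ) ≤ p) : NoSol 9 p q := by
  rcases le_or_gt p (8602031 / 10000000 : ℝ) with h1 | h1
  · exact rowL9_51 hp h1 hq (q_le_of_corner (A0 := (357 / 50 : ℝ)) (p0 := (8498969 / 10000000 : ℝ)) (q0 := (3945109 / 1250000 : ℝ))
      (by norm_num) (by norm_num) (by norm_num) (by norm_num) hs hsub) hpq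
  · exact tailL9_52 hp hq hpq hle hsub h1.le

theorem tailL9_50 {p q : ℝ} (hp : 0 < p) (hq : 0 < q) (hpq : 1 < p * q) (hle : p ≤ q)
    (hsub : (357 / 50 : ℝ) * (p * q - 1) ≤ 2 * (p + q + 2))
    (hs : (4198219 / 5000000 : ℝ) ≤ p) : NoSol 9 p q := by
  rcases le_or_gt p (8498969 / 10000000 : ℝ) with h1 | h1
  · exact rowL9_50 hp h1 hq (q_le_of_corner (A0 := (357 / 50 : ℝ)) (p0 := (4198219 / 5000000 : ℝ)) (q0 := (16043939 / 5000000 : ℝ))
      (by norm_num) (by norm_num) (by norm_num) (by norm_num) hs hsub) hpq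
  · exact tailL9_51 hp hq hpq hle hsub h1.le

theorem tailL9_49 {p q : ℝ} (hp : 0 < p) (hq : 0 < q) (hpq : 1 < p * q) (hle : p ≤ q)
    (hsub : (357 / 50 : ℝ) * (p * q - 1) ≤ 2 * (p + q + 2))
    (hs : (8296943 / 10000000 : ℝ) ≤ p) : NoSol 9 p q := by
  rcases le_or_gt p (4198219 / 5000000 : ℝ) with h1 | h1
  · exact rowL9_49 hp h1 hq (q_le_of_corner (A0 := (357 / 50 : ℝ)) (p0 := (8296943 / 10000000 : ℝ)) (q0 := (16309039 / 5000000 : ℝ))
      (by norm_num) (by norm_num) (by norm_num) (by norm_num) hs hsub) hpq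
  · exact tailL9_50 hp hq hpq hle hsub h1.le

theorem tailL9_48 {p q : ℝ} (hp : 0 < p) (hq : 0 < q) (hpq : 1 < p * q) (hle : p ≤ q)
    (hsub : (357 / 50 : ℝ) * (p * q - 1) ≤ 2 * (p + q + 2))
    (hs : (2049481 / 2500000 : ℝ) ≤ p) : NoSol 9 p q := by
  rcases le_or_gt p (8296943 / 10000000 : ℝ) with h1 | h1
  · exact rowL9_48 hp h1 hq (q_le_of_corner (A0 := (357 / 50 : ℝ)) (p0 := (2049481 / 2500000 : ℝ)) (q0 := (33165151 / 10000000 : ℝ))
      (by norm_num) (by norm_num) (by norm_num) (by norm_num) hs hsub) hpq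
  · exact tailL9_49 hp hq hpq hle hsub h1.le

theorem tailL9_47 {p q : ℝ} (hp : 0 < p) (hq : 0 < q) (hpq : 1 < p * q) (hle : p ≤ q)
    (hsub : (357 / 50 : ℝ) * (p * q - 1) ≤ 2 * (p + q + 2))
    (hs : (8099247 / 10000000 : ℝ) ≤ p) : NoSol 9 p q := by
  rcases le_or_gt p (2049481 / 2500000 : ℝ) with h1 | h1
  · exact rowL9_47 hp h1 hq (q_le_of_corner (A0 := (357 / 50 : ℝ)) (p0 := (8099247 / 10000000 : ℝ)) (q0 := (16865339 / 5000000 : ℝ))
      (by norm_num) (by norm_num) (by norm_num) (by norm_num) hs hsub) hpq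
  · exact tailL9_48 hp hq hpq hle hsub h1.le

theorem tailL9_46 {p q : ℝ} (hp : 0 < p) (hq : 0 < q) (hpq : 1 < p * q) (hle : p ≤ q)
    (hsub : (357 / 50 : ℝ) * (p * q - 1) ≤ 2 * (p + q + 2))
    (hs : (4001201 / 5000000 : ℝ) ≤ p) : NoSol 9 p q := by
  rcases le_or_gt p (8099247 / 10000000 : ℝ) with h1 | h1
  · exact rowL9_46 hp h1 hq (q_le_of_corner (A0 := (357 / 50 : ℝ)) (p0 := (4001201 / 5000000 : ℝ)) (q0 := (34306569 / 10000000 : ℝ))
      (by norm_num) (by norm_num) (by norm_num) (by norm_num) hs hsub) hpq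
  · exact tailL9_47 hp hq hpq hle hsub h1.le

theorem tailL9_45 {p q : ℝ} (hp : 0 < p) (hq : 0 < q) (hpq : 1 < p * q) (hle : p ≤ q)
    (hsub : (357 / 50 : ℝ) * (p * q - 1) ≤ 2 * (p + q + 2))
    (hs : (7906099 / 10000000 : ℝ) ≤ p) : NoSol 9 p q := by
  rcases le_or_gt p (4001201 / 5000000 : ℝ) with h1 | h1
  · exact rowL9_45 hp h1 hq (q_le_of_corner (A0 := (357 / 50 : ℝ)) (p0 := (7906099 / 10000000 : ℝ)) (q0 := (6980181 / 2000000 : ℝ))
      (by norm_num) (by norm_num) (by norm_num) (by norm_num) hs hsub) hpq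
  · exact tailL9_46 hp hq hpq hle hsub h1.le

theorem tailL9_44 {p q : ℝ} (hp : 0 < p) (hq : 0 < q) (hpq : 1 < p * q) (hle : p ≤ q)
    (hsub : (357 / 50 : ℝ) * (p * q - 1) ≤ 2 * (p + q + 2))
    (hs : (7810583 / 10000000 : ℝ) ≤ p) : NoSol 9 p q := by
  rcases le_or_gt p (7906099 / 10000000 : ℝ) with h1 | h1
  · exact rowL9_44 hp h1 hq (q_le_of_corner (A0 := (357 / 50 : ℝ)) (p0 := (7810583 / 10000000 : ℝ)) (q0 := (7102591 / 2000000 : ℝ))
      (by norm_num) (by norm_num) (by norm_num) (by norm_num) hs hsub) hpq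
  · exact tailL9_45 hp hq hpq hle hsub h1.le

theorem tailL9_43 {p q : ℝ} (hp : 0 < p) (hq : 0 < q) (hpq : 1 < p * q) (hle : p ≤ q)
    (hsub : (357 / 50 : ℝ) * (p * q - 1) ≤ 2 * (p + q + 2))
    (hs : (1543327 / 2000000 : ℝ) ≤ p) : NoSol 9 p q := by
  rcases le_or_gt p (7810583 / 10000000 : ℝ) with h1 | h1
  · exact rowL9_43 hp h1 hq (q_le_of_corner (A0 := (357 / 50 : ℝ)) (p0 := (1543327 / 2000000 : ℝ)) (q0 := (36138161 / 10000000 : ℝ))
      (by norm_num) (by norm_num) (by norm_num) (by norm_num) hs hsub) hpq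
  · exact tailL9_44 hp hq hpq hle hsub h1.le

theorem tailL9_42 {p q : ℝ} (hp : 0 < p) (hq : 0 < q) (hpq : 1 < p * q) (hle : p ≤ q)
    (hsub : (357 / 50 : ℝ) * (p * q - 1) ≤ 2 * (p + q + 2))
    (hs : (7624009 / 10000000 : ℝ) ≤ p) : NoSol 9 p q := by
  rcases le_or_gt p (1543327 / 2000000 : ℝ) with h1 | h1
  · exact rowL9_42 hp h1 hq (q_le_of_corner (A0 := (357 / 50 : ℝ)) (p0 := (7624009 / 10000000 : ℝ)) (q0 := (2298651 / 625000 : ℝ))
      (by norm_num) (by norm_num) (by norm_num) (by norm_num) hs hsub) hpq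
  · exact tailL9_43 hp hq hpq hle hsub h1.le

theorem tailL9_41 {p q : ℝ} (hp : 0 < p) (hq : 0 < q) (hpq : 1 < p * q) (hle : p ≤ q)
    (hsub : (357 / 50 : ℝ) * (p * q - 1) ≤ 2 * (p + q + 2))
    (hs : (1506409 / 2000000 : ℝ) ≤ p) : NoSol 9 p q := by
  rcases le_or_gt p (7624009 / 10000000 : ℝ) with h1 | h1
  · exact rowL9_41 hp h1 hq (q_le_of_corner (A0 := (357 / 50 : ℝ)) (p0 := (1506409 / 2000000 : ℝ)) (q0 := (18719449 / 5000000 : ℝ))
      (by norm_num) (by norm_num) (by norm_num) (by norm_num) hs hsub) hpq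
  · exact tailL9_42 hp hq hpq hle hsub h1.le

theorem tailL9_40 {p q : ℝ} (hp : 0 < p) (hq : 0 < q) (hpq : 1 < p * q) (hle : p ≤ q)
    (hsub : (357 / 50 : ℝ) * (p * q - 1) ≤ 2 * (p + q + 2))
    (hs : (7441273 / 10000000 : ℝ) ≤ p) : NoSol 9 p q := by
  rcases le_or_gt p (1506409 / 2000000 : ℝ) with h1 | h1
  · exact rowL9_40 hp h1 hq (q_le_of_corner (A0 := (357 / 50 : ℝ)) (p0 := (7441273 / 10000000 : ℝ)) (q0 := (9529123 / 2500000 : ℝ))
      (by norm_num) (by norm_num) (by norm_num) (by norm_num) hs hsub) hpq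
  · exact tailL9_41 hp hq hpq hle hsub h1.le

theorem tailL9_39 {p q : ℝ} (hp : 0 < p) (hq : 0 < q) (hpq : 1 < p * q) (hle : p ≤ q)
    (hsub : (357 / 50 : ℝ) * (p * q - 1) ≤ 2 * (p + q + 2))
    (hs : (3676237 / 5000000 : ℝ) ≤ p) : NoSol 9 p q := by
  rcases le_or_gt p (7441273 / 10000000 : ℝ) with h1 | h1
  · exact rowL9_39 hp h1 hq (q_le_of_corner (A0 := (357 / 50 : ℝ)) (p0 := (3676237 / 5000000 : ℝ)) (q0 := (38805511 / 10000000 : ℝ))
      (by norm_num) (by norm_num) (by norm_num) (by norm_num) hs hsub) hpq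
  · exact tailL9_40 hp hq hpq hle hsub h1.le

theorem tailL9_38 {p q : ℝ} (hp : 0 < p) (hq : 0 < q) (hpq : 1 < p * q) (hle : p ≤ q)
    (hsub : (357 / 50 : ℝ) * (p * q - 1) ≤ 2 * (p + q + 2))
    (hs : (3632059 / 5000000 : ℝ) ≤ p) : NoSol 9 p q := by
  rcases le_or_gt p (3676237 / 5000000 : ℝ) with h1 | h1
  · exact rowL9_38 hp h1 hq (q_le_of_corner (A0 := (357 / 50 : ℝ)) (p0 := (3632059 / 5000000 : ℝ)) (q0 := (19759153 / 5000000 : ℝ))
      (by norm_num) (by norm_num) (by norm_num) (by norm_num) hs hsub) hpq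
  · exact tailL9_39 hp hq hpq hle hsub h1.le

theorem tailL9_37 {p q : ℝ} (hp : 0 < p) (hq : 0 < q) (hpq : 1 < p * q) (hle : p ≤ q)
    (hsub : (357 / 50 : ℝ) * (p * q - 1) ≤ 2 * (p + q + 2))
    (hs : (7176309 / 10000000 : ℝ) ≤ p) : NoSol 9 p q := by
  rcases le_or_gt p (3632059 / 5000000 : ℝ) with h1 | h1
  · exact rowL9_37 hp h1 hq (q_le_of_corner (A0 := (357 / 50 : ℝ)) (p0 := (7176309 / 10000000 : ℝ)) (q0 := (40255211 / 10000000 : ℝ))
      (by norm_num) (by norm_num) (by norm_num) (by norm_num) hs hsub) hpq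
  · exact tailL9_38 hp hq hpq hle hsub h1.le

theorem tailL9_36 {p q : ℝ} (hp : 0 < p) (hq : 0 < q) (hpq : 1 < p * q) (hle : p ≤ q)
    (hsub : (357 / 50 : ℝ) * (p * q - 1) ≤ 2 * (p + q + 2))
    (hs : (1418063 / 2000000 : ℝ) ≤ p) : NoSol 9 p q := by
  rcases le_or_gt p (7176309 / 10000000 : ℝ) with h1 | h1
  · exact rowL9_36 hp h1 hq (q_le_of_corner (A0 := (357 / 50 : ℝ)) (p0 := (1418063 / 2000000 : ℝ)) (q0 := (2562883 / 625000 : ℝ))
      (by norm_num) (by norm_num) (by norm_num) (by norm_num) hs hsub) hpq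
  · exact tailL9_37 hp hq hpq hle hsub h1.le

theorem tailL9_35 {p q : ℝ} (hp : 0 < p) (hq : 0 < q) (hpq : 1 < p * q) (hle : p ≤ q)
    (hsub : (357 / 50 : ℝ) * (p * q - 1) ≤ 2 * (p + q + 2))
    (hs : (3503047 / 5000000 : ℝ) ≤ p) : NoSol 9 p q := by
  rcases le_or_gt p (1418063 / 2000000 : ℝ) with h1 | h1
  · exact rowL9_35 hp h1 hq (q_le_of_corner (A0 := (357 / 50 : ℝ)) (p0 := (3503047 / 5000000 : ℝ)) (q0 := (10442833 / 2500000 : ℝ))
      (by norm_num) (by norm_num) (by norm_num) (by norm_num) hs hsub) hpq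
  · exact tailL9_36 hp hq hpq hle hsub h1.le

theorem tailL9_34 {p q : ℝ} (hp : 0 < p) (hq : 0 < q) (hpq : 1 < p * q) (hle : p ≤ q)
    (hsub : (357 / 50 : ℝ) * (p * q - 1) ≤ 2 * (p + q + 2))
    (hs : (6922193 / 10000000 : ℝ) ≤ p) : NoSol 9 p q := by
  rcases le_or_gt p (3503047 / 5000000 : ℝ) with h1 | h1
  · exact rowL9_34 hp h1 hq (q_le_of_corner (A0 := (357 / 50 : ℝ)) (p0 := (6922193 / 10000000 : ℝ)) (q0 := (5320591 / 1250000 : ℝ))
      (by norm_num) (by norm_num) (by norm_num) (by norm_num) hs hsub) hpq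
  · exact tailL9_35 hp hq hpq hle hsub h1.le

theorem tailL9_33 {p q : ℝ} (hp : 0 < p) (hq : 0 < q) (hpq : 1 < p * q) (hle : p ≤ q)
    (hsub : (357 / 50 : ℝ) * (p * q - 1) ≤ 2 * (p + q + 2))
    (hs : (6841013 / 10000000 : ℝ) ≤ p) : NoSol 9 p q := by
  rcases le_or_gt p (6922193 / 10000000 : ℝ) with h1 | h1
  · exact rowL9_33 hp h1 hq (q_le_of_corner (A0 := (357 / 50 : ℝ)) (p0 := (6841013 / 10000000 : ℝ)) (q0 := (43363761 / 10000000 : ℝ))
      (by norm_num) (by norm_num) (by norm_num) (by norm_num) hs hsub) hpq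
  · exact tailL9_34 hp hq hpq hle hsub h1.le

theorem tailL9_32 {p q : ℝ} (hp : 0 < p) (hq : 0 < q) (hpq : 1 < p * q) (hle : p ≤ q)
    (hsub : (357 / 50 : ℝ) * (p * q - 1) ≤ 2 * (p + q + 2))
    (hs : (3381307 / 5000000 : ℝ) ≤ p) : NoSol 9 p q := by
  rcases le_or_gt p (6841013 / 10000000 : ℝ) with h1 | h1
  · exact rowL9_32 hp h1 hq (q_le_of_corner (A0 := (357 / 50 : ℝ)) (p0 := (3381307 / 5000000 : ℝ)) (q0 := (22083253 / 5000000 : ℝ))
      (by norm_num) (by norm_num) (by norm_num) (by norm_num) hs hsub) hpq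
  · exact tailL9_33 hp hq hpq hle hsub h1.le

theorem tailL9_31 {p q : ℝ} (hp : 0 < p) (hq : 0 < q) (hpq : 1 < p * q) (hle : p ≤ q)
    (hsub : (357 / 50 : ℝ) * (p * q - 1) ≤ 2 * (p + q + 2))
    (hs : (1671847 / 2500000 : ℝ) ≤ p) : NoSol 9 p q := by
  rcases le_or_gt p (3381307 / 5000000 : ℝ) with h1 | h1
  · exact rowL9_31 hp h1 hq (q_le_of_corner (A0 := (357 / 50 : ℝ)) (p0 := (1671847 / 2500000 : ℝ)) (q0 := (44967211 / 10000000 : ℝ))
      (by norm_num) (by norm_num) (by norm_num) (by norm_num) hs hsub) hpq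
  · exact tailL9_32 hp hq hpq hle hsub h1.le

theorem tailL9_30 {p q : ℝ} (hp : 0 < p) (hq : 0 < q) (hpq : 1 < p * q) (hle : p ≤ q)
    (hsub : (357 / 50 : ℝ) * (p * q - 1) ≤ 2 * (p + q + 2))
    (hs : (1322509 / 2000000 : ℝ) ≤ p) : NoSol 9 p q := by
  rcases le_or_gt p (1671847 / 2500000 : ℝ) with h1 | h1
  · exact rowL9_30 hp h1 hq (q_le_of_corner (A0 := (357 / 50 : ℝ)) (p0 := (1322509 / 2000000 : ℝ)) (q0 := (9159041 / 2000000 : ℝ))
      (by norm_num) (by norm_num) (by norm_num) (by norm_num) hs hsub) hpq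
  · exact tailL9_31 hp hq hpq hle hsub h1.le

theorem tailL9_29 {p q : ℝ} (hp : 0 < p) (hq : 0 < q) (hpq : 1 < p * q) (hle : p ≤ q)
    (hsub : (357 / 50 : ℝ) * (p * q - 1) ≤ 2 * (p + q + 2))
    (hs : (130847 / 200000 : ℝ) ≤ p) : NoSol 9 p q := by
  rcases le_or_gt p (1322509 / 2000000 : ℝ) with h1 | h1
  · exact rowL9_29 hp h1 hq (q_le_of_corner (A0 := (357 / 50 : ℝ)) (p0 := (130847 / 200000 : ℝ)) (q0 := (11650471 / 2500000 : ℝ))
      (by norm_num) (by norm_num) (by norm_num) (by norm_num) hs hsub) hpq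
  · exact tailL9_30 hp hq hpq hle hsub h1.le

theorem tailL9_28 {p q : ℝ} (hp : 0 < p) (hq : 0 < q) (hpq : 1 < p * q) (hle : p ≤ q)
    (hsub : (357 / 50 : ℝ) * (p * q - 1) ≤ 2 * (p + q + 2))
    (hs : (6468729 / 10000000 : ℝ) ≤ p) : NoSol 9 p q := by
  rcases le_or_gt p (130847 / 200000 : ℝ) with h1 | h1
  · exact rowL9_28 hp h1 hq (q_le_of_corner (A0 := (357 / 50 : ℝ)) (p0 := (6468729 / 10000000 : ℝ)) (q0 := (47481109 / 10000000 : ℝ))
      (by norm_num) (by norm_num) (by norm_num) (by norm_num) hs hsub) hpq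
  · exact tailL9_29 hp hq hpq hle hsub h1.le

theorem tailL9_27 {p q : ℝ} (hp : 0 < p) (hq : 0 < q) (hpq : 1 < p * q) (hle : p ≤ q)
    (hsub : (357 / 50 : ℝ) * (p * q - 1) ≤ 2 * (p + q + 2))
    (hs : (6398241 / 10000000 : ℝ) ≤ p) : NoSol 9 p q := by
  rcases le_or_gt p (6468729 / 10000000 : ℝ) with h1 | h1
  · exact rowL9_27 hp h1 hq (q_le_of_corner (A0 := (357 / 50 : ℝ)) (p0 := (6398241 / 10000000 : ℝ)) (q0 := (12089161 / 2500000 : ℝ))
      (by norm_num) (by norm_num) (by norm_num) (by norm_num) hs hsub) hpq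
  · exact tailL9_28 hp hq hpq hle hsub h1.le

theorem tailL9_26 {p q : ℝ} (hp : 0 < p) (hq : 0 < q) (hpq : 1 < p * q) (hle : p ≤ q)
    (hsub : (357 / 50 : ℝ) * (p * q - 1) ≤ 2 * (p + q + 2))
    (hs : (1265833 / 2000000 : ℝ) ≤ p) : NoSol 9 p q := by
  rcases le_or_gt p (6398241 / 10000000 : ℝ) with h1 | h1
  · exact rowL9_26 hp h1 hq (q_le_of_corner (A0 := (357 / 50 : ℝ)) (p0 := (1265833 / 2000000 : ℝ)) (q0 := (49248581 / 10000000 : ℝ))
      (by norm_num) (by norm_num) (by norm_num) (by norm_num) hs hsub) hpq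
  · exact tailL9_27 hp hq hpq hle hsub h1.le

theorem tailL9_25 {p q : ℝ} (hp : 0 < p) (hq : 0 < q) (hpq : 1 < p * q) (hle : p ≤ q)
    (hsub : (357 / 50 : ℝ) * (p * q - 1) ≤ 2 * (p + q + 2))
    (hs : (6260447 / 10000000 : ℝ) ≤ p) : NoSol 9 p q := by
  rcases le_or_gt p (1265833 / 2000000 : ℝ) with h1 | h1
  · exact rowL9_25 hp h1 hq (q_le_of_corner (A0 := (357 / 50 : ℝ)) (p0 := (6260447 / 10000000 : ℝ)) (q0 := (50171239 / 10000000 : ℝ))
      (by norm_num) (by norm_num) (by norm_num) (by norm_num) hs hsub) hpq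
  · exact tailL9_26 hp hq hpq hle hsub h1.le

theorem tailL9_24 {p q : ℝ} (hp : 0 < p) (hq : 0 < q) (hpq : 1 < p * q) (hle : p ≤ q)
    (hsub : (357 / 50 : ℝ) * (p * q - 1) ≤ 2 * (p + q + 2))
    (hs : (247789 / 400000 : ℝ) ≤ p) : NoSol 9 p q := by
  rcases le_or_gt p (6260447 / 10000000 : ℝ) with h1 | h1
  · exact rowL9_24 hp h1 hq (q_le_of_corner (A0 := (357 / 50 : ℝ)) (p0 := (247789 / 400000 : ℝ)) (q0 := (51088629 / 10000000 : ℝ))
      (by norm_num) (by norm_num) (by norm_num) (by norm_num) hs hsub) hpq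
  · exact tailL9_25 hp hq hpq hle hsub h1.le

theorem tailL9_23 {p q : ℝ} (hp : 0 < p) (hq : 0 < q) (hpq : 1 < p * q) (hle : p ≤ q)
    (hsub : (357 / 50 : ℝ) * (p * q - 1) ≤ 2 * (p + q + 2))
    (hs : (3067743 / 5000000 : ℝ) ≤ p) : NoSol 9 p q := by
  rcases le_or_gt p (247789 / 400000 : ℝ) with h1 | h1
  · exact rowL9_23 hp h1 hq (q_le_of_corner (A0 := (357 / 50 : ℝ)) (p0 := (3067743 / 5000000 : ℝ)) (q0 := (10389303 / 2000000 : ℝ))
      (by norm_num) (by norm_num) (by norm_num) (by norm_num) hs hsub) hpq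
  · exact tailL9_24 hp hq hpq hle hsub h1.le

theorem tailL9_22 {p q : ℝ} (hp : 0 < p) (hq : 0 < q) (hpq : 1 < p * q) (hle : p ≤ q)
    (hsub : (357 / 50 : ℝ) * (p * q - 1) ≤ 2 * (p + q + 2))
    (hs : (6077233 / 10000000 : ℝ) ≤ p) : NoSol 9 p q := by
  rcases le_or_gt p (3067743 / 5000000 : ℝ) with h1 | h1
  · exact rowL9_22 hp h1 hq (q_le_of_corner (A0 := (357 / 50 : ℝ)) (p0 := (6077233 / 10000000 : ℝ)) (q0 := (6602547 / 1250000 : ℝ))
      (by norm_num) (by norm_num) (by norm_num) (by norm_num) hs hsub) hpq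
  · exact tailL9_23 hp hq hpq hle hsub h1.le

theorem tailL9_21 {p q : ℝ} (hp : 0 < p) (hq : 0 < q) (hpq : 1 < p * q) (hle : p ≤ q)
    (hsub : (357 / 50 : ℝ) * (p * q - 1) ≤ 2 * (p + q + 2))
    (hs : (6020393 / 10000000 : ℝ) ≤ p) : NoSol 9 p q := by
  rcases le_or_gt p (6077233 / 10000000 : ℝ) with h1 | h1
  · exact rowL9_21 hp h1 hq (q_le_of_corner (A0 := (357 / 50 : ℝ)) (p0 := (6020393 / 10000000 : ℝ)) (q0 := (13425881 / 2500000 : ℝ))
      (by norm_num) (by norm_num) (by norm_num) (by norm_num) hs hsub) hpq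
  · exact tailL9_22 hp hq hpq hle hsub h1.le

theorem tailL9_20 {p q : ℝ} (hp : 0 < p) (hq : 0 < q) (hpq : 1 < p * q) (hle : p ≤ q)
    (hsub : (357 / 50 : ℝ) * (p * q - 1) ≤ 2 * (p + q + 2))
    (hs : (2982007 / 5000000 : ℝ) ≤ p) : NoSol 9 p q := by
  rcases le_or_gt p (6020393 / 10000000 : ℝ) with h1 | h1
  · exact rowL9_20 hp h1 hq (q_le_of_corner (A0 := (357 / 50 : ℝ)) (p0 := (2982007 / 5000000 : ℝ)) (q0 := (27305433 / 5000000 : ℝ))
      (by norm_num) (by norm_num) (by norm_num) (by norm_num) hs hsub) hpq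
  · exact tailL9_21 hp hq hpq hle hsub h1.le

theorem tailL9_19 {p q : ℝ} (hp : 0 < p) (hq : 0 < q) (hpq : 1 < p * q) (hle : p ≤ q)
    (hsub : (357 / 50 : ℝ) * (p * q - 1) ≤ 2 * (p + q + 2))
    (hs : (1181849 / 2000000 : ℝ) ≤ p) : NoSol 9 p q := by
  rcases le_or_gt p (2982007 / 5000000 : ℝ) with h1 | h1
  · exact rowL9_19 hp h1 hq (q_le_of_corner (A0 := (357 / 50 : ℝ)) (p0 := (1181849 / 2000000 : ℝ)) (q0 := (27761909 / 5000000 : ℝ))
      (by norm_num) (by norm_num) (by norm_num) (by norm_num) hs hsub) hpq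
  · exact tailL9_20 hp hq hpq hle hsub h1.le

theorem tailL9_18 {p q : ℝ} (hp : 0 < p) (hq : 0 < q) (hpq : 1 < p * q) (hle : p ≤ q)
    (hsub : (357 / 50 : ℝ) * (p * q - 1) ≤ 2 * (p + q + 2))
    (hs : (1463751 / 2500000 : ℝ) ≤ p) : NoSol 9 p q := by
  rcases le_or_gt p (1181849 / 2000000 : ℝ) with h1 | h1
  · exact rowL9_18 hp h1 hq (q_le_of_corner (A0 := (357 / 50 : ℝ)) (p0 := (1463751 / 2500000 : ℝ)) (q0 := (28230121 / 5000000 : ℝ))
      (by norm_num) (by norm_num) (by norm_num) (by norm_num) hs hsub) hpq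
  · exact tailL9_19 hp hq hpq hle hsub h1.le

theorem tailL9_17 {p q : ℝ} (hp : 0 < p) (hq : 0 < q) (hpq : 1 < p * q) (hle : p ≤ q)
    (hsub : (357 / 50 : ℝ) * (p * q - 1) ≤ 2 * (p + q + 2))
    (hs : (5802399 / 10000000 : ℝ) ≤ p) : NoSol 9 p q := by
  rcases le_or_gt p (1463751 / 2500000 : ℝ) with h1 | h1
  · exact rowL9_17 hp h1 hq (q_le_of_corner (A0 := (357 / 50 : ℝ)) (p0 := (5802399 / 10000000 : ℝ)) (q0 := (28700377 / 5000000 : ℝ))
      (by norm_num) (by norm_num) (by norm_num) (by norm_num) hs hsub) hpq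
  · exact tailL9_18 hp hq hpq hle hsub h1.le

theorem tailL9_16 {p q : ℝ} (hp : 0 < p) (hq : 0 < q) (hpq : 1 < p * q) (hle : p ≤ q)
    (hsub : (357 / 50 : ℝ) * (p * q - 1) ≤ 2 * (p + q + 2))
    (hs : (5752691 / 10000000 : ℝ) ≤ p) : NoSol 9 p q := by
  rcases le_or_gt p (5802399 / 10000000 : ℝ) with h1 | h1
  · exact rowL9_16 hp h1 hq (q_le_of_corner (A0 := (357 / 50 : ℝ)) (p0 := (5752691 / 10000000 : ℝ)) (q0 := (29160139 / 5000000 : ℝ))
      (by norm_num) (by norm_num) (by norm_num) (by norm_num) hs hsub) hpq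
  · exact tailL9_17 hp hq hpq hle hsub h1.le

theorem tailL9_15 {p q : ℝ} (hp : 0 < p) (hq : 0 < q) (hpq : 1 < p * q) (hle : p ≤ q)
    (hsub : (357 / 50 : ℝ) * (p * q - 1) ≤ 2 * (p + q + 2))
    (hs : (285263 / 500000 : ℝ) ≤ p) : NoSol 9 p q := by
  rcases le_or_gt p (5752691 / 10000000 : ℝ) with h1 | h1
  · exact rowL9_15 hp h1 hq (q_le_of_corner (A0 := (357 / 50 : ℝ)) (p0 := (285263 / 500000 : ℝ)) (q0 := (14806757 / 2500000 : ℝ))
      (by norm_num) (by norm_num) (by norm_num) (by norm_num) hs hsub) hpq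
  · exact tailL9_16 hp hq hpq hle hsub h1.le

theorem tailL9_14 {p q : ℝ} (hp : 0 < p) (hq : 0 < q) (hpq : 1 < p * q) (hle : p ≤ q)
    (hsub : (357 / 50 : ℝ) * (p * q - 1) ≤ 2 * (p + q + 2))
    (hs : (5660413 / 10000000 : ℝ) ≤ p) : NoSol 9 p q := by
  rcases le_or_gt p (285263 / 500000 : ℝ) with h1 | h1
  · exact rowL9_14 hp h1 hq (q_le_of_corner (A0 := (357 / 50 : ℝ)) (p0 := (5660413 / 10000000 : ℝ)) (q0 := (60112049 / 10000000 : ℝ))
      (by norm_num) (by norm_num) (by norm_num) (by norm_num) hs hsub) hpq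
  · exact tailL9_15 hp hq hpq hle hsub h1.le

theorem tailL9_13 {p q : ℝ} (hp : 0 < p) (hq : 0 < q) (hpq : 1 < p * q) (hle : p ≤ q)
    (hsub : (357 / 50 : ℝ) * (p * q - 1) ≤ 2 * (p + q + 2))
    (hs : (1404017 / 2500000 : ℝ) ≤ p) : NoSol 9 p q := by
  rcases le_or_gt p (5660413 / 10000000 : ℝ) with h1 | h1
  · exact rowL9_13 hp h1 hq (q_le_of_corner (A0 := (357 / 50 : ℝ)) (p0 := (1404017 / 2500000 : ℝ)) (q0 := (61014891 / 10000000 : ℝ))
      (by norm_num) (by norm_num) (by norm_num) (by norm_num) hs hsub) hpq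
  · exact tailL9_14 hp hq hpq hle hsub h1.le

theorem tailL9_12 {p q : ℝ} (hp : 0 < p) (hq : 0 < q) (hpq : 1 < p * q) (hle : p ≤ q)
    (hsub : (357 / 50 : ℝ) * (p * q - 1) ≤ 2 * (p + q + 2))
    (hs : (44591 / 80000 : ℝ) ≤ p) : NoSol 9 p q := by
  rcases le_or_gt p (1404017 / 2500000 : ℝ) with h1 | h1
  · exact rowL9_12 hp h1 hq (q_le_of_corner (A0 := (357 / 50 : ℝ)) (p0 := (44591 / 80000 : ℝ)) (q0 := (61900729 / 10000000 : ℝ))
      (by norm_num) (by norm_num) (by norm_num) (by norm_num) hs hsub) hpq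
  · exact tailL9_13 hp hq hpq hle hsub h1.le

theorem tailL9_11 {p q : ℝ} (hp : 0 < p) (hq : 0 < q) (hpq : 1 < p * q) (hle : p ≤ q)
    (hsub : (357 / 50 : ℝ) * (p * q - 1) ≤ 2 * (p + q + 2))
    (hs : (1383513 / 2500000 : ℝ) ≤ p) : NoSol 9 p q := by
  rcases le_or_gt p (44591 / 80000 : ℝ) with h1 | h1
  · exact rowL9_11 hp h1 hq (q_le_of_corner (A0 := (357 / 50 : ℝ)) (p0 := (1383513 / 2500000 : ℝ)) (q0 := (62761901 / 10000000 : ℝ))
      (by norm_num) (by norm_num) (by norm_num) (by norm_num) hs hsub) hpq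
  · exact tailL9_12 hp hq hpq hle hsub h1.le

theorem tailL9_10 {p q : ℝ} (hp : 0 < p) (hq : 0 < q) (hpq : 1 < p * q) (hle : p ≤ q)
    (hsub : (357 / 50 : ℝ) * (p * q - 1) ≤ 2 * (p + q + 2))
    (hs : (2748201 / 5000000 : ℝ) ≤ p) : NoSol 9 p q := by
  rcases le_or_gt p (1383513 / 2500000 : ℝ) with h1 | h1
  · exact rowL9_10 hp h1 hq (q_le_of_corner (A0 := (357 / 50 : ℝ)) (p0 := (2748201 / 5000000 : ℝ)) (q0 := (12719897 / 2000000 : ℝ))
      (by norm_num) (by norm_num) (by norm_num) (by norm_num) hs hsub) hpq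
  · exact tailL9_11 hp hq hpq hle hsub h1.le

theorem tailL9_9 {p q : ℝ} (hp : 0 < p) (hq : 0 < q) (hpq : 1 < p * q) (hle : p ≤ q)
    (hsub : (357 / 50 : ℝ) * (p * q - 1) ≤ 2 * (p + q + 2))
    (hs : (5461033 / 10000000 : ℝ) ≤ p) : NoSol 9 p q := by
  rcases le_or_gt p (2748201 / 5000000 : ℝ) with h1 | h1
  · exact rowL9_9 hp h1 hq (q_le_of_corner (A0 := (357 / 50 : ℝ)) (p0 := (5461033 / 10000000 : ℝ)) (q0 := (16101981 / 2500000 : ℝ))
      (by norm_num) (by norm_num) (by norm_num) (by norm_num) hs hsub) hpq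
  · exact tailL9_10 hp hq hpq hle hsub h1.le

theorem tailL9_8 {p q : ℝ} (hp : 0 < p) (hq : 0 < q) (hpq : 1 < p * q) (hle : p ≤ q)
    (hsub : (357 / 50 : ℝ) * (p * q - 1) ≤ 2 * (p + q + 2))
    (hs : (1085361 / 2000000 : ℝ) ≤ p) : NoSol 9 p q := by
  rcases le_or_gt p (5461033 / 10000000 : ℝ) with h1 | h1
  · exact rowL9_8 hp h1 hq (q_le_of_corner (A0 := (357 / 50 : ℝ)) (p0 := (1085361 / 2000000 : ℝ)) (q0 := (3260551 / 500000 : ℝ))
      (by norm_num) (by norm_num) (by norm_num) (by norm_num) hs hsub) hpq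
  · exact tailL9_9 hp hq hpq hle hsub h1.le

theorem tailL9_7 {p q : ℝ} (hp : 0 < p) (hq : 0 < q) (hpq : 1 < p * q) (hle : p ≤ q)
    (hsub : (357 / 50 : ℝ) * (p * q - 1) ≤ 2 * (p + q + 2))
    (hs : (539437 / 1000000 : ℝ) ≤ p) : NoSol 9 p q := by
  rcases le_or_gt p (1085361 / 2000000 : ℝ) with h1 | h1
  · exact rowL9_7 hp h1 hq (q_le_of_corner (A0 := (357 / 50 : ℝ)) (p0 := (539437 / 1000000 : ℝ)) (q0 := (6599161 / 1000000 : ℝ))
      (by norm_num) (by norm_num) (by norm_num) (by norm_num) hs hsub) hpq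
  · exact tailL9_8 hp hq hpq hle hsub h1.le

theorem tailL9_6 {p q : ℝ} (hp : 0 < p) (hq : 0 < q) (hpq : 1 < p * q) (hle : p ≤ q)
    (hsub : (357 / 50 : ℝ) * (p * q - 1) ≤ 2 * (p + q + 2))
    (hs : (2682171 / 5000000 : ℝ) ≤ p) : NoSol 9 p q := by
  rcases le_or_gt p (539437 / 1000000 : ℝ) with h1 | h1
  · exact rowL9_6 hp h1 hq (q_le_of_corner (A0 := (357 / 50 : ℝ)) (p0 := (2682171 / 5000000 : ℝ)) (q0 := (16682971 / 2500000 : ℝ))
      (by norm_num) (by norm_num) (by norm_num) (by norm_num) hs hsub) hpq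
  · exact tailL9_7 hp hq hpq hle hsub h1.le

theorem tailL9_5 {p q : ℝ} (hp : 0 < p) (hq : 0 < q) (hpq : 1 < p * q) (hle : p ≤ q)
    (hsub : (357 / 50 : ℝ) * (p * q - 1) ≤ 2 * (p + q + 2))
    (hs : (5336351 / 10000000 : ℝ) ≤ p) : NoSol 9 p q := by
  rcases le_or_gt p (2682171 / 5000000 : ℝ) with h1 | h1
  · exact rowL9_5 hp h1 hq (q_le_of_corner (A0 := (357 / 50 : ℝ)) (p0 := (5336351 / 10000000 : ℝ)) (q0 := (67437731 / 10000000 : ℝ))
      (by norm_num) (by norm_num) (by norm_num) (by norm_num) hs hsub) hpq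
  · exact tailL9_6 hp hq hpq hle hsub h1.le

theorem tailL9_4 {p q : ℝ} (hp : 0 < p) (hq : 0 < q) (hpq : 1 < p * q) (hle : p ≤ q)
    (hsub : (357 / 50 : ℝ) * (p * q - 1) ≤ 2 * (p + q + 2))
    (hs : (1062009 / 2000000 : ℝ) ≤ p) : NoSol 9 p q := by
  rcases le_or_gt p (5336351 / 10000000 : ℝ) with h1 | h1
  · exact rowL9_4 hp h1 hq (q_le_of_corner (A0 := (357 / 50 : ℝ)) (p0 := (1062009 / 2000000 : ℝ)) (q0 := (17028861 / 2500000 : ℝ))
      (by norm_num) (by norm_num) (by norm_num) (by norm_num) hs hsub) hpq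
  · exact tailL9_5 hp hq hpq hle hsub h1.le

theorem tailL9_3 {p q : ℝ} (hp : 0 < p) (hq : 0 < q) (hpq : 1 < p * q) (hle : p ≤ q)
    (hsub : (357 / 50 : ℝ) * (p * q - 1) ≤ 2 * (p + q + 2))
    (hs : (5286167 / 10000000 : ℝ) ≤ p) : NoSol 9 p q := by
  rcases le_or_gt p (1062009 / 2000000 : ℝ) with h1 | h1
  · exact rowL9_3 hp h1 hq (q_le_of_corner (A0 := (357 / 50 : ℝ)) (p0 := (5286167 / 10000000 : ℝ)) (q0 := (17185757 / 2500000 : ℝ))
      (by norm_num) (by norm_num) (by norm_num) (by norm_num) hs hsub) hpq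
  · exact tailL9_4 hp hq hpq hle hsub h1.le

theorem tailL9_2 {p q : ℝ} (hp : 0 < p) (hq : 0 < q) (hpq : 1 < p * q) (hle : p ≤ q)
    (hsub : (357 / 50 : ℝ) * (p * q - 1) ≤ 2 * (p + q + 2))
    (hs : (1052901 / 2000000 : ℝ) ≤ p) : NoSol 9 p q := by
  rcases le_or_gt p (5286167 / 10000000 : ℝ) with h1 | h1
  · exact rowL9_2 hp h1 hq (q_le_of_corner (A0 := (357 / 50 : ℝ)) (p0 := (1052901 / 2000000 : ℝ)) (q0 := (34661447 / 5000000 : ℝ))
      (by norm_num) (by norm_num) (by norm_num) (by norm_num) hs hsub) hpq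
  · exact tailL9_3 hp hq hpq hle hsub h1.le

theorem tailL9_1 {p q : ℝ} (hp : 0 < p) (hq : 0 < q) (hpq : 1 < p * q) (hle : p ≤ q)
    (hsub : (357 / 50 : ℝ) * (p * q - 1) ≤ 2 * (p + q + 2))
    (hs : (5246679 / 10000000 : ℝ) ≤ p) : NoSol 9 p q := by
  rcases le_or_gt p (1052901 / 2000000 : ℝ) with h1 | h1
  · exact rowL9_1 hp h1 hq (q_le_of_corner (A0 := (357 / 50 : ℝ)) (p0 := (5246679 / 10000000 : ℝ)) (q0 := (3490389 / 500000 : ℝ))
      (by norm_num) (by norm_num) (by norm_num) (by norm_num) hs hsub) hpq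
  · exact tailL9_2 hp hq hpq hle hsub h1.le

theorem tailL9_0 {p q : ℝ} (hp : 0 < p) (hq : 0 < q) (hpq : 1 < p * q) (hle : p ≤ q)
    (hsub : (357 / 50 : ℝ) * (p * q - 1) ≤ 2 * (p + q + 2))
    (hs : (157 / 300 : ℝ) ≤ p) : NoSol 9 p q := by
  rcases le_or_gt p (5246679 / 10000000 : ℝ) with h1 | h1
  · exact rowL9_0 hp h1 hq (q_le_of_corner (A0 := (357 / 50 : ℝ)) (p0 := (157 / 300 : ℝ)) (q0 := (35087723 / 5000000 : ℝ))
      (by norm_num) (by norm_num) (by norm_num) (by norm_num) hs hsub) hpq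
  · exact tailL9_1 hp hq hpq hle hsub h1.le

/-- The staircase: `α + β ≥ 7.14`, `max(α, β) ≤ 6`, in dimension 9. -/
theorem tableL9 {p q : ℝ} (hp : 0 < p) (hq : 0 < q) (hpq : 1 < p * q)
    (hsub : (357 / 50 : ℝ) * (p * q - 1) ≤ 2 * (p + q + 2))
    (hα : 2 * (p + 1) ≤ (6 : ℝ) * (p * q - 1)) (hβ : 2 * (q + 1) ≤ (6 : ℝ) * (p * q - 1)) :
    NoSol 9 p q := by
  rcases le_total p q with hle | hle
  · have hs := p_lower (B := 6) (by norm_num) hq hpq hsub hβ (by norm_num)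
    have hs' : (157 / 300 : ℝ) ≤ p := by
      norm_num at hs ⊢
      linarith
    exact tailL9_0 hp hq hpq hle hsub hs'
  · have hpq' : 1 < q * p := by linarith [mul_comm p q]
    have hsub' : (357 / 50 : ℝ) * (q * p - 1) ≤ 2 * (q + p + 2) := by
      rw [mul_comm q p, add_comm q p]
      exact hsub
    have hα' : 2 * (p + 1) ≤ (6 : ℝ) * (q * p - 1) := by
      rw [mul_comm q p]
      exact hα
    have hs := p_lower (B := 6) (by norm_num) hp hpq' hsub' hα' (by norm_num)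
    have hs' : (157 / 300 : ℝ) ≤ q := by
      norm_num at hs ⊢
      linarith
    exact (tailL9_0 hq hp hpq' hle hsub' hs').swap

end Vale.Agent.Lib.P100
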