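import Vale.Agent.Lib.P100.TableL5
import Vale.Agent.Lib.P100.TableL6
import Vale.Agent.Lib.P100.TableL7
import Vale.Agent.Lib.P100.TableL8
import Vale.Agent.Lib.P100.TableL9

/-!
Nonexistence close to the critical hyperbola in low dimensions.
-/

namespace Vale.Agent.Lib.P100

/-- Conversion of the statements on `α`, `β` into the polynomial form used by the tables. -/
lemma of_alpha_beta {p q A0 B : ℝ} (hpq : 1 < p * q)
    (hα : 2 * (p + 1) / (p * q - 1) ≤ B) (hβ : 2 * (q + 1) / (p * q - 1) ≤ B)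
    (hs : A0 ≤ 2 * (p + 1) / (p * q - 1) + 2 * (q + 1) / (p * q - 1)) :
    A0 * (p * q - 1) ≤ 2 * (p + q + 2) ∧ 2 * (p + 1) ≤ B * (p * q - 1) ∧
      2 * (q + 1) ≤ B * (p * q - 1) := by
  have hd : 0 < p * q - 1 := by linarith
  refine ⟨?_, (div_le_iff₀ hd).1 hα, (div_le_iff₀ hd).1 hβ⟩
  rw [← add_div, le_div_iff₀ hd] at hs
  linarith

end Vale.Agent.Lib.P100
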