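import Vale.Agent.Lib.P100.Blocks

/-!
A one-sided criterion: one block is positive definite after completing the square in the other.
-/

namespace Vale.Agent.Lib.P100

/-- Coercivity of the completed-square form on the cone. -/
lemma oneSided_lb {A1 B1 C S t ρ : ℝ} (hA : 0 < A1) (hD : B1 ^ 2 < 4 * A1 * C) (hS : 0 ≤ S)
    (ht : 0 < t) :
    ∃ e, 0 < e ∧ ∀ x y z : ℝ, y ^ 2 ≤ x * z →
      e * (x ^ 2 + z ^ 2) ≤ A1 * x ^ 2 + B1 * (x * y) + C * y ^ 2 + S * (x * z - y ^ 2)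
        + t * (z + ρ * y) ^ 2 := by
  have hC : 0 < C := by
    by_contra h
    have h1 : A1 * C ≤ 0 := mul_nonpos_of_nonneg_of_nonpos hA.le (not_lt.1 h)
    nlinarith [sq_nonneg B1]
  set D := 4 * A1 * C - B1 ^ 2 with hDd
  have hD0 : 0 < D := by rw [hDd]; linarith
  set e1 := D / (4 * (A1 + C)) with he1
  have hs : 0 < A1 + C := by linarith
  have he10 : 0 < e1 := div_pos hD0 (by positivity)
  have heq : e1 * (4 * (A1 + C)) = D := by
    rw [he1]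
    field_simp
  have hbD : D ≤ 4 * A1 * C := by
    rw [hDd]
    nlinarith [sq_nonneg B1]
  have h1 : e1 ≤ A1 := by
    have : e1 * (A1 + C) ≤ A1 * C := by nlinarith
    by_contra h
    push Not at h
    nlinarith
  have h2 : e1 ≤ C := by
    have : e1 * (A1 + C) ≤ A1 * C := by nlinarith
    by_contra h
    push Not at h
    nlinarith
  have hq : ∀ x y : ℝ, e1 * (x ^ 2 + y ^ 2) ≤ A1 * x ^ 2 + B1 * (x * y) + C * y ^ 2 := by
    intro x y
    have h3 : 0 ≤ (A1 - e1) * x ^ 2 + B1 * (x * y) + (C - e1) * y ^ 2 := by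
      refine lin_cone (by linarith) (by linarith) ?_ (sq_nonneg x) (sq_nonneg y) (by nlinarith)
      nlinarith [sq_nonneg e1]
    nlinarith
  set e2 := min (t / 2) (e1 / (2 * ρ ^ 2 + 1)) with he2
  have hd : 0 < 2 * ρ ^ 2 + 1 := by positivity
  have he20 : 0 < e2 := lt_min (by positivity) (by positivity)
  have he2a : e2 ≤ t / 2 := min_le_left _ _
  have he2b : e2 * (2 * ρ ^ 2 + 1) ≤ e1 := by
    have : e2 ≤ e1 / (2 * ρ ^ 2 + 1) := min_le_right _ _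
    rwa [le_div_iff₀ hd] at this
  refine ⟨min e1 e2, lt_min he10 he20, fun x y z hy => ?_⟩
  have hcone : 0 ≤ S * (x * z - y ^ 2) := mul_nonneg hS (by linarith)
  have hq1 := hq x y
  have h5 : e2 * z ^ 2 ≤ t * (z + ρ * y) ^ 2 + e1 * y ^ 2 := by
    have h6 : z ^ 2 ≤ 2 * (z + ρ * y) ^ 2 + 2 * ρ ^ 2 * y ^ 2 := by
      nlinarith [sq_nonneg (z + 2 * ρ * y)]
    have h7 : e2 * z ^ 2 ≤ e2 * (2 * (z + ρ * y) ^ 2) + e2 * (2 * ρ ^ 2) * y ^ 2 := by
      have := mul_le_mul_of_nonneg_left h6 he20.le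
      nlinarith
    have h8 : e2 * (2 * (z + ρ * y) ^ 2) ≤ t * (z + ρ * y) ^ 2 := by
      have := mul_le_mul_of_nonneg_right he2a (sq_nonneg (z + ρ * y))
      nlinarith
    have h9 : e2 * (2 * ρ ^ 2) * y ^ 2 ≤ e1 * y ^ 2 := by
      have h10 : e2 * (2 * ρ ^ 2) ≤ e1 := by nlinarith
      exact mul_le_mul_of_nonneg_right h10 (sq_nonneg y)
    linarith
  have h11 : min e1 e2 * (x ^ 2 + z ^ 2) ≤ e1 * x ^ 2 + e2 * z ^ 2 := by
    have h12 : min e1 e2 * x ^ 2 ≤ e1 * x ^ 2 :=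
      mul_le_mul_of_nonneg_right (min_le_left _ _) (sq_nonneg x)
    have h13 : min e1 e2 * z ^ 2 ≤ e2 * z ^ 2 :=
      mul_le_mul_of_nonneg_right (min_le_right _ _) (sq_nonneg z)
    linarith
  linarith

/-- Nonexistence from two square conditions and one completed-square block. -/
theorem noSol_oneSided {n : ℕ} (hn : 2 ≤ n) {p q a b τ A5 A6 A9 A10 : ℝ} (hpq : 1 < p * q)
    (hla : 0 ≤ a + b * q) (hmu : 0 ≤ a * p + b)
    (hwt : ((n : ℝ) - 4) * (p * q - 1) < 2 * (a * (p + 1) + b * (q + 1)))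
    (hτ : 0 < τ) (hA5 : 0 ≤ A5) (hA6 : 0 ≤ A6) (hA9 : 0 ≤ A9) (hA10 : 0 ≤ A10)
    (hW1 : (2 / (n : ℝ) * A6 - (1 - 1 / (n : ℝ)) * p) ^ 2 ≤ 4 * ((1 + 2 / (n : ℝ)) * A5) * (τ * A9))
    (hW2 : (τ * (2 / (n : ℝ) * A9 - (1 - 1 / (n : ℝ)) * q)) ^ 2 ≤ 4 * A6 * (τ * (1 + 2 / (n : ℝ)) * A10))
    (ha0 : 0 < blA n b A10) (hA1 : 0 < blA n a A5)
    (hPD : blB n a b A5 A6 ^ 2 < 4 * blA n a A5 *
      (blG n b A6 + τ * (blG n a A9 - blB n b a A10 A9 ^ 2 / (4 * blA n b A10)))) :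
    NoSol n p q := by
  have hn0 : 0 < n := by omega
  have hN : (2 : ℝ) ≤ n := by exact_mod_cast hn
  set a0 := blA n b A10 with ha0d
  set B2 := blB n b a A10 A9 with hB2d
  set G2 := blG n a A9 with hG2d
  set G1 := blG n b A6 with hG1d
  set A1 := blA n a A5 with hA1d
  set B1 := blB n a b A5 A6 with hB1d
  set C := G1 + τ * (G2 - B2 ^ 2 / (4 * a0)) with hCd
  set c0 := ((b / 2 - A6) ^ 2 + τ * (a / 2 - A9) ^ 2) * (1 / 2 - 1 / (n : ℝ)) with hc0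
  have hC : 0 < C := by
    by_contra h
    have h1 : A1 * C ≤ 0 := mul_nonpos_of_nonneg_of_nonpos hA1.le (not_lt.1 h)
    nlinarith [sq_nonneg B1]
  have hc00 : 0 ≤ c0 := by
    have h6 : 1 / (n : ℝ) ≤ 1 / 2 := one_div_le_one_div_of_le (by norm_num) hN
    have h7 : 0 ≤ 1 / 2 - 1 / (n : ℝ) := by linarith
    rw [hc0]
    positivity
  have hB2q : 0 ≤ B2 ^ 2 / (4 * a0) := by positivity
  have hS : 0 ≤ G1 + τ * G2 + c0 := by
    have h1 : G1 + τ * G2 = C + τ * (B2 ^ 2 / (4 * a0)) := by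
      rw [hCd]
      ring
    have h2 : 0 ≤ τ * (B2 ^ 2 / (4 * a0)) := by positivity
    linarith
  obtain ⟨e, he, hlb⟩ := oneSided_lb (ρ := B2 / (2 * a0)) hA1 hPD hS (mul_pos hτ ha0)
  refine noSol_of_sep_ab (A5 := A5) (A6 := A6) (A9 := A9) (A10 := A10) (e := e) hn0 hpq hla hmu hwt
    hτ he (fun x y z hx hz hy => ?_) (fun x y z hx hz hy => ?_) (fun x y z hx hz hy => ?_)
  · have hu : 0 ≤ (1 + 2 / (n : ℝ)) * A5 := by positivity
    have := lin_cone hu (mul_nonneg hτ.le hA9) hW1 hx hz hy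
    simp only [ell1]
    linarith
  · have hw : 0 ≤ τ * (1 + 2 / (n : ℝ)) * A10 := by positivity
    have := lin_cone hA6 hw hW2 hx hz hy
    simp only [ell2]
    linarith
  · rw [R4F_blocks]
    have h3 := hlb x y z hy
    have hne : a0 ≠ 0 := ha0.ne'
    have e1 : x * (A1 * x + B1 * y + G1 * z) + τ * (z * (G2 * x + B2 * y + a0 * z)) +
          c0 * (x * z - y ^ 2) =
        A1 * x ^ 2 + B1 * (x * y) + C * y ^ 2 + (G1 + τ * G2 + c0) * (x * z - y ^ 2) +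
          τ * a0 * (z + B2 / (2 * a0) * y) ^ 2 := by
      rw [hCd]
      field_simp
      ring
    rw [← hc0] at *
    rw [e1]
    exact h3

end Vale.Agent.Lib.P100
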