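import Vale.Agent.Lib.P100.PsiB

/-!
The main polynomial inequality.
-/

namespace Vale.Agent.Lib.P100

/-- `N`-form of the cubic factor. -/
def psiH (N x : ℝ) : ℝ :=
  (N * (N + 2)) ^ 2 * x * (N - 1 + 2 * x) * (2 * (N - 1) + x * N * (N - 3))

/-- The denominator polynomial, scaled by the denominator of `z`. -/
def psiBs (m x : ℝ) : ℝ :=
  (2 * m - 3) * (m + 2) * ((m ^ 2 * m ^ 2 + m ^ 2 + 2) * (m ^ 2 - 1) - x * m ^ 2 * ((m ^ 2 - 1) + 2))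
    + x * m ^ 2 * (m ^ 2 - 1) * (2 * (m - 2))

/-- The numerator polynomial, scaled by the denominator of `z`. -/
def psiAs (m x : ℝ) : ℝ :=
  x * m ^ 2 * (m ^ 2 - 1) * (m ^ 2 - 1) * ((m ^ 2 + 1) * ((2 * m - 3) * (m + 2)) - 2 * (2 * (m - 2)))
    + ((2 * m - 3) * (m + 2) - 2 * (m - 2)) *
      ((m ^ 2 * m ^ 2 + m ^ 2 + 2) * (m ^ 2 - 1) - 2 * x * m ^ 2)

lemma psi_cert (m x : ℝ) :
    (2 * m - 1) ^ 5 * (psiH (m ^ 2) x * psiBs m x ^ 2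
        - psiAs m x ^ 2 * ((m ^ 2 + 1) ^ 3 * m ^ 2 * (m ^ 2 - 1))) =
      psiB0 m * (1 - x) ^ 5 + psiB1 m * (2 * m * x - 1) * (1 - x) ^ 4
        + psiB2 m * (2 * m * x - 1) ^ 2 * (1 - x) ^ 3 + psiB3 m * (2 * m * x - 1) ^ 3 * (1 - x) ^ 2
        + psiB4 m * (2 * m * x - 1) ^ 4 * (1 - x) + psiB5 m * (2 * m * x - 1) ^ 5 := by
  simp only [psiH, psiBs, psiAs, psiB0, psiB1, psiB2, psiB3, psiB4, psiB5]
  ring

end Vale.Agent.Lib.P100
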