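import Vale.Agent.Lib.P100.Blocks

/-!
Rectangles of exponents from one rational certificate.
-/

namespace Vale.Agent.Lib.P100

/-- A real quadratic form with positive leading minors and nonnegative determinant is
nonnegative. -/
lemma psd3 {m11 m12 m13 m22 m23 m33 : ℝ} (h1 : 0 < m11) (h2 : 0 < m11 * m22 - m12 ^ 2)
    (h3 : 0 ≤ m11 * (m22 * m33 - m23 ^ 2) - m12 * (m12 * m33 - m23 * m13)
      + m13 * (m12 * m23 - m22 * m13)) (x y z : ℝ) :
    0 ≤ m11 * x ^ 2 + 2 * m12 * (x * y) + 2 * m13 * (x * z) + m22 * y ^ 2 + 2 * m23 * (y * z)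
      + m33 * z ^ 2 := by
  set D := m11 * m22 - m12 ^ 2 with hD
  set E := m11 * m23 - m12 * m13 with hE
  set det := m11 * (m22 * m33 - m23 ^ 2) - m12 * (m12 * m33 - m23 * m13)
      + m13 * (m12 * m23 - m22 * m13) with hdet
  have id : m11 * D * (m11 * x ^ 2 + 2 * m12 * (x * y) + 2 * m13 * (x * z) + m22 * y ^ 2
        + 2 * m23 * (y * z) + m33 * z ^ 2) =
      D * (m11 * x + m12 * y + m13 * z) ^ 2 + (D * y + E * z) ^ 2 + m11 * det * z ^ 2 := by
    rw [hD, hE, hdet]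
    ring
  have h4 : 0 ≤ m11 * D * (m11 * x ^ 2 + 2 * m12 * (x * y) + 2 * m13 * (x * z) + m22 * y ^ 2
        + 2 * m23 * (y * z) + m33 * z ^ 2) := by
    rw [id]
    positivity
  exact nonneg_of_mul_nonneg_right h4 (by positivity)

/-- `v² ≤ R` when `v` lies between two numbers with squares at most `R`. -/
lemma sq_between {u v w R : ℝ} (h1 : u ≤ v) (h2 : v ≤ w) (hu : u ^ 2 ≤ R) (hw : w ^ 2 ≤ R) :
    v ^ 2 ≤ R := by
  by_cases hv : 0 ≤ v
  · exact le_trans (by gcongr) hw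
  · push Not at hv
    have : v ^ 2 ≤ u ^ 2 := by nlinarith
    linarith

/-- Monotonicity of the weight condition. -/
lemma weight_mono {N a b p q pb qb : ℝ} (ha : 0 ≤ a) (hb : 0 ≤ b) (hp : 0 < p) (hq : 0 < q)
    (hpb : p ≤ pb) (hqb : q ≤ qb) (hpq : 1 < p * q)
    (hwt : (N - 4) * (pb * qb - 1) < 2 * (a * (pb + 1) + b * (qb + 1))) :
    (N - 4) * (p * q - 1) < 2 * (a * (p + 1) + b * (q + 1)) := by
  have hd : 0 < p * q - 1 := by linarith
  have hd1 : p * q ≤ pb * q := by gcongr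
  have hpb0 : 0 < pb := by linarith
  have hd2 : pb * q ≤ pb * qb := by gcongr
  have hD : 0 < pb * qb - 1 := by linarith
  -- cross-multiplied monotonicity
  have key : (a * (pb + 1) + b * (qb + 1)) * (p * q - 1) ≤
      (a * (p + 1) + b * (q + 1)) * (pb * qb - 1) := by
    have e : (a * (p + 1) + b * (q + 1)) * (pb * qb - 1) -
        (a * (pb + 1) + b * (qb + 1)) * (p * q - 1) =
        a * ((pb - p) * (1 + q) + (p + 1) * pb * (qb - q)) +
        b * ((qb - q) * (1 + p) + (q + 1) * qb * (pb - p)) := by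
      ring
    have h1 : 0 ≤ pb - p := by linarith
    have h2 : 0 ≤ qb - q := by linarith
    have h3a : 0 ≤ (pb - p) * (1 + q) + (p + 1) * pb * (qb - q) :=
      add_nonneg (mul_nonneg h1 (by positivity)) (mul_nonneg (by positivity) h2)
    have h3b : 0 ≤ (qb - q) * (1 + p) + (q + 1) * qb * (pb - p) := by
      have hqb0 : 0 < qb := by linarith
      exact add_nonneg (mul_nonneg h2 (by positivity)) (mul_nonneg (by positivity) h1)
    have h3 := add_nonneg (mul_nonneg ha h3a) (mul_nonneg hb h3b)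
    linarith
  by_contra hc
  push Not at hc
  have h5 := mul_le_mul_of_nonneg_right hc hD.le
  have h6 := mul_lt_mul_of_pos_right hwt hd
  nlinarith

/-- One rational certificate gives a whole rectangle of exponents. -/
theorem noSol_rect {n : ℕ} (hn : 2 ≤ n) {N a b τ A5 A6 A9 A10 s e pb qb : ℝ} (hN : N = (n : ℝ))
    (ha : 0 ≤ a) (hb : 0 ≤ b) (hτ : 0 < τ) (h5 : 0 ≤ A5) (h6 : 0 ≤ A6) (h9 : 0 ≤ A9)
    (h10 : 0 ≤ A10) (he : 0 < e) (hs : 0 ≤ s)
    (hW1a : (2 / N * A6 - (1 - 1 / N) * pb) ^ 2 ≤ 4 * ((1 + 2 / N) * A5) * (τ * A9))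
    (hW1b : (2 / N * A6) ^ 2 ≤ 4 * ((1 + 2 / N) * A5) * (τ * A9))
    (hW2a : (τ * (2 / N * A9 - (1 - 1 / N) * qb)) ^ 2 ≤ 4 * A6 * (τ * (1 + 2 / N) * A10))
    (hW2b : (τ * (2 / N * A9)) ^ 2 ≤ 4 * A6 * (τ * (1 + 2 / N) * A10))
    (hwt : (N - 4) * (pb * qb - 1) < 2 * (a * (pb + 1) + b * (qb + 1)))
    {m11 m12 m13 m22 m23 m33 : ℝ}
    (e11 : m11 = A5 * (3 - a) - (1 - 1 / N) * ((a - 2) / 2 - A5) ^ 2 - e)
    (e12 : m12 = (-A5 * b + A6 * (2 - a) - 2 * (1 - 1 / N) * ((a - 2) / 2 - A5) * (b / 2 - A6)) / 2)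
    (e13 : m13 = (A6 * (1 - b) - (b / 2 - A6) ^ 2 / 2
      + τ * (A9 * (1 - a) - (a / 2 - A9) ^ 2 / 2)) / 2 - s)
    (e22 : m22 = -((b / 2 - A6) ^ 2 + τ * (a / 2 - A9) ^ 2) * (1 / 2 - 1 / N) + 2 * s)
    (e23 : m23 = τ * (A9 * (2 - b) - A10 * a - 2 * (1 - 1 / N) * (a / 2 - A9) * ((b - 2) / 2 - A10)) / 2)
    (e33 : m33 = τ * (A10 * (3 - b) - (1 - 1 / N) * ((b - 2) / 2 - A10) ^ 2) - e)
    (hm1 : 0 < m11) (hm2 : 0 < m11 * m22 - m12 ^ 2)
    (hm3 : 0 ≤ m11 * (m22 * m33 - m23 ^ 2) - m12 * (m12 * m33 - m23 * m13)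
      + m13 * (m12 * m23 - m22 * m13))
    {p q : ℝ} (hp : 0 < p) (hpb : p ≤ pb) (hq : 0 < q) (hqb : q ≤ qb) (hpq : 1 < p * q) :
    NoSol n p q := by
  subst hN
  have hn0 : 0 < n := by omega
  have hN1 : (2 : ℝ) ≤ n := by exact_mod_cast hn
  have hK : 0 ≤ 1 - 1 / (n : ℝ) := by
    have : 1 / (n : ℝ) ≤ 1 / 2 := one_div_le_one_div_of_le (by norm_num) hN1
    linarith
  refine noSol_of_sep_ab (A5 := A5) (A6 := A6) (A9 := A9) (A10 := A10) (e := e) hn0 hpq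
    (by positivity) (by positivity) (weight_mono ha hb hp hq hpb hqb hpq hwt) hτ he
    (fun x y z hx hz hy => ?_) (fun x y z hx hz hy => ?_) (fun x y z hx hz hy => ?_)
  · have h1 : (2 / (n : ℝ) * A6 - (1 - 1 / (n : ℝ)) * p) ^ 2 ≤
        4 * ((1 + 2 / (n : ℝ)) * A5) * (τ * A9) := by
      refine sq_between (u := 2 / (n : ℝ) * A6 - (1 - 1 / (n : ℝ)) * pb)
        (w := 2 / (n : ℝ) * A6) ?_ ?_ hW1a hW1b
      · have := mul_le_mul_of_nonneg_left hpb hK
        linarith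
      · have := mul_nonneg hK hp.le
        linarith
    have hu : 0 ≤ (1 + 2 / (n : ℝ)) * A5 := by positivity
    have := lin_cone hu (mul_nonneg hτ.le h9) h1 hx hz hy
    simp only [ell1]
    linarith
  · have h1 : (τ * (2 / (n : ℝ) * A9 - (1 - 1 / (n : ℝ)) * q)) ^ 2 ≤
        4 * A6 * (τ * (1 + 2 / (n : ℝ)) * A10) := by
      refine sq_between (u := τ * (2 / (n : ℝ) * A9 - (1 - 1 / (n : ℝ)) * qb))
        (w := τ * (2 / (n : ℝ) * A9)) ?_ ?_ hW2a hW2b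
      · have := mul_le_mul_of_nonneg_left hqb hK
        apply mul_le_mul_of_nonneg_left _ hτ.le
        linarith
      · have := mul_nonneg hK hq.le
        apply mul_le_mul_of_nonneg_left _ hτ.le
        linarith
    have hw : 0 ≤ τ * (1 + 2 / (n : ℝ)) * A10 := by positivity
    have := lin_cone h6 hw h1 hx hz hy
    simp only [ell2]
    linarith
  · have h1 := psd3 hm1 hm2 hm3 x y z
    have h2 : 0 ≤ 2 * s * (x * z - y ^ 2) := by
      have : 0 ≤ x * z - y ^ 2 := by linarith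
      positivity
    have h3 : R4F n a b τ A5 A6 A9 A10 x y z - e * (x ^ 2 + z ^ 2) =
        (m11 * x ^ 2 + 2 * m12 * (x * y) + 2 * m13 * (x * z) + m22 * y ^ 2 + 2 * m23 * (y * z)
          + m33 * z ^ 2) + 2 * s * (x * z - y ^ 2) := by
      rw [e11, e12, e13, e22, e23, e33]
      simp only [R4F]
      ring
    linarith

end Vale.Agent.Lib.P100
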