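import Vale.Agent.Lib.P100.Algebra

/-!
The logarithmic substitution `U = log u`, `V = log v`.
-/

namespace Vale.Agent.Lib.P100

variable {n : ℕ}

/-- The gradient as a function of the index. -/
noncomputable def grd (U : (Fin n → ℝ) → ℝ) (x : Fin n → ℝ) : Fin n → ℝ := fun i => pd i U x

/-- The Hessian as a function of the two indices. -/
noncomputable def hsn (U : (Fin n → ℝ) → ℝ) (x : Fin n → ℝ) : Fin n → Fin n → ℝ :=
  fun i j => pd i (pd j U) x

/-- If `u` is positive, `C³` and `-Δu = f`, then `U = log u` is `C³` and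
`ΔU + |∇U|² = -f/u`. -/
theorem log_eq {u : (Fin n → ℝ) → ℝ} (hu : ContDiff ℝ 3 u) (upos : ∀ x, 0 < u x) (x : Fin n → ℝ) :
    lap (fun y => Real.log (u y)) x + dot (grd (fun y => Real.log (u y)) x) (grd (fun y => Real.log (u y)) x)
      = lap u x / u x := by
  have hd : ∀ y, DifferentiableAt ℝ u y := fun y => (hu.differentiable (by norm_num)) y
  have h1 : ∀ i, pd i (fun y => Real.log (u y)) = fun y => pd i u y * (u y)⁻¹ := by
    intro i
    funext y
    rw [pd_comp (Real.differentiableAt_log (upos y).ne') (hd y), Real.deriv_log]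
    ring
  have hdp : ∀ i, DifferentiableAt ℝ (pd i u) x := fun i =>
    ((contDiff_pd_two hu i).differentiable (by norm_num)) x
  have hdi : DifferentiableAt ℝ (fun y => (u y)⁻¹) x := (hd x).inv (upos x).ne'
  have hinv : ∀ i, pd i (fun y => (u y)⁻¹) x = - (u x ^ 2)⁻¹ * pd i u x := by
    intro i
    have h := pd_comp (g := fun t : ℝ => t⁻¹) (differentiableAt_inv (upos x).ne') (hd x) i
    rw [h, deriv_inv]
  have h2 : ∀ i, pd i (pd i (fun y => Real.log (u y))) x =
      pd i (pd i u) x * (u x)⁻¹ - (pd i u x * (u x)⁻¹) ^ 2 := by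
    intro i
    rw [h1 i, pd_mul (hdp i) hdi i, hinv i]
    have := (upos x).ne'
    field_simp
    ring
  unfold lap dot grd
  simp only [h2]
  simp only [h1]
  rw [← Finset.sum_add_distrib, div_eq_mul_inv, Finset.sum_mul]
  refine Finset.sum_congr rfl fun i _ => ?_
  ring

lemma contDiff_log {u : (Fin n → ℝ) → ℝ} (hu : ContDiff ℝ 3 u) (upos : ∀ x, 0 < u x) :
    ContDiff ℝ 3 (fun y => Real.log (u y)) :=
  hu.log fun x => (upos x).ne'

end Vale.Agent.Lib.P100
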