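import Vale.Agent.Lib.P100.Blocks

/-!
The explicit region valid in every dimension.
-/

open Filter Topology

namespace Vale.Agent.Lib.P100

/-- Sum of the coefficients of the block with `κ = (N-3)/(N-2)`, `A5 + A6 = θ (N-1)/(N-2)`. -/
lemma block_sum {N σ θ : ℝ} (hN : 3 ≤ N) :
    blA N ((N - 3) / (N - 2)) (θ * ((N - 1) / (N - 2)) * σ)
      + blB N ((N - 3) / (N - 2)) ((N - 3) / (N - 2)) (θ * ((N - 1) / (N - 2)) * σ)
          (θ * ((N - 1) / (N - 2)) * (1 - σ))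
      + blG N ((N - 3) / (N - 2)) (θ * ((N - 1) / (N - 2)) * (1 - σ))
    = ((N - 1) / (N - 2)) ^ 2 * (1 - θ) * (θ * (N - 1) ^ 2 - 1) / (N * (N - 1)) := by
  have h0 : N ≠ 0 := by linarith
  have h1 : N - 1 ≠ 0 := by intro h; linarith
  have h2 : N - 2 ≠ 0 := by intro h; linarith
  simp only [blA, blB, blG]
  field_simp
  ring

lemma block_two {N σ θ : ℝ} (hN : 3 ≤ N) :
    blB N ((N - 3) / (N - 2)) ((N - 3) / (N - 2)) (θ * ((N - 1) / (N - 2)) * σ)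
          (θ * ((N - 1) / (N - 2)) * (1 - σ))
      + 2 * blA N ((N - 3) / (N - 2)) (θ * ((N - 1) / (N - 2)) * σ)
    = ((N - 1) / (N - 2)) ^ 2 * (1 - θ) * (2 * θ * σ * (N - 1) - 1) / N := by
  have h0 : N ≠ 0 := by linarith
  have h1 : N - 1 ≠ 0 := by intro h; linarith
  have h2 : N - 2 ≠ 0 := by intro h; linarith
  simp only [blA, blB]
  field_simp
  ring

/-- The discriminant of the block factors through `1 - θ`. -/
lemma block_D {N σ θ : ℝ} (hN : 3 ≤ N) :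
    4 * blA N ((N - 3) / (N - 2)) (θ * ((N - 1) / (N - 2)) * σ)
        * blG N ((N - 3) / (N - 2)) (θ * ((N - 1) / (N - 2)) * (1 - σ))
      - blB N ((N - 3) / (N - 2)) ((N - 3) / (N - 2)) (θ * ((N - 1) / (N - 2)) * σ)
          (θ * ((N - 1) / (N - 2)) * (1 - σ)) ^ 2
    = (1 - θ) * (4 * blA N ((N - 3) / (N - 2)) (θ * ((N - 1) / (N - 2)) * σ)
          * (((N - 1) / (N - 2)) ^ 2 * (θ * (N - 1) ^ 2 - 1) / (N * (N - 1)))
        - (1 - θ) * (((N - 1) / (N - 2)) ^ 2 * (2 * θ * σ * (N - 1) - 1) / N) ^ 2) := by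
  have h1 := block_sum (σ := σ) (θ := θ) hN
  have h2 := block_two (σ := σ) (θ := θ) hN
  set A := blA N ((N - 3) / (N - 2)) (θ * ((N - 1) / (N - 2)) * σ)
  set B := blB N ((N - 3) / (N - 2)) ((N - 3) / (N - 2)) (θ * ((N - 1) / (N - 2)) * σ)
          (θ * ((N - 1) / (N - 2)) * (1 - σ))
  set G := blG N ((N - 3) / (N - 2)) (θ * ((N - 1) / (N - 2)) * (1 - σ))
  have h3 : 4 * A * G - B ^ 2 = 4 * A * (A + B + G) - (B + 2 * A) ^ 2 := by ring
  rw [h3, h1, h2]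
  ring

/-- For `θ` close to `1` from below the block is positive definite. -/
lemma block_ev {N σ : ℝ} (hN : 3 ≤ N)
    (hA : 0 < blA N ((N - 3) / (N - 2)) (1 * ((N - 1) / (N - 2)) * σ)) :
    ∀ᶠ θ in 𝓝[<] (1 : ℝ), 0 < blA N ((N - 3) / (N - 2)) (θ * ((N - 1) / (N - 2)) * σ) ∧
      0 < 4 * blA N ((N - 3) / (N - 2)) (θ * ((N - 1) / (N - 2)) * σ)
        * blG N ((N - 3) / (N - 2)) (θ * ((N - 1) / (N - 2)) * (1 - σ))
      - blB N ((N - 3) / (N - 2)) ((N - 3) / (N - 2)) (θ * ((N - 1) / (N - 2)) * σ)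
          (θ * ((N - 1) / (N - 2)) * (1 - σ)) ^ 2 := by
  have hN2 : 0 < N - 2 := by linarith
  have hN1 : 0 < N - 1 := by linarith
  have hN0 : 0 < N := by linarith
  have hcA : Continuous fun θ : ℝ => blA N ((N - 3) / (N - 2)) (θ * ((N - 1) / (N - 2)) * σ) := by
    unfold blA
    fun_prop
  have hcG : Continuous fun θ : ℝ => 4 * blA N ((N - 3) / (N - 2)) (θ * ((N - 1) / (N - 2)) * σ)
          * (((N - 1) / (N - 2)) ^ 2 * (θ * (N - 1) ^ 2 - 1) / (N * (N - 1)))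
        - (1 - θ) * (((N - 1) / (N - 2)) ^ 2 * (2 * θ * σ * (N - 1) - 1) / N) ^ 2 := by
    unfold blA
    fun_prop
  have h1 : 0 < 4 * blA N ((N - 3) / (N - 2)) (1 * ((N - 1) / (N - 2)) * σ)
          * (((N - 1) / (N - 2)) ^ 2 * (1 * (N - 1) ^ 2 - 1) / (N * (N - 1)))
        - (1 - 1) * (((N - 1) / (N - 2)) ^ 2 * (2 * 1 * σ * (N - 1) - 1) / N) ^ 2 := by
    have h2 : 0 < 1 * (N - 1) ^ 2 - 1 := by nlinarith
    have h3 : (1 - 1 : ℝ) = 0 := by norm_num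
    rw [h3, zero_mul, sub_zero]
    positivity
  have ev1 : ∀ᶠ θ in 𝓝 (1 : ℝ), 0 < blA N ((N - 3) / (N - 2)) (θ * ((N - 1) / (N - 2)) * σ) :=
    hcA.continuousAt.eventually (lt_mem_nhds hA)
  have ev2 := hcG.continuousAt.eventually (lt_mem_nhds h1)
  have ev3 : ∀ᶠ θ in 𝓝[<] (1 : ℝ), θ < 1 := self_mem_nhdsWithin
  filter_upwards [ev1.filter_mono nhdsWithin_le_nhds, ev2.filter_mono nhdsWithin_le_nhds, ev3]
    with θ h4 h5 h6
  refine ⟨h4, ?_⟩
  rw [block_D hN]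
  exact mul_pos (by linarith) h5

/-- Existence of the balancing parameter `τ`. -/
lemma tau_exists {m1 m2 A5 A6 A9 A10 d : ℝ} (hm1 : 0 < m1) (hm2 : 0 < m2) (h5 : 0 < A5)
    (h6 : 0 < A6) (h9 : 0 < A9) (h10 : 0 < A10) (hd : 0 < d)
    (h : m1 ^ 2 * m2 ^ 2 < (4 * d) ^ 2 * (A5 * A9) * (A6 * A10)) :
    ∃ τ, 0 < τ ∧ m1 ^ 2 < 4 * (d * A5) * (τ * A9) ∧ (τ * m2) ^ 2 < 4 * A6 * (τ * d * A10) := by
  have hL : 0 < 4 * d * (A5 * A9) := by positivity
  have hm : 0 < m2 ^ 2 := by positivity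
  set L := m1 ^ 2 / (4 * d * (A5 * A9)) with hLd
  set U := 4 * d * (A6 * A10) / m2 ^ 2 with hUd
  have hLU : L < U := by
    rw [hLd, hUd, div_lt_div_iff₀ hL hm]
    calc m1 ^ 2 * m2 ^ 2 < (4 * d) ^ 2 * (A5 * A9) * (A6 * A10) := h
      _ = 4 * d * (A6 * A10) * (4 * d * (A5 * A9)) := by ring
  have hL0 : 0 < L := by positivity
  refine ⟨(L + U) / 2, by positivity, ?_, ?_⟩
  · have h1 : m1 ^ 2 = L * (4 * d * (A5 * A9)) := by
      rw [hLd]
      field_simp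
    rw [h1]
    have h2 : L < (L + U) / 2 := by linarith
    calc L * (4 * d * (A5 * A9)) < (L + U) / 2 * (4 * d * (A5 * A9)) := by gcongr
      _ = 4 * (d * A5) * ((L + U) / 2 * A9) := by ring
  · set τ := (L + U) / 2 with hτ
    have hτ0 : 0 < τ := by positivity
    have hτU : τ < U := by rw [hτ]; linarith
    have h1 : U * m2 ^ 2 = 4 * d * (A6 * A10) := by
      rw [hUd]
      field_simp
    have h2 : τ * m2 ^ 2 < 4 * d * (A6 * A10) := by
      rw [← h1]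
      gcongr
    calc (τ * m2) ^ 2 = τ * (τ * m2 ^ 2) := by ring
      _ < τ * (4 * d * (A6 * A10)) := by gcongr
      _ = 4 * A6 * (τ * d * A10) := by ring

/-- The critical-hyperbola inequality follows from the region inequality. -/
lemma subcrit_of_region {N P Q : ℝ} (hN : 3 ≤ N) (hP : 2 < P) (hQ : 2 < Q)
    (h : P * Q * ((P - 2) * (Q - 2)) < N ^ 2 * (N + 2) ^ 2) : (P - 2) * (Q - 2) < N ^ 2 := by
  by_contra hc
  push Not at hc
  have hu : 0 < P - 2 := by linarith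
  have hv : 0 < Q - 2 := by linarith
  have hN0 : 0 < N := by linarith
  have hs : 2 * N ≤ (P - 2) + (Q - 2) := by
    by_contra h1
    push Not at h1
    have h2 : ((P - 2) + (Q - 2)) ^ 2 < (2 * N) ^ 2 := by
      have : 0 < (P - 2) + (Q - 2) := by linarith
      gcongr
    nlinarith [sq_nonneg ((P - 2) - (Q - 2))]
  have h3 : (N + 2) ^ 2 ≤ P * Q := by nlinarith
  have h4 : (N + 2) ^ 2 * N ^ 2 ≤ P * Q * ((P - 2) * (Q - 2)) := by
    apply mul_le_mul h3 hc (by positivity) (by nlinarith)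
  nlinarith

/-- The optimal split. -/
noncomputable def sg (P : ℝ) : ℝ := (P - 2) / (2 * (P - 1))

lemma sg_pos {P : ℝ} (hP : 2 < P) : 0 < sg P := by
  unfold sg
  apply div_pos <;> linarith

lemma one_sub_sg {P : ℝ} (hP : 2 < P) : 1 - sg P = P / (2 * (P - 1)) := by
  have h : P - 1 ≠ 0 := by intro h; linarith
  unfold sg
  field_simp
  ring

lemma blA_sg {N P : ℝ} (hN : 3 ≤ N) (hP : 2 < P) :
    blA N ((N - 3) / (N - 2)) (1 * ((N - 1) / (N - 2)) * sg P) =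
      ((N - 1) / (N - 2)) * (2 * (N - 2) * (P - 1) * (P - 2) - (N - 1) ^ 2)
        / (4 * N * (N - 2) * (P - 1) ^ 2) := by
  have h0 : N ≠ 0 := by linarith
  have h2 : N - 2 ≠ 0 := by intro h; linarith
  have h3 : P - 1 ≠ 0 := by intro h; linarith
  simp only [blA, sg]
  field_simp
  ring

lemma m_formula {N P : ℝ} (hN : 3 ≤ N) (hP : 2 < P) :
    (1 - 1 / N) * (P / (N - 2)) - 2 / N * ((N - 1) / (N - 2) * (1 - sg P)) =
      ((N - 1) / (N - 2) / N) * P * (P - 2) / (P - 1) := by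
  have h0 : N ≠ 0 := by linarith
  have h2 : N - 2 ≠ 0 := by intro h; linarith
  have h3 : P - 1 ≠ 0 := by intro h; linarith
  rw [one_sub_sg hP]
  field_simp
  ring

/-- The product inequality behind the balancing parameter. -/
lemma W_product {N P Q c : ℝ} (hN : 3 ≤ N) (hP : 2 < P) (hQ : 2 < Q) (hc : 0 < c)
    (hreg : P * Q * ((P - 2) * (Q - 2)) < N ^ 2 * (N + 2) ^ 2) :
    (c / N * P * (P - 2) / (P - 1)) ^ 2 * (c / N * Q * (Q - 2) / (Q - 1)) ^ 2 <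
      (4 * (1 + 2 / N)) ^ 2 * ((c * sg P) * (c * (1 - sg Q))) * ((c * (1 - sg P)) * (c * sg Q)) := by
  have hN0 : 0 < N := by linarith
  have h1 : 0 < P - 1 := by linarith
  have h2 : 0 < Q - 1 := by linarith
  have h3 : 0 < P - 2 := by linarith
  have h4 : 0 < Q - 2 := by linarith
  have hP0 : 0 < P := by linarith
  have hQ0 : 0 < Q := by linarith
  rw [one_sub_sg hP, one_sub_sg hQ]
  have e : (4 * (1 + 2 / N)) ^ 2 * ((c * sg P) * (c * (Q / (2 * (Q - 1))))) *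
        ((c * (P / (2 * (P - 1)))) * (c * sg Q)) =
      (c ^ 4 * (P * (P - 2) * (Q * (Q - 2))) / ((P - 1) ^ 2 * (Q - 1) ^ 2 * N ^ 4)) *
        (N ^ 2 * (N + 2) ^ 2) := by
    simp only [sg]
    field_simp
    ring
  have e2 : (c / N * P * (P - 2) / (P - 1)) ^ 2 * (c / N * Q * (Q - 2) / (Q - 1)) ^ 2 =
      (c ^ 4 * (P * (P - 2) * (Q * (Q - 2))) / ((P - 1) ^ 2 * (Q - 1) ^ 2 * N ^ 4)) *
        (P * Q * ((P - 2) * (Q - 2))) := by
    field_simp
  rw [e, e2]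
  apply mul_lt_mul_of_pos_left hreg
  positivity

/-- The two square conditions at `θ = 1`, for a suitable balancing parameter. -/
lemma W_at_one {N P Q : ℝ} (hN : 3 ≤ N) (hP : 2 < P) (hQ : 2 < Q)
    (hreg : P * Q * ((P - 2) * (Q - 2)) < N ^ 2 * (N + 2) ^ 2) :
    ∃ τ, 0 < τ ∧
      (2 / N * ((N - 1) / (N - 2) * (1 - sg P)) - (1 - 1 / N) * (P / (N - 2))) ^ 2 <
        4 * ((1 + 2 / N) * ((N - 1) / (N - 2) * sg P)) * (τ * ((N - 1) / (N - 2) * (1 - sg Q))) ∧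
      (τ * (2 / N * ((N - 1) / (N - 2) * (1 - sg Q)) - (1 - 1 / N) * (Q / (N - 2)))) ^ 2 <
        4 * ((N - 1) / (N - 2) * (1 - sg P)) * (τ * (1 + 2 / N) * ((N - 1) / (N - 2) * sg Q)) := by
  have hN0 : 0 < N := by linarith
  have hN1 : 0 < N - 1 := by linarith
  have hN2 : 0 < N - 2 := by linarith
  have hc0 : 0 < (N - 1) / (N - 2) := div_pos hN1 hN2
  have hP1 : 0 < P - 1 := by linarith
  have hQ1 : 0 < Q - 1 := by linarith
  have hP2 : 0 < P - 2 := by linarith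
  have hQ2 : 0 < Q - 2 := by linarith
  have hP0 : 0 < P := by linarith
  have hQ0 : 0 < Q := by linarith
  have hs1' : 0 < sg P := sg_pos hP
  have hs2' : 0 < sg Q := sg_pos hQ
  have hs3 : 0 < 1 - sg P := by
    rw [one_sub_sg hP]
    apply div_pos <;> linarith
  have hs4 : 0 < 1 - sg Q := by
    rw [one_sub_sg hQ]
    apply div_pos <;> linarith
  have hprod := W_product (c := (N - 1) / (N - 2)) hN hP hQ hc0 hreg
  have hd : 0 < 1 + 2 / N := by positivity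
  obtain ⟨τ, hτ, ht1, ht2⟩ := tau_exists (m1 := (N - 1) / (N - 2) / N * P * (P - 2) / (P - 1))
    (m2 := (N - 1) / (N - 2) / N * Q * (Q - 2) / (Q - 1)) (A5 := (N - 1) / (N - 2) * sg P)
    (A6 := (N - 1) / (N - 2) * (1 - sg P))
    (A9 := (N - 1) / (N - 2) * (1 - sg Q)) (A10 := (N - 1) / (N - 2) * sg Q) (d := 1 + 2 / N)
    (by positivity) (by positivity) (by positivity) (by positivity) (by positivity)
    (by positivity) hd hprod
  have hm1 := m_formula hN hP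
  have hm2 := m_formula hN hQ
  refine ⟨τ, hτ, ?_, ?_⟩
  · rw [← hm1] at ht1
    calc _ = ((1 - 1 / N) * (P / (N - 2)) - 2 / N * ((N - 1) / (N - 2) * (1 - sg P))) ^ 2 := by ring
      _ < _ := ht1
  · rw [← hm2] at ht2
    calc _ = (τ * ((1 - 1 / N) * (Q / (N - 2)) - 2 / N * ((N - 1) / (N - 2) * (1 - sg Q)))) ^ 2 := by
          ring
      _ < _ := ht2

/-- The square conditions persist for `θ` close to `1`. -/
lemma W_ev {N c σ1 σ2 σ3 τ p : ℝ}
    (h : (2 / N * (c * σ1) - (1 - 1 / N) * p) ^ 2 < 4 * ((1 + 2 / N) * (c * σ2)) * (τ * (c * σ3))) :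
    ∀ᶠ θ in 𝓝 (1 : ℝ), (2 / N * (θ * c * σ1) - (1 - 1 / N) * p) ^ 2 <
        4 * ((1 + 2 / N) * (θ * c * σ2)) * (τ * (θ * c * σ3)) := by
  have hf : Continuous fun θ : ℝ => 4 * ((1 + 2 / N) * (θ * c * σ2)) * (τ * (θ * c * σ3))
      - (2 / N * (θ * c * σ1) - (1 - 1 / N) * p) ^ 2 := by fun_prop
  have h1 : 0 < 4 * ((1 + 2 / N) * (1 * c * σ2)) * (τ * (1 * c * σ3))
      - (2 / N * (1 * c * σ1) - (1 - 1 / N) * p) ^ 2 := by
    simp only [one_mul]
    linarith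
  filter_upwards [hf.continuousAt.eventually (lt_mem_nhds h1)] with θ hθ
  linarith

lemma W_ev' {N c σ1 σ2 σ3 τ q : ℝ}
    (h : (τ * (2 / N * (c * σ1) - (1 - 1 / N) * q)) ^ 2 <
      4 * (c * σ2) * (τ * (1 + 2 / N) * (c * σ3))) :
    ∀ᶠ θ in 𝓝 (1 : ℝ), (τ * (2 / N * (θ * c * σ1) - (1 - 1 / N) * q)) ^ 2 <
        4 * (θ * c * σ2) * (τ * (1 + 2 / N) * (θ * c * σ3)) := by
  have hf : Continuous fun θ : ℝ => 4 * (θ * c * σ2) * (τ * (1 + 2 / N) * (θ * c * σ3))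
      - (τ * (2 / N * (θ * c * σ1) - (1 - 1 / N) * q)) ^ 2 := by fun_prop
  have h1 : 0 < 4 * (1 * c * σ2) * (τ * (1 + 2 / N) * (1 * c * σ3))
      - (τ * (2 / N * (1 * c * σ1) - (1 - 1 / N) * q)) ^ 2 := by
    simp only [one_mul]
    linarith
  filter_upwards [hf.continuousAt.eventually (lt_mem_nhds h1)] with θ hθ
  linarith

/-- Choice of the parameters. -/
lemma region_params {N P Q : ℝ} (hN : 3 ≤ N) (hP : 2 < P) (hQ : 2 < Q)
    (hs1 : (N - 1) ^ 2 < 2 * (N - 2) * (P - 1) * (P - 2))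
    (hs2 : (N - 1) ^ 2 < 2 * (N - 2) * (Q - 1) * (Q - 2))
    (hreg : P * Q * ((P - 2) * (Q - 2)) < N ^ 2 * (N + 2) ^ 2) :
    ∃ θ τ, 0 < θ ∧ 0 < τ ∧
      (2 / N * (θ * ((N - 1) / (N - 2)) * (1 - sg P)) - (1 - 1 / N) * (P / (N - 2))) ^ 2 <
        4 * ((1 + 2 / N) * (θ * ((N - 1) / (N - 2)) * sg P)) *
          (τ * (θ * ((N - 1) / (N - 2)) * (1 - sg Q))) ∧
      (τ * (2 / N * (θ * ((N - 1) / (N - 2)) * (1 - sg Q)) - (1 - 1 / N) * (Q / (N - 2)))) ^ 2 <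
        4 * (θ * ((N - 1) / (N - 2)) * (1 - sg P)) *
          (τ * (1 + 2 / N) * (θ * ((N - 1) / (N - 2)) * sg Q)) ∧
      (0 < blA N ((N - 3) / (N - 2)) (θ * ((N - 1) / (N - 2)) * sg P) ∧
      0 < 4 * blA N ((N - 3) / (N - 2)) (θ * ((N - 1) / (N - 2)) * sg P)
        * blG N ((N - 3) / (N - 2)) (θ * ((N - 1) / (N - 2)) * (1 - sg P))
      - blB N ((N - 3) / (N - 2)) ((N - 3) / (N - 2)) (θ * ((N - 1) / (N - 2)) * sg P)
          (θ * ((N - 1) / (N - 2)) * (1 - sg P)) ^ 2) ∧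
      (0 < blA N ((N - 3) / (N - 2)) (θ * ((N - 1) / (N - 2)) * sg Q) ∧
      0 < 4 * blA N ((N - 3) / (N - 2)) (θ * ((N - 1) / (N - 2)) * sg Q)
        * blG N ((N - 3) / (N - 2)) (θ * ((N - 1) / (N - 2)) * (1 - sg Q))
      - blB N ((N - 3) / (N - 2)) ((N - 3) / (N - 2)) (θ * ((N - 1) / (N - 2)) * sg Q)
          (θ * ((N - 1) / (N - 2)) * (1 - sg Q)) ^ 2) := by
  have hN0 : 0 < N := by linarith
  have hN1 : 0 < N - 1 := by linarith
  have hN2 : 0 < N - 2 := by linarith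
  have hP1 : 0 < P - 1 := by linarith
  have hQ1 : 0 < Q - 1 := by linarith
  have hA1 : 0 < blA N ((N - 3) / (N - 2)) (1 * ((N - 1) / (N - 2)) * sg P) := by
    rw [blA_sg hN hP]
    apply div_pos
    · apply mul_pos (div_pos hN1 hN2)
      linarith
    · positivity
  have hA2 : 0 < blA N ((N - 3) / (N - 2)) (1 * ((N - 1) / (N - 2)) * sg Q) := by
    rw [blA_sg hN hQ]
    apply div_pos
    · apply mul_pos (div_pos hN1 hN2)
      linarith
    · positivity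
  have ev1 := block_ev hN hA1
  have ev2 := block_ev hN hA2
  obtain ⟨τ, hτ, ht1, ht2⟩ := W_at_one hN hP hQ hreg
  have ev3 := (W_ev ht1).filter_mono (nhdsWithin_le_nhds (s := Set.Iio (1 : ℝ)))
  have ev4 := (W_ev' ht2).filter_mono (nhdsWithin_le_nhds (s := Set.Iio (1 : ℝ)))
  have ev5 : ∀ᶠ θ in 𝓝[<] (1 : ℝ), 0 < θ :=
    (continuous_id.continuousAt.eventually (lt_mem_nhds (zero_lt_one))).filter_mono
      nhdsWithin_le_nhds
  obtain ⟨θ, ⟨⟨⟨h1, h2⟩, h3⟩, h4⟩, h5⟩ := ((ev1.and ev2).and ev3 |>.and ev4 |>.and ev5).exists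
  exact ⟨θ, τ, h5, hτ, h3, h4, h1, h2⟩

/-- The weight condition. -/
lemma region_weight {N p q κ : ℝ} (hN : 3 ≤ N) (hκ : κ = (N - 3) / (N - 2)) (hpq : 1 < p * q)
    (hsub : ((N - 2) * p - 2) * ((N - 2) * q - 2) < N ^ 2) :
    (N - 4) * (p * q - 1) < 2 * (κ * (p + 1) + κ * (q + 1)) := by
  have hN2 : 0 < N - 2 := by linarith
  have hκ0 : 0 ≤ κ := by
    rw [hκ]
    exact div_nonneg (by linarith) hN2.le
  have hsub2 : (N - 2) * (p * q - 1) < 2 * (p + q + 2) := by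
    have e : (N - 2) * ((N - 2) * (p * q - 1) - 2 * (p + q + 2)) =
        ((N - 2) * p - 2) * ((N - 2) * q - 2) - N ^ 2 := by
      ring
    have h7 : (N - 2) * ((N - 2) * (p * q - 1) - 2 * (p + q + 2)) < 0 := by
      rw [e]
      linarith
    have h8 : (N - 2) * (p * q - 1) - 2 * (p + q + 2) < 0 := by
      by_contra h9
      push Not at h9
      have := mul_nonneg hN2.le h9
      linarith
    linarith
  have hκN : κ * (N - 2) = N - 3 := by
    rw [hκ]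
    field_simp
  have h7 : κ * ((N - 2) * (p * q - 1)) ≤ κ * (2 * (p + q + 2)) :=
    mul_le_mul_of_nonneg_left hsub2.le hκ0
  have h8 : κ * ((N - 2) * (p * q - 1)) = (N - 3) * (p * q - 1) := by
    rw [← hκN]
    ring
  have h9 : 0 < p * q - 1 := by linarith
  have h10 : κ * (2 * (p + q + 2)) = 2 * (κ * (p + 1) + κ * (q + 1)) := by ring
  have h11 : (N - 4) * (p * q - 1) = (N - 3) * (p * q - 1) - (p * q - 1) := by ring
  linarith

/-- **The region valid in every dimension.** -/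
theorem noSol_region {n : ℕ} (hn : 3 ≤ n) {p q : ℝ} (hpq : 1 < p * q)
    (hP : 2 < ((n : ℝ) - 2) * p) (hQ : 2 < ((n : ℝ) - 2) * q)
    (hs1 : ((n : ℝ) - 1) ^ 2 < 2 * ((n : ℝ) - 2) * (((n : ℝ) - 2) * p - 1) * (((n : ℝ) - 2) * p - 2))
    (hs2 : ((n : ℝ) - 1) ^ 2 < 2 * ((n : ℝ) - 2) * (((n : ℝ) - 2) * q - 1) * (((n : ℝ) - 2) * q - 2))
    (hreg : (((n : ℝ) - 2) * p) * (((n : ℝ) - 2) * q) *
        ((((n : ℝ) - 2) * p - 2) * (((n : ℝ) - 2) * q - 2)) < (n : ℝ) ^ 2 * ((n : ℝ) + 2) ^ 2) :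
    NoSol n p q := by
  have hN : (3 : ℝ) ≤ n := by exact_mod_cast hn
  have hN2 : 0 < (n : ℝ) - 2 := by linarith
  have hN1 : 0 < (n : ℝ) - 1 := by linarith
  have hN0 : 0 < (n : ℝ) := by linarith
  obtain ⟨θ, τ, hθ, hτ, hw1, hw2, ⟨h1, h2⟩, ⟨h3, h4⟩⟩ := region_params hN hP hQ hs1 hs2 hreg
  have hp0 : 0 < p := by
    by_contra h
    push Not at h
    have := mul_nonpos_of_nonneg_of_nonpos hN2.le h
    linarith
  have hq0 : 0 < q := by
    by_contra h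
    push Not at h
    have := mul_nonpos_of_nonneg_of_nonpos hN2.le h
    linarith
  have ep : ((n : ℝ) - 2) * p / ((n : ℝ) - 2) = p := by field_simp
  have eq : ((n : ℝ) - 2) * q / ((n : ℝ) - 2) = q := by field_simp
  rw [ep] at hw1
  rw [eq] at hw2
  have hκ0 : 0 ≤ ((n : ℝ) - 3) / ((n : ℝ) - 2) := div_nonneg (by linarith) hN2.le
  have hc0 : 0 < ((n : ℝ) - 1) / ((n : ℝ) - 2) := div_pos hN1 hN2
  have hs1' : 0 < sg (((n : ℝ) - 2) * p) := sg_pos hP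
  have hs2' : 0 < sg (((n : ℝ) - 2) * q) := sg_pos hQ
  have hs3 : 0 < 1 - sg (((n : ℝ) - 2) * p) := by
    rw [one_sub_sg hP]
    apply div_pos <;> linarith
  have hs4 : 0 < 1 - sg (((n : ℝ) - 2) * q) := by
    rw [one_sub_sg hQ]
    apply div_pos <;> linarith
  have hsub := subcrit_of_region hN hP hQ hreg
  have hwt := region_weight hN rfl hpq hsub
  exact noSol_of_blocks (n := n) (by omega) (a := ((n : ℝ) - 3) / ((n : ℝ) - 2))
    (b := ((n : ℝ) - 3) / ((n : ℝ) - 2)) (τ := τ)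
    (A5 := θ * (((n : ℝ) - 1) / ((n : ℝ) - 2)) * sg (((n : ℝ) - 2) * p))
    (A6 := θ * (((n : ℝ) - 1) / ((n : ℝ) - 2)) * (1 - sg (((n : ℝ) - 2) * p)))
    (A9 := θ * (((n : ℝ) - 1) / ((n : ℝ) - 2)) * (1 - sg (((n : ℝ) - 2) * q)))
    (A10 := θ * (((n : ℝ) - 1) / ((n : ℝ) - 2)) * sg (((n : ℝ) - 2) * q))
    hpq (by positivity) (by positivity) hwt hτ (by positivity)
    (by positivity) (by positivity) (by positivity) hw1.le hw2.le h1 h2 h3 h4

end Vale.Agent.Lib.P100
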