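import Vale.Agent.Lib.P100.Criterion

/-!
Certificates from separated conditions: the two linear forms multiplying `W1`, `W2` are
nonnegative on the cone `y² ≤ x z`, and the quartic part is coercive on the cone.
-/

namespace Vale.Agent.Lib.P100

/-- The first linear form. -/
noncomputable def ell1 (N p τ A5 A6 A9 x y z : ℝ) : ℝ :=
  (1 + 2 / N) * A5 * x + (2 / N * A6 - (1 - 1 / N) * p) * y + τ * A9 * z

/-- The second linear form. -/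
noncomputable def ell2 (N q τ A6 A9 A10 x y z : ℝ) : ℝ :=
  A6 * x + τ * (2 / N * A9 - (1 - 1 / N) * q) * y + τ * (1 + 2 / N) * A10 * z

/-- The quartic part of the remainder. -/
noncomputable def R4F (N a b τ A5 A6 A9 A10 x y z : ℝ) : ℝ :=
  let K := 1 - 1 / N
  let r1 := (a - 2) / 2 - A5
  let r2 := b / 2 - A6
  let r3 := a / 2 - A9
  let r4 := (b - 2) / 2 - A10
  (A5 * (3 - a) - K * r1 ^ 2) * x ^ 2
    + (-A5 * b + A6 * (2 - a) - 2 * K * r1 * r2) * (x * y)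
    + (A6 * (1 - b) - r2 ^ 2 / 2 + τ * (A9 * (1 - a) - r3 ^ 2 / 2)) * (x * z)
    + (-(r2 ^ 2 + τ * r3 ^ 2) * (1 / 2 - 1 / N)) * y ^ 2
    + τ * (A9 * (2 - b) - A10 * a - 2 * K * r3 * r4) * (y * z)
    + τ * (A10 * (3 - b) - K * r4 ^ 2) * z ^ 2

lemma restF_eq (N a b p q τ A5 A6 A9 A10 s1 s2 W1 W2 x y z : ℝ) :
    restF N a b p q τ A5 A6 A9 A10 s1 s2 W1 W2 x y z =
      s1 * W1 ^ 2 + s2 * W2 ^ 2
        + W1 * ell1 N p τ A5 A6 A9 x y z - s1 * W1 * ((a - 2) * x + (b + p) * y)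
        + W2 * ell2 N q τ A6 A9 A10 x y z - s2 * W2 * ((a + q) * y + (b - 2) * z)
        + R4F N a b τ A5 A6 A9 A10 x y z := by
  simp only [restF, ell1, ell2, R4F]
  ring

/-- A linear form with `B² ≤ 4 u w` is nonnegative on the cone. -/
lemma lin_cone {u w B x y z : ℝ} (hu : 0 ≤ u) (hw : 0 ≤ w) (hB : B ^ 2 ≤ 4 * u * w)
    (hx : 0 ≤ x) (hz : 0 ≤ z) (hy : y ^ 2 ≤ x * z) : 0 ≤ u * x + B * y + w * z := by
  have h0 : 0 ≤ u * x + w * z := by positivity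
  have h1 : (B * y) ^ 2 ≤ (u * x + w * z) ^ 2 := by
    have h2 : (B * y) ^ 2 ≤ 4 * u * w * (x * z) := by
      rw [mul_pow]
      have : 0 ≤ x * z := by positivity
      calc B ^ 2 * y ^ 2 ≤ (4 * u * w) * y ^ 2 := by gcongr
        _ ≤ (4 * u * w) * (x * z) := by gcongr
    nlinarith [sq_nonneg (u * x - w * z)]
  have h2 := abs_le.1 (abs_le_of_sq_le_sq h1 h0)
  linarith [h2.1]

lemma sq_le_of_abs_le {L C x z : ℝ} (hC : 0 ≤ C) (hx : 0 ≤ x) (hz : 0 ≤ z)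
    (h : |L| ≤ C * (x + z)) : L ^ 2 ≤ C ^ 2 * (2 * (x ^ 2 + z ^ 2)) := by
  have h1 : L ^ 2 ≤ (C * (x + z)) ^ 2 := by
    rw [← sq_abs L]
    gcongr
  have h2 : (x + z) ^ 2 ≤ 2 * (x ^ 2 + z ^ 2) := by nlinarith [sq_nonneg (x - z)]
  calc L ^ 2 ≤ (C * (x + z)) ^ 2 := h1
    _ = C ^ 2 * (x + z) ^ 2 := by ring
    _ ≤ _ := by gcongr

lemma final_scalar {s e C1 C2 W1 W2 x z L1 L2 E1 E2 R : ℝ} (hs0 : 0 < s)
    (hs1 : s * (C1 ^ 2 + C2 ^ 2 + 1) = e / 2) (hW1 : 0 ≤ W1) (hW2 : 0 ≤ W2)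
    (hE1 : 0 ≤ E1) (hE2 : 0 ≤ E2) (hR : e * (x ^ 2 + z ^ 2) ≤ R)
    (hL1 : L1 ^ 2 ≤ C1 ^ 2 * (2 * (x ^ 2 + z ^ 2)))
    (hL2 : L2 ^ 2 ≤ C2 ^ 2 * (2 * (x ^ 2 + z ^ 2))) :
    s / 2 * (W1 ^ 2 + W2 ^ 2 + x ^ 2 + z ^ 2) ≤
      s * W1 ^ 2 + s * W2 ^ 2 + W1 * E1 - s * W1 * L1 + W2 * E2 - s * W2 * L2 + R := by
  have h1 := mul_nonneg hW1 hE1
  have h2 := mul_nonneg hW2 hE2
  have h4 : s * W1 * L1 ≤ s / 2 * W1 ^ 2 + s / 2 * L1 ^ 2 := by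
    nlinarith [mul_nonneg hs0.le (sq_nonneg (W1 - L1))]
  have h5 : s * W2 * L2 ≤ s / 2 * W2 ^ 2 + s / 2 * L2 ^ 2 := by
    nlinarith [mul_nonneg hs0.le (sq_nonneg (W2 - L2))]
  have h6 : s / 2 * L1 ^ 2 ≤ s / 2 * (C1 ^ 2 * (2 * (x ^ 2 + z ^ 2))) := by gcongr
  have h7 : s / 2 * L2 ^ 2 ≤ s / 2 * (C2 ^ 2 * (2 * (x ^ 2 + z ^ 2))) := by gcongr
  have h8 : 0 ≤ x ^ 2 + z ^ 2 := by positivity
  have h9 : e * (x ^ 2 + z ^ 2) = 2 * (s * (C1 ^ 2 + C2 ^ 2 + 1)) * (x ^ 2 + z ^ 2) := by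
    rw [hs1]; ring
  have h10 : 0 ≤ s * (x ^ 2 + z ^ 2) := by positivity
  have h11 : 0 ≤ s * (C1 ^ 2 + C2 ^ 2) * (x ^ 2 + z ^ 2) := by positivity
  have h12 : 0 ≤ s * W1 ^ 2 := by positivity
  have h13 : 0 ≤ s * W2 ^ 2 := by positivity
  nlinarith

/-- From the separated conditions to a certificate. -/
theorem cert_of_sep {n : ℕ} (hn : 0 < n) {p q lam mu τ A5 A6 A9 A10 e : ℝ}
    (hlam : 0 ≤ lam) (hmu : 0 ≤ mu) (hw : (n : ℝ) < 4 + 2 * (lam + mu)) (hτ : 0 < τ) (he : 0 < e)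
    (H1 : ∀ x y z : ℝ, 0 ≤ x → 0 ≤ z → y ^ 2 ≤ x * z → 0 ≤ ell1 n p τ A5 A6 A9 x y z)
    (H2 : ∀ x y z : ℝ, 0 ≤ x → 0 ≤ z → y ^ 2 ≤ x * z → 0 ≤ ell2 n q τ A6 A9 A10 x y z)
    (H3 : ∀ x y z : ℝ, 0 ≤ x → 0 ≤ z → y ^ 2 ≤ x * z →
      e * (x ^ 2 + z ^ 2) ≤ R4F n (q * mu - lam) (p * lam - mu) τ A5 A6 A9 A10 x y z) :
    ∃ s1 s2 e', Cert n p q lam mu τ A5 A6 A9 A10 s1 s2 e' := by
  set a := q * mu - lam with ha
  set b := p * lam - mu with hb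
  set C1 := |a - 2| + |b + p| with hC1
  set C2 := |a + q| + |b - 2| with hC2
  have hC1n : 0 ≤ C1 := by positivity
  have hC2n : 0 ≤ C2 := by positivity
  set s := e / (2 * (C1 ^ 2 + C2 ^ 2 + 1)) with hs
  have hden : 0 < 2 * (C1 ^ 2 + C2 ^ 2 + 1) := by positivity
  have hs0 : 0 < s := div_pos he hden
  have hs1 : s * (C1 ^ 2 + C2 ^ 2 + 1) = e / 2 := by
    rw [hs]
    field_simp
  refine ⟨s, s, s / 2, ⟨hn, hlam, hmu, hw, hτ, by positivity, ?_⟩⟩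
  intro W1 W2 x y z hW1 hW2 hx hz hy
  rw [restF_eq]
  have hy' : |y| ≤ x + z := by
    have h0 : 0 ≤ x + z := by positivity
    apply abs_le_of_sq_le_sq _ h0
    nlinarith [mul_nonneg hx hz, sq_nonneg (x - z)]
  have hL1 : |(a - 2) * x + (b + p) * y| ≤ C1 * (x + z) := by
    calc |(a - 2) * x + (b + p) * y| ≤ |(a - 2) * x| + |(b + p) * y| := abs_add_le _ _
      _ = |a - 2| * x + |b + p| * |y| := by rw [abs_mul, abs_mul, abs_of_nonneg hx]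
      _ ≤ |a - 2| * (x + z) + |b + p| * (x + z) := by
          gcongr
          linarith
      _ = C1 * (x + z) := by rw [hC1]; ring
  have hL2 : |(a + q) * y + (b - 2) * z| ≤ C2 * (x + z) := by
    calc |(a + q) * y + (b - 2) * z| ≤ |(a + q) * y| + |(b - 2) * z| := abs_add_le _ _
      _ = |a + q| * |y| + |b - 2| * z := by rw [abs_mul, abs_mul, abs_of_nonneg hz]
      _ ≤ |a + q| * (x + z) + |b - 2| * (x + z) := by
          gcongr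
          linarith
      _ = C2 * (x + z) := by rw [hC2]; ring
  exact final_scalar hs0 hs1 hW1 hW2 (H1 x y z hx hz hy) (H2 x y z hx hz hy) (H3 x y z hx hz hy)
    (sq_le_of_abs_le hC1n hx hz hL1) (sq_le_of_abs_le hC2n hx hz hL2)

end Vale.Agent.Lib.P100
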