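import Vale.Agent.Lib.P100.XFamily
import Vale.Agent.Lib.P100.PsiCert

/-!
Nonexistence up to the strip `n - 2 < α + β < n - 3 + √n / 2`, on `max(α, β) ≤ n - 3`.
-/

namespace Vale.Agent.Lib.P100

/-- The denominator in the main inequality. -/
def psiBn (N z x : ℝ) : ℝ := (N ^ 2 + N + 2) * (N - 1) - x * N * ((1 - z) * (N - 1) + 2)

/-- The numerator in the main inequality. -/
def psiAn (N z x : ℝ) : ℝ := (N - z) ^ 2 * x * N * (N - 1) + (1 - z) * psiBn N z x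

lemma bern5 {b0 b1 b2 b3 b4 b5 X Y : ℝ} (h0 : 0 < b0) (h1 : 0 < b1) (h2 : 0 < b2) (h3 : 0 < b3)
    (h4 : 0 < b4) (h5 : 0 < b5) (hX : 0 ≤ X) (hY : 0 ≤ Y) (h : 0 < X + Y) :
    0 < b0 * Y ^ 5 + b1 * X * Y ^ 4 + b2 * X ^ 2 * Y ^ 3 + b3 * X ^ 3 * Y ^ 2 + b4 * X ^ 4 * Y
      + b5 * X ^ 5 := by
  rcases hX.eq_or_lt with hX0 | hX0
  · have hY0 : 0 < Y := by linarith
    subst hX0
    positivity
  · positivity

/-- The main inequality. -/
lemma psi_main {m x : ℝ} (hm : 3 ≤ m) (hx0 : 1 ≤ 2 * m * x) (hx1 : x ≤ 1) :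
    psiAn (m ^ 2) (2 * (m - 2) / ((2 * m - 3) * (m + 2))) x ^ 2 *
        ((m ^ 2 + 1) ^ 3 * m ^ 2 * (m ^ 2 - 1)) <
      psiH (m ^ 2) x * psiBn (m ^ 2) (2 * (m - 2) / ((2 * m - 3) * (m + 2))) x ^ 2 := by
  have h1 : 0 < 2 * m - 3 := by linarith
  have h2 : 0 < m + 2 := by linarith
  have hzd : 0 < (2 * m - 3) * (m + 2) := by positivity
  have e1 : (2 * m - 3) * (m + 2) * psiBn (m ^ 2) (2 * (m - 2) / ((2 * m - 3) * (m + 2))) x =
      psiBs m x := by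
    simp only [psiBn, psiBs]
    field_simp
    ring
  have e2 : (2 * m - 3) * (m + 2) * psiAn (m ^ 2) (2 * (m - 2) / ((2 * m - 3) * (m + 2))) x =
      psiAs m x := by
    simp only [psiAn, psiBn, psiAs]
    field_simp
    ring
  have hc := psi_cert m x
  have hpos := bern5 (psiB0_pos hm) (psiB1_pos hm) (psiB2_pos hm) (psiB3_pos hm) (psiB4_pos hm)
    (psiB5_pos hm) (X := 2 * m * x - 1) (Y := 1 - x) (by linarith) (by linarith)
    (by
      have hmx : 0 < m * x := by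
        by_contra h
        push Not at h
        nlinarith
      have hx : 0 < x := by
        by_contra h
        push Not at h
        have hm0 : 0 < m := by linarith
        nlinarith [mul_nonneg hm0.le (neg_nonneg.2 h)]
      nlinarith)
  have hd : 0 < (2 * m - 1) ^ 5 := by
    have : 0 < 2 * m - 1 := by linarith
    positivity
  have h3 : 0 < psiH (m ^ 2) x * psiBs m x ^ 2
        - psiAs m x ^ 2 * ((m ^ 2 + 1) ^ 3 * m ^ 2 * (m ^ 2 - 1)) := by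
    have : 0 < (2 * m - 1) ^ 5 * (psiH (m ^ 2) x * psiBs m x ^ 2
        - psiAs m x ^ 2 * ((m ^ 2 + 1) ^ 3 * m ^ 2 * (m ^ 2 - 1))) := by
      rw [hc]
      exact hpos
    exact (mul_pos_iff_of_pos_left hd).1 this
  rw [← e1, ← e2] at h3
  set z := 2 * (m - 2) / ((2 * m - 3) * (m + 2))
  have h4 : 0 < ((2 * m - 3) * (m + 2)) ^ 2 *
      (psiH (m ^ 2) x * psiBn (m ^ 2) z x ^ 2
        - psiAn (m ^ 2) z x ^ 2 * ((m ^ 2 + 1) ^ 3 * m ^ 2 * (m ^ 2 - 1))) := by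
    calc 0 < _ := h3
      _ = _ := by ring
  have h5 := (mul_pos_iff_of_pos_left (by positivity)).1 h4
  linarith

/-- The corner inequality of the near-diagonal region. -/
lemma T_ineq {N z : ℝ} (hN : 5 ≤ N) (hz : 1 / N ≤ z) :
    N * (N + 1) / (N - 1) * ((N - z) ^ 2 / ((N ^ 2 + 1) / (N - 1) + z) + (1 - z)) ≤
      N * (N + 2) * (1 - 2 * (1 / N) / (N + 1)) := by
  have h0 : 0 < N := by linarith
  have hn1 : 0 < N + 1 := by linarith
  have hn3 : 0 < N - 1 := by linarith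
  have hz0 : 0 < z := lt_of_lt_of_le (by positivity) hz
  have hb : 0 < N ^ 2 + 1 + z * (N - 1) := by positivity
  have e1 : N * (N + 1) / (N - 1) * ((N - z) ^ 2 / ((N ^ 2 + 1) / (N - 1) + z) + (1 - z)) =
      N * (N + 1) * (N ^ 3 + 1 - z * (3 * N ^ 2 - 3 * N + 2)) / ((N - 1) * (N ^ 2 + 1 + z * (N - 1))) := by
    field_simp
    ring
  have e2 : N * (N + 2) * (1 - 2 * (1 / N) / (N + 1)) = (N + 2) ^ 2 * (N - 1) / (N + 1) := by
    field_simp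
    ring
  rw [e1, e2, div_le_div_iff₀ (by positivity) hn1]
  have hNz : 1 ≤ N * z := by
    have := mul_le_mul_of_nonneg_left hz h0.le
    rwa [mul_one_div_cancel h0.ne'] at this
  -- linear in `z`
  have key : 0 ≤ (N + 2) ^ 2 * (N - 1) ^ 2 * (N ^ 2 + 1 + z * (N - 1)) -
      N * (N + 1) ^ 2 * (N ^ 3 + 1 - z * (3 * N ^ 2 - 3 * N + 2)) := by
    have e3 : (N + 2) ^ 2 * (N - 1) ^ 2 * (N ^ 2 + 1 + z * (N - 1)) -
        N * (N + 1) ^ 2 * (N ^ 3 + 1 - z * (3 * N ^ 2 - 3 * N + 2)) =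
        (-3 * N ^ 4 - 3 * N ^ 3 - N ^ 2 - 5 * N + 4) +
        z * ((N + 2) ^ 2 * (N - 1) ^ 3 + N * (N + 1) ^ 2 * (3 * N ^ 2 - 3 * N + 2)) := by ring
    rw [e3]
    have hT1 : 0 ≤ (N + 2) ^ 2 * (N - 1) ^ 3 + N * (N + 1) ^ 2 * (3 * N ^ 2 - 3 * N + 2) := by
      have : 0 < 3 * N ^ 2 - 3 * N + 2 := by nlinarith
      positivity
    -- `N * (...)`
    have h4 : 0 ≤ N * ((-3 * N ^ 4 - 3 * N ^ 3 - N ^ 2 - 5 * N + 4) +
        z * ((N + 2) ^ 2 * (N - 1) ^ 3 + N * (N + 1) ^ 2 * (3 * N ^ 2 - 3 * N + 2))) := by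
      have h5 : (1 : ℝ) * ((N + 2) ^ 2 * (N - 1) ^ 3 + N * (N + 1) ^ 2 * (3 * N ^ 2 - 3 * N + 2)) ≤
          (N * z) * ((N + 2) ^ 2 * (N - 1) ^ 3 + N * (N + 1) ^ 2 * (3 * N ^ 2 - 3 * N + 2)) :=
        mul_le_mul_of_nonneg_right hNz hT1
      have h6 : 0 ≤ N * (-3 * N ^ 4 - 3 * N ^ 3 - N ^ 2 - 5 * N + 4) +
          ((N + 2) ^ 2 * (N - 1) ^ 3 + N * (N + 1) ^ 2 * (3 * N ^ 2 - 3 * N + 2)) := by
        obtain ⟨a, rfl⟩ : ∃ a, N = a + 5 := ⟨N - 5, by ring⟩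
        have ha : 0 ≤ a := by linarith
        ring_nf
        positivity
      nlinarith
    exact nonneg_of_mul_nonneg_right h4 h0
  nlinarith

end Vale.Agent.Lib.P100
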