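import Vale.Agent.Lib.P100.StripCore
import Vale.Agent.Lib.P100.Near

/-!
The strip theorem in every dimension `n ≥ 5`.
-/

namespace Vale.Agent.Lib.P100

/-- The strip theorem for `n ≥ 9`, without the order of `p`, `q`. -/
theorem strip_ge_nine {n : ℕ} (hn : 9 ≤ n) {p q : ℝ} (hp : 0 < p) (hq : 0 < q) (hpq : 1 < p * q)
    (hα : 2 * (p + 1) / (p * q - 1) ≤ (n : ℝ) - 3)
    (hβ : 2 * (q + 1) / (p * q - 1) ≤ (n : ℝ) - 3)
    (hgap : (n : ℝ) - 3 + Real.sqrt n / 2 ≤ 2 * (p + 1) / (p * q - 1) + 2 * (q + 1) / (p * q - 1)) :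
    NoSol n p q := by
  have hN : (9 : ℝ) ≤ n := by exact_mod_cast hn
  have hm : Real.sqrt n ^ 2 = (n : ℝ) := Real.sq_sqrt (by linarith)
  have hm3 : 3 ≤ Real.sqrt n := by
    apply Real.le_sqrt_of_sq_le
    linarith
  obtain ⟨h1, h2, h3⟩ := of_alpha_beta hpq hα hβ hgap
  rcases le_total p q with hle | hle
  · exact strip_core hn hp hq hpq hle hm hm3 h3 h2 h1
  · have hpq' : 1 < q * p := by rwa [mul_comm]
    have e : q * p = p * q := mul_comm q p
    refine (strip_core hn hq hp hpq' hle hm hm3 ?_ ?_ ?_).swap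
    · rw [e]; exact h2
    · rw [e]; exact h3
    · rw [e]
      linarith

/-- The strip theorem for `n ≥ 5`. -/
theorem strip_all {n : ℕ} (hn : 5 ≤ n) {p q : ℝ} (hp : 0 < p) (hq : 0 < q) (hpq : 1 < p * q)
    (hα : 2 * (p + 1) / (p * q - 1) ≤ (n : ℝ) - 3)
    (hβ : 2 * (q + 1) / (p * q - 1) ≤ (n : ℝ) - 3)
    (hgap : (n : ℝ) - 3 + Real.sqrt n / 2 ≤ 2 * (p + 1) / (p * q - 1) + 2 * (q + 1) / (p * q - 1)) :
    NoSol n p q := by
  by_cases h9 : 9 ≤ n
  · exact strip_ge_nine h9 hp hq hpq hα hβ hgap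
  · have hcases : n = 5 ∨ n = 6 ∨ n = 7 ∨ n = 8 := by omega
    rcases hcases with rfl | rfl | rfl | rfl
    · simp only [Nat.cast_ofNat] at hα hβ hgap
      have hs : (2.03 : ℝ) ≤ Real.sqrt 5 := by
        apply Real.le_sqrt_of_sq_le
        norm_num
      obtain ⟨h1, h2, h3⟩ := of_alpha_beta hpq (A0 := 603 / 200) (B := 2)
        (by linarith) (by linarith) (by linarith)
      exact fun u v hu hv upos vpos e1 e2 => tableL5 hp hq hpq h1 h2 h3 u v hu hv upos vpos e1 e2
    · simp only [Nat.cast_ofNat] at hα hβ hgap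
      have hs : (2.08 : ℝ) ≤ Real.sqrt 6 := by
        apply Real.le_sqrt_of_sq_le
        norm_num
      obtain ⟨h1, h2, h3⟩ := of_alpha_beta hpq (A0 := 101 / 25) (B := 3)
        (by linarith) (by linarith) (by linarith)
      exact fun u v hu hv upos vpos e1 e2 => tableL6 hp hq hpq h1 h2 h3 u v hu hv upos vpos e1 e2
    · simp only [Nat.cast_ofNat] at hα hβ hgap
      have hs : (2.1 : ℝ) ≤ Real.sqrt 7 := by
        apply Real.le_sqrt_of_sq_le
        norm_num
      obtain ⟨h1, h2, h3⟩ := of_alpha_beta hpq (A0 := 101 / 20) (B := 4)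
        (by linarith) (by linarith) (by linarith)
      exact fun u v hu hv upos vpos e1 e2 => tableL7 hp hq hpq h1 h2 h3 u v hu hv upos vpos e1 e2
    · simp only [Nat.cast_ofNat] at hα hβ hgap
      have hs : (2.18 : ℝ) ≤ Real.sqrt 8 := by
        apply Real.le_sqrt_of_sq_le
        norm_num
      obtain ⟨h1, h2, h3⟩ := of_alpha_beta hpq (A0 := 609 / 100) (B := 5)
        (by linarith) (by linarith) (by linarith)
      exact fun u v hu hv upos vpos e1 e2 => tableL8 hp hq hpq h1 h2 h3 u v hu hv upos vpos e1 e2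

end Vale.Agent.Lib.P100
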