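import Vale.Agent.Lib.P100.Strip

/-!
Covering the range: nonexistence for `m = √n`, `p ≤ q`.
-/

namespace Vale.Agent.Lib.P100

/-- Near-diagonal case. -/
lemma strip_near {n : ℕ} (hn5 : 5 ≤ n) {p q z : ℝ} (hp : 0 < p) (hq : 0 < q) (hpq : 1 < p * q)
    (hle : p ≤ q) (hsub : ((n : ℝ) - 2) * (p * q - 1) < 2 * (p + q + 2))
    (hz0 : 0 < z) (hz1 : z < 1) (hzN : 1 / (n : ℝ) ≤ z)
    (hP2 : 2 < ((n : ℝ) - 2) * p) (hC : (((n : ℝ) - 2) * p - (2 - z)) * (((n : ℝ) - 2) * q - (2 - z)) ≤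
      ((n : ℝ) - z) ^ 2)
    (hcase : ((n : ℝ) - 2) * q ≤ (n : ℝ) + 3 + 2 / ((n : ℝ) - 1)) : NoSol n p q := by
  have hN : (5 : ℝ) ≤ n := by exact_mod_cast hn5
  set N : ℝ := (n : ℝ) with hNd
  have h0 : 0 < N := by linarith
  have hn1 : 0 < N + 1 := by linarith
  have hn2 : 0 < N - 2 := by linarith
  have hn3 : 0 < N - 1 := by linarith
  set P := (N - 2) * p with hPd
  set Q := (N - 2) * q with hQd
  have hPQ : P ≤ Q := by
    rw [hPd, hQd]
    gcongr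
  have hQ2 : 2 < Q := by linarith
  set a := P - (2 - z) with ha
  set b := Q - (2 - z) with hb
  have ha0 : 0 < a := by rw [ha]; linarith
  have hab : a ≤ b := by rw [ha, hb]; linarith
  have hb0 : 0 < b := by linarith
  set b1 := (N ^ 2 + 1) / (N - 1) + z with hb1
  have hb10 : 0 < b1 := by positivity
  have hbb1 : b ≤ b1 := by
    have e : (N ^ 2 + 1) / (N - 1) = N + 1 + 2 / (N - 1) := by
      field_simp
      ring
    rw [hb1, e, hb]
    linarith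
  have hs : (a + b) * b1 ≤ b1 ^ 2 + (N - z) ^ 2 := by
    have h1 : 0 ≤ (b1 - a) * (b1 - b) := mul_nonneg (by linarith) (by linarith)
    nlinarith
  have hs2 : a + b ≤ b1 + (N - z) ^ 2 / b1 := by
    have e : b1 + (N - z) ^ 2 / b1 = (b1 ^ 2 + (N - z) ^ 2) / b1 := by
      field_simp
    rw [e, le_div_iff₀ hb10]
    exact hs
  have h1z : 0 < 1 - z := by linarith
  have hT : (P - 1) * (Q - 1) ≤ (b1 + (1 - z)) * ((N - z) ^ 2 / b1 + (1 - z)) := by
    have e1 : (P - 1) * (Q - 1) = a * b + (1 - z) * (a + b) + (1 - z) ^ 2 := by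
      rw [ha, hb]
      ring
    have e2 : (b1 + (1 - z)) * ((N - z) ^ 2 / b1 + (1 - z)) =
        (N - z) ^ 2 + (1 - z) * (b1 + (N - z) ^ 2 / b1) + (1 - z) ^ 2 := by
      field_simp
      ring
    rw [e1, e2]
    have h2 := mul_le_mul_of_nonneg_left hs2 h1z.le
    linarith
  have e3 : b1 + (1 - z) = N * (N + 1) / (N - 1) := by
    rw [hb1]
    field_simp
    ring
  rw [e3] at hT
  have hT2 := hT.trans (T_ineq hN hzN)
  set ω := 1 - 2 * (1 / N) / (N + 1) with hω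
  have hω0 : 0 ≤ ω := by
    rw [hω]
    have : 2 * (1 / N) / (N + 1) ≤ 1 := by
      rw [div_le_one hn1]
      have : 1 / N ≤ 1 := by
        rw [div_le_one h0]
        linarith
      linarith
    linarith
  have hω1 : ω ≤ 1 := by
    rw [hω]
    have : 0 ≤ 2 * (1 / N) / (N + 1) := by positivity
    linarith
  have hprod : 0 ≤ (P - 1) * (Q - 1) := mul_nonneg (by linarith) (by linarith)
  refine noSol_T hn5 hp hq hpq hsub (by linarith) ?_
  calc (P - 1) ^ 2 * (Q - 1) ^ 2 = ((P - 1) * (Q - 1)) ^ 2 := by ring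
    _ ≤ (N * (N + 2) * ω) ^ 2 := by gcongr
    _ = (N * (N + 2)) ^ 2 * (ω * ω) := by ring
    _ ≤ (N * (N + 2)) ^ 2 * (ω * 1) := by gcongr
    _ = (N * (N + 2)) ^ 2 * ω := by ring

lemma psiBn_pos {N z x : ℝ} (hN : 5 ≤ N) (hz0 : 0 < z) (hz1 : z < 1) (hx0 : 0 < x) (hx1 : x ≤ 1) :
    0 < psiBn N z x := by
  have hn3 : 0 < N - 1 := by linarith
  have h0 : 0 < N := by linarith
  have h1z : 0 < 1 - z := by linarith
  have h1 : x * N * ((1 - z) * (N - 1) + 2) ≤ 1 * N * ((1 - 0) * (N - 1) + 2) := by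
    have h4 : 0 ≤ (1 - z) * (N - 1) + 2 := by positivity
    have h5 : (1 - z) ≤ (1 - 0) := by linarith
    calc x * N * ((1 - z) * (N - 1) + 2) ≤ 1 * N * ((1 - z) * (N - 1) + 2) := by gcongr
      _ ≤ _ := by gcongr
  have h2 : 0 < N * (N + 1) * (N - 2) + 2 * (N - 1) := by
    have : 0 < N - 2 := by linarith
    positivity
  have e : (N ^ 2 + N + 2) * (N - 1) - 1 * N * ((1 - 0) * (N - 1) + 2) =
      N * (N + 1) * (N - 2) + 2 * (N - 1) := by ring
  rw [psiBn]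
  linarith

lemma far_x_upper {N Q : ℝ} (hN : 5 ≤ N) (hcase : N + 3 + 2 / (N - 1) < Q) :
    (N + 1 + 2 / N) / (Q - 1 + 2 / (N - 1)) ≤ 1 - 1 / N := by
  have h0 : 0 < N := by linarith
  have hn3 : 0 < N - 1 := by linarith
  have h2N0 : 0 < 2 / (N - 1) := by positivity
  have hden0 : 0 < Q - 1 + 2 / (N - 1) := by linarith
  rw [div_le_iff₀ hden0]
  have e : N + 1 + 2 / N = (1 - 1 / N) * (N + 2 + 4 / (N - 1)) := by
    field_simp
    ring
  have h1N : 0 ≤ 1 - 1 / N := by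
    have : 1 / N ≤ 1 := by
      rw [div_le_one h0]
      linarith
    linarith
  rw [e]
  apply mul_le_mul_of_nonneg_left _ h1N
  have e2 : 4 / (N - 1) = 2 / (N - 1) + 2 / (N - 1) := by ring
  rw [e2]
  linarith

lemma far_x_lower {N m Q : ℝ} (hN : 9 ≤ N) (hm : m ^ 2 = N) (hm3 : 3 ≤ m)
    (hmQ : m * Q ≤ 2 * (N - 1) * (N - 2)) (hden0 : 0 < Q - 1 + 2 / (N - 1)) :
    1 ≤ 2 * m * ((N + 1 + 2 / N) / (Q - 1 + 2 / (N - 1))) := by
  have h0 : 0 < N := by linarith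
  have hn3 : 0 < N - 1 := by linarith
  have hm0 : 0 < m := by linarith
  have h2N : 2 / (N - 1) ≤ 1 := by
    rw [div_le_one hn3]
    linarith
  rw [← mul_div_assoc, le_div_iff₀ hden0, one_mul]
  have h3 : Q ≤ 2 * m * (N + 1) := by
    have h4 : m * Q ≤ m * (2 * m * (N + 1)) := by
      have e : m * (2 * m * (N + 1)) = 2 * N * (N + 1) := by
        rw [← hm]
        ring
      rw [e]
      nlinarith
    exact le_of_mul_le_mul_left h4 hm0
  have h5 : N + 1 ≤ N + 1 + 2 / N := by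
    have : 0 < 2 / N := by positivity
    linarith
  have h6 : 2 * m * (N + 1) ≤ 2 * m * (N + 1 + 2 / N) := by gcongr
  linarith

lemma far_rel {N z x Q : ℝ} (hN : 5 ≤ N) (hx0 : 0 < x)
    (hQx : Q = (N + 1 + 2 / N) / x + 1 - 2 / (N - 1)) :
    (Q - (2 - z)) * (N * (N - 1) * x) = psiBn N z x := by
  have h0 : 0 < N := by linarith
  have hn3 : 0 < N - 1 := by linarith
  rw [psiBn, hQx]
  field_simp
  ring

lemma far_final {N z x P Q H : ℝ} (hN : 5 ≤ N) (hz0 : 0 < z) (hz1 : z < 1) (hx0 : 0 < x)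
    (hx1 : x ≤ 1) (hP2 : 2 < P) (hC : (P - (2 - z)) * (Q - (2 - z)) ≤ (N - z) ^ 2)
    (hQx : Q = (N + 1 + 2 / N) / x + 1 - 2 / (N - 1))
    (hmain : psiAn N z x ^ 2 * ((N + 1) ^ 3 * N * (N - 1)) < H * psiBn N z x ^ 2) :
    (P - 1) ^ 2 ≤ H / ((N + 1) ^ 3 * N * (N - 1)) := by
  have h0 : 0 < N := by linarith
  have hn1 : 0 < N + 1 := by linarith
  have hn3 : 0 < N - 1 := by linarith
  have hBn0 := psiBn_pos hN hz0 hz1 hx0 hx1
  have hrel := far_rel (z := z) hN hx0 hQx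
  have hmul : 0 < N * (N - 1) * x := by positivity
  have hup : (P - 1) * psiBn N z x ≤ psiAn N z x := by
    have h1 : (P - (2 - z)) * psiBn N z x ≤ (N - z) ^ 2 * (N * (N - 1) * x) := by
      rw [← hrel]
      have := mul_le_mul_of_nonneg_right hC hmul.le
      calc _ = (P - (2 - z)) * (Q - (2 - z)) * (N * (N - 1) * x) := by ring
        _ ≤ _ := this
    have e : psiAn N z x = (N - z) ^ 2 * (N * (N - 1) * x) + (1 - z) * psiBn N z x := by
      rw [psiAn]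
      ring
    rw [e]
    linarith
  have hP1 : 0 < P - 1 := by linarith
  have hsq : ((P - 1) * psiBn N z x) ^ 2 ≤ psiAn N z x ^ 2 := by
    have : 0 ≤ (P - 1) * psiBn N z x := by positivity
    gcongr
  have hDen : 0 < (N + 1) ^ 3 * N * (N - 1) := by positivity
  rw [le_div_iff₀ hDen]
  have hB2 : 0 < psiBn N z x ^ 2 := by positivity
  have h5 : (P - 1) ^ 2 * ((N + 1) ^ 3 * N * (N - 1)) * psiBn N z x ^ 2 < H * psiBn N z x ^ 2 := by
    calc _ = ((P - 1) * psiBn N z x) ^ 2 * ((N + 1) ^ 3 * N * (N - 1)) := by ring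
      _ ≤ psiAn N z x ^ 2 * ((N + 1) ^ 3 * N * (N - 1)) := by gcongr
      _ < _ := hmain
  exact (lt_of_mul_lt_mul_right h5 hB2.le).le

/-- The case of the one-parameter family. -/
lemma strip_far {n : ℕ} (hn9 : 9 ≤ n) {p q m : ℝ} (hp : 0 < p) (hq : 0 < q) (hpq : 1 < p * q)
    (hsub : ((n : ℝ) - 2) * (p * q - 1) < 2 * (p + q + 2))
    (hm : m ^ 2 = (n : ℝ)) (hm3 : 3 ≤ m)
    (hP2 : 2 < ((n : ℝ) - 2) * p)
    (hz0 : 0 < 2 * (m - 2) / ((2 * m - 3) * (m + 2))) (hz1 : 2 * (m - 2) / ((2 * m - 3) * (m + 2)) < 1)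
    (hC : (((n : ℝ) - 2) * p - (2 - 2 * (m - 2) / ((2 * m - 3) * (m + 2)))) *
        (((n : ℝ) - 2) * q - (2 - 2 * (m - 2) / ((2 * m - 3) * (m + 2)))) ≤
      ((n : ℝ) - 2 * (m - 2) / ((2 * m - 3) * (m + 2))) ^ 2)
    (hcase : (n : ℝ) + 3 + 2 / ((n : ℝ) - 1) < ((n : ℝ) - 2) * q)
    (hqm : m / 2 * q ≤ (n : ℝ) - 1) : NoSol n p q := by
  have hn5 : 5 ≤ n := by omega
  have hN9 : (9 : ℝ) ≤ n := by exact_mod_cast hn9
  have hN : (5 : ℝ) ≤ n := by linarith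
  have hpsi := fun x hx0 hx1 => psi_main (m := m) (x := x) hm3 hx0 hx1
  rw [hm] at hpsi
  have h0 : (0 : ℝ) < n := by linarith
  have hn2 : (0 : ℝ) < (n : ℝ) - 2 := by linarith
  have hn3 : (0 : ℝ) < (n : ℝ) - 1 := by linarith
  have hm0 : 0 < m := by linarith
  have h2N0 : 0 < 2 / ((n : ℝ) - 1) := by positivity
  have hden0 : 0 < ((n : ℝ) - 2) * q - 1 + 2 / ((n : ℝ) - 1) := by linarith
  have hs0 : 0 < (n : ℝ) + 1 + 2 / (n : ℝ) := by positivity
  have hxupper := far_x_upper hN hcase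
  have hmQ : m * (((n : ℝ) - 2) * q) ≤ 2 * ((n : ℝ) - 1) * ((n : ℝ) - 2) := by
    have := mul_le_mul_of_nonneg_left hqm hn2.le
    nlinarith
  have hx2m := far_x_lower hN9 hm hm3 hmQ hden0
  obtain ⟨x, hxd⟩ : ∃ x, x = ((n : ℝ) + 1 + 2 / (n : ℝ)) / (((n : ℝ) - 2) * q - 1 + 2 / ((n : ℝ) - 1)) :=
    ⟨_, rfl⟩
  rw [← hxd] at hxupper hx2m
  have hx0 : 0 < x := by
    rw [hxd]
    positivity
  have hQx : ((n : ℝ) - 2) * q = ((n : ℝ) + 1 + 2 / (n : ℝ)) / x + 1 - 2 / ((n : ℝ) - 1) := by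
    have : ((n : ℝ) + 1 + 2 / (n : ℝ)) / x = ((n : ℝ) - 2) * q - 1 + 2 / ((n : ℝ) - 1) := by
      rw [hxd]
      field_simp
    rw [this]
    ring
  have hxN : 1 / (n : ℝ) ≤ x := by
    rw [div_le_iff₀ h0]
    have h1 : x * (2 * m) ≤ x * (n : ℝ) := by
      apply mul_le_mul_of_nonneg_left _ hx0.le
      rw [← hm]
      nlinarith
    nlinarith
  have hx1' : x ≤ 1 := by
    have : 0 < 1 / (n : ℝ) := by positivity
    linarith
  have hmain := hpsi x hx2m hx1'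
  refine noSol_x hn5 hp hq hpq hsub hxN hxupper hQx ?_
  have hH : Hf (n : ℝ) x = psiH (n : ℝ) x / (((n : ℝ) + 1) ^ 3 * (n : ℝ) * ((n : ℝ) - 1)) := by
    simp only [Hf, Hf.psiHr, psiH]
  rw [hH]
  exact far_final hN hz0 hz1 hx0 hx1' hP2 hC hQx hmain

/-- Nonexistence on `p ≤ q` for `n ≥ 9`. -/
theorem strip_core {n : ℕ} (hn : 9 ≤ n) {p q m : ℝ} (hp : 0 < p) (hq : 0 < q) (hpq : 1 < p * q)
    (hle : p ≤ q) (hm : m ^ 2 = (n : ℝ)) (hm3 : 3 ≤ m)
    (hb1 : 2 * (q + 1) ≤ ((n : ℝ) - 3) * (p * q - 1))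
    (hb2 : 2 * (p + 1) ≤ ((n : ℝ) - 3) * (p * q - 1))
    (hgap : ((n : ℝ) - 3 + m / 2) * (p * q - 1) ≤ 2 * (p + q + 2)) : NoSol n p q := by
  have hn5 : 5 ≤ n := by omega
  have hN : (9 : ℝ) ≤ n := by exact_mod_cast hn
  have h2m : 0 < 2 * m - 3 := by linarith
  have hm2 : 0 < m + 2 := by linarith
  have hzd : 0 < (2 * m - 3) * (m + 2) := by positivity
  have hz0 : 0 < 2 * (m - 2) / ((2 * m - 3) * (m + 2)) := by
    apply div_pos _ hzd
    linarith
  have hz1 : 2 * (m - 2) / ((2 * m - 3) * (m + 2)) < 1 := by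
    rw [div_lt_one hzd]
    nlinarith
  have hzN : 1 / (n : ℝ) ≤ 2 * (m - 2) / ((2 * m - 3) * (m + 2)) := by
    rw [div_le_div_iff₀ (by linarith) hzd, ← hm]
    obtain ⟨a, rfl⟩ : ∃ a, m = a + 3 := ⟨m - 3, by ring⟩
    have ha : 0 ≤ a := by linarith
    have : 0 ≤ 2 * a ^ 3 + 12 * a ^ 2 + 17 * a + 3 := by positivity
    nlinarith
  have hzz : 2 * (m - 2) / ((2 * m - 3) * (m + 2)) * ((2 * m - 3) * (m + 2)) = 2 * (m - 2) :=
    div_mul_cancel₀ _ hzd.ne'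
  set z := 2 * (m - 2) / ((2 * m - 3) * (m + 2)) with hz
  set N : ℝ := (n : ℝ) with hNd
  have h0 : 0 < N := by linarith
  have hn2 : 0 < N - 2 := by linarith
  have hn3 : 0 < N - 3 := by linarith
  have hd : 0 < p * q - 1 := by linarith
  have hgA : (2 - z) * (N - 3 + m / 2) = 2 * (N - 2) := by
    linear_combination (-(1 / 2)) * hzz + z * hm
  have hg : 0 < 2 - z := by linarith
  have hL : (N - 2) * (p * q - 1) ≤ (2 - z) * (p + q + 2) := by
    have := mul_le_mul_of_nonneg_left hgap hg.le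
    nlinarith
  have hsub : (N - 2) * (p * q - 1) < 2 * (p + q + 2) := by
    have h1 : (N - 2) * (p * q - 1) < (N - 3 + m / 2) * (p * q - 1) := by
      apply mul_lt_mul_of_pos_right _ hd
      linarith
    linarith
  have hqp : 2 < (N - 3) * p := by
    have h1 : 2 * q < (N - 3) * p * q := by nlinarith
    have h2 : 2 * q < ((N - 3) * p) * q := by linarith
    exact lt_of_mul_lt_mul_right h2 hq.le
  have hpq' : 2 < (N - 3) * q := by
    have h1 : 2 * p < (N - 3) * q * p := by nlinarith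
    exact lt_of_mul_lt_mul_right h1 hp.le
  have hP2 : 2 < (N - 2) * p := by nlinarith
  have hC : ((N - 2) * p - (2 - z)) * ((N - 2) * q - (2 - z)) ≤ (N - z) ^ 2 := by
    have e : (N - z) ^ 2 - ((N - 2) * p - (2 - z)) * ((N - 2) * q - (2 - z)) =
        (N - 2) * ((2 - z) * (p + q + 2) - (N - 2) * (p * q - 1)) := by ring
    have h1 : 0 ≤ (N - 2) * ((2 - z) * (p + q + 2) - (N - 2) * (p * q - 1)) :=
      mul_nonneg hn2.le (by linarith)
    linarith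
  have hqm : m / 2 * q ≤ N - 1 := by
    have h1 : m / 2 * (p * q - 1) ≤ 2 * (p + 1) := by nlinarith
    have h2 : (m / 2 * q) * (p * q - 1) ≤ (N - 1) * (p * q - 1) := by
      have h3 := mul_le_mul_of_nonneg_right h1 hq.le
      nlinarith
    exact le_of_mul_le_mul_right h2 hd
  by_cases hcase : (N - 2) * q ≤ N + 3 + 2 / (N - 1)
  · exact strip_near hn5 hp hq hpq hle hsub hz0 hz1 hzN hP2 hC hcase
  · exact strip_far hn hp hq hpq hsub hm hm3 hP2 hz0 hz1 hC (not_le.1 hcase) hqm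

end Vale.Agent.Lib.P100
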