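import Vale.Agent.Lib.P100.RowsL5_1
import Vale.Agent.Lib.P100.RowsL5_2
import Vale.Agent.Lib.P100.RowsL5_3
import Vale.Agent.Lib.P100.RowsL5_4
import Vale.Agent.Lib.P100.RowsL5_5

/-!
The staircase in dimension 5.
-/

namespace Vale.Agent.Lib.P100

theorem tailL5_179 {p q : ℝ} (hp : 0 < p) (hq : 0 < q) (hpq : 1 < p * q) (hle : p ≤ q)
    (hsub : (603 / 200 : ℝ) * (p * q - 1) ≤ 2 * (p + q + 2))
    (hs : (462931 / 200000 : ℝ) ≤ p) : NoSol 5 p q := by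
  have h1 : p ≤ (5819443 / 2500000 : ℝ) := by
    by_contra h
    push Not at h
    have h3 := corner_mono (A0 := (603 / 200 : ℝ)) (p0 := (5819443 / 2500000 : ℝ)) (q0 := (5819443 / 2500000 : ℝ)) (p := p) (q := q) (by norm_num) (by norm_num)
      (by norm_num) (by norm_num) h.le (le_trans h.le hle)
    linarith
  have h4 : q ≤ (23388329 / 10000000 : ℝ) :=
    q_le_of_corner (A0 := (603 / 200 : ℝ)) (p0 := (462931 / 200000 : ℝ)) (q0 := (23388329 / 10000000 : ℝ)) (by norm_num) (by norm_num)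
      (by norm_num) (by norm_num) hs hsub
  exact rowL5_179 hp h1 hq h4 hpq

theorem tailL5_178 {p q : ℝ} (hp : 0 < p) (hq : 0 < q) (hpq : 1 < p * q) (hle : p ≤ q)
    (hsub : (603 / 200 : ℝ) * (p * q - 1) ≤ 2 * (p + q + 2))
    (hs : (2301593 / 1000000 : ℝ) ≤ p) : NoSol 5 p q := by
  rcases le_or_gt p (462931 / 200000 : ℝ) with h1 | h1
  · exact rowL5_178 hp h1 hq (q_le_of_corner (A0 := (603 / 200 : ℝ)) (p0 := (2301593 / 1000000 : ℝ)) (q0 := (11760959 / 5000000 : ℝ))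
      (by norm_num) (by norm_num) (by norm_num) (by norm_num) hs hsub) hpq
  · exact tailL5_179 hp hq hpq hle hsub h1.le

theorem tailL5_177 {p q : ℝ} (hp : 0 < p) (hq : 0 < q) (hpq : 1 < p * q) (hle : p ≤ q)
    (hsub : (603 / 200 : ℝ) * (p * q - 1) ≤ 2 * (p + q + 2))
    (hs : (11443281 / 5000000 : ℝ) ≤ p) : NoSol 5 p q := by
  rcases le_or_gt p (2301593 / 1000000 : ℝ) with h1 | h1
  · exact rowL5_177 hp h1 hq (q_le_of_corner (A0 := (603 / 200 : ℝ)) (p0 := (11443281 / 5000000 : ℝ)) (q0 := (23656343 / 10000000 : ℝ))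
      (by norm_num) (by norm_num) (by norm_num) (by norm_num) hs hsub) hpq
  · exact tailL5_178 hp hq hpq hle hsub h1.le

theorem tailL5_176 {p q : ℝ} (hp : 0 < p) (hq : 0 < q) (hpq : 1 < p * q) (hle : p ≤ q)
    (hsub : (603 / 200 : ℝ) * (p * q - 1) ≤ 2 * (p + q + 2))
    (hs : (568957 / 250000 : ℝ) ≤ p) : NoSol 5 p q := by
  rcases le_or_gt p (11443281 / 5000000 : ℝ) with h1 | h1
  · exact rowL5_176 hp h1 hq (q_le_of_corner (A0 := (603 / 200 : ℝ)) (p0 := (568957 / 250000 : ℝ)) (q0 := (2379177 / 1000000 : ℝ))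
      (by norm_num) (by norm_num) (by norm_num) (by norm_num) hs hsub) hpq
  · exact tailL5_177 hp hq hpq hle hsub h1.le

theorem tailL5_175 {p q : ℝ} (hp : 0 < p) (hq : 0 < q) (hpq : 1 < p * q) (hle : p ≤ q)
    (hsub : (603 / 200 : ℝ) * (p * q - 1) ≤ 2 * (p + q + 2))
    (hs : (5657903 / 2500000 : ℝ) ≤ p) : NoSol 5 p q := by
  rcases le_or_gt p (568957 / 250000 : ℝ) with h1 | h1
  · exact rowL5_175 hp h1 hq (q_le_of_corner (A0 := (603 / 200 : ℝ)) (p0 := (5657903 / 2500000 : ℝ)) (q0 := (23927623 / 10000000 : ℝ))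
      (by norm_num) (by norm_num) (by norm_num) (by norm_num) hs hsub) hpq
  · exact tailL5_176 hp hq hpq hle hsub h1.le

theorem tailL5_174 {p q : ℝ} (hp : 0 < p) (hq : 0 < q) (hpq : 1 < p * q) (hle : p ≤ q)
    (hsub : (603 / 200 : ℝ) * (p * q - 1) ≤ 2 * (p + q + 2))
    (hs : (22505583 / 10000000 : ℝ) ≤ p) : NoSol 5 p q := by
  rcases le_or_gt p (5657903 / 2500000 : ℝ) with h1 | h1
  · exact rowL5_174 hp h1 hq (q_le_of_corner (A0 := (603 / 200 : ℝ)) (p0 := (22505583 / 10000000 : ℝ)) (q0 := (1504059 / 625000 : ℝ))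
      (by norm_num) (by norm_num) (by norm_num) (by norm_num) hs hsub) hpq
  · exact tailL5_175 hp hq hpq hle hsub h1.le

theorem tailL5_173 {p q : ℝ} (hp : 0 < p) (hq : 0 < q) (hpq : 1 < p * q) (hle : p ≤ q)
    (hsub : (603 / 200 : ℝ) * (p * q - 1) ≤ 2 * (p + q + 2))
    (hs : (11190353 / 5000000 : ℝ) ≤ p) : NoSol 5 p q := by
  rcases le_or_gt p (22505583 / 10000000 : ℝ) with h1 | h1
  · exact rowL5_173 hp h1 hq (q_le_of_corner (A0 := (603 / 200 : ℝ)) (p0 := (11190353 / 5000000 : ℝ)) (q0 := (24203177 / 10000000 : ℝ))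
      (by norm_num) (by norm_num) (by norm_num) (by norm_num) hs hsub) hpq
  · exact tailL5_174 hp hq hpq hle hsub h1.le

theorem tailL5_172 {p q : ℝ} (hp : 0 < p) (hq : 0 < q) (hpq : 1 < p * q) (hle : p ≤ q)
    (hsub : (603 / 200 : ℝ) * (p * q - 1) ≤ 2 * (p + q + 2))
    (hs : (2782167 / 1250000 : ℝ) ≤ p) : NoSol 5 p q := by
  rcases le_or_gt p (11190353 / 5000000 : ℝ) with h1 | h1
  · exact rowL5_172 hp h1 hq (q_le_of_corner (A0 := (603 / 200 : ℝ)) (p0 := (2782167 / 1250000 : ℝ)) (q0 := (3042739 / 1250000 : ℝ))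
      (by norm_num) (by norm_num) (by norm_num) (by norm_num) hs hsub) hpq
  · exact tailL5_173 hp hq hpq hle hsub h1.le

theorem tailL5_171 {p q : ℝ} (hp : 0 < p) (hq : 0 < q) (hpq : 1 < p * q) (hle : p ≤ q)
    (hsub : (603 / 200 : ℝ) * (p * q - 1) ≤ 2 * (p + q + 2))
    (hs : (22135187 / 10000000 : ℝ) ≤ p) : NoSol 5 p q := by
  rcases le_or_gt p (2782167 / 1250000 : ℝ) with h1 | h1
  · exact rowL5_171 hp h1 hq (q_le_of_corner (A0 := (603 / 200 : ℝ)) (p0 := (22135187 / 10000000 : ℝ)) (q0 := (24481449 / 10000000 : ℝ))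
      (by norm_num) (by norm_num) (by norm_num) (by norm_num) hs hsub) hpq
  · exact tailL5_172 hp hq hpq hle hsub h1.le

theorem tailL5_170 {p q : ℝ} (hp : 0 < p) (hq : 0 < q) (hpq : 1 < p * q) (hle : p ≤ q)
    (hsub : (603 / 200 : ℝ) * (p * q - 1) ≤ 2 * (p + q + 2))
    (hs : (22014653 / 10000000 : ℝ) ≤ p) : NoSol 5 p q := by
  rcases le_or_gt p (22135187 / 10000000 : ℝ) with h1 | h1
  · exact rowL5_170 hp h1 hq (q_le_of_corner (A0 := (603 / 200 : ℝ)) (p0 := (22014653 / 10000000 : ℝ)) (q0 := (12310657 / 5000000 : ℝ))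
      (by norm_num) (by norm_num) (by norm_num) (by norm_num) hs hsub) hpq
  · exact tailL5_171 hp hq hpq hle hsub h1.le

theorem tailL5_169 {p q : ℝ} (hp : 0 < p) (hq : 0 < q) (hpq : 1 < p * q) (hle : p ≤ q)
    (hsub : (603 / 200 : ℝ) * (p * q - 1) ≤ 2 * (p + q + 2))
    (hs : (547401 / 250000 : ℝ) ≤ p) : NoSol 5 p q := by
  rcases le_or_gt p (22014653 / 10000000 : ℝ) with h1 | h1
  · exact rowL5_169 hp h1 hq (q_le_of_corner (A0 := (603 / 200 : ℝ)) (p0 := (547401 / 250000 : ℝ)) (q0 := (24761107 / 10000000 : ℝ))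
      (by norm_num) (by norm_num) (by norm_num) (by norm_num) hs hsub) hpq
  · exact tailL5_170 hp hq hpq hle hsub h1.le

theorem tailL5_168 {p q : ℝ} (hp : 0 < p) (hq : 0 < q) (hpq : 1 < p * q) (hle : p ≤ q)
    (hsub : (603 / 200 : ℝ) * (p * q - 1) ≤ 2 * (p + q + 2))
    (hs : (10888853 / 5000000 : ℝ) ≤ p) : NoSol 5 p q := by
  rcases le_or_gt p (547401 / 250000 : ℝ) with h1 | h1
  · exact rowL5_168 hp h1 hq (q_le_of_corner (A0 := (603 / 200 : ℝ)) (p0 := (10888853 / 5000000 : ℝ)) (q0 := (778211 / 312500 : ℝ))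
      (by norm_num) (by norm_num) (by norm_num) (by norm_num) hs hsub) hpq
  · exact tailL5_169 hp hq hpq hle hsub h1.le

theorem tailL5_167 {p q : ℝ} (hp : 0 < p) (hq : 0 < q) (hpq : 1 < p * q) (hle : p ≤ q)
    (hsub : (603 / 200 : ℝ) * (p * q - 1) ≤ 2 * (p + q + 2))
    (hs : (4332149 / 2000000 : ℝ) ≤ p) : NoSol 5 p q := by
  rcases le_or_gt p (10888853 / 5000000 : ℝ) with h1 | h1
  · exact rowL5_167 hp h1 hq (q_le_of_corner (A0 := (603 / 200 : ℝ)) (p0 := (4332149 / 2000000 : ℝ)) (q0 := (25044947 / 10000000 : ℝ))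
      (by norm_num) (by norm_num) (by norm_num) (by norm_num) hs hsub) hpq
  · exact tailL5_168 hp hq hpq hle hsub h1.le

theorem tailL5_166 {p q : ℝ} (hp : 0 < p) (hq : 0 < q) (hpq : 1 < p * q) (hle : p ≤ q)
    (hsub : (603 / 200 : ℝ) * (p * q - 1) ≤ 2 * (p + q + 2))
    (hs : (4309043 / 2000000 : ℝ) ≤ p) : NoSol 5 p q := by
  rcases le_or_gt p (4332149 / 2000000 : ℝ) with h1 | h1
  · exact rowL5_166 hp h1 hq (q_le_of_corner (A0 := (603 / 200 : ℝ)) (p0 := (4309043 / 2000000 : ℝ)) (q0 := (25187591 / 10000000 : ℝ))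
      (by norm_num) (by norm_num) (by norm_num) (by norm_num) hs hsub) hpq
  · exact tailL5_167 hp hq hpq hle hsub h1.le

theorem tailL5_165 {p q : ℝ} (hp : 0 < p) (hq : 0 < q) (hpq : 1 < p * q) (hle : p ≤ q)
    (hsub : (603 / 200 : ℝ) * (p * q - 1) ≤ 2 * (p + q + 2))
    (hs : (133949 / 62500 : ℝ) ≤ p) : NoSol 5 p q := by
  rcases le_or_gt p (4309043 / 2000000 : ℝ) with h1 | h1
  · exact rowL5_165 hp h1 hq (q_le_of_corner (A0 := (603 / 200 : ℝ)) (p0 := (133949 / 62500 : ℝ)) (q0 := (1266487 / 500000 : ℝ))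
      (by norm_num) (by norm_num) (by norm_num) (by norm_num) hs hsub) hpq
  · exact tailL5_166 hp hq hpq hle hsub h1.le

theorem tailL5_164 {p q : ℝ} (hp : 0 < p) (hq : 0 < q) (hpq : 1 < p * q) (hle : p ≤ q)
    (hsub : (603 / 200 : ℝ) * (p * q - 1) ≤ 2 * (p + q + 2))
    (hs : (21319259 / 10000000 : ℝ) ≤ p) : NoSol 5 p q := by
  rcases le_or_gt p (133949 / 62500 : ℝ) with h1 | h1
  · exact rowL5_164 hp h1 hq (q_le_of_corner (A0 := (603 / 200 : ℝ)) (p0 := (21319259 / 10000000 : ℝ)) (q0 := (12736533 / 5000000 : ℝ))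
      (by norm_num) (by norm_num) (by norm_num) (by norm_num) hs hsub) hpq
  · exact tailL5_165 hp hq hpq hle hsub h1.le

theorem tailL5_163 {p q : ℝ} (hp : 0 < p) (hq : 0 < q) (hpq : 1 < p * q) (hle : p ≤ q)
    (hsub : (603 / 200 : ℝ) * (p * q - 1) ≤ 2 * (p + q + 2))
    (hs : (21208403 / 10000000 : ℝ) ≤ p) : NoSol 5 p q := by
  rcases le_or_gt p (21319259 / 10000000 : ℝ) with h1 | h1
  · exact rowL5_163 hp h1 hq (q_le_of_corner (A0 := (603 / 200 : ℝ)) (p0 := (21208403 / 10000000 : ℝ)) (q0 := (12808179 / 5000000 : ℝ))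
      (by norm_num) (by norm_num) (by norm_num) (by norm_num) hs hsub) hpq
  · exact tailL5_164 hp hq hpq hle hsub h1.le

theorem tailL5_162 {p q : ℝ} (hp : 0 < p) (hq : 0 < q) (hpq : 1 < p * q) (hle : p ≤ q)
    (hsub : (603 / 200 : ℝ) * (p * q - 1) ≤ 2 * (p + q + 2))
    (hs : (21098819 / 10000000 : ℝ) ≤ p) : NoSol 5 p q := by
  rcases le_or_gt p (21208403 / 10000000 : ℝ) with h1 | h1
  · exact rowL5_162 hp h1 hq (q_le_of_corner (A0 := (603 / 200 : ℝ)) (p0 := (21098819 / 10000000 : ℝ)) (q0 := (12880083 / 5000000 : ℝ))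
      (by norm_num) (by norm_num) (by norm_num) (by norm_num) hs hsub) hpq
  · exact tailL5_163 hp hq hpq hle hsub h1.le

theorem tailL5_161 {p q : ℝ} (hp : 0 < p) (hq : 0 < q) (hpq : 1 < p * q) (hle : p ≤ q)
    (hsub : (603 / 200 : ℝ) * (p * q - 1) ≤ 2 * (p + q + 2))
    (hs : (20990621 / 10000000 : ℝ) ≤ p) : NoSol 5 p q := by
  rcases le_or_gt p (21098819 / 10000000 : ℝ) with h1 | h1
  · exact rowL5_161 hp h1 hq (q_le_of_corner (A0 := (603 / 200 : ℝ)) (p0 := (20990621 / 10000000 : ℝ)) (q0 := (6476077 / 2500000 : ℝ))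
      (by norm_num) (by norm_num) (by norm_num) (by norm_num) hs hsub) hpq
  · exact tailL5_162 hp hq hpq hle hsub h1.le

theorem tailL5_160 {p q : ℝ} (hp : 0 < p) (hq : 0 < q) (hpq : 1 < p * q) (hle : p ≤ q)
    (hsub : (603 / 200 : ℝ) * (p * q - 1) ≤ 2 * (p + q + 2))
    (hs : (5221023 / 2500000 : ℝ) ≤ p) : NoSol 5 p q := by
  rcases le_or_gt p (20990621 / 10000000 : ℝ) with h1 | h1
  · exact rowL5_160 hp h1 hq (q_le_of_corner (A0 := (603 / 200 : ℝ)) (p0 := (5221023 / 2500000 : ℝ)) (q0 := (5209673 / 2000000 : ℝ))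
      (by norm_num) (by norm_num) (by norm_num) (by norm_num) hs hsub) hpq
  · exact tailL5_161 hp hq hpq hle hsub h1.le

theorem tailL5_159 {p q : ℝ} (hp : 0 < p) (hq : 0 < q) (hpq : 1 < p * q) (hle : p ≤ q)
    (hsub : (603 / 200 : ℝ) * (p * q - 1) ≤ 2 * (p + q + 2))
    (hs : (10389279 / 5000000 : ℝ) ≤ p) : NoSol 5 p q := by
  rcases le_or_gt p (5221023 / 2500000 : ℝ) with h1 | h1
  · exact rowL5_159 hp h1 hq (q_le_of_corner (A0 := (603 / 200 : ℝ)) (p0 := (10389279 / 5000000 : ℝ)) (q0 := (409269 / 156250 : ℝ))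
      (by norm_num) (by norm_num) (by norm_num) (by norm_num) hs hsub) hpq
  · exact tailL5_160 hp hq hpq hle hsub h1.le

theorem tailL5_158 {p q : ℝ} (hp : 0 < p) (hq : 0 < q) (hpq : 1 < p * q) (hle : p ≤ q)
    (hsub : (603 / 200 : ℝ) * (p * q - 1) ≤ 2 * (p + q + 2))
    (hs : (10337123 / 5000000 : ℝ) ≤ p) : NoSol 5 p q := by
  rcases le_or_gt p (10389279 / 5000000 : ℝ) with h1 | h1
  · exact rowL5_158 hp h1 hq (q_le_of_corner (A0 := (603 / 200 : ℝ)) (p0 := (10337123 / 5000000 : ℝ)) (q0 := (2633853 / 1000000 : ℝ))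
      (by norm_num) (by norm_num) (by norm_num) (by norm_num) hs hsub) hpq
  · exact tailL5_159 hp hq hpq hle hsub h1.le

theorem tailL5_157 {p q : ℝ} (hp : 0 < p) (hq : 0 < q) (hpq : 1 < p * q) (hle : p ≤ q)
    (hsub : (603 / 200 : ℝ) * (p * q - 1) ≤ 2 * (p + q + 2))
    (hs : (10285729 / 5000000 : ℝ) ≤ p) : NoSol 5 p q := by
  rcases le_or_gt p (10337123 / 5000000 : ℝ) with h1 | h1
  · exact rowL5_157 hp h1 hq (q_le_of_corner (A0 := (603 / 200 : ℝ)) (p0 := (10285729 / 5000000 : ℝ)) (q0 := (3310481 / 1250000 : ℝ))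
      (by norm_num) (by norm_num) (by norm_num) (by norm_num) hs hsub) hpq
  · exact tailL5_158 hp hq hpq hle hsub h1.le

theorem tailL5_156 {p q : ℝ} (hp : 0 < p) (hq : 0 < q) (hpq : 1 < p * q) (hle : p ≤ q)
    (hsub : (603 / 200 : ℝ) * (p * q - 1) ≤ 2 * (p + q + 2))
    (hs : (10235067 / 5000000 : ℝ) ≤ p) : NoSol 5 p q := by
  rcases le_or_gt p (10285729 / 5000000 : ℝ) with h1 | h1
  · exact rowL5_156 hp h1 hq (q_le_of_corner (A0 := (603 / 200 : ℝ)) (p0 := (10235067 / 5000000 : ℝ)) (q0 := (2662921 / 1000000 : ℝ))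
      (by norm_num) (by norm_num) (by norm_num) (by norm_num) hs hsub) hpq
  · exact tailL5_157 hp hq hpq hle hsub h1.le

theorem tailL5_155 {p q : ℝ} (hp : 0 < p) (hq : 0 < q) (hpq : 1 < p * q) (hle : p ≤ q)
    (hsub : (603 / 200 : ℝ) * (p * q - 1) ≤ 2 * (p + q + 2))
    (hs : (10185219 / 5000000 : ℝ) ≤ p) : NoSol 5 p q := by
  rcases le_or_gt p (10235067 / 5000000 : ℝ) with h1 | h1
  · exact rowL5_155 hp h1 hq (q_le_of_corner (A0 := (603 / 200 : ℝ)) (p0 := (10185219 / 5000000 : ℝ)) (q0 := (26774329 / 10000000 : ℝ))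
      (by norm_num) (by norm_num) (by norm_num) (by norm_num) hs hsub) hpq
  · exact tailL5_156 hp hq hpq hle hsub h1.le

theorem tailL5_154 {p q : ℝ} (hp : 0 < p) (hq : 0 < q) (hpq : 1 < p * q) (hle : p ≤ q)
    (hsub : (603 / 200 : ℝ) * (p * q - 1) ≤ 2 * (p + q + 2))
    (hs : (1013603 / 500000 : ℝ) ≤ p) : NoSol 5 p q := by
  rcases le_or_gt p (10185219 / 5000000 : ℝ) with h1 | h1
  · exact rowL5_154 hp h1 hq (q_le_of_corner (A0 := (603 / 200 : ℝ)) (p0 := (1013603 / 500000 : ℝ)) (q0 := (26919609 / 10000000 : ℝ))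
      (by norm_num) (by norm_num) (by norm_num) (by norm_num) hs hsub) hpq
  · exact tailL5_155 hp hq hpq hle hsub h1.le

theorem tailL5_153 {p q : ℝ} (hp : 0 < p) (hq : 0 < q) (hpq : 1 < p * q) (hle : p ≤ q)
    (hsub : (603 / 200 : ℝ) * (p * q - 1) ≤ 2 * (p + q + 2))
    (hs : (20175571 / 10000000 : ℝ) ≤ p) : NoSol 5 p q := by
  rcases le_or_gt p (1013603 / 500000 : ℝ) with h1 | h1
  · exact rowL5_153 hp h1 hq (q_le_of_corner (A0 := (603 / 200 : ℝ)) (p0 := (20175571 / 10000000 : ℝ)) (q0 := (541283 / 200000 : ℝ))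
      (by norm_num) (by norm_num) (by norm_num) (by norm_num) hs hsub) hpq
  · exact tailL5_154 hp hq hpq hle hsub h1.le

theorem tailL5_152 {p q : ℝ} (hp : 0 < p) (hq : 0 < q) (hpq : 1 < p * q) (hle : p ≤ q)
    (hsub : (603 / 200 : ℝ) * (p * q - 1) ≤ 2 * (p + q + 2))
    (hs : (20079873 / 10000000 : ℝ) ≤ p) : NoSol 5 p q := by
  rcases le_or_gt p (20175571 / 10000000 : ℝ) with h1 | h1
  · exact rowL5_152 hp h1 hq (q_le_of_corner (A0 := (603 / 200 : ℝ)) (p0 := (20079873 / 10000000 : ℝ)) (q0 := (6802389 / 2500000 : ℝ))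
      (by norm_num) (by norm_num) (by norm_num) (by norm_num) hs hsub) hpq
  · exact tailL5_153 hp hq hpq hle hsub h1.le

theorem tailL5_151 {p q : ℝ} (hp : 0 < p) (hq : 0 < q) (hpq : 1 < p * q) (hle : p ≤ q)
    (hsub : (603 / 200 : ℝ) * (p * q - 1) ≤ 2 * (p + q + 2))
    (hs : (19985997 / 10000000 : ℝ) ≤ p) : NoSol 5 p q := by
  rcases le_or_gt p (20079873 / 10000000 : ℝ) with h1 | h1
  · exact rowL5_151 hp h1 hq (q_le_of_corner (A0 := (603 / 200 : ℝ)) (p0 := (19985997 / 10000000 : ℝ)) (q0 := (27354217 / 10000000 : ℝ))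
      (by norm_num) (by norm_num) (by norm_num) (by norm_num) hs hsub) hpq
  · exact tailL5_152 hp hq hpq hle hsub h1.le

theorem tailL5_150 {p q : ℝ} (hp : 0 < p) (hq : 0 < q) (hpq : 1 < p * q) (hle : p ≤ q)
    (hsub : (603 / 200 : ℝ) * (p * q - 1) ≤ 2 * (p + q + 2))
    (hs : (19893743 / 10000000 : ℝ) ≤ p) : NoSol 5 p q := by
  rcases le_or_gt p (19985997 / 10000000 : ℝ) with h1 | h1
  · exact rowL5_150 hp h1 hq (q_le_of_corner (A0 := (603 / 200 : ℝ)) (p0 := (19893743 / 10000000 : ℝ)) (q0 := (219987 / 80000 : ℝ))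
      (by norm_num) (by norm_num) (by norm_num) (by norm_num) hs hsub) hpq
  · exact tailL5_151 hp hq hpq hle hsub h1.le

theorem tailL5_149 {p q : ℝ} (hp : 0 < p) (hq : 0 < q) (hpq : 1 < p * q) (hle : p ≤ q)
    (hsub : (603 / 200 : ℝ) * (p * q - 1) ≤ 2 * (p + q + 2))
    (hs : (19802169 / 10000000 : ℝ) ≤ p) : NoSol 5 p q := by
  rcases le_or_gt p (19893743 / 10000000 : ℝ) with h1 | h1
  · exact rowL5_149 hp h1 hq (q_le_of_corner (A0 := (603 / 200 : ℝ)) (p0 := (19802169 / 10000000 : ℝ)) (q0 := (6910867 / 2500000 : ℝ))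
      (by norm_num) (by norm_num) (by norm_num) (by norm_num) hs hsub) hpq
  · exact tailL5_150 hp hq hpq hle hsub h1.le

theorem tailL5_148 {p q : ℝ} (hp : 0 < p) (hq : 0 < q) (hpq : 1 < p * q) (hle : p ≤ q)
    (hsub : (603 / 200 : ℝ) * (p * q - 1) ≤ 2 * (p + q + 2))
    (hs : (19712001 / 10000000 : ℝ) ≤ p) : NoSol 5 p q := by
  rcases le_or_gt p (19802169 / 10000000 : ℝ) with h1 | h1
  · exact rowL5_148 hp h1 hq (q_le_of_corner (A0 := (603 / 200 : ℝ)) (p0 := (19712001 / 10000000 : ℝ)) (q0 := (27788319 / 10000000 : ℝ))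
      (by norm_num) (by norm_num) (by norm_num) (by norm_num) hs hsub) hpq
  · exact tailL5_149 hp hq hpq hle hsub h1.le

theorem tailL5_147 {p q : ℝ} (hp : 0 < p) (hq : 0 < q) (hpq : 1 < p * q) (hle : p ≤ q)
    (hsub : (603 / 200 : ℝ) * (p * q - 1) ≤ 2 * (p + q + 2))
    (hs : (3924697 / 2000000 : ℝ) ≤ p) : NoSol 5 p q := by
  rcases le_or_gt p (19712001 / 10000000 : ℝ) with h1 | h1
  · exact rowL5_147 hp h1 hq (q_le_of_corner (A0 := (603 / 200 : ℝ)) (p0 := (3924697 / 2000000 : ℝ)) (q0 := (27932471 / 10000000 : ℝ))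
      (by norm_num) (by norm_num) (by norm_num) (by norm_num) hs hsub) hpq
  · exact tailL5_148 hp hq hpq hle hsub h1.le

theorem tailL5_146 {p q : ℝ} (hp : 0 < p) (hq : 0 < q) (hpq : 1 < p * q) (hle : p ≤ q)
    (hsub : (603 / 200 : ℝ) * (p * q - 1) ≤ 2 * (p + q + 2))
    (hs : (2442039 / 1250000 : ℝ) ≤ p) : NoSol 5 p q := by
  rcases le_or_gt p (3924697 / 2000000 : ℝ) with h1 | h1
  · exact rowL5_146 hp h1 hq (q_le_of_corner (A0 := (603 / 200 : ℝ)) (p0 := (2442039 / 1250000 : ℝ)) (q0 := (2807637 / 1000000 : ℝ))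
      (by norm_num) (by norm_num) (by norm_num) (by norm_num) hs hsub) hpq
  · exact tailL5_147 hp hq hpq hle hsub h1.le

theorem tailL5_145 {p q : ℝ} (hp : 0 < p) (hq : 0 < q) (hpq : 1 < p * q) (hle : p ≤ q)
    (hsub : (603 / 200 : ℝ) * (p * q - 1) ≤ 2 * (p + q + 2))
    (hs : (9725231 / 5000000 : ℝ) ≤ p) : NoSol 5 p q := by
  rcases le_or_gt p (2442039 / 1250000 : ℝ) with h1 | h1
  · exact rowL5_145 hp h1 hq (q_le_of_corner (A0 := (603 / 200 : ℝ)) (p0 := (9725231 / 5000000 : ℝ)) (q0 := (28219997 / 10000000 : ℝ))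
      (by norm_num) (by norm_num) (by norm_num) (by norm_num) hs hsub) hpq
  · exact tailL5_146 hp hq hpq hle hsub h1.le

theorem tailL5_144 {p q : ℝ} (hp : 0 < p) (hq : 0 < q) (hpq : 1 < p * q) (hle : p ≤ q)
    (hsub : (603 / 200 : ℝ) * (p * q - 1) ≤ 2 * (p + q + 2))
    (hs : (9683037 / 5000000 : ℝ) ≤ p) : NoSol 5 p q := by
  rcases le_or_gt p (9725231 / 5000000 : ℝ) with h1 | h1
  · exact rowL5_144 hp h1 hq (q_le_of_corner (A0 := (603 / 200 : ℝ)) (p0 := (9683037 / 5000000 : ℝ)) (q0 := (28363067 / 10000000 : ℝ))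
      (by norm_num) (by norm_num) (by norm_num) (by norm_num) hs hsub) hpq
  · exact tailL5_145 hp hq hpq hle hsub h1.le

theorem tailL5_143 {p q : ℝ} (hp : 0 < p) (hq : 0 < q) (hpq : 1 < p * q) (hle : p ≤ q)
    (hsub : (603 / 200 : ℝ) * (p * q - 1) ≤ 2 * (p + q + 2))
    (hs : (3856629 / 2000000 : ℝ) ≤ p) : NoSol 5 p q := by
  rcases le_or_gt p (9683037 / 5000000 : ℝ) with h1 | h1
  · exact rowL5_143 hp h1 hq (q_le_of_corner (A0 := (603 / 200 : ℝ)) (p0 := (3856629 / 2000000 : ℝ)) (q0 := (14252761 / 5000000 : ℝ))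
      (by norm_num) (by norm_num) (by norm_num) (by norm_num) hs hsub) hpq
  · exact tailL5_144 hp hq hpq hle hsub h1.le

theorem tailL5_142 {p q : ℝ} (hp : 0 < p) (hq : 0 < q) (hpq : 1 < p * q) (hle : p ≤ q)
    (hsub : (603 / 200 : ℝ) * (p * q - 1) ≤ 2 * (p + q + 2))
    (hs : (19201267 / 10000000 : ℝ) ≤ p) : NoSol 5 p q := by
  rcases le_or_gt p (3856629 / 2000000 : ℝ) with h1 | h1
  · exact rowL5_142 hp h1 hq (q_le_of_corner (A0 := (603 / 200 : ℝ)) (p0 := (19201267 / 10000000 : ℝ)) (q0 := (28648017 / 10000000 : ℝ))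
      (by norm_num) (by norm_num) (by norm_num) (by norm_num) hs hsub) hpq
  · exact tailL5_143 hp hq hpq hle hsub h1.le

theorem tailL5_141 {p q : ℝ} (hp : 0 < p) (hq : 0 < q) (hpq : 1 < p * q) (hle : p ≤ q)
    (hsub : (603 / 200 : ℝ) * (p * q - 1) ≤ 2 * (p + q + 2))
    (hs : (19121257 / 10000000 : ℝ) ≤ p) : NoSol 5 p q := by
  rcases le_or_gt p (19201267 / 10000000 : ℝ) with h1 | h1
  · exact rowL5_141 hp h1 hq (q_le_of_corner (A0 := (603 / 200 : ℝ)) (p0 := (19121257 / 10000000 : ℝ)) (q0 := (5757813 / 2000000 : ℝ))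
      (by norm_num) (by norm_num) (by norm_num) (by norm_num) hs hsub) hpq
  · exact tailL5_142 hp hq hpq hle hsub h1.le

theorem tailL5_140 {p q : ℝ} (hp : 0 < p) (hq : 0 < q) (hpq : 1 < p * q) (hle : p ≤ q)
    (hsub : (603 / 200 : ℝ) * (p * q - 1) ≤ 2 * (p + q + 2))
    (hs : (190423 / 100000 : ℝ) ≤ p) : NoSol 5 p q := by
  rcases le_or_gt p (19121257 / 10000000 : ℝ) with h1 | h1
  · exact rowL5_140 hp h1 hq (q_le_of_corner (A0 := (603 / 200 : ℝ)) (p0 := (190423 / 100000 : ℝ)) (q0 := (28930041 / 10000000 : ℝ))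
      (by norm_num) (by norm_num) (by norm_num) (by norm_num) hs hsub) hpq
  · exact tailL5_141 hp hq hpq hle hsub h1.le

theorem tailL5_139 {p q : ℝ} (hp : 0 < p) (hq : 0 < q) (hpq : 1 < p * q) (hle : p ≤ q)
    (hsub : (603 / 200 : ℝ) * (p * q - 1) ≤ 2 * (p + q + 2))
    (hs : (18964579 / 10000000 : ℝ) ≤ p) : NoSol 5 p q := by
  rcases le_or_gt p (190423 / 100000 : ℝ) with h1 | h1
  · exact rowL5_139 hp h1 hq (q_le_of_corner (A0 := (603 / 200 : ℝ)) (p0 := (18964579 / 10000000 : ℝ)) (q0 := (29070573 / 10000000 : ℝ))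
      (by norm_num) (by norm_num) (by norm_num) (by norm_num) hs hsub) hpq
  · exact tailL5_140 hp hq hpq hle hsub h1.le

theorem tailL5_138 {p q : ℝ} (hp : 0 < p) (hq : 0 < q) (hpq : 1 < p * q) (hle : p ≤ q)
    (hsub : (603 / 200 : ℝ) * (p * q - 1) ≤ 2 * (p + q + 2))
    (hs : (4721993 / 2500000 : ℝ) ≤ p) : NoSol 5 p q := by
  rcases le_or_gt p (18964579 / 10000000 : ℝ) with h1 | h1
  · exact rowL5_138 hp h1 hq (q_le_of_corner (A0 := (603 / 200 : ℝ)) (p0 := (4721993 / 2500000 : ℝ)) (q0 := (5842167 / 2000000 : ℝ))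
      (by norm_num) (by norm_num) (by norm_num) (by norm_num) hs hsub) hpq
  · exact tailL5_139 hp hq hpq hle hsub h1.le

theorem tailL5_137 {p q : ℝ} (hp : 0 < p) (hq : 0 < q) (hpq : 1 < p * q) (hle : p ≤ q)
    (hsub : (603 / 200 : ℝ) * (p * q - 1) ≤ 2 * (p + q + 2))
    (hs : (4703167 / 2500000 : ℝ) ≤ p) : NoSol 5 p q := by
  rcases le_or_gt p (4721993 / 2500000 : ℝ) with h1 | h1
  · exact rowL5_137 hp h1 hq (q_le_of_corner (A0 := (603 / 200 : ℝ)) (p0 := (4703167 / 2500000 : ℝ)) (q0 := (29350431 / 10000000 : ℝ))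
      (by norm_num) (by norm_num) (by norm_num) (by norm_num) hs hsub) hpq
  · exact tailL5_138 hp hq hpq hle hsub h1.le

theorem tailL5_136 {p q : ℝ} (hp : 0 < p) (hq : 0 < q) (hpq : 1 < p * q) (hle : p ≤ q)
    (hsub : (603 / 200 : ℝ) * (p * q - 1) ≤ 2 * (p + q + 2))
    (hs : (18738959 / 10000000 : ℝ) ≤ p) : NoSol 5 p q := by
  rcases le_or_gt p (4703167 / 2500000 : ℝ) with h1 | h1
  · exact rowL5_136 hp h1 hq (q_le_of_corner (A0 := (603 / 200 : ℝ)) (p0 := (18738959 / 10000000 : ℝ)) (q0 := (1843047 / 625000 : ℝ))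
      (by norm_num) (by norm_num) (by norm_num) (by norm_num) hs hsub) hpq
  · exact tailL5_137 hp hq hpq hle hsub h1.le

theorem tailL5_135 {p q : ℝ} (hp : 0 < p) (hq : 0 < q) (hpq : 1 < p * q) (hle : p ≤ q)
    (hsub : (603 / 200 : ℝ) * (p * q - 1) ≤ 2 * (p + q + 2))
    (hs : (9333129 / 5000000 : ℝ) ≤ p) : NoSol 5 p q := by
  rcases le_or_gt p (18738959 / 10000000 : ℝ) with h1 | h1
  · exact rowL5_135 hp h1 hq (q_le_of_corner (A0 := (603 / 200 : ℝ)) (p0 := (9333129 / 5000000 : ℝ)) (q0 := (14813421 / 5000000 : ℝ))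
      (by norm_num) (by norm_num) (by norm_num) (by norm_num) hs hsub) hpq
  · exact tailL5_136 hp hq hpq hle hsub h1.le

theorem tailL5_134 {p q : ℝ} (hp : 0 < p) (hq : 0 < q) (hpq : 1 < p * q) (hle : p ≤ q)
    (hsub : (603 / 200 : ℝ) * (p * q - 1) ≤ 2 * (p + q + 2))
    (hs : (9297417 / 5000000 : ℝ) ≤ p) : NoSol 5 p q := by
  rcases le_or_gt p (9333129 / 5000000 : ℝ) with h1 | h1
  · exact rowL5_134 hp h1 hq (q_le_of_corner (A0 := (603 / 200 : ℝ)) (p0 := (9297417 / 5000000 : ℝ)) (q0 := (1488207 / 500000 : ℝ))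
      (by norm_num) (by norm_num) (by norm_num) (by norm_num) hs hsub) hpq
  · exact tailL5_135 hp hq hpq hle hsub h1.le

theorem tailL5_133 {p q : ℝ} (hp : 0 < p) (hq : 0 < q) (hpq : 1 < p * q) (hle : p ≤ q)
    (hsub : (603 / 200 : ℝ) * (p * q - 1) ≤ 2 * (p + q + 2))
    (hs : (1852493 / 1000000 : ℝ) ≤ p) : NoSol 5 p q := by
  rcases le_or_gt p (9297417 / 5000000 : ℝ) with h1 | h1
  · exact rowL5_133 hp h1 hq (q_le_of_corner (A0 := (603 / 200 : ℝ)) (p0 := (1852493 / 1000000 : ℝ)) (q0 := (14950057 / 5000000 : ℝ))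
      (by norm_num) (by norm_num) (by norm_num) (by norm_num) hs hsub) hpq
  · exact tailL5_134 hp hq hpq hle hsub h1.le

theorem tailL5_132 {p q : ℝ} (hp : 0 < p) (hq : 0 < q) (hpq : 1 < p * q) (hle : p ≤ q)
    (hsub : (603 / 200 : ℝ) * (p * q - 1) ≤ 2 * (p + q + 2))
    (hs : (9228283 / 5000000 : ℝ) ≤ p) : NoSol 5 p q := by
  rcases le_or_gt p (1852493 / 1000000 : ℝ) with h1 | h1
  · exact rowL5_132 hp h1 hq (q_le_of_corner (A0 := (603 / 200 : ℝ)) (p0 := (9228283 / 5000000 : ℝ)) (q0 := (3754331 / 1250000 : ℝ))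
      (by norm_num) (by norm_num) (by norm_num) (by norm_num) hs hsub) hpq
  · exact tailL5_133 hp hq hpq hle hsub h1.le

theorem tailL5_131 {p q : ℝ} (hp : 0 < p) (hq : 0 < q) (hpq : 1 < p * q) (hle : p ≤ q)
    (hsub : (603 / 200 : ℝ) * (p * q - 1) ≤ 2 * (p + q + 2))
    (hs : (2298593 / 1250000 : ℝ) ≤ p) : NoSol 5 p q := by
  rcases le_or_gt p (9228283 / 5000000 : ℝ) with h1 | h1
  · exact rowL5_131 hp h1 hq (q_le_of_corner (A0 := (603 / 200 : ℝ)) (p0 := (2298593 / 1250000 : ℝ)) (q0 := (30169661 / 10000000 : ℝ))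
      (by norm_num) (by norm_num) (by norm_num) (by norm_num) hs hsub) hpq
  · exact tailL5_132 hp hq hpq hle hsub h1.le

theorem tailL5_130 {p q : ℝ} (hp : 0 < p) (hq : 0 < q) (hpq : 1 < p * q) (hle : p ≤ q)
    (hsub : (603 / 200 : ℝ) * (p * q - 1) ≤ 2 * (p + q + 2))
    (hs : (9161127 / 5000000 : ℝ) ≤ p) : NoSol 5 p q := by
  rcases le_or_gt p (2298593 / 1250000 : ℝ) with h1 | h1
  · exact rowL5_130 hp h1 hq (q_le_of_corner (A0 := (603 / 200 : ℝ)) (p0 := (9161127 / 5000000 : ℝ)) (q0 := (30303543 / 10000000 : ℝ))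
      (by norm_num) (by norm_num) (by norm_num) (by norm_num) hs hsub) hpq
  · exact tailL5_131 hp hq hpq hle hsub h1.le

theorem tailL5_129 {p q : ℝ} (hp : 0 < p) (hq : 0 < q) (hpq : 1 < p * q) (hle : p ≤ q)
    (hsub : (603 / 200 : ℝ) * (p * q - 1) ≤ 2 * (p + q + 2))
    (hs : (4564579 / 2500000 : ℝ) ≤ p) : NoSol 5 p q := by
  rcases le_or_gt p (9161127 / 5000000 : ℝ) with h1 | h1
  · exact rowL5_129 hp h1 hq (q_le_of_corner (A0 := (603 / 200 : ℝ)) (p0 := (4564579 / 2500000 : ℝ)) (q0 := (7608433 / 2500000 : ℝ))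
      (by norm_num) (by norm_num) (by norm_num) (by norm_num) hs hsub) hpq
  · exact tailL5_130 hp hq hpq hle hsub h1.le

theorem tailL5_128 {p q : ℝ} (hp : 0 < p) (hq : 0 < q) (hpq : 1 < p * q) (hle : p ≤ q)
    (hsub : (603 / 200 : ℝ) * (p * q - 1) ≤ 2 * (p + q + 2))
    (hs : (9097221 / 5000000 : ℝ) ≤ p) : NoSol 5 p q := by
  rcases le_or_gt p (4564579 / 2500000 : ℝ) with h1 | h1
  · exact rowL5_128 hp h1 hq (q_le_of_corner (A0 := (603 / 200 : ℝ)) (p0 := (9097221 / 5000000 : ℝ)) (q0 := (7641307 / 2500000 : ℝ))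
      (by norm_num) (by norm_num) (by norm_num) (by norm_num) hs hsub) hpq
  · exact tailL5_129 hp hq hpq hle hsub h1.le

theorem tailL5_127 {p q : ℝ} (hp : 0 < p) (hq : 0 < q) (hpq : 1 < p * q) (hle : p ≤ q)
    (hsub : (603 / 200 : ℝ) * (p * q - 1) ≤ 2 * (p + q + 2))
    (hs : (4532887 / 2500000 : ℝ) ≤ p) : NoSol 5 p q := by
  rcases le_or_gt p (9097221 / 5000000 : ℝ) with h1 | h1
  · exact rowL5_127 hp h1 hq (q_le_of_corner (A0 := (603 / 200 : ℝ)) (p0 := (4532887 / 2500000 : ℝ)) (q0 := (30696133 / 10000000 : ℝ))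
      (by norm_num) (by norm_num) (by norm_num) (by norm_num) hs hsub) hpq
  · exact tailL5_128 hp hq hpq hle hsub h1.le

theorem tailL5_126 {p q : ℝ} (hp : 0 < p) (hq : 0 < q) (hpq : 1 < p * q) (hle : p ≤ q)
    (hsub : (603 / 200 : ℝ) * (p * q - 1) ≤ 2 * (p + q + 2))
    (hs : (18069731 / 10000000 : ℝ) ≤ p) : NoSol 5 p q := by
  rcases le_or_gt p (4532887 / 2500000 : ℝ) with h1 | h1
  · exact rowL5_126 hp h1 hq (q_le_of_corner (A0 := (603 / 200 : ℝ)) (p0 := (18069731 / 10000000 : ℝ)) (q0 := (30826201 / 10000000 : ℝ))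
      (by norm_num) (by norm_num) (by norm_num) (by norm_num) hs hsub) hpq
  · exact tailL5_127 hp hq hpq hle hsub h1.le

theorem tailL5_125 {p q : ℝ} (hp : 0 < p) (hq : 0 < q) (hpq : 1 < p * q) (hle : p ≤ q)
    (hsub : (603 / 200 : ℝ) * (p * q - 1) ≤ 2 * (p + q + 2))
    (hs : (3601801 / 2000000 : ℝ) ≤ p) : NoSol 5 p q := by
  rcases le_or_gt p (18069731 / 10000000 : ℝ) with h1 | h1
  · exact rowL5_125 hp h1 hq (q_le_of_corner (A0 := (603 / 200 : ℝ)) (p0 := (3601801 / 2000000 : ℝ)) (q0 := (30955349 / 10000000 : ℝ))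
      (by norm_num) (by norm_num) (by norm_num) (by norm_num) hs hsub) hpq
  · exact tailL5_126 hp hq hpq hle hsub h1.le

theorem tailL5_124 {p q : ℝ} (hp : 0 < p) (hq : 0 < q) (hpq : 1 < p * q) (hle : p ≤ q)
    (hsub : (603 / 200 : ℝ) * (p * q - 1) ≤ 2 * (p + q + 2))
    (hs : (8974709 / 5000000 : ℝ) ≤ p) : NoSol 5 p q := by
  rcases le_or_gt p (3601801 / 2000000 : ℝ) with h1 | h1
  · exact rowL5_124 hp h1 hq (q_le_of_corner (A0 := (603 / 200 : ℝ)) (p0 := (8974709 / 5000000 : ℝ)) (q0 := (15541711 / 5000000 : ℝ))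
      (by norm_num) (by norm_num) (by norm_num) (by norm_num) hs hsub) hpq
  · exact tailL5_125 hp hq hpq hle hsub h1.le

theorem tailL5_123 {p q : ℝ} (hp : 0 < p) (hq : 0 < q) (hpq : 1 < p * q) (hle : p ≤ q)
    (hsub : (603 / 200 : ℝ) * (p * q - 1) ≤ 2 * (p + q + 2))
    (hs : (357819 / 200000 : ℝ) ≤ p) : NoSol 5 p q := by
  rcases le_or_gt p (8974709 / 5000000 : ℝ) with h1 | h1
  · exact rowL5_123 hp h1 hq (q_le_of_corner (A0 := (603 / 200 : ℝ)) (p0 := (357819 / 200000 : ℝ)) (q0 := (3901301 / 1250000 : ℝ))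
      (by norm_num) (by norm_num) (by norm_num) (by norm_num) hs hsub) hpq
  · exact tailL5_124 hp hq hpq hle hsub h1.le

theorem tailL5_122 {p q : ℝ} (hp : 0 < p) (hq : 0 < q) (hpq : 1 < p * q) (hle : p ≤ q)
    (hsub : (603 / 200 : ℝ) * (p * q - 1) ≤ 2 * (p + q + 2))
    (hs : (17833683 / 10000000 : ℝ) ≤ p) : NoSol 5 p q := by
  rcases le_or_gt p (357819 / 200000 : ℝ) with h1 | h1
  · exact rowL5_122 hp h1 hq (q_le_of_corner (A0 := (603 / 200 : ℝ)) (p0 := (17833683 / 10000000 : ℝ)) (q0 := (31336071 / 10000000 : ℝ))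
      (by norm_num) (by norm_num) (by norm_num) (by norm_num) hs hsub) hpq
  · exact tailL5_123 hp hq hpq hle hsub h1.le

theorem tailL5_121 {p q : ℝ} (hp : 0 < p) (hq : 0 < q) (hpq : 1 < p * q) (hle : p ≤ q)
    (hsub : (603 / 200 : ℝ) * (p * q - 1) ≤ 2 * (p + q + 2))
    (hs : (4444389 / 2500000 : ℝ) ≤ p) : NoSol 5 p q := by
  rcases le_or_gt p (17833683 / 10000000 : ℝ) with h1 | h1
  · exact rowL5_121 hp h1 hq (q_le_of_corner (A0 := (603 / 200 : ℝ)) (p0 := (4444389 / 2500000 : ℝ)) (q0 := (6292097 / 2000000 : ℝ))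
      (by norm_num) (by norm_num) (by norm_num) (by norm_num) hs hsub) hpq
  · exact tailL5_122 hp hq hpq hle hsub h1.le

theorem tailL5_120 {p q : ℝ} (hp : 0 < p) (hq : 0 < q) (hpq : 1 < p * q) (hle : p ≤ q)
    (hsub : (603 / 200 : ℝ) * (p * q - 1) ≤ 2 * (p + q + 2))
    (hs : (3544423 / 2000000 : ℝ) ≤ p) : NoSol 5 p q := by
  rcases le_or_gt p (4444389 / 2500000 : ℝ) with h1 | h1
  · exact rowL5_120 hp h1 hq (q_le_of_corner (A0 := (603 / 200 : ℝ)) (p0 := (3544423 / 2000000 : ℝ)) (q0 := (3948077 / 1250000 : ℝ))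
      (by norm_num) (by norm_num) (by norm_num) (by norm_num) hs hsub) hpq
  · exact tailL5_121 hp hq hpq hle hsub h1.le

theorem tailL5_119 {p q : ℝ} (hp : 0 < p) (hq : 0 < q) (hpq : 1 < p * q) (hle : p ≤ q)
    (hsub : (603 / 200 : ℝ) * (p * q - 1) ≤ 2 * (p + q + 2))
    (hs : (706731 / 400000 : ℝ) ≤ p) : NoSol 5 p q := by
  rcases le_or_gt p (3544423 / 2000000 : ℝ) with h1 | h1
  · exact rowL5_119 hp h1 hq (q_le_of_corner (A0 := (603 / 200 : ℝ)) (p0 := (706731 / 400000 : ℝ)) (q0 := (6341271 / 2000000 : ℝ))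
      (by norm_num) (by norm_num) (by norm_num) (by norm_num) hs hsub) hpq
  · exact tailL5_120 hp hq hpq hle hsub h1.le

theorem tailL5_118 {p q : ℝ} (hp : 0 < p) (hq : 0 < q) (hpq : 1 < p * q) (hle : p ≤ q)
    (hsub : (603 / 200 : ℝ) * (p * q - 1) ≤ 2 * (p + q + 2))
    (hs : (3523003 / 2000000 : ℝ) ≤ p) : NoSol 5 p q := by
  rcases le_or_gt p (706731 / 400000 : ℝ) with h1 | h1
  · exact rowL5_118 hp h1 hq (q_le_of_corner (A0 := (603 / 200 : ℝ)) (p0 := (3523003 / 2000000 : ℝ)) (q0 := (15913979 / 5000000 : ℝ))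
      (by norm_num) (by norm_num) (by norm_num) (by norm_num) hs hsub) hpq
  · exact tailL5_119 hp hq hpq hle hsub h1.le

theorem tailL5_117 {p q : ℝ} (hp : 0 < p) (hq : 0 < q) (hpq : 1 < p * q) (hle : p ≤ q)
    (hsub : (603 / 200 : ℝ) * (p * q - 1) ≤ 2 * (p + q + 2))
    (hs : (17562477 / 10000000 : ℝ) ≤ p) : NoSol 5 p q := by
  rcases le_or_gt p (3523003 / 2000000 : ℝ) with h1 | h1
  · exact rowL5_117 hp h1 hq (q_le_of_corner (A0 := (603 / 200 : ℝ)) (p0 := (17562477 / 10000000 : ℝ)) (q0 := (31949073 / 10000000 : ℝ))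
      (by norm_num) (by norm_num) (by norm_num) (by norm_num) hs hsub) hpq
  · exact tailL5_118 hp hq hpq hle hsub h1.le

theorem tailL5_116 {p q : ℝ} (hp : 0 < p) (hq : 0 < q) (hpq : 1 < p * q) (hle : p ≤ q)
    (hsub : (603 / 200 : ℝ) * (p * q - 1) ≤ 2 * (p + q + 2))
    (hs : (875541 / 500000 : ℝ) ≤ p) : NoSol 5 p q := by
  rcases le_or_gt p (17562477 / 10000000 : ℝ) with h1 | h1
  · exact rowL5_116 hp h1 hq (q_le_of_corner (A0 := (603 / 200 : ℝ)) (p0 := (875541 / 500000 : ℝ)) (q0 := (16034649 / 5000000 : ℝ))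
      (by norm_num) (by norm_num) (by norm_num) (by norm_num) hs hsub) hpq
  · exact tailL5_117 hp hq hpq hle hsub h1.le

theorem tailL5_115 {p q : ℝ} (hp : 0 < p) (hq : 0 < q) (hpq : 1 < p * q) (hle : p ≤ q)
    (hsub : (603 / 200 : ℝ) * (p * q - 1) ≤ 2 * (p + q + 2))
    (hs : (8730053 / 5000000 : ℝ) ≤ p) : NoSol 5 p q := by
  rcases le_or_gt p (875541 / 500000 : ℝ) with h1 | h1
  · exact rowL5_115 hp h1 hq (q_le_of_corner (A0 := (603 / 200 : ℝ)) (p0 := (8730053 / 5000000 : ℝ)) (q0 := (8047111 / 2500000 : ℝ))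
      (by norm_num) (by norm_num) (by norm_num) (by norm_num) hs hsub) hpq
  · exact tailL5_116 hp hq hpq hle hsub h1.le

theorem tailL5_114 {p q : ℝ} (hp : 0 < p) (hq : 0 < q) (hpq : 1 < p * q) (hle : p ≤ q)
    (hsub : (603 / 200 : ℝ) * (p * q - 1) ≤ 2 * (p + q + 2))
    (hs : (17410581 / 10000000 : ℝ) ≤ p) : NoSol 5 p q := by
  rcases le_or_gt p (8730053 / 5000000 : ℝ) with h1 | h1
  · exact rowL5_114 hp h1 hq (q_le_of_corner (A0 := (603 / 200 : ℝ)) (p0 := (17410581 / 10000000 : ℝ)) (q0 := (807647 / 250000 : ℝ))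
      (by norm_num) (by norm_num) (by norm_num) (by norm_num) hs hsub) hpq
  · exact tailL5_115 hp hq hpq hle hsub h1.le

theorem tailL5_113 {p q : ℝ} (hp : 0 < p) (hq : 0 < q) (hpq : 1 < p * q) (hle : p ≤ q)
    (hsub : (603 / 200 : ℝ) * (p * q - 1) ≤ 2 * (p + q + 2))
    (hs : (4340439 / 2500000 : ℝ) ≤ p) : NoSol 5 p q := by
  rcases le_or_gt p (17410581 / 10000000 : ℝ) with h1 | h1
  · exact rowL5_113 hp h1 hq (q_le_of_corner (A0 := (603 / 200 : ℝ)) (p0 := (4340439 / 2500000 : ℝ)) (q0 := (8105679 / 2500000 : ℝ))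
      (by norm_num) (by norm_num) (by norm_num) (by norm_num) hs hsub) hpq
  · exact tailL5_114 hp hq hpq hle hsub h1.le

theorem tailL5_112 {p q : ℝ} (hp : 0 < p) (hq : 0 < q) (hpq : 1 < p * q) (hle : p ≤ q)
    (hsub : (603 / 200 : ℝ) * (p * q - 1) ≤ 2 * (p + q + 2))
    (hs : (17314231 / 10000000 : ℝ) ≤ p) : NoSol 5 p q := by
  rcases le_or_gt p (4340439 / 2500000 : ℝ) with h1 | h1
  · exact rowL5_112 hp h1 hq (q_le_of_corner (A0 := (603 / 200 : ℝ)) (p0 := (17314231 / 10000000 : ℝ)) (q0 := (8134367 / 2500000 : ℝ))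
      (by norm_num) (by norm_num) (by norm_num) (by norm_num) hs hsub) hpq
  · exact tailL5_113 hp hq hpq hle hsub h1.le

theorem tailL5_111 {p q : ℝ} (hp : 0 < p) (hq : 0 < q) (hpq : 1 < p * q) (hle : p ≤ q)
    (hsub : (603 / 200 : ℝ) * (p * q - 1) ≤ 2 * (p + q + 2))
    (hs : (17267289 / 10000000 : ℝ) ≤ p) : NoSol 5 p q := by
  rcases le_or_gt p (17314231 / 10000000 : ℝ) with h1 | h1
  · exact rowL5_111 hp h1 hq (q_le_of_corner (A0 := (603 / 200 : ℝ)) (p0 := (17267289 / 10000000 : ℝ)) (q0 := (32651819 / 10000000 : ℝ))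
      (by norm_num) (by norm_num) (by norm_num) (by norm_num) hs hsub) hpq
  · exact tailL5_112 hp hq hpq hle hsub h1.le

theorem tailL5_110 {p q : ℝ} (hp : 0 < p) (hq : 0 < q) (hpq : 1 < p * q) (hle : p ≤ q)
    (hsub : (603 / 200 : ℝ) * (p * q - 1) ≤ 2 * (p + q + 2))
    (hs : (17222157 / 10000000 : ℝ) ≤ p) : NoSol 5 p q := by
  rcases le_or_gt p (17267289 / 10000000 : ℝ) with h1 | h1
  · exact rowL5_110 hp h1 hq (q_le_of_corner (A0 := (603 / 200 : ℝ)) (p0 := (17222157 / 10000000 : ℝ)) (q0 := (32762717 / 10000000 : ℝ))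
      (by norm_num) (by norm_num) (by norm_num) (by norm_num) hs hsub) hpq
  · exact tailL5_111 hp hq hpq hle hsub h1.le

theorem tailL5_109 {p q : ℝ} (hp : 0 < p) (hq : 0 < q) (hpq : 1 < p * q) (hle : p ≤ q)
    (hsub : (603 / 200 : ℝ) * (p * q - 1) ≤ 2 * (p + q + 2))
    (hs : (8588509 / 5000000 : ℝ) ≤ p) : NoSol 5 p q := by
  rcases le_or_gt p (17222157 / 10000000 : ℝ) with h1 | h1
  · exact rowL5_109 hp h1 hq (q_le_of_corner (A0 := (603 / 200 : ℝ)) (p0 := (8588509 / 5000000 : ℝ)) (q0 := (32874581 / 10000000 : ℝ))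
      (by norm_num) (by norm_num) (by norm_num) (by norm_num) hs hsub) hpq
  · exact tailL5_110 hp hq hpq hle hsub h1.le

theorem tailL5_108 {p q : ℝ} (hp : 0 < p) (hq : 0 < q) (hpq : 1 < p * q) (hle : p ≤ q)
    (hsub : (603 / 200 : ℝ) * (p * q - 1) ≤ 2 * (p + q + 2))
    (hs : (3426561 / 2000000 : ℝ) ≤ p) : NoSol 5 p q := by
  rcases le_or_gt p (8588509 / 5000000 : ℝ) with h1 | h1
  · exact rowL5_108 hp h1 hq (q_le_of_corner (A0 := (603 / 200 : ℝ)) (p0 := (3426561 / 2000000 : ℝ)) (q0 := (8246271 / 2500000 : ℝ))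
      (by norm_num) (by norm_num) (by norm_num) (by norm_num) hs hsub) hpq
  · exact tailL5_109 hp hq hpq hle hsub h1.le

theorem tailL5_107 {p q : ℝ} (hp : 0 < p) (hq : 0 < q) (hpq : 1 < p * q) (hle : p ≤ q)
    (hsub : (603 / 200 : ℝ) * (p * q - 1) ≤ 2 * (p + q + 2))
    (hs : (17089417 / 10000000 : ℝ) ≤ p) : NoSol 5 p q := by
  rcases le_or_gt p (3426561 / 2000000 : ℝ) with h1 | h1
  · exact rowL5_107 hp h1 hq (q_le_of_corner (A0 := (603 / 200 : ℝ)) (p0 := (17089417 / 10000000 : ℝ)) (q0 := (1034201 / 312500 : ℝ))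
      (by norm_num) (by norm_num) (by norm_num) (by norm_num) hs hsub) hpq
  · exact tailL5_108 hp hq hpq hle hsub h1.le

theorem tailL5_106 {p q : ℝ} (hp : 0 < p) (hq : 0 < q) (hpq : 1 < p * q) (hle : p ≤ q)
    (hsub : (603 / 200 : ℝ) * (p * q - 1) ≤ 2 * (p + q + 2))
    (hs : (8523307 / 5000000 : ℝ) ≤ p) : NoSol 5 p q := by
  rcases le_or_gt p (17089417 / 10000000 : ℝ) with h1 | h1
  · exact rowL5_106 hp h1 hq (q_le_of_corner (A0 := (603 / 200 : ℝ)) (p0 := (8523307 / 5000000 : ℝ)) (q0 := (10376 / 3125 : ℝ))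
      (by norm_num) (by norm_num) (by norm_num) (by norm_num) hs hsub) hpq
  · exact tailL5_107 hp hq hpq hle hsub h1.le

theorem tailL5_105 {p q : ℝ} (hp : 0 < p) (hq : 0 < q) (hpq : 1 < p * q) (hle : p ≤ q)
    (hsub : (603 / 200 : ℝ) * (p * q - 1) ≤ 2 * (p + q + 2))
    (hs : (265697 / 156250 : ℝ) ≤ p) : NoSol 5 p q := by
  rcases le_or_gt p (8523307 / 5000000 : ℝ) with h1 | h1
  · exact rowL5_105 hp h1 hq (q_le_of_corner (A0 := (603 / 200 : ℝ)) (p0 := (265697 / 156250 : ℝ)) (q0 := (6662163 / 2000000 : ℝ))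
      (by norm_num) (by norm_num) (by norm_num) (by norm_num) hs hsub) hpq
  · exact tailL5_106 hp hq hpq hle hsub h1.le

theorem tailL5_104 {p q : ℝ} (hp : 0 < p) (hq : 0 < q) (hpq : 1 < p * q) (hle : p ≤ q)
    (hsub : (603 / 200 : ℝ) * (p * q - 1) ≤ 2 * (p + q + 2))
    (hs : (132527 / 78125 : ℝ) ≤ p) : NoSol 5 p q := by
  rcases le_or_gt p (265697 / 156250 : ℝ) with h1 | h1
  · exact rowL5_104 hp h1 hq (q_le_of_corner (A0 := (603 / 200 : ℝ)) (p0 := (132527 / 78125 : ℝ)) (q0 := (33417091 / 10000000 : ℝ))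
      (by norm_num) (by norm_num) (by norm_num) (by norm_num) hs hsub) hpq
  · exact tailL5_105 hp hq hpq hle hsub h1.le

theorem tailL5_103 {p q : ℝ} (hp : 0 < p) (hq : 0 < q) (hpq : 1 < p * q) (hle : p ≤ q)
    (hsub : (603 / 200 : ℝ) * (p * q - 1) ≤ 2 * (p + q + 2))
    (hs : (3384691 / 2000000 : ℝ) ≤ p) : NoSol 5 p q := by
  rcases le_or_gt p (132527 / 78125 : ℝ) with h1 | h1
  · exact rowL5_103 hp h1 hq (q_le_of_corner (A0 := (603 / 200 : ℝ)) (p0 := (3384691 / 2000000 : ℝ)) (q0 := (33521209 / 10000000 : ℝ))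
      (by norm_num) (by norm_num) (by norm_num) (by norm_num) hs hsub) hpq
  · exact tailL5_104 hp hq hpq hle hsub h1.le

theorem tailL5_102 {p q : ℝ} (hp : 0 < p) (hq : 0 < q) (hpq : 1 < p * q) (hle : p ≤ q)
    (hsub : (603 / 200 : ℝ) * (p * q - 1) ≤ 2 * (p + q + 2))
    (hs : (2110473 / 1250000 : ℝ) ≤ p) : NoSol 5 p q := by
  rcases le_or_gt p (3384691 / 2000000 : ℝ) with h1 | h1
  · exact rowL5_102 hp h1 hq (q_le_of_corner (A0 := (603 / 200 : ℝ)) (p0 := (2110473 / 1250000 : ℝ)) (q0 := (3362527 / 1000000 : ℝ))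
      (by norm_num) (by norm_num) (by norm_num) (by norm_num) hs hsub) hpq
  · exact tailL5_103 hp hq hpq hle hsub h1.le

theorem tailL5_101 {p q : ℝ} (hp : 0 < p) (hq : 0 < q) (hpq : 1 < p * q) (hle : p ≤ q)
    (hsub : (603 / 200 : ℝ) * (p * q - 1) ≤ 2 * (p + q + 2))
    (hs : (8422461 / 5000000 : ℝ) ≤ p) : NoSol 5 p q := by
  rcases le_or_gt p (2110473 / 1250000 : ℝ) with h1 | h1
  · exact rowL5_101 hp h1 hq (q_le_of_corner (A0 := (603 / 200 : ℝ)) (p0 := (8422461 / 5000000 : ℝ)) (q0 := (16863997 / 5000000 : ℝ))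
      (by norm_num) (by norm_num) (by norm_num) (by norm_num) hs hsub) hpq
  · exact tailL5_102 hp hq hpq hle hsub h1.le

theorem tailL5_100 {p q : ℝ} (hp : 0 < p) (hq : 0 < q) (hpq : 1 < p * q) (hle : p ≤ q)
    (hsub : (603 / 200 : ℝ) * (p * q - 1) ≤ 2 * (p + q + 2))
    (hs : (4201701 / 2500000 : ℝ) ≤ p) : NoSol 5 p q := by
  rcases le_or_gt p (8422461 / 5000000 : ℝ) with h1 | h1
  · exact rowL5_100 hp h1 hq (q_le_of_corner (A0 := (603 / 200 : ℝ)) (p0 := (4201701 / 2500000 : ℝ)) (q0 := (33829513 / 10000000 : ℝ))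
      (by norm_num) (by norm_num) (by norm_num) (by norm_num) hs hsub) hpq
  · exact tailL5_101 hp hq hpq hle hsub h1.le

theorem tailL5_99 {p q : ℝ} (hp : 0 < p) (hq : 0 < q) (hpq : 1 < p * q) (hle : p ≤ q)
    (hsub : (603 / 200 : ℝ) * (p * q - 1) ≤ 2 * (p + q + 2))
    (hs : (8384759 / 5000000 : ℝ) ≤ p) : NoSol 5 p q := by
  rcases le_or_gt p (4201701 / 2500000 : ℝ) with h1 | h1
  · exact rowL5_99 hp h1 hq (q_le_of_corner (A0 := (603 / 200 : ℝ)) (p0 := (8384759 / 5000000 : ℝ)) (q0 := (8482389 / 2500000 : ℝ))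
      (by norm_num) (by norm_num) (by norm_num) (by norm_num) hs hsub) hpq
  · exact tailL5_100 hp hq hpq hle hsub h1.le

theorem tailL5_98 {p q : ℝ} (hp : 0 < p) (hq : 0 < q) (hpq : 1 < p * q) (hle : p ≤ q)
    (hsub : (603 / 200 : ℝ) * (p * q - 1) ≤ 2 * (p + q + 2))
    (hs : (16732601 / 10000000 : ℝ) ≤ p) : NoSol 5 p q := by
  rcases le_or_gt p (8384759 / 5000000 : ℝ) with h1 | h1
  · exact rowL5_98 hp h1 hq (q_le_of_corner (A0 := (603 / 200 : ℝ)) (p0 := (16732601 / 10000000 : ℝ)) (q0 := (4253667 / 1250000 : ℝ))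
      (by norm_num) (by norm_num) (by norm_num) (by norm_num) hs hsub) hpq
  · exact tailL5_99 hp hq hpq hle hsub h1.le

theorem tailL5_97 {p q : ℝ} (hp : 0 < p) (hq : 0 < q) (hpq : 1 < p * q) (hle : p ≤ q)
    (hsub : (603 / 200 : ℝ) * (p * q - 1) ≤ 2 * (p + q + 2))
    (hs : (8348179 / 5000000 : ℝ) ≤ p) : NoSol 5 p q := by
  rcases le_or_gt p (16732601 / 10000000 : ℝ) with h1 | h1
  · exact rowL5_97 hp h1 hq (q_le_of_corner (A0 := (603 / 200 : ℝ)) (p0 := (8348179 / 5000000 : ℝ)) (q0 := (17064003 / 5000000 : ℝ))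
      (by norm_num) (by norm_num) (by norm_num) (by norm_num) hs hsub) hpq
  · exact tailL5_98 hp hq hpq hle hsub h1.le

theorem tailL5_96 {p q : ℝ} (hp : 0 < p) (hq : 0 < q) (hpq : 1 < p * q) (hle : p ≤ q)
    (hsub : (603 / 200 : ℝ) * (p * q - 1) ≤ 2 * (p + q + 2))
    (hs : (16660833 / 10000000 : ℝ) ≤ p) : NoSol 5 p q := by
  rcases le_or_gt p (8348179 / 5000000 : ℝ) with h1 | h1
  · exact rowL5_96 hp h1 hq (q_le_of_corner (A0 := (603 / 200 : ℝ)) (p0 := (16660833 / 10000000 : ℝ)) (q0 := (17112707 / 5000000 : ℝ))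
      (by norm_num) (by norm_num) (by norm_num) (by norm_num) hs hsub) hpq
  · exact tailL5_97 hp hq hpq hle hsub h1.le

theorem tailL5_95 {p q : ℝ} (hp : 0 < p) (hq : 0 < q) (hpq : 1 < p * q) (hle : p ≤ q)
    (hsub : (603 / 200 : ℝ) * (p * q - 1) ≤ 2 * (p + q + 2))
    (hs : (8313037 / 5000000 : ℝ) ≤ p) : NoSol 5 p q := by
  rcases le_or_gt p (16660833 / 10000000 : ℝ) with h1 | h1
  · exact rowL5_95 hp h1 hq (q_le_of_corner (A0 := (603 / 200 : ℝ)) (p0 := (8313037 / 5000000 : ℝ)) (q0 := (2145087 / 625000 : ℝ))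
      (by norm_num) (by norm_num) (by norm_num) (by norm_num) hs hsub) hpq
  · exact tailL5_96 hp hq hpq hle hsub h1.le

theorem tailL5_94 {p q : ℝ} (hp : 0 < p) (hq : 0 < q) (hpq : 1 < p * q) (hle : p ≤ q)
    (hsub : (603 / 200 : ℝ) * (p * q - 1) ≤ 2 * (p + q + 2))
    (hs : (207399 / 125000 : ℝ) ≤ p) : NoSol 5 p q := by
  rcases le_or_gt p (8313037 / 5000000 : ℝ) with h1 | h1
  · exact rowL5_94 hp h1 hq (q_le_of_corner (A0 := (603 / 200 : ℝ)) (p0 := (207399 / 125000 : ℝ)) (q0 := (1075511 / 312500 : ℝ))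
      (by norm_num) (by norm_num) (by norm_num) (by norm_num) hs hsub) hpq
  · exact tailL5_95 hp hq hpq hle hsub h1.le

theorem tailL5_93 {p q : ℝ} (hp : 0 < p) (hq : 0 < q) (hpq : 1 < p * q) (hle : p ≤ q)
    (hsub : (603 / 200 : ℝ) * (p * q - 1) ≤ 2 * (p + q + 2))
    (hs : (16558353 / 10000000 : ℝ) ≤ p) : NoSol 5 p q := by
  rcases le_or_gt p (207399 / 125000 : ℝ) with h1 | h1
  · exact rowL5_93 hp h1 hq (q_le_of_corner (A0 := (603 / 200 : ℝ)) (p0 := (16558353 / 10000000 : ℝ)) (q0 := (34510317 / 10000000 : ℝ))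
      (by norm_num) (by norm_num) (by norm_num) (by norm_num) hs hsub) hpq
  · exact tailL5_94 hp hq hpq hle hsub h1.le

theorem tailL5_92 {p q : ℝ} (hp : 0 < p) (hq : 0 < q) (hpq : 1 < p * q) (hle : p ≤ q)
    (hsub : (603 / 200 : ℝ) * (p * q - 1) ≤ 2 * (p + q + 2))
    (hs : (16525467 / 10000000 : ℝ) ≤ p) : NoSol 5 p q := by
  rcases le_or_gt p (16558353 / 10000000 : ℝ) with h1 | h1
  · exact rowL5_92 hp h1 hq (q_le_of_corner (A0 := (603 / 200 : ℝ)) (p0 := (16525467 / 10000000 : ℝ)) (q0 := (17301497 / 5000000 : ℝ))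
      (by norm_num) (by norm_num) (by norm_num) (by norm_num) hs hsub) hpq
  · exact tailL5_93 hp hq hpq hle hsub h1.le

theorem tailL5_91 {p q : ℝ} (hp : 0 < p) (hq : 0 < q) (hpq : 1 < p * q) (hle : p ≤ q)
    (hsub : (603 / 200 : ℝ) * (p * q - 1) ≤ 2 * (p + q + 2))
    (hs : (164931 / 100000 : ℝ) ≤ p) : NoSol 5 p q := by
  rcases le_or_gt p (16525467 / 10000000 : ℝ) with h1 | h1
  · exact rowL5_91 hp h1 hq (q_le_of_corner (A0 := (603 / 200 : ℝ)) (p0 := (164931 / 100000 : ℝ)) (q0 := (8673703 / 2500000 : ℝ))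
      (by norm_num) (by norm_num) (by norm_num) (by norm_num) hs hsub) hpq
  · exact tailL5_92 hp hq hpq hle hsub h1.le

theorem tailL5_90 {p q : ℝ} (hp : 0 < p) (hq : 0 < q) (hpq : 1 < p * q) (hle : p ≤ q)
    (hsub : (603 / 200 : ℝ) * (p * q - 1) ≤ 2 * (p + q + 2))
    (hs : (16461343 / 10000000 : ℝ) ≤ p) : NoSol 5 p q := by
  rcases le_or_gt p (164931 / 100000 : ℝ) with h1 | h1
  · exact rowL5_90 hp h1 hq (q_le_of_corner (A0 := (603 / 200 : ℝ)) (p0 := (16461343 / 10000000 : ℝ)) (q0 := (34785487 / 10000000 : ℝ))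
      (by norm_num) (by norm_num) (by norm_num) (by norm_num) hs hsub) hpq
  · exact tailL5_91 hp hq hpq hle hsub h1.le

theorem tailL5_89 {p q : ℝ} (hp : 0 < p) (hq : 0 < q) (hpq : 1 < p * q) (hle : p ≤ q)
    (hsub : (603 / 200 : ℝ) * (p * q - 1) ≤ 2 * (p + q + 2))
    (hs : (4107553 / 2500000 : ℝ) ≤ p) : NoSol 5 p q := by
  rcases le_or_gt p (16461343 / 10000000 : ℝ) with h1 | h1
  · exact rowL5_89 hp h1 hq (q_le_of_corner (A0 := (603 / 200 : ℝ)) (p0 := (4107553 / 2500000 : ℝ)) (q0 := (17437473 / 5000000 : ℝ))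
      (by norm_num) (by norm_num) (by norm_num) (by norm_num) hs hsub) hpq
  · exact tailL5_90 hp hq hpq hle hsub h1.le

theorem tailL5_88 {p q : ℝ} (hp : 0 < p) (hq : 0 < q) (hpq : 1 < p * q) (hle : p ≤ q)
    (hsub : (603 / 200 : ℝ) * (p * q - 1) ≤ 2 * (p + q + 2))
    (hs : (16400299 / 10000000 : ℝ) ≤ p) : NoSol 5 p q := by
  rcases le_or_gt p (4107553 / 2500000 : ℝ) with h1 | h1
  · exact rowL5_88 hp h1 hq (q_le_of_corner (A0 := (603 / 200 : ℝ)) (p0 := (16400299 / 10000000 : ℝ)) (q0 := (17480721 / 5000000 : ℝ))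
      (by norm_num) (by norm_num) (by norm_num) (by norm_num) hs hsub) hpq
  · exact tailL5_89 hp hq hpq hle hsub h1.le

theorem tailL5_87 {p q : ℝ} (hp : 0 < p) (hq : 0 < q) (hpq : 1 < p * q) (hle : p ≤ q)
    (hsub : (603 / 200 : ℝ) * (p * q - 1) ≤ 2 * (p + q + 2))
    (hs : (4092603 / 2500000 : ℝ) ≤ p) : NoSol 5 p q := by
  rcases le_or_gt p (16400299 / 10000000 : ℝ) with h1 | h1
  · exact rowL5_87 hp h1 hq (q_le_of_corner (A0 := (603 / 200 : ℝ)) (p0 := (4092603 / 2500000 : ℝ)) (q0 := (35048393 / 10000000 : ℝ))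
      (by norm_num) (by norm_num) (by norm_num) (by norm_num) hs hsub) hpq
  · exact tailL5_88 hp hq hpq hle hsub h1.le

theorem tailL5_86 {p q : ℝ} (hp : 0 < p) (hq : 0 < q) (hpq : 1 < p * q) (hle : p ≤ q)
    (hsub : (603 / 200 : ℝ) * (p * q - 1) ≤ 2 * (p + q + 2))
    (hs : (8170561 / 5000000 : ℝ) ≤ p) : NoSol 5 p q := by
  rcases le_or_gt p (4092603 / 2500000 : ℝ) with h1 | h1
  · exact rowL5_86 hp h1 hq (q_le_of_corner (A0 := (603 / 200 : ℝ)) (p0 := (8170561 / 5000000 : ℝ)) (q0 := (35134127 / 10000000 : ℝ))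
      (by norm_num) (by norm_num) (by norm_num) (by norm_num) hs hsub) hpq
  · exact tailL5_87 hp hq hpq hle hsub h1.le

theorem tailL5_85 {p q : ℝ} (hp : 0 < p) (hq : 0 < q) (hpq : 1 < p * q) (hle : p ≤ q)
    (hsub : (603 / 200 : ℝ) * (p * q - 1) ≤ 2 * (p + q + 2))
    (hs : (1631247 / 1000000 : ℝ) ≤ p) : NoSol 5 p q := by
  rcases le_or_gt p (8170561 / 5000000 : ℝ) with h1 | h1
  · exact rowL5_85 hp h1 hq (q_le_of_corner (A0 := (603 / 200 : ℝ)) (p0 := (1631247 / 1000000 : ℝ)) (q0 := (7043699 / 2000000 : ℝ))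
      (by norm_num) (by norm_num) (by norm_num) (by norm_num) hs hsub) hpq
  · exact tailL5_86 hp hq hpq hle hsub h1.le

theorem tailL5_84 {p q : ℝ} (hp : 0 < p) (hq : 0 < q) (hpq : 1 < p * q) (hle : p ≤ q)
    (hsub : (603 / 200 : ℝ) * (p * q - 1) ≤ 2 * (p + q + 2))
    (hs : (8142171 / 5000000 : ℝ) ≤ p) : NoSol 5 p q := by
  rcases le_or_gt p (1631247 / 1000000 : ℝ) with h1 | h1
  · exact rowL5_84 hp h1 hq (q_le_of_corner (A0 := (603 / 200 : ℝ)) (p0 := (8142171 / 5000000 : ℝ)) (q0 := (2206363 / 625000 : ℝ))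
      (by norm_num) (by norm_num) (by norm_num) (by norm_num) hs hsub) hpq
  · exact tailL5_85 hp hq hpq hle hsub h1.le

theorem tailL5_83 {p q : ℝ} (hp : 0 < p) (hq : 0 < q) (hpq : 1 < p * q) (hle : p ≤ q)
    (hsub : (603 / 200 : ℝ) * (p * q - 1) ≤ 2 * (p + q + 2))
    (hs : (8128227 / 5000000 : ℝ) ≤ p) : NoSol 5 p q := by
  rcases le_or_gt p (8142171 / 5000000 : ℝ) with h1 | h1
  · exact rowL5_83 hp h1 hq (q_le_of_corner (A0 := (603 / 200 : ℝ)) (p0 := (8128227 / 5000000 : ℝ)) (q0 := (35384891 / 10000000 : ℝ))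
      (by norm_num) (by norm_num) (by norm_num) (by norm_num) hs hsub) hpq
  · exact tailL5_84 hp hq hpq hle hsub h1.le

theorem tailL5_82 {p q : ℝ} (hp : 0 < p) (hq : 0 < q) (hpq : 1 < p * q) (hle : p ≤ q)
    (hsub : (603 / 200 : ℝ) * (p * q - 1) ≤ 2 * (p + q + 2))
    (hs : (8114547 / 5000000 : ℝ) ≤ p) : NoSol 5 p q := by
  rcases le_or_gt p (8128227 / 5000000 : ℝ) with h1 | h1
  · exact rowL5_82 hp h1 hq (q_le_of_corner (A0 := (603 / 200 : ℝ)) (p0 := (8114547 / 5000000 : ℝ)) (q0 := (3546687 / 1000000 : ℝ))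
      (by norm_num) (by norm_num) (by norm_num) (by norm_num) hs hsub) hpq
  · exact tailL5_83 hp hq hpq hle hsub h1.le

theorem tailL5_81 {p q : ℝ} (hp : 0 < p) (hq : 0 < q) (hpq : 1 < p * q) (hle : p ≤ q)
    (hsub : (603 / 200 : ℝ) * (p * q - 1) ≤ 2 * (p + q + 2))
    (hs : (810113 / 500000 : ℝ) ≤ p) : NoSol 5 p q := by
  rcases le_or_gt p (8114547 / 5000000 : ℝ) with h1 | h1
  · exact rowL5_81 hp h1 hq (q_le_of_corner (A0 := (603 / 200 : ℝ)) (p0 := (810113 / 500000 : ℝ)) (q0 := (2221733 / 625000 : ℝ))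
      (by norm_num) (by norm_num) (by norm_num) (by norm_num) hs hsub) hpq
  · exact tailL5_82 hp hq hpq hle hsub h1.le

theorem tailL5_80 {p q : ℝ} (hp : 0 < p) (hq : 0 < q) (hpq : 1 < p * q) (hle : p ≤ q)
    (hsub : (603 / 200 : ℝ) * (p * q - 1) ≤ 2 * (p + q + 2))
    (hs : (16175889 / 10000000 : ℝ) ≤ p) : NoSol 5 p q := by
  rcases le_or_gt p (810113 / 500000 : ℝ) with h1 | h1
  · exact rowL5_80 hp h1 hq (q_le_of_corner (A0 := (603 / 200 : ℝ)) (p0 := (16175889 / 10000000 : ℝ)) (q0 := (7125527 / 2000000 : ℝ))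
      (by norm_num) (by norm_num) (by norm_num) (by norm_num) hs hsub) hpq
  · exact tailL5_81 hp hq hpq hle hsub h1.le

theorem tailL5_79 {p q : ℝ} (hp : 0 < p) (hq : 0 < q) (hpq : 1 < p * q) (hle : p ≤ q)
    (hsub : (603 / 200 : ℝ) * (p * q - 1) ≤ 2 * (p + q + 2))
    (hs : (8075009 / 5000000 : ℝ) ≤ p) : NoSol 5 p q := by
  rcases le_or_gt p (16175889 / 10000000 : ℝ) with h1 | h1
  · exact rowL5_79 hp h1 hq (q_le_of_corner (A0 := (603 / 200 : ℝ)) (p0 := (8075009 / 5000000 : ℝ)) (q0 := (4463307 / 1250000 : ℝ))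
      (by norm_num) (by norm_num) (by norm_num) (by norm_num) hs hsub) hpq
  · exact tailL5_80 hp hq hpq hle hsub h1.le

theorem tailL5_78 {p q : ℝ} (hp : 0 < p) (hq : 0 < q) (hpq : 1 < p * q) (hle : p ≤ q)
    (hsub : (603 / 200 : ℝ) * (p * q - 1) ≤ 2 * (p + q + 2))
    (hs : (2015607 / 1250000 : ℝ) ≤ p) : NoSol 5 p q := by
  rcases le_or_gt p (8075009 / 5000000 : ℝ) with h1 | h1
  · exact rowL5_78 hp h1 hq (q_le_of_corner (A0 := (603 / 200 : ℝ)) (p0 := (2015607 / 1250000 : ℝ)) (q0 := (3578353 / 1000000 : ℝ))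
      (by norm_num) (by norm_num) (by norm_num) (by norm_num) hs hsub) hpq
  · exact tailL5_79 hp hq hpq hle hsub h1.le

theorem tailL5_77 {p q : ℝ} (hp : 0 < p) (hq : 0 < q) (hpq : 1 < p * q) (hle : p ≤ q)
    (hsub : (603 / 200 : ℝ) * (p * q - 1) ≤ 2 * (p + q + 2))
    (hs : (16100077 / 10000000 : ℝ) ≤ p) : NoSol 5 p q := by
  rcases le_or_gt p (2015607 / 1250000 : ℝ) with h1 | h1
  · exact rowL5_77 hp h1 hq (q_le_of_corner (A0 := (603 / 200 : ℝ)) (p0 := (16100077 / 10000000 : ℝ)) (q0 := (35859831 / 10000000 : ℝ))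
      (by norm_num) (by norm_num) (by norm_num) (by norm_num) hs hsub) hpq
  · exact tailL5_78 hp hq hpq hle hsub h1.le

theorem tailL5_76 {p q : ℝ} (hp : 0 < p) (hq : 0 < q) (hpq : 1 < p * q) (hle : p ≤ q)
    (hsub : (603 / 200 : ℝ) * (p * q - 1) ≤ 2 * (p + q + 2))
    (hs : (4018901 / 2500000 : ℝ) ≤ p) : NoSol 5 p q := by
  rcases le_or_gt p (16100077 / 10000000 : ℝ) with h1 | h1
  · exact rowL5_76 hp h1 hq (q_le_of_corner (A0 := (603 / 200 : ℝ)) (p0 := (4018901 / 2500000 : ℝ)) (q0 := (35935583 / 10000000 : ℝ))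
      (by norm_num) (by norm_num) (by norm_num) (by norm_num) hs hsub) hpq
  · exact tailL5_77 hp hq hpq hle hsub h1.le

theorem tailL5_75 {p q : ℝ} (hp : 0 < p) (hq : 0 < q) (hpq : 1 < p * q) (hle : p ≤ q)
    (hsub : (603 / 200 : ℝ) * (p * q - 1) ≤ 2 * (p + q + 2))
    (hs : (16051607 / 10000000 : ℝ) ≤ p) : NoSol 5 p q := by
  rcases le_or_gt p (4018901 / 2500000 : ℝ) with h1 | h1
  · exact rowL5_75 hp h1 hq (q_le_of_corner (A0 := (603 / 200 : ℝ)) (p0 := (16051607 / 10000000 : ℝ)) (q0 := (36010243 / 10000000 : ℝ))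
      (by norm_num) (by norm_num) (by norm_num) (by norm_num) hs hsub) hpq
  · exact tailL5_76 hp hq hpq hle hsub h1.le

theorem tailL5_74 {p q : ℝ} (hp : 0 < p) (hq : 0 < q) (hpq : 1 < p * q) (hle : p ≤ q)
    (hsub : (603 / 200 : ℝ) * (p * q - 1) ≤ 2 * (p + q + 2))
    (hs : (125223 / 78125 : ℝ) ≤ p) : NoSol 5 p q := by
  rcases le_or_gt p (16051607 / 10000000 : ℝ) with h1 | h1
  · exact rowL5_74 hp h1 hq (q_le_of_corner (A0 := (603 / 200 : ℝ)) (p0 := (125223 / 78125 : ℝ)) (q0 := (36082357 / 10000000 : ℝ))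
      (by norm_num) (by norm_num) (by norm_num) (by norm_num) hs hsub) hpq
  · exact tailL5_75 hp hq hpq hle hsub h1.le

theorem tailL5_73 {p q : ℝ} (hp : 0 < p) (hq : 0 < q) (hpq : 1 < p * q) (hle : p ≤ q)
    (hsub : (603 / 200 : ℝ) * (p * q - 1) ≤ 2 * (p + q + 2))
    (hs : (16005449 / 10000000 : ℝ) ≤ p) : NoSol 5 p q := by
  rcases le_or_gt p (125223 / 78125 : ℝ) with h1 | h1
  · exact rowL5_73 hp h1 hq (q_le_of_corner (A0 := (603 / 200 : ℝ)) (p0 := (16005449 / 10000000 : ℝ)) (q0 := (36154927 / 10000000 : ℝ))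
      (by norm_num) (by norm_num) (by norm_num) (by norm_num) hs hsub) hpq
  · exact tailL5_74 hp hq hpq hle hsub h1.le

theorem tailL5_72 {p q : ℝ} (hp : 0 < p) (hq : 0 < q) (hpq : 1 < p * q) (hle : p ≤ q)
    (hsub : (603 / 200 : ℝ) * (p * q - 1) ≤ 2 * (p + q + 2))
    (hs : (7991471 / 5000000 : ℝ) ≤ p) : NoSol 5 p q := by
  rcases le_or_gt p (16005449 / 10000000 : ℝ) with h1 | h1
  · exact rowL5_72 hp h1 hq (q_le_of_corner (A0 := (603 / 200 : ℝ)) (p0 := (7991471 / 5000000 : ℝ)) (q0 := (18112997 / 5000000 : ℝ))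
      (by norm_num) (by norm_num) (by norm_num) (by norm_num) hs hsub) hpq
  · exact tailL5_73 hp hq hpq hle hsub h1.le

theorem tailL5_71 {p q : ℝ} (hp : 0 < p) (hq : 0 < q) (hpq : 1 < p * q) (hle : p ≤ q)
    (hsub : (603 / 200 : ℝ) * (p * q - 1) ≤ 2 * (p + q + 2))
    (hs : (7980357 / 5000000 : ℝ) ≤ p) : NoSol 5 p q := by
  rcases le_or_gt p (7991471 / 5000000 : ℝ) with h1 | h1
  · exact rowL5_71 hp h1 hq (q_le_of_corner (A0 := (603 / 200 : ℝ)) (p0 := (7980357 / 5000000 : ℝ)) (q0 := (36296517 / 10000000 : ℝ))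
      (by norm_num) (by norm_num) (by norm_num) (by norm_num) hs hsub) hpq
  · exact tailL5_72 hp hq hpq hle hsub h1.le

theorem tailL5_70 {p q : ℝ} (hp : 0 < p) (hq : 0 < q) (hpq : 1 < p * q) (hle : p ≤ q)
    (hsub : (603 / 200 : ℝ) * (p * q - 1) ≤ 2 * (p + q + 2))
    (hs : (15938821 / 10000000 : ℝ) ≤ p) : NoSol 5 p q := by
  rcases le_or_gt p (7980357 / 5000000 : ℝ) with h1 | h1
  · exact rowL5_70 hp h1 hq (q_le_of_corner (A0 := (603 / 200 : ℝ)) (p0 := (15938821 / 10000000 : ℝ)) (q0 := (36366307 / 10000000 : ℝ))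
      (by norm_num) (by norm_num) (by norm_num) (by norm_num) hs hsub) hpq
  · exact tailL5_71 hp hq hpq hle hsub h1.le

theorem tailL5_69 {p q : ℝ} (hp : 0 < p) (hq : 0 < q) (hpq : 1 < p * q) (hle : p ≤ q)
    (hsub : (603 / 200 : ℝ) * (p * q - 1) ≤ 2 * (p + q + 2))
    (hs : (15917391 / 10000000 : ℝ) ≤ p) : NoSol 5 p q := by
  rcases le_or_gt p (15938821 / 10000000 : ℝ) with h1 | h1
  · exact rowL5_69 hp h1 hq (q_le_of_corner (A0 := (603 / 200 : ℝ)) (p0 := (15917391 / 10000000 : ℝ)) (q0 := (36434939 / 10000000 : ℝ))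
      (by norm_num) (by norm_num) (by norm_num) (by norm_num) hs hsub) hpq
  · exact tailL5_70 hp hq hpq hle hsub h1.le

theorem tailL5_68 {p q : ℝ} (hp : 0 < p) (hq : 0 < q) (hpq : 1 < p * q) (hle : p ≤ q)
    (hsub : (603 / 200 : ℝ) * (p * q - 1) ≤ 2 * (p + q + 2))
    (hs : (7948097 / 5000000 : ℝ) ≤ p) : NoSol 5 p q := by
  rcases le_or_gt p (15917391 / 10000000 : ℝ) with h1 | h1
  · exact rowL5_68 hp h1 hq (q_le_of_corner (A0 := (603 / 200 : ℝ)) (p0 := (7948097 / 5000000 : ℝ)) (q0 := (36503137 / 10000000 : ℝ))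
      (by norm_num) (by norm_num) (by norm_num) (by norm_num) hs hsub) hpq
  · exact tailL5_69 hp hq hpq hle hsub h1.le

theorem tailL5_67 {p q : ℝ} (hp : 0 < p) (hq : 0 < q) (hpq : 1 < p * q) (hle : p ≤ q)
    (hsub : (603 / 200 : ℝ) * (p * q - 1) ≤ 2 * (p + q + 2))
    (hs : (7937747 / 5000000 : ℝ) ≤ p) : NoSol 5 p q := by
  rcases le_or_gt p (7948097 / 5000000 : ℝ) with h1 | h1
  · exact rowL5_67 hp h1 hq (q_le_of_corner (A0 := (603 / 200 : ℝ)) (p0 := (7937747 / 5000000 : ℝ)) (q0 := (36570039 / 10000000 : ℝ))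
      (by norm_num) (by norm_num) (by norm_num) (by norm_num) hs hsub) hpq
  · exact tailL5_68 hp hq hpq hle hsub h1.le

theorem tailL5_66 {p q : ℝ} (hp : 0 < p) (hq : 0 < q) (hpq : 1 < p * q) (hle : p ≤ q)
    (hsub : (603 / 200 : ℝ) * (p * q - 1) ≤ 2 * (p + q + 2))
    (hs : (15855353 / 10000000 : ℝ) ≤ p) : NoSol 5 p q := by
  rcases le_or_gt p (7937747 / 5000000 : ℝ) with h1 | h1
  · exact rowL5_66 hp h1 hq (q_le_of_corner (A0 := (603 / 200 : ℝ)) (p0 := (15855353 / 10000000 : ℝ)) (q0 := (18317711 / 5000000 : ℝ))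
      (by norm_num) (by norm_num) (by norm_num) (by norm_num) hs hsub) hpq
  · exact tailL5_67 hp hq hpq hle hsub h1.le

theorem tailL5_65 {p q : ℝ} (hp : 0 < p) (hq : 0 < q) (hpq : 1 < p * q) (hle : p ≤ q)
    (hsub : (603 / 200 : ℝ) * (p * q - 1) ≤ 2 * (p + q + 2))
    (hs : (15835689 / 10000000 : ℝ) ≤ p) : NoSol 5 p q := by
  rcases le_or_gt p (15855353 / 10000000 : ℝ) with h1 | h1
  · exact rowL5_65 hp h1 hq (q_le_of_corner (A0 := (603 / 200 : ℝ)) (p0 := (15835689 / 10000000 : ℝ)) (q0 := (9174883 / 2500000 : ℝ))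
      (by norm_num) (by norm_num) (by norm_num) (by norm_num) hs hsub) hpq
  · exact tailL5_66 hp hq hpq hle hsub h1.le

theorem tailL5_64 {p q : ℝ} (hp : 0 < p) (hq : 0 < q) (hpq : 1 < p * q) (hle : p ≤ q)
    (hsub : (603 / 200 : ℝ) * (p * q - 1) ≤ 2 * (p + q + 2))
    (hs : (15816121 / 10000000 : ℝ) ≤ p) : NoSol 5 p q := by
  rcases le_or_gt p (15835689 / 10000000 : ℝ) with h1 | h1
  · exact rowL5_64 hp h1 hq (q_le_of_corner (A0 := (603 / 200 : ℝ)) (p0 := (15816121 / 10000000 : ℝ)) (q0 := (18381801 / 5000000 : ℝ))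
      (by norm_num) (by norm_num) (by norm_num) (by norm_num) hs hsub) hpq
  · exact tailL5_65 hp hq hpq hle hsub h1.le

theorem tailL5_63 {p q : ℝ} (hp : 0 < p) (hq : 0 < q) (hpq : 1 < p * q) (hle : p ≤ q)
    (hsub : (603 / 200 : ℝ) * (p * q - 1) ≤ 2 * (p + q + 2))
    (hs : (24683 / 15625 : ℝ) ≤ p) : NoSol 5 p q := by
  rcases le_or_gt p (15816121 / 10000000 : ℝ) with h1 | h1
  · exact rowL5_63 hp h1 hq (q_le_of_corner (A0 := (603 / 200 : ℝ)) (p0 := (24683 / 15625 : ℝ)) (q0 := (18413039 / 5000000 : ℝ))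
      (by norm_num) (by norm_num) (by norm_num) (by norm_num) hs hsub) hpq
  · exact tailL5_64 hp hq hpq hle hsub h1.le

theorem tailL5_62 {p q : ℝ} (hp : 0 < p) (hq : 0 < q) (hpq : 1 < p * q) (hle : p ≤ q)
    (hsub : (603 / 200 : ℝ) * (p * q - 1) ≤ 2 * (p + q + 2))
    (hs : (15779343 / 10000000 : ℝ) ≤ p) : NoSol 5 p q := by
  rcases le_or_gt p (24683 / 15625 : ℝ) with h1 | h1
  · exact rowL5_62 hp h1 hq (q_le_of_corner (A0 := (603 / 200 : ℝ)) (p0 := (15779343 / 10000000 : ℝ)) (q0 := (9221191 / 2500000 : ℝ))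
      (by norm_num) (by norm_num) (by norm_num) (by norm_num) hs hsub) hpq
  · exact tailL5_63 hp hq hpq hle hsub h1.le

theorem tailL5_61 {p q : ℝ} (hp : 0 < p) (hq : 0 < q) (hpq : 1 < p * q) (hle : p ≤ q)
    (hsub : (603 / 200 : ℝ) * (p * q - 1) ≤ 2 * (p + q + 2))
    (hs : (15760917 / 10000000 : ℝ) ≤ p) : NoSol 5 p q := by
  rcases le_or_gt p (15779343 / 10000000 : ℝ) with h1 | h1
  · exact rowL5_61 hp h1 hq (q_le_of_corner (A0 := (603 / 200 : ℝ)) (p0 := (15760917 / 10000000 : ℝ)) (q0 := (18472917 / 5000000 : ℝ))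
      (by norm_num) (by norm_num) (by norm_num) (by norm_num) hs hsub) hpq
  · exact tailL5_62 hp hq hpq hle hsub h1.le

theorem tailL5_60 {p q : ℝ} (hp : 0 < p) (hq : 0 < q) (hpq : 1 < p * q) (hle : p ≤ q)
    (hsub : (603 / 200 : ℝ) * (p * q - 1) ≤ 2 * (p + q + 2))
    (hs : (7871351 / 5000000 : ℝ) ≤ p) : NoSol 5 p q := by
  rcases le_or_gt p (15760917 / 10000000 : ℝ) with h1 | h1
  · exact rowL5_60 hp h1 hq (q_le_of_corner (A0 := (603 / 200 : ℝ)) (p0 := (7871351 / 5000000 : ℝ)) (q0 := (37006447 / 10000000 : ℝ))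
      (by norm_num) (by norm_num) (by norm_num) (by norm_num) hs hsub) hpq
  · exact tailL5_61 hp hq hpq hle hsub h1.le

theorem tailL5_59 {p q : ℝ} (hp : 0 < p) (hq : 0 < q) (hpq : 1 < p * q) (hle : p ≤ q)
    (hsub : (603 / 200 : ℝ) * (p * q - 1) ≤ 2 * (p + q + 2))
    (hs : (3931191 / 2500000 : ℝ) ≤ p) : NoSol 5 p q := by
  rcases le_or_gt p (7871351 / 5000000 : ℝ) with h1 | h1
  · exact rowL5_59 hp h1 hq (q_le_of_corner (A0 := (603 / 200 : ℝ)) (p0 := (3931191 / 2500000 : ℝ)) (q0 := (4633297 / 1250000 : ℝ))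
      (by norm_num) (by norm_num) (by norm_num) (by norm_num) hs hsub) hpq
  · exact tailL5_60 hp hq hpq hle hsub h1.le

theorem tailL5_58 {p q : ℝ} (hp : 0 < p) (hq : 0 < q) (hpq : 1 < p * q) (hle : p ≤ q)
    (hsub : (603 / 200 : ℝ) * (p * q - 1) ≤ 2 * (p + q + 2))
    (hs : (785363 / 500000 : ℝ) ≤ p) : NoSol 5 p q := by
  rcases le_or_gt p (3931191 / 2500000 : ℝ) with h1 | h1
  · exact rowL5_58 hp h1 hq (q_le_of_corner (A0 := (603 / 200 : ℝ)) (p0 := (785363 / 500000 : ℝ)) (q0 := (37125083 / 10000000 : ℝ))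
      (by norm_num) (by norm_num) (by norm_num) (by norm_num) hs hsub) hpq
  · exact tailL5_59 hp hq hpq hle hsub h1.le

theorem tailL5_57 {p q : ℝ} (hp : 0 < p) (hq : 0 < q) (hpq : 1 < p * q) (hle : p ≤ q)
    (hsub : (603 / 200 : ℝ) * (p * q - 1) ≤ 2 * (p + q + 2))
    (hs : (15690003 / 10000000 : ℝ) ≤ p) : NoSol 5 p q := by
  rcases le_or_gt p (785363 / 500000 : ℝ) with h1 | h1
  · exact rowL5_57 hp h1 hq (q_le_of_corner (A0 := (603 / 200 : ℝ)) (p0 := (15690003 / 10000000 : ℝ)) (q0 := (7436637 / 2000000 : ℝ))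
      (by norm_num) (by norm_num) (by norm_num) (by norm_num) hs hsub) hpq
  · exact tailL5_58 hp hq hpq hle hsub h1.le

theorem tailL5_56 {p q : ℝ} (hp : 0 < p) (hq : 0 < q) (hpq : 1 < p * q) (hle : p ≤ q)
    (hsub : (603 / 200 : ℝ) * (p * q - 1) ≤ 2 * (p + q + 2))
    (hs : (15673463 / 10000000 : ℝ) ≤ p) : NoSol 5 p q := by
  rcases le_or_gt p (15690003 / 10000000 : ℝ) with h1 | h1
  · exact rowL5_56 hp h1 hq (q_le_of_corner (A0 := (603 / 200 : ℝ)) (p0 := (15673463 / 10000000 : ℝ)) (q0 := (930977 / 250000 : ℝ))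
      (by norm_num) (by norm_num) (by norm_num) (by norm_num) hs hsub) hpq
  · exact tailL5_57 hp hq hpq hle hsub h1.le

theorem tailL5_55 {p q : ℝ} (hp : 0 < p) (hq : 0 < q) (hpq : 1 < p * q) (hle : p ≤ q)
    (hsub : (603 / 200 : ℝ) * (p * q - 1) ≤ 2 * (p + q + 2))
    (hs : (15656829 / 10000000 : ℝ) ≤ p) : NoSol 5 p q := by
  rcases le_or_gt p (15673463 / 10000000 : ℝ) with h1 | h1
  · exact rowL5_55 hp h1 hq (q_le_of_corner (A0 := (603 / 200 : ℝ)) (p0 := (15656829 / 10000000 : ℝ)) (q0 := (74591 / 20000 : ℝ))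
      (by norm_num) (by norm_num) (by norm_num) (by norm_num) hs hsub) hpq
  · exact tailL5_56 hp hq hpq hle hsub h1.le

theorem tailL5_54 {p q : ℝ} (hp : 0 < p) (hq : 0 < q) (hpq : 1 < p * q) (hle : p ≤ q)
    (hsub : (603 / 200 : ℝ) * (p * q - 1) ≤ 2 * (p + q + 2))
    (hs : (15640597 / 10000000 : ℝ) ≤ p) : NoSol 5 p q := by
  rcases le_or_gt p (15656829 / 10000000 : ℝ) with h1 | h1
  · exact rowL5_54 hp h1 hq (q_le_of_corner (A0 := (603 / 200 : ℝ)) (p0 := (15640597 / 10000000 : ℝ)) (q0 := (37350757 / 10000000 : ℝ))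
      (by norm_num) (by norm_num) (by norm_num) (by norm_num) hs hsub) hpq
  · exact tailL5_55 hp hq hpq hle hsub h1.le

theorem tailL5_53 {p q : ℝ} (hp : 0 < p) (hq : 0 < q) (hpq : 1 < p * q) (hle : p ≤ q)
    (hsub : (603 / 200 : ℝ) * (p * q - 1) ≤ 2 * (p + q + 2))
    (hs : (3124901 / 2000000 : ℝ) ≤ p) : NoSol 5 p q := by
  rcases le_or_gt p (15640597 / 10000000 : ℝ) with h1 | h1
  · exact rowL5_53 hp h1 hq (q_le_of_corner (A0 := (603 / 200 : ℝ)) (p0 := (3124901 / 2000000 : ℝ)) (q0 := (18702867 / 5000000 : ℝ))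
      (by norm_num) (by norm_num) (by norm_num) (by norm_num) hs hsub) hpq
  · exact tailL5_54 hp hq hpq hle hsub h1.le

theorem tailL5_52 {p q : ℝ} (hp : 0 < p) (hq : 0 < q) (hpq : 1 < p * q) (hle : p ≤ q)
    (hsub : (603 / 200 : ℝ) * (p * q - 1) ≤ 2 * (p + q + 2))
    (hs : (15608841 / 10000000 : ℝ) ≤ p) : NoSol 5 p q := by
  rcases le_or_gt p (3124901 / 2000000 : ℝ) with h1 | h1
  · exact rowL5_52 hp h1 hq (q_le_of_corner (A0 := (603 / 200 : ℝ)) (p0 := (15608841 / 10000000 : ℝ)) (q0 := (18729719 / 5000000 : ℝ))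
      (by norm_num) (by norm_num) (by norm_num) (by norm_num) hs hsub) hpq
  · exact tailL5_53 hp hq hpq hle hsub h1.le

theorem tailL5_51 {p q : ℝ} (hp : 0 < p) (hq : 0 < q) (hpq : 1 < p * q) (hle : p ≤ q)
    (hsub : (603 / 200 : ℝ) * (p * q - 1) ≤ 2 * (p + q + 2))
    (hs : (15593409 / 10000000 : ℝ) ≤ p) : NoSol 5 p q := by
  rcases le_or_gt p (15608841 / 10000000 : ℝ) with h1 | h1
  · exact rowL5_51 hp h1 hq (q_le_of_corner (A0 := (603 / 200 : ℝ)) (p0 := (15593409 / 10000000 : ℝ)) (q0 := (37512531 / 10000000 : ℝ))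
      (by norm_num) (by norm_num) (by norm_num) (by norm_num) hs hsub) hpq
  · exact tailL5_52 hp hq hpq hle hsub h1.le

theorem tailL5_50 {p q : ℝ} (hp : 0 < p) (hq : 0 < q) (hpq : 1 < p * q) (hle : p ≤ q)
    (hsub : (603 / 200 : ℝ) * (p * q - 1) ≤ 2 * (p + q + 2))
    (hs : (7789021 / 5000000 : ℝ) ≤ p) : NoSol 5 p q := by
  rcases le_or_gt p (15593409 / 10000000 : ℝ) with h1 | h1
  · exact rowL5_50 hp h1 hq (q_le_of_corner (A0 := (603 / 200 : ℝ)) (p0 := (7789021 / 5000000 : ℝ)) (q0 := (18782791 / 5000000 : ℝ))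
      (by norm_num) (by norm_num) (by norm_num) (by norm_num) hs hsub) hpq
  · exact tailL5_51 hp hq hpq hle hsub h1.le

theorem tailL5_49 {p q : ℝ} (hp : 0 < p) (hq : 0 < q) (hpq : 1 < p * q) (hle : p ≤ q)
    (hsub : (603 / 200 : ℝ) * (p * q - 1) ≤ 2 * (p + q + 2))
    (hs : (1945369 / 1250000 : ℝ) ≤ p) : NoSol 5 p q := by
  rcases le_or_gt p (7789021 / 5000000 : ℝ) with h1 | h1
  · exact rowL5_49 hp h1 hq (q_le_of_corner (A0 := (603 / 200 : ℝ)) (p0 := (1945369 / 1250000 : ℝ)) (q0 := (7523571 / 2000000 : ℝ))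
      (by norm_num) (by norm_num) (by norm_num) (by norm_num) hs hsub) hpq
  · exact tailL5_50 hp hq hpq hle hsub h1.le

theorem tailL5_48 {p q : ℝ} (hp : 0 < p) (hq : 0 < q) (hpq : 1 < p * q) (hle : p ≤ q)
    (hsub : (603 / 200 : ℝ) * (p * q - 1) ≤ 2 * (p + q + 2))
    (hs : (15548167 / 10000000 : ℝ) ≤ p) : NoSol 5 p q := by
  rcases le_or_gt p (1945369 / 1250000 : ℝ) with h1 | h1
  · exact rowL5_48 hp h1 hq (q_le_of_corner (A0 := (603 / 200 : ℝ)) (p0 := (15548167 / 10000000 : ℝ)) (q0 := (18834621 / 5000000 : ℝ))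
      (by norm_num) (by norm_num) (by norm_num) (by norm_num) hs hsub) hpq
  · exact tailL5_49 hp hq hpq hle hsub h1.le

theorem tailL5_47 {p q : ℝ} (hp : 0 < p) (hq : 0 < q) (hpq : 1 < p * q) (hle : p ≤ q)
    (hsub : (603 / 200 : ℝ) * (p * q - 1) ≤ 2 * (p + q + 2))
    (hs : (7766821 / 5000000 : ℝ) ≤ p) : NoSol 5 p q := by
  rcases le_or_gt p (15548167 / 10000000 : ℝ) with h1 | h1
  · exact rowL5_47 hp h1 hq (q_le_of_corner (A0 := (603 / 200 : ℝ)) (p0 := (7766821 / 5000000 : ℝ)) (q0 := (37719893 / 10000000 : ℝ))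
      (by norm_num) (by norm_num) (by norm_num) (by norm_num) hs hsub) hpq
  · exact tailL5_48 hp hq hpq hle hsub h1.le

theorem tailL5_46 {p q : ℝ} (hp : 0 < p) (hq : 0 < q) (hpq : 1 < p * q) (hle : p ≤ q)
    (hsub : (603 / 200 : ℝ) * (p * q - 1) ≤ 2 * (p + q + 2))
    (hs : (3879833 / 2500000 : ℝ) ≤ p) : NoSol 5 p q := by
  rcases le_or_gt p (7766821 / 5000000 : ℝ) with h1 | h1
  · exact rowL5_46 hp h1 hq (q_le_of_corner (A0 := (603 / 200 : ℝ)) (p0 := (3879833 / 2500000 : ℝ)) (q0 := (7553991 / 2000000 : ℝ))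
      (by norm_num) (by norm_num) (by norm_num) (by norm_num) hs hsub) hpq
  · exact tailL5_47 hp hq hpq hle hsub h1.le

theorem tailL5_45 {p q : ℝ} (hp : 0 < p) (hq : 0 < q) (hpq : 1 < p * q) (hle : p ≤ q)
    (hsub : (603 / 200 : ℝ) * (p * q - 1) ≤ 2 * (p + q + 2))
    (hs : (3101053 / 2000000 : ℝ) ≤ p) : NoSol 5 p q := by
  rcases le_or_gt p (3879833 / 2500000 : ℝ) with h1 | h1
  · exact rowL5_45 hp h1 hq (q_le_of_corner (A0 := (603 / 200 : ℝ)) (p0 := (3101053 / 2000000 : ℝ)) (q0 := (1512773 / 400000 : ℝ))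
      (by norm_num) (by norm_num) (by norm_num) (by norm_num) hs hsub) hpq
  · exact tailL5_46 hp hq hpq hle hsub h1.le

theorem tailL5_44 {p q : ℝ} (hp : 0 < p) (hq : 0 < q) (hpq : 1 < p * q) (hle : p ≤ q)
    (hsub : (603 / 200 : ℝ) * (p * q - 1) ≤ 2 * (p + q + 2))
    (hs : (7745719 / 5000000 : ℝ) ≤ p) : NoSol 5 p q := by
  rcases le_or_gt p (3101053 / 2000000 : ℝ) with h1 | h1
  · exact rowL5_44 hp h1 hq (q_le_of_corner (A0 := (603 / 200 : ℝ)) (p0 := (7745719 / 5000000 : ℝ)) (q0 := (7573601 / 2000000 : ℝ))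
      (by norm_num) (by norm_num) (by norm_num) (by norm_num) hs hsub) hpq
  · exact tailL5_45 hp hq hpq hle hsub h1.le

theorem tailL5_43 {p q : ℝ} (hp : 0 < p) (hq : 0 < q) (hpq : 1 < p * q) (hle : p ≤ q)
    (hsub : (603 / 200 : ℝ) * (p * q - 1) ≤ 2 * (p + q + 2))
    (hs : (15477849 / 10000000 : ℝ) ≤ p) : NoSol 5 p q := by
  rcases le_or_gt p (7745719 / 5000000 : ℝ) with h1 | h1
  · exact rowL5_43 hp h1 hq (q_le_of_corner (A0 := (603 / 200 : ℝ)) (p0 := (15477849 / 10000000 : ℝ)) (q0 := (9478999 / 2500000 : ℝ))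
      (by norm_num) (by norm_num) (by norm_num) (by norm_num) hs hsub) hpq
  · exact tailL5_44 hp hq hpq hle hsub h1.le

theorem tailL5_42 {p q : ℝ} (hp : 0 < p) (hq : 0 < q) (hpq : 1 < p * q) (hle : p ≤ q)
    (hsub : (603 / 200 : ℝ) * (p * q - 1) ≤ 2 * (p + q + 2))
    (hs : (1933073 / 1250000 : ℝ) ≤ p) : NoSol 5 p q := by
  rcases le_or_gt p (15477849 / 10000000 : ℝ) with h1 | h1
  · exact rowL5_42 hp h1 hq (q_le_of_corner (A0 := (603 / 200 : ℝ)) (p0 := (1933073 / 1250000 : ℝ)) (q0 := (4745373 / 1250000 : ℝ))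
      (by norm_num) (by norm_num) (by norm_num) (by norm_num) hs hsub) hpq
  · exact tailL5_43 hp hq hpq hle hsub h1.le

theorem tailL5_41 {p q : ℝ} (hp : 0 < p) (hq : 0 < q) (hpq : 1 < p * q) (hle : p ≤ q)
    (hsub : (603 / 200 : ℝ) * (p * q - 1) ≤ 2 * (p + q + 2))
    (hs : (3862907 / 2500000 : ℝ) ≤ p) : NoSol 5 p q := by
  rcases le_or_gt p (1933073 / 1250000 : ℝ) with h1 | h1
  · exact rowL5_41 hp h1 hq (q_le_of_corner (A0 := (603 / 200 : ℝ)) (p0 := (3862907 / 2500000 : ℝ)) (q0 := (7601803 / 2000000 : ℝ))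
      (by norm_num) (by norm_num) (by norm_num) (by norm_num) hs hsub) hpq
  · exact tailL5_42 hp hq hpq hle hsub h1.le

theorem tailL5_40 {p q : ℝ} (hp : 0 < p) (hq : 0 < q) (hpq : 1 < p * q) (hle : p ≤ q)
    (hsub : (603 / 200 : ℝ) * (p * q - 1) ≤ 2 * (p + q + 2))
    (hs : (15438863 / 10000000 : ℝ) ≤ p) : NoSol 5 p q := by
  rcases le_or_gt p (3862907 / 2500000 : ℝ) with h1 | h1
  · exact rowL5_40 hp h1 hq (q_le_of_corner (A0 := (603 / 200 : ℝ)) (p0 := (15438863 / 10000000 : ℝ)) (q0 := (76109 / 20000 : ℝ))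
      (by norm_num) (by norm_num) (by norm_num) (by norm_num) hs hsub) hpq
  · exact tailL5_41 hp hq hpq hle hsub h1.le

theorem tailL5_39 {p q : ℝ} (hp : 0 < p) (hq : 0 < q) (hpq : 1 < p * q) (hle : p ≤ q)
    (hsub : (603 / 200 : ℝ) * (p * q - 1) ≤ 2 * (p + q + 2))
    (hs : (1928293 / 1250000 : ℝ) ≤ p) : NoSol 5 p q := by
  rcases le_or_gt p (15438863 / 10000000 : ℝ) with h1 | h1
  · exact rowL5_39 hp h1 hq (q_le_of_corner (A0 := (603 / 200 : ℝ)) (p0 := (1928293 / 1250000 : ℝ)) (q0 := (9524809 / 2500000 : ℝ))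
      (by norm_num) (by norm_num) (by norm_num) (by norm_num) hs hsub) hpq
  · exact tailL5_40 hp hq hpq hle hsub h1.le

theorem tailL5_38 {p q : ℝ} (hp : 0 < p) (hq : 0 < q) (hpq : 1 < p * q) (hle : p ≤ q)
    (hsub : (603 / 200 : ℝ) * (p * q - 1) ≤ 2 * (p + q + 2))
    (hs : (15414237 / 10000000 : ℝ) ≤ p) : NoSol 5 p q := by
  rcases le_or_gt p (1928293 / 1250000 : ℝ) with h1 | h1
  · exact rowL5_38 hp h1 hq (q_le_of_corner (A0 := (603 / 200 : ℝ)) (p0 := (15414237 / 10000000 : ℝ)) (q0 := (38142621 / 10000000 : ℝ))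
      (by norm_num) (by norm_num) (by norm_num) (by norm_num) hs hsub) hpq
  · exact tailL5_39 hp hq hpq hle hsub h1.le

theorem tailL5_37 {p q : ℝ} (hp : 0 < p) (hq : 0 < q) (hpq : 1 < p * q) (hle : p ≤ q)
    (hsub : (603 / 200 : ℝ) * (p * q - 1) ≤ 2 * (p + q + 2))
    (hs : (1925333 / 1250000 : ℝ) ≤ p) : NoSol 5 p q := by
  rcases le_or_gt p (15414237 / 10000000 : ℝ) with h1 | h1
  · exact rowL5_37 hp h1 hq (q_le_of_corner (A0 := (603 / 200 : ℝ)) (p0 := (1925333 / 1250000 : ℝ)) (q0 := (7636841 / 2000000 : ℝ))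
      (by norm_num) (by norm_num) (by norm_num) (by norm_num) hs hsub) hpq
  · exact tailL5_38 hp hq hpq hle hsub h1.le

theorem tailL5_36 {p q : ℝ} (hp : 0 < p) (hq : 0 < q) (hpq : 1 < p * q) (hle : p ≤ q)
    (hsub : (603 / 200 : ℝ) * (p * q - 1) ≤ 2 * (p + q + 2))
    (hs : (7695337 / 5000000 : ℝ) ≤ p) : NoSol 5 p q := by
  rcases le_or_gt p (1925333 / 1250000 : ℝ) with h1 | h1
  · exact rowL5_36 hp h1 hq (q_le_of_corner (A0 := (603 / 200 : ℝ)) (p0 := (7695337 / 5000000 : ℝ)) (q0 := (38227403 / 10000000 : ℝ))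
      (by norm_num) (by norm_num) (by norm_num) (by norm_num) hs hsub) hpq
  · exact tailL5_37 hp hq hpq hle hsub h1.le

theorem tailL5_35 {p q : ℝ} (hp : 0 < p) (hq : 0 < q) (hpq : 1 < p * q) (hle : p ≤ q)
    (hsub : (603 / 200 : ℝ) * (p * q - 1) ≤ 2 * (p + q + 2))
    (hs : (3844729 / 2500000 : ℝ) ≤ p) : NoSol 5 p q := by
  rcases le_or_gt p (7695337 / 5000000 : ℝ) with h1 | h1
  · exact rowL5_35 hp h1 hq (q_le_of_corner (A0 := (603 / 200 : ℝ)) (p0 := (3844729 / 2500000 : ℝ)) (q0 := (38269881 / 10000000 : ℝ))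
      (by norm_num) (by norm_num) (by norm_num) (by norm_num) hs hsub) hpq
  · exact tailL5_36 hp hq hpq hle hsub h1.le

theorem tailL5_34 {p q : ℝ} (hp : 0 < p) (hq : 0 < q) (hpq : 1 < p * q) (hle : p ≤ q)
    (hsub : (603 / 200 : ℝ) * (p * q - 1) ≤ 2 * (p + q + 2))
    (hs : (48023 / 31250 : ℝ) ≤ p) : NoSol 5 p q := by
  rcases le_or_gt p (3844729 / 2500000 : ℝ) with h1 | h1
  · exact rowL5_34 hp h1 hq (q_le_of_corner (A0 := (603 / 200 : ℝ)) (p0 := (48023 / 31250 : ℝ)) (q0 := (38311739 / 10000000 : ℝ))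
      (by norm_num) (by norm_num) (by norm_num) (by norm_num) hs hsub) hpq
  · exact tailL5_35 hp hq hpq hle hsub h1.le

theorem tailL5_33 {p q : ℝ} (hp : 0 < p) (hq : 0 < q) (hpq : 1 < p * q) (hle : p ≤ q)
    (hsub : (603 / 200 : ℝ) * (p * q - 1) ≤ 2 * (p + q + 2))
    (hs : (383901 / 250000 : ℝ) ≤ p) : NoSol 5 p q := by
  rcases le_or_gt p (48023 / 31250 : ℝ) with h1 | h1
  · exact rowL5_33 hp h1 hq (q_le_of_corner (A0 := (603 / 200 : ℝ)) (p0 := (383901 / 250000 : ℝ)) (q0 := (38352851 / 10000000 : ℝ))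
      (by norm_num) (by norm_num) (by norm_num) (by norm_num) hs hsub) hpq
  · exact tailL5_34 hp hq hpq hle hsub h1.le

theorem tailL5_32 {p q : ℝ} (hp : 0 < p) (hq : 0 < q) (hpq : 1 < p * q) (hle : p ≤ q)
    (hsub : (603 / 200 : ℝ) * (p * q - 1) ≤ 2 * (p + q + 2))
    (hs : (15345339 / 10000000 : ℝ) ≤ p) : NoSol 5 p q := by
  rcases le_or_gt p (383901 / 250000 : ℝ) with h1 | h1
  · exact rowL5_32 hp h1 hq (q_le_of_corner (A0 := (603 / 200 : ℝ)) (p0 := (15345339 / 10000000 : ℝ)) (q0 := (38391813 / 10000000 : ℝ))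
      (by norm_num) (by norm_num) (by norm_num) (by norm_num) hs hsub) hpq
  · exact tailL5_33 hp hq hpq hle hsub h1.le

theorem tailL5_31 {p q : ℝ} (hp : 0 < p) (hq : 0 < q) (hpq : 1 < p * q) (hle : p ≤ q)
    (hsub : (603 / 200 : ℝ) * (p * q - 1) ≤ 2 * (p + q + 2))
    (hs : (3066893 / 2000000 : ℝ) ≤ p) : NoSol 5 p q := by
  rcases le_or_gt p (15345339 / 10000000 : ℝ) with h1 | h1
  · exact rowL5_31 hp h1 hq (q_le_of_corner (A0 := (603 / 200 : ℝ)) (p0 := (3066893 / 2000000 : ℝ)) (q0 := (38431503 / 10000000 : ℝ))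
      (by norm_num) (by norm_num) (by norm_num) (by norm_num) hs hsub) hpq
  · exact tailL5_32 hp hq hpq hle hsub h1.le

theorem tailL5_30 {p q : ℝ} (hp : 0 < p) (hq : 0 < q) (hpq : 1 < p * q) (hle : p ≤ q)
    (hsub : (603 / 200 : ℝ) * (p * q - 1) ≤ 2 * (p + q + 2))
    (hs : (15323737 / 10000000 : ℝ) ≤ p) : NoSol 5 p q := by
  rcases le_or_gt p (3066893 / 2000000 : ℝ) with h1 | h1
  · exact rowL5_30 hp h1 hq (q_le_of_corner (A0 := (603 / 200 : ℝ)) (p0 := (15323737 / 10000000 : ℝ)) (q0 := (38470757 / 10000000 : ℝ))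
      (by norm_num) (by norm_num) (by norm_num) (by norm_num) hs hsub) hpq
  · exact tailL5_31 hp hq hpq hle hsub h1.le

theorem tailL5_29 {p q : ℝ} (hp : 0 < p) (hq : 0 < q) (hpq : 1 < p * q) (hle : p ≤ q)
    (hsub : (603 / 200 : ℝ) * (p * q - 1) ≤ 2 * (p + q + 2))
    (hs : (15313269 / 10000000 : ℝ) ≤ p) : NoSol 5 p q := by
  rcases le_or_gt p (15323737 / 10000000 : ℝ) with h1 | h1
  · exact rowL5_29 hp h1 hq (q_le_of_corner (A0 := (603 / 200 : ℝ)) (p0 := (15313269 / 10000000 : ℝ)) (q0 := (38509153 / 10000000 : ℝ))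
      (by norm_num) (by norm_num) (by norm_num) (by norm_num) hs hsub) hpq
  · exact tailL5_30 hp hq hpq hle hsub h1.le

theorem tailL5_28 {p q : ℝ} (hp : 0 < p) (hq : 0 < q) (hpq : 1 < p * q) (hle : p ≤ q)
    (hsub : (603 / 200 : ℝ) * (p * q - 1) ≤ 2 * (p + q + 2))
    (hs : (3060749 / 2000000 : ℝ) ≤ p) : NoSol 5 p q := by
  rcases le_or_gt p (15313269 / 10000000 : ℝ) with h1 | h1
  · exact rowL5_28 hp h1 hq (q_le_of_corner (A0 := (603 / 200 : ℝ)) (p0 := (3060749 / 2000000 : ℝ)) (q0 := (4818021 / 1250000 : ℝ))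
      (by norm_num) (by norm_num) (by norm_num) (by norm_num) hs hsub) hpq
  · exact tailL5_29 hp hq hpq hle hsub h1.le

theorem tailL5_27 {p q : ℝ} (hp : 0 < p) (hq : 0 < q) (hpq : 1 < p * q) (hle : p ≤ q)
    (hsub : (603 / 200 : ℝ) * (p * q - 1) ≤ 2 * (p + q + 2))
    (hs : (1529401 / 1000000 : ℝ) ≤ p) : NoSol 5 p q := by
  rcases le_or_gt p (3060749 / 2000000 : ℝ) with h1 | h1
  · exact rowL5_27 hp h1 hq (q_le_of_corner (A0 := (603 / 200 : ℝ)) (p0 := (1529401 / 1000000 : ℝ)) (q0 := (19290019 / 5000000 : ℝ))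
      (by norm_num) (by norm_num) (by norm_num) (by norm_num) hs hsub) hpq
  · exact tailL5_28 hp hq hpq hle hsub h1.le

theorem tailL5_26 {p q : ℝ} (hp : 0 < p) (hq : 0 < q) (hpq : 1 < p * q) (hle : p ≤ q)
    (hsub : (603 / 200 : ℝ) * (p * q - 1) ≤ 2 * (p + q + 2))
    (hs : (7642011 / 5000000 : ℝ) ≤ p) : NoSol 5 p q := by
  rcases le_or_gt p (1529401 / 1000000 : ℝ) with h1 | h1
  · exact rowL5_26 hp h1 hq (q_le_of_corner (A0 := (603 / 200 : ℝ)) (p0 := (7642011 / 5000000 : ℝ)) (q0 := (38616923 / 10000000 : ℝ))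
      (by norm_num) (by norm_num) (by norm_num) (by norm_num) hs hsub) hpq
  · exact tailL5_27 hp hq hpq hle hsub h1.le

theorem tailL5_25 {p q : ℝ} (hp : 0 < p) (hq : 0 < q) (hpq : 1 < p * q) (hle : p ≤ q)
    (hsub : (603 / 200 : ℝ) * (p * q - 1) ≤ 2 * (p + q + 2))
    (hs : (15274109 / 10000000 : ℝ) ≤ p) : NoSol 5 p q := by
  rcases le_or_gt p (7642011 / 5000000 : ℝ) with h1 | h1
  · exact rowL5_25 hp h1 hq (q_le_of_corner (A0 := (603 / 200 : ℝ)) (p0 := (15274109 / 10000000 : ℝ)) (q0 := (38653617 / 10000000 : ℝ))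
      (by norm_num) (by norm_num) (by norm_num) (by norm_num) hs hsub) hpq
  · exact tailL5_26 hp hq hpq hle hsub h1.le

theorem tailL5_24 {p q : ℝ} (hp : 0 < p) (hq : 0 < q) (hpq : 1 < p * q) (hle : p ≤ q)
    (hsub : (603 / 200 : ℝ) * (p * q - 1) ≤ 2 * (p + q + 2))
    (hs : (15264337 / 10000000 : ℝ) ≤ p) : NoSol 5 p q := by
  rcases le_or_gt p (15274109 / 10000000 : ℝ) with h1 | h1
  · exact rowL5_24 hp h1 hq (q_le_of_corner (A0 := (603 / 200 : ℝ)) (p0 := (15264337 / 10000000 : ℝ)) (q0 := (3868987 / 1000000 : ℝ))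
      (by norm_num) (by norm_num) (by norm_num) (by norm_num) hs hsub) hpq
  · exact tailL5_25 hp hq hpq hle hsub h1.le

theorem tailL5_23 {p q : ℝ} (hp : 0 < p) (hq : 0 < q) (hpq : 1 < p * q) (hle : p ≤ q)
    (hsub : (603 / 200 : ℝ) * (p * q - 1) ≤ 2 * (p + q + 2))
    (hs : (15254867 / 10000000 : ℝ) ≤ p) : NoSol 5 p q := by
  rcases le_or_gt p (15264337 / 10000000 : ℝ) with h1 | h1
  · exact rowL5_23 hp h1 hq (q_le_of_corner (A0 := (603 / 200 : ℝ)) (p0 := (15254867 / 10000000 : ℝ)) (q0 := (19362541 / 5000000 : ℝ))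
      (by norm_num) (by norm_num) (by norm_num) (by norm_num) hs hsub) hpq
  · exact tailL5_24 hp hq hpq hle hsub h1.le

theorem tailL5_22 {p q : ℝ} (hp : 0 < p) (hq : 0 < q) (hpq : 1 < p * q) (hle : p ≤ q)
    (hsub : (603 / 200 : ℝ) * (p * q - 1) ≤ 2 * (p + q + 2))
    (hs : (609821 / 400000 : ℝ) ≤ p) : NoSol 5 p q := by
  rcases le_or_gt p (15254867 / 10000000 : ℝ) with h1 | h1
  · exact rowL5_22 hp h1 hq (q_le_of_corner (A0 := (603 / 200 : ℝ)) (p0 := (609821 / 400000 : ℝ)) (q0 := (19379947 / 5000000 : ℝ))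
      (by norm_num) (by norm_num) (by norm_num) (by norm_num) hs hsub) hpq
  · exact tailL5_23 hp hq hpq hle hsub h1.le

theorem tailL5_21 {p q : ℝ} (hp : 0 < p) (hq : 0 < q) (hpq : 1 < p * q) (hle : p ≤ q)
    (hsub : (603 / 200 : ℝ) * (p * q - 1) ≤ 2 * (p + q + 2))
    (hs : (7618203 / 5000000 : ℝ) ≤ p) : NoSol 5 p q := by
  rcases le_or_gt p (609821 / 400000 : ℝ) with h1 | h1
  · exact rowL5_21 hp h1 hq (q_le_of_corner (A0 := (603 / 200 : ℝ)) (p0 := (7618203 / 5000000 : ℝ)) (q0 := (9698487 / 2500000 : ℝ))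
      (by norm_num) (by norm_num) (by norm_num) (by norm_num) hs hsub) hpq
  · exact tailL5_22 hp hq hpq hle hsub h1.le

theorem tailL5_20 {p q : ℝ} (hp : 0 < p) (hq : 0 < q) (hpq : 1 < p * q) (hle : p ≤ q)
    (hsub : (603 / 200 : ℝ) * (p * q - 1) ≤ 2 * (p + q + 2))
    (hs : (3045503 / 2000000 : ℝ) ≤ p) : NoSol 5 p q := by
  rcases le_or_gt p (7618203 / 5000000 : ℝ) with h1 | h1
  · exact rowL5_20 hp h1 hq (q_le_of_corner (A0 := (603 / 200 : ℝ)) (p0 := (3045503 / 2000000 : ℝ)) (q0 := (1941361 / 500000 : ℝ))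
      (by norm_num) (by norm_num) (by norm_num) (by norm_num) hs hsub) hpq
  · exact tailL5_21 hp hq hpq hle hsub h1.le

theorem tailL5_19 {p q : ℝ} (hp : 0 < p) (hq : 0 < q) (hpq : 1 < p * q) (hle : p ≤ q)
    (hsub : (603 / 200 : ℝ) * (p * q - 1) ≤ 2 * (p + q + 2))
    (hs : (3043709 / 2000000 : ℝ) ≤ p) : NoSol 5 p q := by
  rcases le_or_gt p (3045503 / 2000000 : ℝ) with h1 | h1
  · exact rowL5_19 hp h1 hq (q_le_of_corner (A0 := (603 / 200 : ℝ)) (p0 := (3043709 / 2000000 : ℝ)) (q0 := (38860857 / 10000000 : ℝ))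
      (by norm_num) (by norm_num) (by norm_num) (by norm_num) hs hsub) hpq
  · exact tailL5_20 hp hq hpq hle hsub h1.le

theorem tailL5_18 {p q : ℝ} (hp : 0 < p) (hq : 0 < q) (hpq : 1 < p * q) (hle : p ≤ q)
    (hsub : (603 / 200 : ℝ) * (p * q - 1) ≤ 2 * (p + q + 2))
    (hs : (7604911 / 5000000 : ℝ) ≤ p) : NoSol 5 p q := by
  rcases le_or_gt p (3043709 / 2000000 : ℝ) with h1 | h1
  · exact rowL5_18 hp h1 hq (q_le_of_corner (A0 := (603 / 200 : ℝ)) (p0 := (7604911 / 5000000 : ℝ)) (q0 := (7778727 / 2000000 : ℝ))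
      (by norm_num) (by norm_num) (by norm_num) (by norm_num) hs hsub) hpq
  · exact tailL5_19 hp hq hpq hle hsub h1.le

theorem tailL5_17 {p q : ℝ} (hp : 0 < p) (hq : 0 < q) (hpq : 1 < p * q) (hle : p ≤ q)
    (hsub : (603 / 200 : ℝ) * (p * q - 1) ≤ 2 * (p + q + 2))
    (hs : (3040283 / 2000000 : ℝ) ≤ p) : NoSol 5 p q := by
  rcases le_or_gt p (7604911 / 5000000 : ℝ) with h1 | h1
  · exact rowL5_17 hp h1 hq (q_le_of_corner (A0 := (603 / 200 : ℝ)) (p0 := (3040283 / 2000000 : ℝ)) (q0 := (3892529 / 1000000 : ℝ))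
      (by norm_num) (by norm_num) (by norm_num) (by norm_num) hs hsub) hpq
  · exact tailL5_18 hp hq hpq hle hsub h1.le

theorem tailL5_16 {p q : ℝ} (hp : 0 < p) (hq : 0 < q) (hpq : 1 < p * q) (hle : p ≤ q)
    (hsub : (603 / 200 : ℝ) * (p * q - 1) ≤ 2 * (p + q + 2))
    (hs : (7596489 / 5000000 : ℝ) ≤ p) : NoSol 5 p q := by
  rcases le_or_gt p (3040283 / 2000000 : ℝ) with h1 | h1
  · exact rowL5_16 hp h1 hq (q_le_of_corner (A0 := (603 / 200 : ℝ)) (p0 := (7596489 / 5000000 : ℝ)) (q0 := (38957119 / 10000000 : ℝ))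
      (by norm_num) (by norm_num) (by norm_num) (by norm_num) hs hsub) hpq
  · exact tailL5_17 hp hq hpq hle hsub h1.le

theorem tailL5_15 {p q : ℝ} (hp : 0 < p) (hq : 0 < q) (hpq : 1 < p * q) (hle : p ≤ q)
    (hsub : (603 / 200 : ℝ) * (p * q - 1) ≤ 2 * (p + q + 2))
    (hs : (3036949 / 2000000 : ℝ) ≤ p) : NoSol 5 p q := by
  rcases le_or_gt p (7596489 / 5000000 : ℝ) with h1 | h1
  · exact rowL5_15 hp h1 hq (q_le_of_corner (A0 := (603 / 200 : ℝ)) (p0 := (3036949 / 2000000 : ℝ)) (q0 := (487353 / 125000 : ℝ))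
      (by norm_num) (by norm_num) (by norm_num) (by norm_num) hs hsub) hpq
  · exact tailL5_16 hp hq hpq hle hsub h1.le

theorem tailL5_14 {p q : ℝ} (hp : 0 < p) (hq : 0 < q) (hpq : 1 < p * q) (hle : p ≤ q)
    (hsub : (603 / 200 : ℝ) * (p * q - 1) ≤ 2 * (p + q + 2))
    (hs : (7588213 / 5000000 : ℝ) ≤ p) : NoSol 5 p q := by
  rcases le_or_gt p (3036949 / 2000000 : ℝ) with h1 | h1
  · exact rowL5_14 hp h1 hq (q_le_of_corner (A0 := (603 / 200 : ℝ)) (p0 := (7588213 / 5000000 : ℝ)) (q0 := (39019747 / 10000000 : ℝ))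
      (by norm_num) (by norm_num) (by norm_num) (by norm_num) hs hsub) hpq
  · exact tailL5_15 hp hq hpq hle hsub h1.le

theorem tailL5_13 {p q : ℝ} (hp : 0 < p) (hq : 0 < q) (hpq : 1 < p * q) (hle : p ≤ q)
    (hsub : (603 / 200 : ℝ) * (p * q - 1) ≤ 2 * (p + q + 2))
    (hs : (3033651 / 2000000 : ℝ) ≤ p) : NoSol 5 p q := by
  rcases le_or_gt p (7588213 / 5000000 : ℝ) with h1 | h1
  · exact rowL5_13 hp h1 hq (q_le_of_corner (A0 := (603 / 200 : ℝ)) (p0 := (3033651 / 2000000 : ℝ)) (q0 := (39050753 / 10000000 : ℝ))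
      (by norm_num) (by norm_num) (by norm_num) (by norm_num) hs hsub) hpq
  · exact tailL5_14 hp hq hpq hle hsub h1.le

theorem tailL5_12 {p q : ℝ} (hp : 0 < p) (hq : 0 < q) (hpq : 1 < p * q) (hle : p ≤ q)
    (hsub : (603 / 200 : ℝ) * (p * q - 1) ≤ 2 * (p + q + 2))
    (hs : (15160313 / 10000000 : ℝ) ≤ p) : NoSol 5 p q := by
  rcases le_or_gt p (3033651 / 2000000 : ℝ) with h1 | h1
  · exact rowL5_12 hp h1 hq (q_le_of_corner (A0 := (603 / 200 : ℝ)) (p0 := (15160313 / 10000000 : ℝ)) (q0 := (19540473 / 5000000 : ℝ))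
      (by norm_num) (by norm_num) (by norm_num) (by norm_num) hs hsub) hpq
  · exact tailL5_13 hp hq hpq hle hsub h1.le

theorem tailL5_11 {p q : ℝ} (hp : 0 < p) (hq : 0 < q) (hpq : 1 < p * q) (hle : p ≤ q)
    (hsub : (603 / 200 : ℝ) * (p * q - 1) ≤ 2 * (p + q + 2))
    (hs : (15152609 / 10000000 : ℝ) ≤ p) : NoSol 5 p q := by
  rcases le_or_gt p (15160313 / 10000000 : ℝ) with h1 | h1
  · exact rowL5_11 hp h1 hq (q_le_of_corner (A0 := (603 / 200 : ℝ)) (p0 := (15152609 / 10000000 : ℝ)) (q0 := (39110289 / 10000000 : ℝ))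
      (by norm_num) (by norm_num) (by norm_num) (by norm_num) hs hsub) hpq
  · exact tailL5_12 hp hq hpq hle hsub h1.le

theorem tailL5_10 {p q : ℝ} (hp : 0 < p) (hq : 0 < q) (hpq : 1 < p * q) (hle : p ≤ q)
    (hsub : (603 / 200 : ℝ) * (p * q - 1) ≤ 2 * (p + q + 2))
    (hs : (15144889 / 10000000 : ℝ) ≤ p) : NoSol 5 p q := by
  rcases le_or_gt p (15152609 / 10000000 : ℝ) with h1 | h1
  · exact rowL5_10 hp h1 hq (q_le_of_corner (A0 := (603 / 200 : ℝ)) (p0 := (15144889 / 10000000 : ℝ)) (q0 := (19569873 / 5000000 : ℝ))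
      (by norm_num) (by norm_num) (by norm_num) (by norm_num) hs hsub) hpq
  · exact tailL5_11 hp hq hpq hle hsub h1.le

theorem tailL5_9 {p q : ℝ} (hp : 0 < p) (hq : 0 < q) (hpq : 1 < p * q) (hle : p ≤ q)
    (hsub : (603 / 200 : ℝ) * (p * q - 1) ≤ 2 * (p + q + 2))
    (hs : (15137313 / 10000000 : ℝ) ≤ p) : NoSol 5 p q := by
  rcases le_or_gt p (15144889 / 10000000 : ℝ) with h1 | h1
  · exact rowL5_9 hp h1 hq (q_le_of_corner (A0 := (603 / 200 : ℝ)) (p0 := (15137313 / 10000000 : ℝ)) (q0 := (19584353 / 5000000 : ℝ))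
      (by norm_num) (by norm_num) (by norm_num) (by norm_num) hs hsub) hpq
  · exact tailL5_10 hp hq hpq hle hsub h1.le

theorem tailL5_8 {p q : ℝ} (hp : 0 < p) (hq : 0 < q) (hpq : 1 < p * q) (hle : p ≤ q)
    (hsub : (603 / 200 : ℝ) * (p * q - 1) ≤ 2 * (p + q + 2))
    (hs : (1512993 / 1000000 : ℝ) ≤ p) : NoSol 5 p q := by
  rcases le_or_gt p (15137313 / 10000000 : ℝ) with h1 | h1
  · exact rowL5_8 hp h1 hq (q_le_of_corner (A0 := (603 / 200 : ℝ)) (p0 := (1512993 / 1000000 : ℝ)) (q0 := (19598489 / 5000000 : ℝ))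
      (by norm_num) (by norm_num) (by norm_num) (by norm_num) hs hsub) hpq
  · exact tailL5_9 hp hq hpq hle hsub h1.le

theorem tailL5_7 {p q : ℝ} (hp : 0 < p) (hq : 0 < q) (hpq : 1 < p * q) (hle : p ≤ q)
    (hsub : (603 / 200 : ℝ) * (p * q - 1) ≤ 2 * (p + q + 2))
    (hs : (7561321 / 5000000 : ℝ) ≤ p) : NoSol 5 p q := by
  rcases le_or_gt p (1512993 / 1000000 : ℝ) with h1 | h1
  · exact rowL5_7 hp h1 hq (q_le_of_corner (A0 := (603 / 200 : ℝ)) (p0 := (7561321 / 5000000 : ℝ)) (q0 := (19612467 / 5000000 : ℝ))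
      (by norm_num) (by norm_num) (by norm_num) (by norm_num) hs hsub) hpq
  · exact tailL5_8 hp hq hpq hle hsub h1.le

theorem tailL5_6 {p q : ℝ} (hp : 0 < p) (hq : 0 < q) (hpq : 1 < p * q) (hle : p ≤ q)
    (hsub : (603 / 200 : ℝ) * (p * q - 1) ≤ 2 * (p + q + 2))
    (hs : (604619 / 400000 : ℝ) ≤ p) : NoSol 5 p q := by
  rcases le_or_gt p (7561321 / 5000000 : ℝ) with h1 | h1
  · exact rowL5_6 hp h1 hq (q_le_of_corner (A0 := (603 / 200 : ℝ)) (p0 := (604619 / 400000 : ℝ)) (q0 := (4906559 / 1250000 : ℝ))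
      (by norm_num) (by norm_num) (by norm_num) (by norm_num) hs hsub) hpq
  · exact tailL5_7 hp hq hpq hle hsub h1.le

theorem tailL5_5 {p q : ℝ} (hp : 0 < p) (hq : 0 < q) (hpq : 1 < p * q) (hle : p ≤ q)
    (hsub : (603 / 200 : ℝ) * (p * q - 1) ≤ 2 * (p + q + 2))
    (hs : (15108417 / 10000000 : ℝ) ≤ p) : NoSol 5 p q := by
  rcases le_or_gt p (604619 / 400000 : ℝ) with h1 | h1
  · exact rowL5_5 hp h1 hq (q_le_of_corner (A0 := (603 / 200 : ℝ)) (p0 := (15108417 / 10000000 : ℝ)) (q0 := (19639819 / 5000000 : ℝ))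
      (by norm_num) (by norm_num) (by norm_num) (by norm_num) hs hsub) hpq
  · exact tailL5_6 hp hq hpq hle hsub h1.le

theorem tailL5_4 {p q : ℝ} (hp : 0 < p) (hq : 0 < q) (hpq : 1 < p * q) (hle : p ≤ q)
    (hsub : (603 / 200 : ℝ) * (p * q - 1) ≤ 2 * (p + q + 2))
    (hs : (7550787 / 5000000 : ℝ) ≤ p) : NoSol 5 p q := by
  rcases le_or_gt p (15108417 / 10000000 : ℝ) with h1 | h1
  · exact rowL5_4 hp h1 hq (q_le_of_corner (A0 := (603 / 200 : ℝ)) (p0 := (7550787 / 5000000 : ℝ)) (q0 := (39306019 / 10000000 : ℝ))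
      (by norm_num) (by norm_num) (by norm_num) (by norm_num) hs hsub) hpq
  · exact tailL5_5 hp hq hpq hle hsub h1.le

theorem tailL5_3 {p q : ℝ} (hp : 0 < p) (hq : 0 < q) (hpq : 1 < p * q) (hle : p ≤ q)
    (hsub : (603 / 200 : ℝ) * (p * q - 1) ≤ 2 * (p + q + 2))
    (hs : (1886843 / 1250000 : ℝ) ≤ p) : NoSol 5 p q := by
  rcases le_or_gt p (7550787 / 5000000 : ℝ) with h1 | h1
  · exact rowL5_3 hp h1 hq (q_le_of_corner (A0 := (603 / 200 : ℝ)) (p0 := (1886843 / 1250000 : ℝ)) (q0 := (4916549 / 1250000 : ℝ))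
      (by norm_num) (by norm_num) (by norm_num) (by norm_num) hs hsub) hpq
  · exact tailL5_4 hp hq hpq hle hsub h1.le

theorem tailL5_2 {p q : ℝ} (hp : 0 < p) (hq : 0 < q) (hpq : 1 < p * q) (hle : p ≤ q)
    (hsub : (603 / 200 : ℝ) * (p * q - 1) ≤ 2 * (p + q + 2))
    (hs : (15088029 / 10000000 : ℝ) ≤ p) : NoSol 5 p q := by
  rcases le_or_gt p (1886843 / 1250000 : ℝ) with h1 | h1
  · exact rowL5_2 hp h1 hq (q_le_of_corner (A0 := (603 / 200 : ℝ)) (p0 := (15088029 / 10000000 : ℝ)) (q0 := (9839591 / 2500000 : ℝ))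
      (by norm_num) (by norm_num) (by norm_num) (by norm_num) hs hsub) hpq
  · exact tailL5_3 hp hq hpq hle hsub h1.le

theorem tailL5_1 {p q : ℝ} (hp : 0 < p) (hq : 0 < q) (hpq : 1 < p * q) (hle : p ≤ q)
    (hsub : (603 / 200 : ℝ) * (p * q - 1) ≤ 2 * (p + q + 2))
    (hs : (3016279 / 2000000 : ℝ) ≤ p) : NoSol 5 p q := by
  rcases le_or_gt p (15088029 / 10000000 : ℝ) with h1 | h1
  · exact rowL5_1 hp h1 hq (q_le_of_corner (A0 := (603 / 200 : ℝ)) (p0 := (3016279 / 2000000 : ℝ)) (q0 := (19692031 / 5000000 : ℝ))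
      (by norm_num) (by norm_num) (by norm_num) (by norm_num) hs hsub) hpq
  · exact tailL5_2 hp hq hpq hle hsub h1.le

theorem tailL5_0 {p q : ℝ} (hp : 0 < p) (hq : 0 < q) (hpq : 1 < p * q) (hle : p ≤ q)
    (hsub : (603 / 200 : ℝ) * (p * q - 1) ≤ 2 * (p + q + 2))
    (hs : (603 / 400 : ℝ) ≤ p) : NoSol 5 p q := by
  rcases le_or_gt p (3016279 / 2000000 : ℝ) with h1 | h1
  · exact rowL5_0 hp h1 hq (q_le_of_corner (A0 := (603 / 200 : ℝ)) (p0 := (603 / 400 : ℝ)) (q0 := (39408871 / 10000000 : ℝ))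
      (by norm_num) (by norm_num) (by norm_num) (by norm_num) hs hsub) hpq
  · exact tailL5_1 hp hq hpq hle hsub h1.le

/-- The staircase: `α + β ≥ 3.015`, `max(α, β) ≤ 2`, in dimension 5. -/
theorem tableL5 {p q : ℝ} (hp : 0 < p) (hq : 0 < q) (hpq : 1 < p * q)
    (hsub : (603 / 200 : ℝ) * (p * q - 1) ≤ 2 * (p + q + 2))
    (hα : 2 * (p + 1) ≤ (2 : ℝ) * (p * q - 1)) (hβ : 2 * (q + 1) ≤ (2 : ℝ) * (p * q - 1)) :
    NoSol 5 p q := by
  rcases le_total p q with hle | hle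
  · have hs := p_lower (B := 2) (by norm_num) hq hpq hsub hβ (by norm_num)
    have hs' : (603 / 400 : ℝ) ≤ p := by
      norm_num at hs ⊢
      linarith
    exact tailL5_0 hp hq hpq hle hsub hs'
  · have hpq' : 1 < q * p := by linarith [mul_comm p q]
    have hsub' : (603 / 200 : ℝ) * (q * p - 1) ≤ 2 * (q + p + 2) := by
      rw [mul_comm q p, add_comm q p]
      exact hsub
    have hα' : 2 * (p + 1) ≤ (2 : ℝ) * (q * p - 1) := by
      rw [mul_comm q p]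
      exact hα
    have hs := p_lower (B := 2) (by norm_num) hp hpq' hsub' hα' (by norm_num)
    have hs' : (603 / 400 : ℝ) ≤ q := by
      norm_num at hs ⊢
      linarith
    exact (tailL5_0 hq hp hpq' hle hsub' hs').swap

end Vale.Agent.Lib.P100
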