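import Vale.Agent.Lib.P100.ThinCert
import Vale.Agent.Lib.P100.StripCore

/-!
Nonexistence on `max(α, β) ≤ n - 3` for `α + β - (n - 2) ≥ max(α, β) / (4 min(α, β) + 2)`.
-/

namespace Vale.Agent.Lib.P100

lemma bern7 {b0 b1 b2 b3 b4 b5 b6 b7 X Y : ℝ} (h0 : 0 < b0) (h1 : 0 < b1) (h2 : 0 < b2)
    (h3 : 0 < b3) (h4 : 0 < b4) (h5 : 0 < b5) (h6 : 0 < b6) (h7 : 0 < b7)
    (hX : 0 ≤ X) (hY : 0 ≤ Y) (h : 0 < X + Y) :
    0 < b0 * Y ^ 7 + b1 * X * Y ^ 6 + b2 * X ^ 2 * Y ^ 5 + b3 * X ^ 3 * Y ^ 4 + b4 * X ^ 4 * Y ^ 3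
      + b5 * X ^ 5 * Y ^ 2 + b6 * X ^ 6 * Y + b7 * X ^ 7 := by
  rcases hX.eq_or_lt with hX0 | hX0
  · have hY0 : 0 < Y := by linarith
    subst hX0
    positivity
  · positivity

lemma thW_pos {N x : ℝ} (hN : 5 ≤ N) (hx0 : 0 < x) (hx1 : x ≤ 1) : 0 < thW N x := by
  have h0 : 0 < N := by linarith
  have h1 : x * N * (N + 1) ≤ 1 * N * (N + 1) := by gcongr
  have e : (N ^ 2 + N + 2) * (N - 1) - 1 * N * (N + 1) = N * (N + 1) * (N - 2) + 2 * (N - 1) := by
    ring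
  have h2 : 0 < N * (N + 1) * (N - 2) + 2 * (N - 1) := by
    have h3 : 0 < N - 2 := by linarith
    have h4 : 0 < N - 1 := by linarith
    positivity
  rw [thW]
  linarith

lemma thD_pos {N : ℝ} (hN : 5 ≤ N) : 0 < 4 * N * (N - 2) + 2 * N := by
  have h3 : 0 < N - 2 := by linarith
  have h0 : 0 < N := by linarith
  positivity

lemma thZd_pos {N x : ℝ} (hN : 5 ≤ N) (hx0 : 0 < x) (hx1 : x ≤ 1) : 0 < thZd N x := by
  have h0 : 0 < N := by linarith
  have h3 : 0 < N - 1 := by linarith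
  have hw := thW_pos hN hx0 hx1
  have hD := thD_pos hN
  rw [thZd]
  positivity

/-- The main inequality of the thin region. -/
lemma th_main {N x : ℝ} (hN : 5 ≤ N) (h1 : 1 / N ≤ x) (h2 : x ≤ 1 - 1 / N) :
    psiAn N (2 * thW N x / thZd N x) x ^ 2 * ((N + 1) ^ 3 * N * (N - 1)) <
      psiH N x * psiBn N (2 * thW N x / thZd N x) x ^ 2 := by
  have h0 : 0 < N := by linarith
  have hinv : 0 < 1 / N := by positivity
  have hx0 : 0 < x := by linarith
  have hx1 : x ≤ 1 := by linarith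
  have hzd := thZd_pos hN hx0 hx1
  have hzz : 2 * thW N x / thZd N x * thZd N x = 2 * thW N x := div_mul_cancel₀ _ hzd.ne'
  set z := 2 * thW N x / thZd N x with hz
  have e1 : thZd N x * psiBn N z x = thBs N x := by
    simp only [psiBn, thBs]
    have e : (N ^ 2 + N + 2) * (N - 1) - x * N * ((1 - z) * (N - 1) + 2) =
        thW N x + x * N * (N - 1) * z := by
      rw [thW]
      ring
    rw [e]
    linear_combination (x * N * (N - 1)) * hzz
  have e2 : thZd N x * psiAn N z x = thAs N x := by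
    simp only [psiAn, psiBn, thAs]
    linear_combination (-2 * x * N * (N - 1) ^ 2 - ((N ^ 2 + N + 2) * (N - 1) - 2 * x * N)) * hzz
  have hX : 0 ≤ N * x - 1 := by
    have := mul_le_mul_of_nonneg_left h1 h0.le
    rw [mul_one_div_cancel h0.ne'] at this
    linarith
  have hY : 0 ≤ N * (1 - x) - 1 := by
    have h3 : 1 / N ≤ 1 - x := by linarith
    have := mul_le_mul_of_nonneg_left h3 h0.le
    rw [mul_one_div_cancel h0.ne'] at this
    linarith
  have hc := th_cert N x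
  have hpos := bern7 (thB0_pos hN) (thB1_pos hN) (thB2_pos hN) (thB3_pos hN) (thB4_pos hN)
    (thB5_pos hN) (thB6_pos hN) (thB7_pos hN) hX hY (by nlinarith)
  have hd : 0 < (N * (N - 2)) ^ 7 := by
    have : 0 < N - 2 := by linarith
    positivity
  have h3 : 0 < psiH N x * thBs N x ^ 2 - thAs N x ^ 2 * ((N + 1) ^ 3 * N * (N - 1)) := by
    have : 0 < (N * (N - 2)) ^ 7 *
        (psiH N x * thBs N x ^ 2 - thAs N x ^ 2 * ((N + 1) ^ 3 * N * (N - 1))) := by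
      rw [hc]
      exact hpos
    exact (mul_pos_iff_of_pos_left hd).1 this
  rw [← e1, ← e2] at h3
  have h4 : 0 < thZd N x ^ 2 *
      (psiH N x * psiBn N z x ^ 2 - psiAn N z x ^ 2 * ((N + 1) ^ 3 * N * (N - 1))) := by
    calc 0 < _ := h3
      _ = _ := by ring
  have h5 := (mul_pos_iff_of_pos_left (by positivity)).1 h4
  linarith

/-- The estimate of `β / (4 α + 2)` by its value on the critical hyperbola. -/
lemma thin_A {N p q S : ℝ} (hN : 5 ≤ N) (hq : 0 < q) (hW : 0 < (N - 2) * q - 2)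
    (hS0 : 0 ≤ S) (hS : S = 2 * (p + q + 2) - (N - 2) * (p * q - 1)) :
    (N - 2) * ((N - 2) * q - 2) * (p * (q + 4) + 3) ≤
      (q + 1) * (4 * N * (N - 2) + 2 * N + 2 * ((N - 2) * q - 2)) := by
  have hn2 : 0 < N - 2 := by linarith
  have h1 : (N - 2) * ((N - 2) * q - 2) * p ≤ N ^ 2 + 2 * ((N - 2) * q - 2) := by
    have e : N ^ 2 + 2 * ((N - 2) * q - 2) - (N - 2) * ((N - 2) * q - 2) * p = (N - 2) * S := by
      rw [hS]
      ring
    have : 0 ≤ (N - 2) * S := by positivity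
    linarith
  have h2 := mul_le_mul_of_nonneg_right h1 (by positivity : 0 ≤ q + 4)
  have e : (q + 1) * (4 * N * (N - 2) + 2 * N + 2 * ((N - 2) * q - 2)) =
      (N ^ 2 + 2 * ((N - 2) * q - 2)) * (q + 4) + 3 * (N - 2) * ((N - 2) * q - 2) := by
    ring
  rw [e]
  linarith

/-- The level inequality of the far case. -/
lemma thin_level {N p q S z : ℝ} (hN : 5 ≤ N) (hp : 0 < p) (hq : 0 < q) (hd : 0 < p * q - 1)
    (hW : 0 < (N - 2) * q - 2) (hS0 : 0 ≤ S) (hS : S = 2 * (p + q + 2) - (N - 2) * (p * q - 1))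
    (hH : (q + 1) * (p * q - 1) ≤ (p * (q + 4) + 3) * S)
    (hz : z * (4 * N * (N - 2) + 2 * N + 3 * ((N - 2) * q - 2)) = 2 * ((N - 2) * q - 2)) :
    (N - 2) * (p * q - 1) ≤ (2 - z) * (p + q + 2) := by
  have hD := thD_pos hN
  have hA := thin_A hN hq hW hS0 hS
  set W := (N - 2) * q - 2 with hWd
  set D := 4 * N * (N - 2) + 2 * N with hDd
  have hr : 0 < p * (q + 4) + 3 := by positivity
  have h1 : (N - 2) * W * (p * q - 1) ≤ S * (D + 2 * W) := by
    have h2 := mul_le_mul_of_nonneg_right hA hd.le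
    have h3 := mul_le_mul_of_nonneg_right hH (by positivity : 0 ≤ D + 2 * W)
    have h4 : (p * (q + 4) + 3) * ((N - 2) * W * (p * q - 1)) ≤
        (p * (q + 4) + 3) * (S * (D + 2 * W)) := by
      calc _ = (N - 2) * W * (p * (q + 4) + 3) * (p * q - 1) := by ring
        _ ≤ _ := h2
        _ = (q + 1) * (p * q - 1) * (D + 2 * W) := by ring
        _ ≤ _ := h3
        _ = _ := by ring
    exact le_of_mul_le_mul_left h4 hr
  have h5 : 0 < D + 3 * W := by positivity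
  have e : (2 - z) * (D + 3 * W) = 2 * (D + 2 * W) := by
    linear_combination -hz
  have h6 : (N - 2) * (p * q - 1) * (D + 3 * W) ≤ (2 - z) * (p + q + 2) * (D + 3 * W) := by
    calc _ = (N - 2) * W * (p * q - 1) + (N - 2) * (p * q - 1) * (D + 2 * W) := by ring
      _ ≤ S * (D + 2 * W) + (N - 2) * (p * q - 1) * (D + 2 * W) := by linarith
      _ = (p + q + 2) * (2 * (D + 2 * W)) := by rw [hS]; ring
      _ = _ := by rw [← e]; ring
  exact le_of_mul_le_mul_right h6 h5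

/-- The far case. -/
lemma thin_far {n : ℕ} (hn5 : 5 ≤ n) {p q S : ℝ} (hp : 0 < p) (hq : 0 < q) (hpq : 1 < p * q)
    (hsub : ((n : ℝ) - 2) * (p * q - 1) < 2 * (p + q + 2)) (hP2 : 2 < ((n : ℝ) - 2) * p)
    (hS : S = 2 * (p + q + 2) - ((n : ℝ) - 2) * (p * q - 1))
    (hH : (q + 1) * (p * q - 1) ≤ (p * (q + 4) + 3) * S)
    (hq1 : q ≤ (n : ℝ) - 1)
    (hcase : (n : ℝ) + 3 + 2 / ((n : ℝ) - 1) < ((n : ℝ) - 2) * q) : NoSol n p q := by
  have hN : (5 : ℝ) ≤ n := by exact_mod_cast hn5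
  have h0 : (0 : ℝ) < n := by linarith
  have hn2 : (0 : ℝ) < (n : ℝ) - 2 := by linarith
  have hn3 : (0 : ℝ) < (n : ℝ) - 1 := by linarith
  have h2N0 : 0 < 2 / ((n : ℝ) - 1) := by positivity
  have h2N : 2 / ((n : ℝ) - 1) ≤ 1 := by
    rw [div_le_one hn3]
    linarith
  have hden0 : 0 < ((n : ℝ) - 2) * q - 1 + 2 / ((n : ℝ) - 1) := by linarith
  have hs0 : 0 < (n : ℝ) + 1 + 2 / (n : ℝ) := by positivity
  have hxupper := far_x_upper hN hcase
  have hxlower : 1 / (n : ℝ) ≤ ((n : ℝ) + 1 + 2 / (n : ℝ)) / (((n : ℝ) - 2) * q - 1 + 2 / ((n : ℝ) - 1)) := by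
    rw [div_le_div_iff₀ h0 hden0, one_mul]
    have h1 : ((n : ℝ) - 2) * q ≤ ((n : ℝ) - 2) * ((n : ℝ) - 1) := by gcongr
    have e : ((n : ℝ) + 1 + 2 / (n : ℝ)) * (n : ℝ) = (n : ℝ) ^ 2 + (n : ℝ) + 2 := by
      field_simp
    rw [e]
    nlinarith
  obtain ⟨x, hxd⟩ : ∃ x, x = ((n : ℝ) + 1 + 2 / (n : ℝ)) / (((n : ℝ) - 2) * q - 1 + 2 / ((n : ℝ) - 1)) :=
    ⟨_, rfl⟩
  rw [← hxd] at hxupper hxlower
  have hinv : 0 < 1 / (n : ℝ) := by positivity
  have hx0 : 0 < x := by linarith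
  have hx1 : x ≤ 1 := by linarith
  have hQx : ((n : ℝ) - 2) * q = ((n : ℝ) + 1 + 2 / (n : ℝ)) / x + 1 - 2 / ((n : ℝ) - 1) := by
    have : ((n : ℝ) + 1 + 2 / (n : ℝ)) / x = ((n : ℝ) - 2) * q - 1 + 2 / ((n : ℝ) - 1) := by
      rw [hxd]
      field_simp
    rw [this]
    ring
  have hmain := th_main hN hxlower hxupper
  have hzd := thZd_pos hN hx0 hx1
  have hwd := thW_pos hN hx0 hx1
  have hzz : 2 * thW (n : ℝ) x / thZd (n : ℝ) x * thZd (n : ℝ) x = 2 * thW (n : ℝ) x :=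
    div_mul_cancel₀ _ hzd.ne'
  have hzpos : 0 < 2 * thW (n : ℝ) x / thZd (n : ℝ) x := by positivity
  have hzlt : 2 * thW (n : ℝ) x / thZd (n : ℝ) x < 1 := by
    rw [div_lt_one hzd, thZd]
    have hD := thD_pos hN
    have : 0 < (4 * (n : ℝ) * ((n : ℝ) - 2) + 2 * (n : ℝ)) * x * (n : ℝ) * ((n : ℝ) - 1) := by
      positivity
    linarith
  set z := 2 * thW (n : ℝ) x / thZd (n : ℝ) x with hzdef
  -- relation between `W` and `x`
  have hWx : (((n : ℝ) - 2) * q - 2) * ((n : ℝ) * ((n : ℝ) - 1) * x) = thW (n : ℝ) x := by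
    rw [thW, hQx]
    field_simp
    ring
  have hW : 0 < ((n : ℝ) - 2) * q - 2 := by
    have : 2 < ((n : ℝ) - 2) * q := by linarith
    linarith
  have hmul : 0 < (n : ℝ) * ((n : ℝ) - 1) * x := by positivity
  have hzW : z * (4 * (n : ℝ) * ((n : ℝ) - 2) + 2 * (n : ℝ) + 3 * (((n : ℝ) - 2) * q - 2)) =
      2 * (((n : ℝ) - 2) * q - 2) := by
    apply mul_right_cancel₀ hmul.ne'
    have e : thZd (n : ℝ) x = (4 * (n : ℝ) * ((n : ℝ) - 2) + 2 * (n : ℝ) + 3 * (((n : ℝ) - 2) * q - 2)) *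
        ((n : ℝ) * ((n : ℝ) - 1) * x) := by
      rw [thZd, ← hWx]
      ring
    calc _ = z * ((4 * (n : ℝ) * ((n : ℝ) - 2) + 2 * (n : ℝ) + 3 * (((n : ℝ) - 2) * q - 2)) *
          ((n : ℝ) * ((n : ℝ) - 1) * x)) := by ring
      _ = z * thZd (n : ℝ) x := by rw [e]
      _ = 2 * thW (n : ℝ) x := hzz
      _ = _ := by rw [← hWx]; ring
  have hd : 0 < p * q - 1 := by linarith
  have hS0 : 0 ≤ S := by
    rw [hS]
    linarith
  have hL := thin_level hN hp hq hd hW hS0 hS hH hzW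
  have hC : (((n : ℝ) - 2) * p - (2 - z)) * (((n : ℝ) - 2) * q - (2 - z)) ≤ ((n : ℝ) - z) ^ 2 := by
    have e : ((n : ℝ) - z) ^ 2 - (((n : ℝ) - 2) * p - (2 - z)) * (((n : ℝ) - 2) * q - (2 - z)) =
        ((n : ℝ) - 2) * ((2 - z) * (p + q + 2) - ((n : ℝ) - 2) * (p * q - 1)) := by ring
    have h1 : 0 ≤ ((n : ℝ) - 2) * ((2 - z) * (p + q + 2) - ((n : ℝ) - 2) * (p * q - 1)) :=
      mul_nonneg hn2.le (by linarith)
    linarith
  refine noSol_x hn5 hp hq hpq hsub hxlower hxupper hQx ?_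
  have hH' : Hf (n : ℝ) x = psiH (n : ℝ) x / (((n : ℝ) + 1) ^ 3 * (n : ℝ) * ((n : ℝ) - 1)) := by
    simp only [Hf, Hf.psiHr, psiH]
  rw [hH']
  exact far_final hN hzpos hzlt hx0 hx1 hP2 hC hQx hmain

/-- The corner inequality of the near-diagonal region. -/
lemma T_ineq2 {N z : ℝ} (hN : 5 ≤ N) (hz : 1 ≤ 2 * N * z) :
    N * (N + 1) / (N - 1) * ((N - z) ^ 2 / ((N ^ 2 + 1) / (N - 1) + z) + (1 - z)) ≤
      N * (N + 2) * (1 - 2 * (1 / (4 * N)) / (N + 1)) := by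
  have h0 : 0 < N := by linarith
  have hn1 : 0 < N + 1 := by linarith
  have hn3 : 0 < N - 1 := by linarith
  have hz0 : 0 < z := by
    by_contra h
    push Not at h
    nlinarith
  have hb : 0 < N ^ 2 + 1 + z * (N - 1) := by positivity
  have e1 : N * (N + 1) / (N - 1) * ((N - z) ^ 2 / ((N ^ 2 + 1) / (N - 1) + z) + (1 - z)) =
      N * (N + 1) * (N ^ 3 + 1 - z * (3 * N ^ 2 - 3 * N + 2)) / ((N - 1) * (N ^ 2 + 1 + z * (N - 1))) := by
    field_simp
    ring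
  have e2 : N * (N + 2) * (1 - 2 * (1 / (4 * N)) / (N + 1)) =
      (N + 2) * (2 * N ^ 2 + 2 * N - 1) / (2 * (N + 1)) := by
    field_simp
    ring
  rw [e1, e2, div_le_div_iff₀ (by positivity) (by positivity)]
  -- linear in `z`
  have hT1 : 0 ≤ (N + 2) * (2 * N ^ 2 + 2 * N - 1) * (N - 1) ^ 2 +
      2 * N * (N + 1) ^ 2 * (3 * N ^ 2 - 3 * N + 2) := by
    have h1 : 0 < 3 * N ^ 2 - 3 * N + 2 := by nlinarith
    have h2 : 0 < 2 * N ^ 2 + 2 * N - 1 := by nlinarith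
    positivity
  have key : 0 ≤ (-3 * N ^ 4 - 3 * N ^ 3 - 5 * N ^ 2 - 7 * N + 2) +
      z * ((N + 2) * (2 * N ^ 2 + 2 * N - 1) * (N - 1) ^ 2 +
        2 * N * (N + 1) ^ 2 * (3 * N ^ 2 - 3 * N + 2)) := by
    have h5 := mul_le_mul_of_nonneg_right hz hT1
    have h6 : 0 ≤ 2 * N * (-3 * N ^ 4 - 3 * N ^ 3 - 5 * N ^ 2 - 7 * N + 2) +
        ((N + 2) * (2 * N ^ 2 + 2 * N - 1) * (N - 1) ^ 2 +
          2 * N * (N + 1) ^ 2 * (3 * N ^ 2 - 3 * N + 2)) := by
      obtain ⟨a, rfl⟩ : ∃ a, N = a + 5 := ⟨N - 5, by ring⟩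
      have ha : 0 ≤ a := by linarith
      ring_nf
      positivity
    have h4 : 0 ≤ (2 * N) * ((-3 * N ^ 4 - 3 * N ^ 3 - 5 * N ^ 2 - 7 * N + 2) +
        z * ((N + 2) * (2 * N ^ 2 + 2 * N - 1) * (N - 1) ^ 2 +
          2 * N * (N + 1) ^ 2 * (3 * N ^ 2 - 3 * N + 2))) := by
      nlinarith
    exact nonneg_of_mul_nonneg_right h4 (by positivity)
  have e3 : (N + 2) * (2 * N ^ 2 + 2 * N - 1) * ((N - 1) * (N ^ 2 + 1 + z * (N - 1))) -
      N * (N + 1) * (N ^ 3 + 1 - z * (3 * N ^ 2 - 3 * N + 2)) * (2 * (N + 1)) =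
      (-3 * N ^ 4 - 3 * N ^ 3 - 5 * N ^ 2 - 7 * N + 2) +
      z * ((N + 2) * (2 * N ^ 2 + 2 * N - 1) * (N - 1) ^ 2 +
        2 * N * (N + 1) ^ 2 * (3 * N ^ 2 - 3 * N + 2)) := by ring
  linarith

/-- The definiteness condition of the near-diagonal region. -/
lemma T_PD2 {N : ℝ} (hN : 5 ≤ N) : (1 - 1 / (4 * N)) ^ 2 < Ap N (1 / (4 * N)) := by
  have h0 : 0 < N := by linarith
  have hn1 : 0 < N + 1 := by linarith
  have hn2 : 0 < N - 2 := by linarith
  have e : Ap N (1 / (4 * N)) - (1 - 1 / (4 * N)) ^ 2 =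
      ((N - 2) * (N + 1) * (8 * N ^ 2 - N - 1) - 2 * (N - 1) ^ 2) /
        (16 * N ^ 2 * (N - 2) * (N + 1) ^ 2) := by
    simp only [Ap]
    field_simp
    ring
  rw [← sub_pos, e]
  apply div_pos _ (by positivity)
  obtain ⟨a, rfl⟩ : ∃ a, N = a + 5 := ⟨N - 5, by ring⟩
  have ha : 0 ≤ a := by linarith
  ring_nf
  positivity

/-- Nonexistence in the near-diagonal region. -/
theorem noSol_T2 {n : ℕ} (hn : 5 ≤ n) {p q : ℝ} (hp : 0 < p) (hq : 0 < q) (hpq : 1 < p * q)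
    (hsub : ((n : ℝ) - 2) * (p * q - 1) < 2 * (p + q + 2))
    (hQ : 1 < ((n : ℝ) - 2) * q)
    (hP : (((n : ℝ) - 2) * p - 1) ^ 2 * (((n : ℝ) - 2) * q - 1) ^ 2 ≤
      ((n : ℝ) * ((n : ℝ) + 2)) ^ 2 * (1 - 2 * (1 / (4 * (n : ℝ))) / ((n : ℝ) + 1))) : NoSol n p q := by
  have hN : (5 : ℝ) ≤ n := by exact_mod_cast hn
  set N : ℝ := (n : ℝ) with hNd
  have h0 : 0 < N := by linarith
  have hn1 : 0 < N + 1 := by linarith
  have hn3 : 0 < N - 1 := by linarith
  have hQ1 : 0 < (N - 2) * q - 1 := by linarith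
  have hinv : 1 / (4 * N) ≤ 1 := by
    rw [div_le_one (by positivity)]
    linarith
  refine noSol_G (τ := N * (N + 2) / ((N - 2) * q - 1) ^ 2) (D := 0) (v := 1 / (4 * N))
    hn hp hq hpq hsub (by positivity) le_rfl (by positivity) hinv
    (Ap_pos hN (by positivity) hinv) ?_ ?_ ?_
  · have e : N * (N + 2) / ((N - 2) * q - 1) ^ 2 * ((N - 2) * q - 1 - 2 * 0 / (N - 1)) ^ 2 =
        N * (N + 2) := by
      field_simp
      ring
    exact e.le
  · have e : N * (N + 2) * (N * (N + 2) / ((N - 2) * q - 1) ^ 2) * (1 - 2 * (1 / (4 * N)) / (N + 1)) *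
        (1 + 2 * 0 / (N - 1)) =
        (N * (N + 2)) ^ 2 * (1 - 2 * (1 / (4 * N)) / (N + 1)) / ((N - 2) * q - 1) ^ 2 := by
      field_simp
      ring
    rw [e, le_div_iff₀ (by positivity)]
    exact hP
  · have e : Zf N 0 = 0 := by simp [Zf]
    rw [e, mul_zero, sub_zero, mul_one]
    exact T_PD2 hN

/-- Near-diagonal case. -/
lemma thin_near {n : ℕ} (hn5 : 5 ≤ n) {p q z : ℝ} (hp : 0 < p) (hq : 0 < q) (hpq : 1 < p * q)
    (hle : p ≤ q) (hsub : ((n : ℝ) - 2) * (p * q - 1) < 2 * (p + q + 2))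
    (hz0 : 0 < z) (hz1 : z < 1) (hzN : 1 ≤ 2 * (n : ℝ) * z)
    (hP2 : 2 < ((n : ℝ) - 2) * p) (hC : (((n : ℝ) - 2) * p - (2 - z)) * (((n : ℝ) - 2) * q - (2 - z)) ≤
      ((n : ℝ) - z) ^ 2)
    (hcase : ((n : ℝ) - 2) * q ≤ (n : ℝ) + 3 + 2 / ((n : ℝ) - 1)) : NoSol n p q := by
  have hN : (5 : ℝ) ≤ n := by exact_mod_cast hn5
  set N : ℝ := (n : ℝ) with hNd
  have h0 : 0 < N := by linarith
  have hn1 : 0 < N + 1 := by linarith
  have hn2 : 0 < N - 2 := by linarith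
  have hn3 : 0 < N - 1 := by linarith
  set P := (N - 2) * p with hPd
  set Q := (N - 2) * q with hQd
  have hPQ : P ≤ Q := by
    rw [hPd, hQd]
    gcongr
  have hQ2 : 2 < Q := by linarith
  set a := P - (2 - z) with ha
  set b := Q - (2 - z) with hb
  have ha0 : 0 < a := by rw [ha]; linarith
  have hab : a ≤ b := by rw [ha, hb]; linarith
  have hb0 : 0 < b := by linarith
  set b1 := (N ^ 2 + 1) / (N - 1) + z with hb1
  have hb10 : 0 < b1 := by positivity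
  have hbb1 : b ≤ b1 := by
    have e : (N ^ 2 + 1) / (N - 1) = N + 1 + 2 / (N - 1) := by
      field_simp
      ring
    rw [hb1, e, hb]
    linarith
  have hs : (a + b) * b1 ≤ b1 ^ 2 + (N - z) ^ 2 := by
    have h1 : 0 ≤ (b1 - a) * (b1 - b) := mul_nonneg (by linarith) (by linarith)
    nlinarith
  have hs2 : a + b ≤ b1 + (N - z) ^ 2 / b1 := by
    have e : b1 + (N - z) ^ 2 / b1 = (b1 ^ 2 + (N - z) ^ 2) / b1 := by
      field_simp
    rw [e, le_div_iff₀ hb10]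
    exact hs
  have h1z : 0 < 1 - z := by linarith
  have hT : (P - 1) * (Q - 1) ≤ (b1 + (1 - z)) * ((N - z) ^ 2 / b1 + (1 - z)) := by
    have e1 : (P - 1) * (Q - 1) = a * b + (1 - z) * (a + b) + (1 - z) ^ 2 := by
      rw [ha, hb]
      ring
    have e2 : (b1 + (1 - z)) * ((N - z) ^ 2 / b1 + (1 - z)) =
        (N - z) ^ 2 + (1 - z) * (b1 + (N - z) ^ 2 / b1) + (1 - z) ^ 2 := by
      field_simp
      ring
    rw [e1, e2]
    have h2 := mul_le_mul_of_nonneg_left hs2 h1z.le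
    linarith
  have e3 : b1 + (1 - z) = N * (N + 1) / (N - 1) := by
    rw [hb1]
    field_simp
    ring
  rw [e3] at hT
  have hT2 := hT.trans (T_ineq2 hN hzN)
  set ω := 1 - 2 * (1 / (4 * N)) / (N + 1) with hω
  have hω0 : 0 ≤ ω := by
    rw [hω]
    have : 2 * (1 / (4 * N)) / (N + 1) ≤ 1 := by
      rw [div_le_one hn1]
      have : 1 / (4 * N) ≤ 1 := by
        rw [div_le_one (by positivity)]
        linarith
      linarith
    linarith
  have hω1 : ω ≤ 1 := by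
    rw [hω]
    have : 0 ≤ 2 * (1 / (4 * N)) / (N + 1) := by positivity
    linarith
  have hprod : 0 ≤ (P - 1) * (Q - 1) := mul_nonneg (by linarith) (by linarith)
  refine noSol_T2 hn5 hp hq hpq hsub (by linarith) ?_
  calc (P - 1) ^ 2 * (Q - 1) ^ 2 = ((P - 1) * (Q - 1)) ^ 2 := by ring
    _ ≤ (N * (N + 2) * ω) ^ 2 := by gcongr
    _ = (N * (N + 2)) ^ 2 * (ω * ω) := by ring
    _ ≤ (N * (N + 2)) ^ 2 * (ω * 1) := by gcongr
    _ = (N * (N + 2)) ^ 2 * ω := by ring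

/-- The estimate `E ≥ (N-2)/(4(N-1))` in polynomial form. -/
lemma thin_C {N p q S : ℝ} (hN : 5 ≤ N) (hp : 0 < p) (hq : 0 < q) (hle : p ≤ q)
    (hW : 0 < (N - 2) * q - 2) (hS0 : 0 ≤ S) (hS : S = 2 * (p + q + 2) - (N - 2) * (p * q - 1)) :
    (N - 2) * (p * (q + 4) + 3) ≤ 4 * (N - 1) * (q + 1) := by
  have hn2 : 0 < N - 2 := by linarith
  have h0 : 0 < N := by linarith
  rcases le_total N ((N - 2) * q - 2) with hc | hc
  · have hA := thin_A hN hq hW hS0 hS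
    set W := (N - 2) * q - 2 with hWd
    have h1 : W * ((N - 2) * (p * (q + 4) + 3)) ≤ W * (4 * (N - 1) * (q + 1)) := by
      calc _ = (N - 2) * W * (p * (q + 4) + 3) := by ring
        _ ≤ _ := hA
        _ ≤ _ := by
          have h3 : (q + 1) * (4 * N * (N - 2) + 2 * N + 2 * W) ≤ (q + 1) * (W * (4 * N - 6 + 2)) := by
            apply mul_le_mul_of_nonneg_left _ (by positivity)
            have : N * (4 * N - 6) ≤ W * (4 * N - 6) := by
              apply mul_le_mul_of_nonneg_right hc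
              linarith
            nlinarith
          calc _ ≤ _ := h3
            _ = _ := by ring
    exact le_of_mul_le_mul_left h1 hW
  · have h1 : p * (q + 4) + 3 ≤ q * (q + 4) + 3 := by gcongr
    have h2 : (N - 2) * (q + 3) ≤ 4 * (N - 1) := by nlinarith
    have e : q * (q + 4) + 3 = (q + 1) * (q + 3) := by ring
    rw [e] at h1
    calc _ ≤ (N - 2) * ((q + 1) * (q + 3)) := by gcongr
      _ = (q + 1) * ((N - 2) * (q + 3)) := by ring
      _ ≤ (q + 1) * (4 * (N - 1)) := by gcongr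
      _ = _ := by ring

/-- The core theorem for `p ≤ q`. -/
theorem thin_core {n : ℕ} (hn5 : 5 ≤ n) {p q : ℝ} (hp : 0 < p) (hq : 0 < q) (hpq : 1 < p * q)
    (hle : p ≤ q) (hb1 : 2 * (q + 1) ≤ ((n : ℝ) - 3) * (p * q - 1))
    (hsub : ((n : ℝ) - 2) * (p * q - 1) < 2 * (p + q + 2))
    (hH : (q + 1) * (p * q - 1) ≤
      (p * (q + 4) + 3) * (2 * (p + q + 2) - ((n : ℝ) - 2) * (p * q - 1))) : NoSol n p q := by
  have hN : (5 : ℝ) ≤ n := by exact_mod_cast hn5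
  set N : ℝ := (n : ℝ) with hNd
  have h0 : 0 < N := by linarith
  have hn2 : 0 < N - 2 := by linarith
  have hn3 : 0 < N - 3 := by linarith
  have hd : 0 < p * q - 1 := by linarith
  have hS0 : 0 ≤ 2 * (p + q + 2) - (N - 2) * (p * q - 1) := by linarith
  have hqp : 2 < (N - 3) * p := by
    have h1 : 2 * q < (N - 3) * p * q := by nlinarith
    exact lt_of_mul_lt_mul_right h1 hq.le
  have hpq' : 2 < (N - 3) * q := by
    have h1 : 2 * p < (N - 3) * q * p := by nlinarith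
    exact lt_of_mul_lt_mul_right h1 hp.le
  have hP2 : 2 < (N - 2) * p := by nlinarith
  have hQ2 : 2 < (N - 2) * q := by nlinarith
  have hq1 : q ≤ N - 1 := by
    have h1 : (p * q - 1) ≤ 2 * (p + 1) := by nlinarith
    have h2 : q * (p * q - 1) ≤ (N - 1) * (p * q - 1) := by
      have h3 := mul_le_mul_of_nonneg_right h1 hq.le
      nlinarith
    exact le_of_mul_le_mul_right h2 hd
  by_cases hcase : (N - 2) * q ≤ N + 3 + 2 / (N - 1)
  · -- near-diagonal case, with `z = 2 / (4 N - 3)`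
    have hC0 := thin_C hN hp hq hle (by linarith) hS0 rfl
    have hr : 0 < p * (q + 4) + 3 := by positivity
    have hE0 : (N - 2) * (p * q - 1) ≤ 4 * (N - 1) * (2 * (p + q + 2) - (N - 2) * (p * q - 1)) := by
      have h2 := mul_le_mul_of_nonneg_right hC0 hd.le
      have h4 : (p * (q + 4) + 3) * ((N - 2) * (p * q - 1)) ≤
          (p * (q + 4) + 3) * (4 * (N - 1) * (2 * (p + q + 2) - (N - 2) * (p * q - 1))) := by
        calc _ = (N - 2) * (p * (q + 4) + 3) * (p * q - 1) := by ring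
          _ ≤ _ := h2
          _ = 4 * (N - 1) * ((q + 1) * (p * q - 1)) := by ring
          _ ≤ 4 * (N - 1) * ((p * (q + 4) + 3) * (2 * (p + q + 2) - (N - 2) * (p * q - 1))) := by
            gcongr
            linarith
          _ = _ := by ring
      exact le_of_mul_le_mul_left h4 hr
    have h4N : 0 < 4 * N - 3 := by linarith
    have hz0 : 0 < 2 / (4 * N - 3) := by positivity
    have hz1 : 2 / (4 * N - 3) < 1 := by
      rw [div_lt_one h4N]
      linarith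
    have hzN : 1 ≤ 2 * N * (2 / (4 * N - 3)) := by
      rw [← mul_div_assoc, le_div_iff₀ h4N]
      linarith
    have hL : (N - 2) * (p * q - 1) ≤ (2 - 2 / (4 * N - 3)) * (p + q + 2) := by
      have e : (2 - 2 / (4 * N - 3)) = 8 * (N - 1) / (4 * N - 3) := by
        field_simp
        ring
      rw [e, div_mul_eq_mul_div, le_div_iff₀ h4N]
      nlinarith
    have hC : ((N - 2) * p - (2 - 2 / (4 * N - 3))) * ((N - 2) * q - (2 - 2 / (4 * N - 3))) ≤
        (N - 2 / (4 * N - 3)) ^ 2 := by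
      have e : (N - 2 / (4 * N - 3)) ^ 2 -
          ((N - 2) * p - (2 - 2 / (4 * N - 3))) * ((N - 2) * q - (2 - 2 / (4 * N - 3))) =
          (N - 2) * ((2 - 2 / (4 * N - 3)) * (p + q + 2) - (N - 2) * (p * q - 1)) := by ring
      have h1 : 0 ≤ (N - 2) * ((2 - 2 / (4 * N - 3)) * (p + q + 2) - (N - 2) * (p * q - 1)) :=
        mul_nonneg hn2.le (by linarith)
      linarith
    exact thin_near hn5 hp hq hpq hle hsub hz0 hz1 hzN hP2 hC hcase
  · exact thin_far hn5 hp hq hpq hsub hP2 rfl hH hq1 (not_le.1 hcase)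

end Vale.Agent.Lib.P100
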