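import Vale.Agent.Lib.P100.Thin

/-!
The thin region in terms of `α`, `β`.
-/

namespace Vale.Agent.Lib.P100

/-- The statement for `p ≤ q`, in terms of `α`, `β`. -/
theorem thin_ordered {n : ℕ} (hn : 5 ≤ n) {p q : ℝ} (hp : 0 < p) (hq : 0 < q) (hpq : 1 < p * q)
    (hle : p ≤ q) (hβ : 2 * (q + 1) / (p * q - 1) ≤ (n : ℝ) - 3)
    (hE : 2 * (q + 1) / (p * q - 1) ≤ (4 * (2 * (p + 1) / (p * q - 1)) + 2) *
      (2 * (p + 1) / (p * q - 1) + 2 * (q + 1) / (p * q - 1) - ((n : ℝ) - 2))) : NoSol n p q := by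
  have hd : 0 < p * q - 1 := by linarith
  have hne : p * q - 1 ≠ 0 := hd.ne'
  have hb1 : 2 * (q + 1) ≤ ((n : ℝ) - 3) * (p * q - 1) := by
    rwa [div_le_iff₀ hd] at hβ
  have e1 : 2 * (p + 1) / (p * q - 1) + 2 * (q + 1) / (p * q - 1) - ((n : ℝ) - 2) =
      (2 * (p + q + 2) - ((n : ℝ) - 2) * (p * q - 1)) / (p * q - 1) := by
    field_simp
    ring
  rw [e1] at hE
  set S := 2 * (p + q + 2) - ((n : ℝ) - 2) * (p * q - 1) with hS
  have e2 : 4 * (2 * (p + 1) / (p * q - 1)) + 2 = 2 * (p * (q + 4) + 3) / (p * q - 1) := by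
    field_simp
    ring
  rw [e2] at hE
  have e3 : 2 * (p * (q + 4) + 3) / (p * q - 1) * (S / (p * q - 1)) =
      2 * ((p * (q + 4) + 3) * S) / (p * q - 1) ^ 2 := by
    field_simp
  rw [e3, div_le_div_iff₀ hd (by positivity)] at hE
  have hH : (q + 1) * (p * q - 1) ≤ (p * (q + 4) + 3) * S := by
    have h1 : 2 * (p * q - 1) * ((q + 1) * (p * q - 1)) ≤
        2 * (p * q - 1) * ((p * (q + 4) + 3) * S) := by
      calc _ = 2 * (q + 1) * (p * q - 1) ^ 2 := by ring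
        _ ≤ _ := hE
        _ = _ := by ring
    exact le_of_mul_le_mul_left h1 (by positivity)
  have hS0 : 0 < S := by
    have h1 : 0 < (q + 1) * (p * q - 1) := by positivity
    have h2 : 0 < (p * (q + 4) + 3) * S := by linarith
    exact (mul_pos_iff_of_pos_left (by positivity)).1 h2
  have hsub : ((n : ℝ) - 2) * (p * q - 1) < 2 * (p + q + 2) := by
    rw [hS] at hS0
    linarith
  exact thin_core hn hp hq hpq hle hb1 hsub hH

/-- The thin region. -/
theorem thin_all {n : ℕ} (hn : 5 ≤ n) {p q : ℝ} (hp : 0 < p) (hq : 0 < q) (hpq : 1 < p * q)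
    (hα : 2 * (p + 1) / (p * q - 1) ≤ (n : ℝ) - 3)
    (hβ : 2 * (q + 1) / (p * q - 1) ≤ (n : ℝ) - 3)
    (hE : max (2 * (p + 1) / (p * q - 1)) (2 * (q + 1) / (p * q - 1)) ≤
      (4 * min (2 * (p + 1) / (p * q - 1)) (2 * (q + 1) / (p * q - 1)) + 2) *
        (2 * (p + 1) / (p * q - 1) + 2 * (q + 1) / (p * q - 1) - ((n : ℝ) - 2))) : NoSol n p q := by
  have hd : 0 < p * q - 1 := by linarith
  rcases le_total p q with hle | hle
  · have h1 : 2 * (p + 1) / (p * q - 1) ≤ 2 * (q + 1) / (p * q - 1) := by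
      gcongr
    rw [max_eq_right h1, min_eq_left h1] at hE
    exact thin_ordered hn hp hq hpq hle hβ hE
  · have h1 : 2 * (q + 1) / (p * q - 1) ≤ 2 * (p + 1) / (p * q - 1) := by
      gcongr
    rw [max_eq_left h1, min_eq_right h1] at hE
    have hpq' : 1 < q * p := by rwa [mul_comm]
    have e : q * p = p * q := mul_comm q p
    refine (thin_ordered hn hq hp hpq' hle ?_ ?_).swap
    · rw [e]
      exact hα
    · rw [e]
      have e2 : 2 * (q + 1) / (p * q - 1) + 2 * (p + 1) / (p * q - 1) - ((n : ℝ) - 2) =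
          2 * (p + 1) / (p * q - 1) + 2 * (q + 1) / (p * q - 1) - ((n : ℝ) - 2) := by ring
      rw [e2]
      exact hE

end Vale.Agent.Lib.P100
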