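import Vale.Agent.Lib.P100.ThinB
import Vale.Agent.Lib.P100.PsiCert

/-!
The main inequality of the thin region.
-/

namespace Vale.Agent.Lib.P100

/-- The numerator `w`. -/
def thW (N x : ℝ) : ℝ := (N ^ 2 + N + 2) * (N - 1) - x * N * (N + 1)

/-- The denominator of `z`. -/
def thZd (N x : ℝ) : ℝ := (4 * N * (N - 2) + 2 * N) * x * N * (N - 1) + 3 * thW N x

/-- The denominator polynomial scaled by `thZd`. -/
def thBs (N x : ℝ) : ℝ := thZd N x * thW N x + x * N * (N - 1) * (2 * thW N x)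

/-- The numerator polynomial scaled by `thZd`. -/
def thAs (N x : ℝ) : ℝ :=
  x * N * (N - 1) * (N - 1) * ((N + 1) * thZd N x - 2 * (2 * thW N x))
    + (thZd N x - 2 * thW N x) * ((N ^ 2 + N + 2) * (N - 1) - 2 * x * N)

lemma th_cert (N x : ℝ) :
    (N * (N - 2)) ^ 7 * (psiH N x * thBs N x ^ 2 - thAs N x ^ 2 * ((N + 1) ^ 3 * N * (N - 1))) =
      thB0 N * (N * (1 - x) - 1) ^ 7 + thB1 N * (N * x - 1) * (N * (1 - x) - 1) ^ 6
        + thB2 N * (N * x - 1) ^ 2 * (N * (1 - x) - 1) ^ 5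
        + thB3 N * (N * x - 1) ^ 3 * (N * (1 - x) - 1) ^ 4
        + thB4 N * (N * x - 1) ^ 4 * (N * (1 - x) - 1) ^ 3
        + thB5 N * (N * x - 1) ^ 5 * (N * (1 - x) - 1) ^ 2
        + thB6 N * (N * x - 1) ^ 6 * (N * (1 - x) - 1) + thB7 N * (N * x - 1) ^ 7 := by
  simp only [psiH, thBs, thAs, thZd, thW, thB0, thB1, thB2, thB3, thB4, thB5, thB6, thB7]
  ring

end Vale.Agent.Lib.P100
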