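import Vale.Agent.Lib.P100.GCert

/-!
The one-parameter family and the near-diagonal region.
-/

namespace Vale.Agent.Lib.P100

lemma Ap_pos {N v : ℝ} (hN : 5 ≤ N) (hv0 : 0 ≤ v) (hv1 : v ≤ 1) : 0 < Ap N v := by
  have h1 : 0 < N + 1 := by linarith
  have h2 : 0 < N - 2 := by linarith
  have h3 : 0 < N - 1 := by linarith
  have h0 : 0 < N := by linarith
  have h5 : 0 < N - 3 := by linarith
  have e : Ap N v = ((N - 2) * (N + 1) ^ 2 - 2 * v * (N + 1) * (N - 2) - 2 * (N - 1) ^ 2 * v ^ 2)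
      / ((N - 2) * (N + 1) ^ 2) := by
    simp only [Ap]
    field_simp
  rw [e]
  apply div_pos _ (by positivity)
  have hv2 : v ^ 2 ≤ 1 := by nlinarith
  have h6 : 2 * v * (N + 1) * (N - 2) ≤ 2 * (N + 1) * (N - 2) := by
    have : 0 ≤ (1 - v) * (2 * (N + 1) * (N - 2)) := mul_nonneg (by linarith) (by positivity)
    nlinarith
  have h7 : 2 * (N - 1) ^ 2 * v ^ 2 ≤ 2 * (N - 1) ^ 2 := by
    have : 0 ≤ (1 - v ^ 2) * (2 * (N - 1) ^ 2) := mul_nonneg (by linarith) (by positivity)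
    nlinarith
  have h8 : (N - 2) * (N + 1) ^ 2 - 2 * (N + 1) * (N - 2) - 2 * (N - 1) ^ 2 =
      (N - 1) * N * (N - 3) := by ring
  have h9 : 0 < (N - 1) * N * (N - 3) := by positivity
  linarith

/-- The definiteness condition of the one-parameter family. -/
lemma G_pos {N x : ℝ} (hN : 5 ≤ N) (h1 : 1 / N ≤ x) (h2 : x ≤ 1 - 1 / N) :
    (1 - (1 - x)) ^ 2 < Ap N (1 - x) *
      (1 - N * (N + 2) * x ^ 2 / (N + 1) ^ 2 * Zf N ((1 - x - 1 / N) / x)) := by
  have h0 : 0 < N := by linarith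
  have hn1 : 0 < N + 1 := by linarith
  have hn2 : 0 < N - 2 := by linarith
  have hn3 : 0 < N - 1 := by linarith
  have hx : 0 < x := lt_of_lt_of_le (by positivity) h1
  have hG := gNum_pos hN h1 h2
  have e : Ap N (1 - x) *
      (1 - N * (N + 2) * x ^ 2 / (N + 1) ^ 2 * Zf N ((1 - x - 1 / N) / x)) - (1 - (1 - x)) ^ 2 =
      gNum x N / (((N - 2) * (N + 1) ^ 2) * ((N + 1) ^ 2 * (N - 2) * (N - 1))) := by
    simp only [Ap, Zf, gNum]
    field_simp
    ring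
  have h3 : 0 < gNum x N / (((N - 2) * (N + 1) ^ 2) * ((N + 1) ^ 2 * (N - 2) * (N - 1))) :=
    div_pos hG (by positivity)
  linarith

/-- The product on the right of the first square condition. -/
noncomputable def Hf (N x : ℝ) : ℝ := psiHr N x / ((N + 1) ^ 3 * N * (N - 1))
  where psiHr (N x : ℝ) : ℝ := (N * (N + 2)) ^ 2 * x * (N - 1 + 2 * x) * (2 * (N - 1) + x * N * (N - 3))

/-- Nonexistence at the corner of the one-parameter family. -/
theorem noSol_x {n : ℕ} (hn : 5 ≤ n) {p q x : ℝ} (hp : 0 < p) (hq : 0 < q) (hpq : 1 < p * q)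
    (hsub : ((n : ℝ) - 2) * (p * q - 1) < 2 * (p + q + 2))
    (hx0 : 1 / (n : ℝ) ≤ x) (hx1 : x ≤ 1 - 1 / (n : ℝ))
    (hQ : ((n : ℝ) - 2) * q = ((n : ℝ) + 1 + 2 / (n : ℝ)) / x + 1 - 2 / ((n : ℝ) - 1))
    (hP : (((n : ℝ) - 2) * p - 1) ^ 2 ≤ Hf n x) : NoSol n p q := by
  have hN : (5 : ℝ) ≤ n := by exact_mod_cast hn
  set N : ℝ := (n : ℝ) with hNd
  have h0 : 0 < N := by linarith
  have hn1 : 0 < N + 1 := by linarith
  have hn2 : 0 < N - 2 := by linarith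
  have hn3 : 0 < N - 1 := by linarith
  have hx : 0 < x := lt_of_lt_of_le (by positivity) hx0
  have hinv : 0 < 1 / N := by positivity
  have hx2 : x < 1 := by linarith
  refine noSol_G (τ := N * (N + 2) * x ^ 2 / (N + 1) ^ 2) (D := (1 - x - 1 / N) / x) (v := 1 - x)
    hn hp hq hpq hsub (by positivity) (div_nonneg (by linarith) hx.le) (by linarith) (by linarith)
    (Ap_pos hN (by linarith) (by linarith)) ?_ ?_ (G_pos hN hx0 hx1)
  · have e : N * (N + 2) * x ^ 2 / (N + 1) ^ 2 *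
        ((N - 2) * q - 1 - 2 * ((1 - x - 1 / N) / x) / (N - 1)) ^ 2 = N * (N + 2) := by
      rw [hQ]
      have e1 : (N + 1 + 2 / N) / x + 1 - 2 / (N - 1) - 1 - 2 * ((1 - x - 1 / N) / x) / (N - 1) =
          (N + 1) / x := by
        field_simp
        ring
      rw [e1]
      field_simp
    exact e.le
  · have e : N * (N + 2) * (N * (N + 2) * x ^ 2 / (N + 1) ^ 2) * (1 - 2 * (1 - x) / (N + 1)) *
        (1 + 2 * ((1 - x - 1 / N) / x) / (N - 1)) = Hf N x := by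
      simp only [Hf, Hf.psiHr]
      field_simp
      ring
    rw [e]
    exact hP

/-- The definiteness condition of the near-diagonal region. -/
lemma T_PD {N : ℝ} (hN : 5 ≤ N) : (1 - 1 / N) ^ 2 < Ap N (1 / N) := by
  have h0 : 0 < N := by linarith
  have hn1 : 0 < N + 1 := by linarith
  have hn2 : 0 < N - 2 := by linarith
  have e : Ap N (1 / N) - (1 - 1 / N) ^ 2 =
      (2 * N ^ 4 - 3 * N ^ 3 - 5 * N ^ 2 + 4 * N + 2 - 2 * (N ^ 2 - 2 * N + 1)
        + (N - 1) * (N - 2) * (N + 1) * 0) * (1 : ℝ) / (N ^ 2 * (N - 2) * (N + 1) ^ 2) +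
      ((2 * N - 1) * (N - 2) * (N + 1) ^ 2 - 2 * N * (N + 1) * (N - 2) - 2 * (N - 1) ^ 2
        - (2 * N ^ 4 - 3 * N ^ 3 - 5 * N ^ 2 + 4 * N + 2 - 2 * (N ^ 2 - 2 * N + 1)))
        / (N ^ 2 * (N - 2) * (N + 1) ^ 2) := by
    simp only [Ap]
    field_simp
    ring
  rw [← sub_pos, e, ← add_div]
  apply div_pos _ (by positivity)
  have h5 : 0 ≤ N - 5 := by linarith
  obtain ⟨a, rfl⟩ : ∃ a, N = a + 5 := ⟨N - 5, by ring⟩
  have ha : 0 ≤ a := by linarith
  ring_nf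
  positivity

/-- Nonexistence in the near-diagonal region. -/
theorem noSol_T {n : ℕ} (hn : 5 ≤ n) {p q : ℝ} (hp : 0 < p) (hq : 0 < q) (hpq : 1 < p * q)
    (hsub : ((n : ℝ) - 2) * (p * q - 1) < 2 * (p + q + 2))
    (hQ : 1 < ((n : ℝ) - 2) * q)
    (hP : (((n : ℝ) - 2) * p - 1) ^ 2 * (((n : ℝ) - 2) * q - 1) ^ 2 ≤
      ((n : ℝ) * ((n : ℝ) + 2)) ^ 2 * (1 - 2 * (1 / (n : ℝ)) / ((n : ℝ) + 1))) : NoSol n p q := by
  have hN : (5 : ℝ) ≤ n := by exact_mod_cast hn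
  set N : ℝ := (n : ℝ) with hNd
  have h0 : 0 < N := by linarith
  have hn1 : 0 < N + 1 := by linarith
  have hn3 : 0 < N - 1 := by linarith
  have hQ1 : 0 < (N - 2) * q - 1 := by linarith
  have hinv : 1 / N ≤ 1 := by
    rw [div_le_one h0]
    linarith
  refine noSol_G (τ := N * (N + 2) / ((N - 2) * q - 1) ^ 2) (D := 0) (v := 1 / N)
    hn hp hq hpq hsub (by positivity) le_rfl (by positivity) hinv
    (Ap_pos hN (by positivity) hinv) ?_ ?_ ?_
  · have e : N * (N + 2) / ((N - 2) * q - 1) ^ 2 * ((N - 2) * q - 1 - 2 * 0 / (N - 1)) ^ 2 =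
        N * (N + 2) := by
      field_simp
      ring
    exact e.le
  · have e : N * (N + 2) * (N * (N + 2) / ((N - 2) * q - 1) ^ 2) * (1 - 2 * (1 / N) / (N + 1)) *
        (1 + 2 * 0 / (N - 1)) =
        (N * (N + 2)) ^ 2 * (1 - 2 * (1 / N) / (N + 1)) / ((N - 2) * q - 1) ^ 2 := by
      field_simp
      ring
    rw [e, le_div_iff₀ (by positivity)]
    exact hP
  · have e : Zf N 0 = 0 := by simp [Zf]
    rw [e, mul_zero, sub_zero, mul_one]
    exact T_PD hN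

end Vale.Agent.Lib.P100
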